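import Crest.Agent.R121.Proj

/-! # R121: polar decomposition, Kaplansky's formula, comparison, halving (task `Polar`) -/

set_option autoImplicit false
open Filter Topology
open scoped InnerProductSpace

namespace Crest.Agent.R121

universe u
variable {H : Type u} [NormedAddCommGroup H] [InnerProductSpace ℂ H] [CompleteSpace H]
variable {M : VonNeumannAlgebra H}

theorem polar_norm_le {A : Type*} [CStarAlgebra A] (x : A) {f : ℝ → ℝ} (hf : Continuous f)
    {c : ℝ} (hc : 0 ≤ c) (h : ∀ t, 0 ≤ t → t * f t ^ 2 ≤ c ^ 2) :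
    ‖x * cfc f (star x * x)‖ ≤ c := by
  have hb : IsSelfAdjoint (star x * x) := IsSelfAdjoint.star_mul_self x
  have e : star (x * cfc f (star x * x)) * (x * cfc f (star x * x)) =
      cfc (fun t => f t * t * f t) (star x * x) := by
    rw [cfc_mul _ _ _, cfc_mul _ _ _, cfc_id' ℝ _, star_mul, IsSelfAdjoint.cfc.star_eq]
    simp only [mul_assoc]
  have h1 : ‖cfc (fun t => f t * t * f t) (star x * x)‖ ≤ c ^ 2 :=
    norm_cfc_le (by positivity) fun t ht => by
      have h0 := spectrum_star_mul_self_nonneg t ht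
      rw [show f t * t * f t = t * f t ^ 2 by ring, Real.norm_of_nonneg (by positivity)]
      exact h t h0
  rw [← e, CStarRing.norm_star_mul_self, ← sq] at h1
  exact (abs_le_of_sq_le_sq' h1 hc).2

theorem polar_aux {A : Type*} [CStarAlgebra A] (x : A) : ∃ h : A, star h = h ∧
    h * h = star x * x ∧ ∀ δ : ℝ, 0 < δ → ∃ g : A, ‖x * g‖ ≤ 1 ∧ ‖x * g * h - x‖ ≤ δ := by
  have hb : IsSelfAdjoint (star x * x) := IsSelfAdjoint.star_mul_self x
  refine ⟨cfc Real.sqrt (star x * x), IsSelfAdjoint.cfc.star_eq, ?_, fun δ hδ => ?_⟩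
  · rw [← cfc_mul _ _ _]
    conv_rhs => rw [← cfc_id' ℝ (star x * x)]
    exact cfc_congr fun t ht => Real.mul_self_sqrt (spectrum_star_mul_self_nonneg t ht)
  have hpos : ∀ t, 0 < √t + δ := fun t => by positivity
  have hg : Continuous fun t => (√t + δ)⁻¹ := by
    refine Continuous.inv₀ (by fun_prop) fun t => (hpos t).ne'
  have key : ∀ t, 0 ≤ t → t * (√t + δ)⁻¹ ^ 2 ≤ 1 := fun t ht => by
    rw [inv_pow, ← div_eq_mul_inv, div_le_one (by positivity)]
    nlinarith [Real.sq_sqrt ht, Real.sqrt_nonneg t]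
  refine ⟨cfc (fun t => (√t + δ)⁻¹) (star x * x), polar_norm_le x hg zero_le_one
    (by simpa using key), ?_⟩
  have e : x * cfc (fun t => (√t + δ)⁻¹) (star x * x) * cfc Real.sqrt (star x * x) - x =
      x * cfc (fun t => (√t + δ)⁻¹ * √t - 1) (star x * x) := by
    rw [cfc_sub _ _ _, cfc_mul _ _ _ hg.continuousOn, cfc_const_one ℝ _, mul_sub, mul_one, mul_assoc]
  rw [e]
  refine polar_norm_le x (by fun_prop) hδ.le fun t ht => ?_
  have : (√t + δ)⁻¹ * √t - 1 = -δ * (√t + δ)⁻¹ := by
    have := (hpos t).ne'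
    field_simp; ring
  rw [this, mul_pow, neg_sq, mul_left_comm]
  exact mul_le_of_le_one_right (by positivity) (key t ht)

/-- Polar decomposition: the final projection of `u` is the left support of `x`, the initial
projection is the right support, and `x x* = u (x* x) u*`.
Proof: `h = sqrt (x* x)` (cfc in the C*-algebra `Al M`; for order use
`letI := CStarAlgebra.spectralOrder (Al M)`, `CStarAlgebra.spectralOrderedRing`, or avoid order with
`cfc Real.sqrt`). `u_n = x * cfc (fun t => 1/(sqrt t + 1/n)) (x* x)` has norm `≤ 1` (C*-identity,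
`norm_cfc_le`), `u_n h → x` in norm, `u'` = weak ultralimit (`exists_WL` along `hyperfilter ℕ`),
so `u' h = x` and `y x = 0 → y u' = 0`. Let `r` be the left support of `h` (`exists_range {h}`),
`u = u' r`; still `u h = x`. `h (u* u - r) h = x* x - h h = 0` gives `r (u* u - r) r = 0` (use the
support property twice, with an adjoint in between), so `u* u = r`, `PI.of_init`. Then
`x r = u h r = x`, `u u* x = u r h = x`, `x x* = u h h u*`, and
`x y = 0 → h y = 0` (`‖h y‖² = ‖y* x* x y‖`) `→ y* r = 0 → r y = 0 → u y = 0`. -/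
theorem exists_polar (x : Al M) : ∃ u : Al M, PI u ∧ u * star u * x = x ∧ x * (star u * u) = x ∧
    (∀ y : Al M, y * x = 0 → y * u = 0) ∧ (∀ y : Al M, x * y = 0 → u * y = 0) ∧
    x * star x = u * (star x * x) * star u := by
  obtain ⟨h, hs, hh, hg⟩ := polar_aux x
  choose g hg1 hg2 using fun n : ℕ => hg (1 / ((n : ℝ) + 1)) (by positivity)
  obtain ⟨u', hu'⟩ := exists_WL (hyperfilter ℕ) (fun n => x * g n) 1 (.of_forall hg1)
  have h1 : u' * h = x := by
    refine (hu'.mul_right h).unique (WL.of_tendsto ?_)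
    refine Tendsto.mono_left ?_ Nat.hyperfilter_le_atTop
    rw [tendsto_iff_norm_sub_tendsto_zero]
    exact squeeze_zero (fun _ => norm_nonneg _) hg2 tendsto_one_div_add_atTop_nhds_zero_nat
  have h2 : ∀ y : Al M, y * x = 0 → y * u' = 0 := fun y hy =>
    (hu'.mul_left y).eq_of_eventually (.of_forall fun n => by rw [← mul_assoc, hy, zero_mul])
  obtain ⟨r, hr, hrh, hry⟩ := exists_range {h}
  replace hrh : r * h = h := hrh h rfl
  replace hry : ∀ y : Al M, y * h = 0 → y * r = 0 := fun y hy => hry y (by rintro _ rfl; exact hy)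
  have hhr : h * r = h := by
    have := congrArg star hrh
    rwa [star_mul, hs, proj_star hr] at this
  set u := u' * r with hu
  have h3 : u * h = x := by rw [hu, mul_assoc, hrh, h1]
  have h3' : h * star u = star x := by rw [← h3, star_mul u, hs]
  have hur : u * r = u := by rw [hu, mul_assoc, proj_mul_self hr]
  have hur' : r * star u = star u := by
    have := congrArg star hur
    rwa [star_mul, proj_star hr] at this
  have h4 : star u * u = r := by
    have e1 : h * (star u * u - r) * h = 0 := by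
      rw [mul_sub, sub_mul, ← mul_assoc, h3', mul_assoc, h3, hhr, hh, sub_self]
    have e2 := congrArg star (hry _ e1)
    rw [star_mul, star_mul, proj_star hr, hs, star_sub, star_mul, star_star, proj_star hr,
      star_zero, ← mul_assoc] at e2
    have e3 := hry _ e2
    rw [mul_sub, sub_mul, ← mul_assoc, hur', mul_assoc, hur, proj_mul_self hr,
      proj_mul_self hr] at e3
    exact sub_eq_zero.mp e3
  have hpi : PI u := PI.of_init (h4 ▸ hr)
  refine ⟨u, hpi, ?_, ?_, fun y hy => ?_, fun y hy => ?_, ?_⟩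
  · rw [← h3, ← mul_assoc, hpi]
  · rw [h4, ← h3, mul_assoc, hhr]
  · rw [hu, ← mul_assoc, h2 y hy, zero_mul]
  · have e1 : star (h * y) * (h * y) = 0 := by
      rw [star_mul, hs, mul_assoc, ← mul_assoc h, hh, mul_assoc, hy, mul_zero, mul_zero]
    have e2 : h * y = 0 := (CStarRing.star_mul_self_eq_zero_iff _).mp e1
    have e3 := hry (star y) (by rw [← hs, ← star_mul, e2, star_zero])
    have e4 := congrArg star e3
    rw [star_mul, star_star, proj_star hr, star_zero] at e4
    rw [← hur, mul_assoc, e4, mul_zero]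
  · rw [← hh, ← mul_assoc, h3, mul_assoc, h3']

/-- If `q M p ≠ 0` there is a nonzero partial isometry in `q M p` (polar part of `q a p`;
use `y = 1 - q`, `y = 1 - p`). -/
theorem exists_PI_of_ne {p q a : Al M} (hp : IsStarProjection p) (hq : IsStarProjection q)
    (h : q * a * p ≠ 0) : ∃ u : Al M, PI u ∧ u ≠ 0 ∧ q * u = u ∧ u * p = u := by
  obtain ⟨u, hu, h1, -, h3, h4, -⟩ := exists_polar (q * a * p)
  refine ⟨u, hu, fun h0 => h (by rw [← h1, h0, zero_mul, zero_mul]), ?_, ?_⟩
  · have := h3 (1 - q) (by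
      rw [sub_mul, one_mul, mul_assoc q a, proj_mul_self_left hq, sub_self])
    rw [sub_mul, one_mul, sub_eq_zero] at this
    exact this.symm
  · have := h4 (1 - p) (by rw [mul_sub, mul_one, mul_assoc _ p, proj_mul_self hp, sub_self])
    rw [mul_sub, mul_one, sub_eq_zero] at this
    exact this.symm

/-- Kaplansky's formula `p ∨ q - p ≾ q`: `u` = polar part of `(1 - p) q`. -/
theorem exists_sup_proj {p q : Al M} (hp : IsStarProjection p) (hq : IsStarProjection q) :
    ∃ u : Al M, PI u ∧ p * u = 0 ∧ u * q = u ∧ (p + u * star u) * q = q := by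
  obtain ⟨u, hu, h1, -, h3, h4, -⟩ := exists_polar ((1 - p) * q)
  have hpu : p * u = 0 := h3 p (by rw [← mul_assoc, mul_sub, mul_one, proj_mul_self hp, sub_self,
    zero_mul])
  refine ⟨u, hu, hpu, ?_, ?_⟩
  · have := h4 (1 - q) (by rw [mul_sub, mul_one, mul_assoc _ q, proj_mul_self hq, sub_self])
    rw [mul_sub, mul_one, sub_eq_zero] at this
    exact this.symm
  · have e : star u * p = 0 := by rw [← proj_star hp, ← star_mul, hpu, star_zero]
    rw [sub_mul, one_mul, mul_sub, mul_assoc u (star u) (p * q), ← mul_assoc (star u), e, zero_mul,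
      mul_zero, sub_zero] at h1
    rw [add_mul, h1, add_sub_cancel]

/-- For a quasi-trace, finitely many small projections are dominated by a small projection.
Proof: induction on `s` with `exists_sup_proj`: `r' = r + u u*` is a projection,
`‖J r'‖ ≤ ‖J r‖ + ‖J (u u*)‖`, `‖J (u u*)‖ ≤ ‖J u*‖ ≤ C ‖J u‖ = C ‖J (u q)‖ ≤ C ‖J q‖`. -/
theorem exists_sup_small {κ ι : Type*} [Fintype κ] (ξ : κ → H) {C : ℝ} (hj : QT (J (M := M) ξ) C)
    (q : ι → Al M) (hq : ∀ i, IsStarProjection (q i)) (s : Finset ι) :
    ∃ r : Al M, IsStarProjection r ∧ (∀ i ∈ s, r * q i = q i) ∧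
      ‖J ξ r‖ ≤ C * ∑ i ∈ s, ‖J ξ (q i)‖ := by
  classical
  induction s using Finset.induction_on with
  | empty => exact ⟨0, .zero _, by simp, by simp⟩
  | insert i s hi ih =>
    obtain ⟨r, hr, h1, h2⟩ := ih
    obtain ⟨u, hu, hu1, hu2, hu3⟩ := exists_sup_proj hr (hq i)
    have ho : r * (u * star u) = 0 := by rw [← mul_assoc, hu1, zero_mul]
    refine ⟨r + u * star u, hr.add hu.fin ho, fun k hk => ?_, ?_⟩
    · rcases Finset.mem_insert.mp hk with rfl | hk
      · exact hu3
      · rw [← h1 k hk, ← mul_assoc, add_mul, proj_mul_self hr, proj_orth_comm hr hu.fin ho, add_zero]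
    · rw [Finset.sum_insert hi, map_add, mul_add, add_comm (C * _)]
      refine (norm_add_le _ _).trans (add_le_add h2 ?_)
      calc ‖J ξ (u * star u)‖ ≤ ‖u‖ * ‖J ξ (star u)‖ := hj.mul_le _ _
        _ ≤ ‖J ξ (star u)‖ := mul_le_of_le_one_left (norm_nonneg _) hu.norm_le
        _ ≤ C * ‖J ξ (u * q i)‖ := by rw [hu2]; exact hj.star_le u
        _ ≤ C * ‖J ξ (q i)‖ := mul_le_mul_of_nonneg_left
          ((hj.mul_le _ _).trans (mul_le_of_le_one_left (norm_nonneg _) hu.norm_le)) hj.nonneg

/-- Comparison theorem: `c e ≾ c r` and `(1 - c) r ≾ (1 - c) e`.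
Proof: maximal family (`exists_maximal_pairwise`) of nonzero partial isometries `u ∈ r M e` with
orthogonal initial and final projections, `w` its sum (`exists_sumPI`). `e' = e - w* w`,
`r' = r - w w*` are projections with `r' M e' = 0` (else `exists_PI_of_ne` contradicts maximality).
`c` = central support of `r'`: then `e' a r' = 0` for all `a` (adjoint), so `e' c = 0`, and
`(1 - c) r' = 0`. -/
theorem compare {e r : Al M} (he : IsStarProjection e) (hr : IsStarProjection r) :
    ∃ c w : Al M, CP c ∧ PI w ∧ r * w = w ∧ w * e = w ∧ c * (star w * w) = c * e ∧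
      (1 - c) * (w * star w) = (1 - c) * r := by
  obtain ⟨S, hS, hSp, hmax⟩ := exists_maximal_pairwise
    (fun u : Al M => PI u ∧ u ≠ 0 ∧ r * u = u ∧ u * e = u)
    (fun u v => star u * v = 0 ∧ u * star v = 0) fun u v h =>
      ⟨by simpa using congrArg star h.1, by simpa using congrArg star h.2⟩
  have o1 : Pairwise fun i k : S => star (i : Al M) * k = 0 := fun i k h =>
    (hSp i.2 k.2 (Subtype.coe_ne_coe.mpr h)).1
  have o2 : Pairwise fun i k : S => (i : Al M) * star (k : Al M) = 0 := fun i k h =>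
    (hSp i.2 k.2 (Subtype.coe_ne_coe.mpr h)).2
  obtain ⟨w, hw, hs, hs1, hs2⟩ := exists_sumPI (fun i : S => (i : Al M)) (fun i => (hS i i.2).1)
    o1 o2
  have hrw : r * w = w := hs.mul_eq fun i => (hS i i.2).2.2.1
  have hwe : w * e = w := hs.eq_mul fun i => (hS i i.2).2.2.2
  have hew : e * star w = star w := by rw [← proj_star he, ← star_mul, hwe]
  have he' : IsStarProjection (e - star w * w) := proj_sub he hw.init (by rw [← mul_assoc, hew])
  have hr' : IsStarProjection (r - w * star w) := proj_sub hr hw.fin (by rw [← mul_assoc, hrw])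
  have a1 : ∀ i : S, (i : Al M) * (e - star w * w) = 0 := fun i => by
    have := (hs1.mul_left i).eq_single i fun k hk => by rw [← mul_assoc, o2 hk.symm, zero_mul]
    rw [mul_sub, this, (hS i i.2).1.mul_init, (hS i i.2).2.2.2, sub_self]
  have a2 : ∀ i : S, star (i : Al M) * (r - w * star w) = 0 := fun i => by
    have := (hs2.mul_left (star (i : Al M))).eq_single i fun k hk => by
      rw [← mul_assoc, o1 hk.symm, zero_mul]
    have h1 : star (i : Al M) * r = star (i : Al M) := by
      rw [← proj_star hr, ← star_mul, (hS i i.2).2.2.1]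
    have h2 := (hS i i.2).1.star'.mul_init
    rw [star_star] at h2
    rw [mul_sub, this, h1, h2, sub_self]
  have hz : ∀ a : Al M, (r - w * star w) * a * (e - star w * w) = 0 := by
    intro a
    by_contra h0
    obtain ⟨u, hu, hu0, h1, h2⟩ := exists_PI_of_ne he' hr' h0
    have b1 : ∀ y ∈ S, star u * y = 0 ∧ u * star y = 0 := fun y hy => by
      constructor
      · have : star y * u = 0 := by rw [← h1, ← mul_assoc, a2 ⟨y, hy⟩, zero_mul]
        simpa using congrArg star this
      · have := congrArg star (a1 ⟨y, hy⟩)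
        rw [star_mul, proj_star he', star_zero] at this
        rw [← h2, mul_assoc, this, mul_zero]
    have hr1 : r * u = u := by
      rw [← h1, ← mul_assoc, mul_sub, proj_mul_self hr, ← mul_assoc r w, hrw]
    have he1 : u * e = u := by
      rw [← h2, mul_assoc, sub_mul, proj_mul_self he, mul_assoc, hwe]
    exact hu0 (hu.eq_zero_of_init (b1 u (hmax u ⟨hu, hu0, hr1, he1⟩ b1)).1)
  obtain ⟨c, hc, hc1, hc2⟩ := exists_csupp (r - w * star w)
  refine ⟨c, w, hc, hw, hrw, hwe, ?_, ?_⟩
  · have := hc2 (e - star w * w) fun a => by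
      have := congrArg star (hz (star a))
      rwa [star_mul, star_mul, star_star, proj_star he', proj_star hr', star_zero,
        ← mul_assoc] at this
    rw [← hc.2, mul_sub, sub_eq_zero] at this
    exact this.symm
  · have : (1 - c) * (r - w * star w) = 0 := by rw [sub_mul, one_mul, hc1, sub_self]
    rw [mul_sub, sub_eq_zero] at this
    exact this.symm

end Crest.Agent.R121
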