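import Crest.Agent.R121.Basic

/-! # R121: small algebraic facts about partial isometries, central projections, matrix units -/

set_option autoImplicit false
open Filter Topology
open scoped InnerProductSpace

namespace Crest.Agent.R121

section Alg
variable {A : Type*} [Ring A] [StarRing A] {u p q z e : A}

theorem PI.fin_mul (h : PI u) : u * star u * u = u := h
theorem PI.mul_init (h : PI u) : u * (star u * u) = u := by rw [← mul_assoc]; exact h
theorem PI.star' (h : PI u) : PI (star u) := by
  have := congrArg star h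
  simpa only [PI, star_mul, star_star, mul_assoc] using this
theorem PI.init (h : PI u) : IsStarProjection (star u * u) :=
  ⟨by rw [IsIdempotentElem, mul_assoc, h.mul_init], .star_mul_self u⟩
theorem PI.fin (h : PI u) : IsStarProjection (u * star u) := by simpa using h.star'.init
theorem PI.of_proj (h : IsStarProjection p) : PI p := by
  rw [PI, h.isSelfAdjoint.star_eq, h.isIdempotentElem.eq, h.isIdempotentElem.eq]
theorem PI.zero : PI (0 : A) := by simp [PI]
theorem PI.eq_zero_of_init (h : PI u) (h0 : star u * u = 0) : u = 0 := by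
  rw [← h.mul_init, h0, mul_zero]
theorem PI.eq_zero_of_fin (h : PI u) (h0 : u * star u = 0) : u = 0 := by
  rw [← h.fin_mul, h0, zero_mul]

theorem proj_mul_self (h : IsStarProjection p) : p * p = p := h.isIdempotentElem.eq
theorem proj_star (h : IsStarProjection p) : star p = p := h.isSelfAdjoint.star_eq
theorem proj_mul_self_left (h : IsStarProjection p) (a : A) : p * (p * a) = p * a := by
  rw [← mul_assoc, proj_mul_self h]

/-- `q ≤ p` is symmetric in the order of the product. -/
theorem proj_le_comm (hp : IsStarProjection p) (hq : IsStarProjection q) (h : p * q = q) :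
    q * p = q := by
  simpa only [star_mul, proj_star hp, proj_star hq] using congrArg star h

theorem proj_orth_comm (hp : IsStarProjection p) (hq : IsStarProjection q) (h : p * q = 0) :
    q * p = 0 := by
  simpa only [star_mul, proj_star hp, proj_star hq, star_zero] using congrArg star h

theorem proj_sub (hp : IsStarProjection p) (hq : IsStarProjection q) (h : p * q = q) :
    IsStarProjection (p - q) := hq.sub_of_mul_eq_right hp h

/-- Cutting a partial isometry by a subprojection of its initial projection. -/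
theorem PI.mul_proj (_h : PI u) (hq : IsStarProjection q) (hle : star u * u * q = q) :
    PI (u * q) := by
  rw [PI, star_mul, proj_star hq]
  calc u * q * (q * star u) * (u * q) = u * q * q * (star u * u * q) := by simp only [mul_assoc]
    _ = u * q := by rw [hle, mul_assoc, mul_assoc, proj_mul_self hq, proj_mul_self hq]

theorem CP.one : CP (1 : A) := ⟨.one _, fun a => by simp⟩
theorem CP.zero : CP (0 : A) := ⟨.zero _, fun a => by simp⟩
theorem CP.one_sub (h : CP z) : CP (1 - z) :=
  ⟨h.1.one_sub, fun a => by rw [sub_mul, mul_sub, h.2, one_mul, mul_one]⟩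
theorem CP.mul_proj (h : CP z) (hp : IsStarProjection p) : IsStarProjection (z * p) :=
  h.1.mul hp (h.2 p)
theorem CP.mul {z' : A} (h : CP z) (h' : CP z') : CP (z * z') :=
  ⟨h.mul_proj h'.1, fun a => by rw [mul_assoc, h'.2, ← mul_assoc, h.2, mul_assoc]⟩
theorem CP.star_eq (h : CP z) : star z = z := proj_star h.1
theorem CP.mul_self (h : CP z) : z * z = z := proj_mul_self h.1
theorem CP.star_mul_mul (h : CP z) (a b : A) : star (z * a) * (z * b) = z * (star a * b) := by
  rw [star_mul, h.star_eq, mul_assoc, ← mul_assoc z z, h.mul_self, ← mul_assoc, ← h.2, mul_assoc]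
theorem CP.mul_mul_star (h : CP z) (a b : A) : (z * a) * star (z * b) = z * (a * star b) := by
  rw [star_mul, h.star_eq, ← h.2, mul_assoc, ← mul_assoc a, ← h.2, mul_assoc, ← mul_assoc z z,
    h.mul_self]
theorem CP.mul_PI (h : CP z) (hu : PI u) : PI (z * u) := by
  rw [PI, h.mul_mul_star, mul_assoc, ← mul_assoc (u * star u), ← h.2, mul_assoc, ← mul_assoc z z,
    h.mul_self, hu.fin_mul]

section MU
variable {ι : Type*} [Fintype ι] [DecidableEq ι] {w : ι → A}

theorem MU.orth_self (h : MU w e z) (i : ι) : star (w i) * w i = e := by simpa using h.orth i i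
theorem MU.orth_ne (h : MU w e z) {i k : ι} (hik : i ≠ k) : star (w i) * w k = 0 := by
  simpa [hik] using h.orth i k
theorem MU.pi (h : MU w e z) (i : ι) : PI (w i) := by
  rw [PI, mul_assoc, h.orth_self, h.mul_e]
theorem MU.e_mul_star (h : MU w e z) (i : ι) : e * star (w i) = star (w i) := by
  simpa only [star_mul, proj_star h.proj] using congrArg star (h.mul_e i)
/-- `e_{ik} e_{lm} = δ_{kl} e_{im}`. -/
theorem MU.mul (h : MU w e z) (i k l m : ι) :
    w i * star (w k) * (w l * star (w m)) = if k = l then w i * star (w m) else 0 := by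
  rw [mul_assoc, ← mul_assoc (star (w k)), h.orth]
  split_ifs
  · rw [h.e_mul_star]
  · simp
theorem MU.z_mul (h : MU w e z) (i : ι) : z * w i = w i := by
  rw [← h.sum, Finset.sum_mul, Finset.sum_eq_single i]
  · exact (h.pi i).fin_mul
  · intro k _ hk; rw [mul_assoc, h.orth_ne hk, mul_zero]
  · simp

theorem MU.reindex {κ : Type*} [Fintype κ] [DecidableEq κ] (h : MU w e z) (σ : κ ≃ ι) :
    MU (fun k => w (σ k)) e z where
  proj := h.proj
  mul_e _ := h.mul_e _
  orth i k := by rw [h.orth]; simp
  sum := by rw [← h.sum]; exact Fintype.sum_equiv σ _ _ fun _ => rfl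

theorem MU.exists_zmod [Nonempty ι] (h : MU w e z) :
    ∃ (_ : NeZero (Fintype.card ι)) (w' : ZMod (Fintype.card ι) → A), MU w' e z := by
  have : NeZero (Fintype.card ι) := ⟨Fintype.card_ne_zero⟩
  exact ⟨this, _, h.reindex (Fintype.equivOfCardEq (α := ZMod (Fintype.card ι)) (by simp))⟩

theorem MU.map {B F : Type*} [Ring B] [StarRing B] [FunLike F A B] [NonUnitalRingHomClass F A B]
    [StarHomClass F A B] (h : MU w e z) (π : F) : MU (fun i => π (w i)) (π e) (π z) where
  proj := h.proj.map π
  mul_e i := by rw [← map_mul, h.mul_e]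
  orth i k := by rw [← map_star, ← map_mul, h.orth]; split_ifs <;> simp
  sum := by rw [← h.sum, map_sum]; simp only [map_mul, map_star]

theorem MU.cut (h : MU w e z) {c : A} (hc : CP c) : MU (fun i => c * w i) (c * e) (c * z) where
  proj := hc.mul_proj h.proj
  mul_e i := by
    rw [mul_assoc, ← mul_assoc (w i), ← hc.2, mul_assoc, h.mul_e, ← mul_assoc, hc.mul_self]
  orth i k := by rw [hc.star_mul_mul, h.orth]; split_ifs <;> simp
  sum := by rw [← h.sum, Finset.mul_sum]; simp only [hc.mul_mul_star]

end MU
end Alg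

section CStar
variable {A : Type*} [CStarAlgebra A] {u p : A}

theorem PI.of_init (h : IsStarProjection (star u * u)) : PI u := by
  have h1 : star (u * star u * u - u) * (u * star u * u - u) = 0 := by
    have e : star (u * star u * u - u) * (u * star u * u - u) =
        (star u * u) * (star u * u) * (star u * u) - (star u * u) * (star u * u)
          - (star u * u) * (star u * u) + star u * u := by
      simp only [star_sub, star_mul, star_star]; noncomm_ring
    rw [e, proj_mul_self h, proj_mul_self h]; abel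
  exact sub_eq_zero.1 (CStarRing.star_mul_self_eq_zero_iff _ |>.1 h1)

theorem PI.of_fin (h : IsStarProjection (u * star u)) : PI u := by
  simpa using (PI.of_init (u := star u) (by simpa using h)).star'

theorem proj_norm_le (h : IsStarProjection p) : ‖p‖ ≤ 1 := by
  have h1 : ‖p‖ * ‖p‖ = ‖p‖ := by
    rw [← CStarRing.norm_star_mul_self, proj_star h, proj_mul_self h]
  nlinarith [norm_nonneg p]

theorem PI.norm_le (h : PI u) : ‖u‖ ≤ 1 := by
  have h1 := proj_norm_le h.init
  rw [CStarRing.norm_star_mul_self] at h1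
  nlinarith [norm_nonneg u]

theorem norm_one_le' : ‖(1 : A)‖ ≤ 1 := proj_norm_le (.one _)

theorem unitary_norm_le (h : u ∈ unitary A) : ‖u‖ ≤ 1 :=
  PI.norm_le (by rw [PI, Unitary.mul_star_self_of_mem h, one_mul])

/-- `2p - 1` is a (self-adjoint) unitary. -/
theorem proj_symm_mem (h : IsStarProjection p) : p + p - 1 ∈ unitary A := by
  have e : (p + p - 1) * (p + p - 1) = 1 := by
    have : (p + p - 1) * (p + p - 1) = p * p + p * p + p * p + p * p - p - p - p - p + 1 := by
      noncomm_ring
    rw [this, proj_mul_self h]; abel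
  have s : star (p + p - 1) = p + p - 1 := by simp [proj_star h]
  exact ⟨by rw [s, e], by rw [s, e]⟩

section QT
variable {E : Type*} [NormedAddCommGroup E] [InnerProductSpace ℂ E] {j : A →ₗ[ℂ] E} {C : ℝ}

theorem QT.nonneg (h : QT j C) : 0 ≤ C := zero_le_one.trans h.one_le

theorem QT.adj' (h : QT j C) (x a b : A) : ⟪j a, j (x * b)⟫_ℂ = ⟪j (star x * a), j b⟫_ℂ := by
  rw [h.adj, star_star]

theorem QT.le (h : QT j C) (a : A) : ‖j a‖ ≤ ‖a‖ * ‖j 1‖ := by simpa using h.mul_le a 1

/-- Right multiplication is bounded for a quasi-trace. -/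
theorem QT.mul_le' (h : QT j C) (a b : A) : ‖j (a * b)‖ ≤ C ^ 2 * ‖b‖ * ‖j a‖ := by
  have h0 := h.nonneg
  calc ‖j (a * b)‖ = ‖j (star (star b * star a))‖ := by simp
    _ ≤ C * ‖j (star b * star a)‖ := h.star_le _
    _ ≤ C * (‖star b‖ * ‖j (star a)‖) := by gcongr; exact h.mul_le _ _
    _ ≤ C * (‖star b‖ * (C * ‖j a‖)) := by gcongr; exact h.star_le _
    _ = _ := by rw [norm_star]; ring

theorem QT.inner_unitary (h : QT j C) (hu : u ∈ unitary A) (a b : A) :
    ⟪j (u * a), j (u * b)⟫_ℂ = ⟪j a, j b⟫_ℂ := by
  rw [h.adj, ← mul_assoc, Unitary.star_mul_self_of_mem hu, one_mul]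

theorem QT.norm_unitary (h : QT j C) (hu : u ∈ unitary A) (a : A) : ‖j (u * a)‖ = ‖j a‖ := by
  have := h.inner_unitary hu a a
  rw [inner_self_eq_norm_sq_to_K, inner_self_eq_norm_sq_to_K] at this
  exact (pow_left_inj₀ (norm_nonneg _) (norm_nonneg _) two_ne_zero).1 (by exact_mod_cast this)

theorem QT.norm_sq (h : QT j C) (a : A) : ‖j a‖ ^ 2 = (⟪j 1, j (star a * a)⟫_ℂ).re := by
  rw [h.adj', star_star, mul_one, inner_self_eq_norm_sq_to_K]; norm_cast

/-- Pythagoras for a resolution of the identity. -/
theorem QT.sum_sq {ι : Type*} [Fintype ι] [DecidableEq ι] (h : QT j C) {w : ι → A} {e : A}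
    (hw : MU w e 1) (a : A) : ∑ i, ‖j (w i * star (w i) * a)‖ ^ 2 = ‖j a‖ ^ 2 := by
  have : ∀ i, (‖j (w i * star (w i) * a)‖ ^ 2 : ℝ) = (⟪j a, j (w i * star (w i) * a)⟫_ℂ).re := by
    intro i
    have hp := (hw.pi i).fin
    conv_rhs => rw [← proj_mul_self hp, mul_assoc, h.adj', proj_star hp]
    rw [inner_self_eq_norm_sq_to_K]; norm_cast
  simp only [this]
  rw [← Complex.re_sum, ← inner_sum, ← map_sum, ← Finset.sum_mul, hw.sum, one_mul,
    inner_self_eq_norm_sq_to_K]
  norm_cast

end QT
end CStar

end Crest.Agent.R121
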