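import Crest.Agent.R121.Av

/-! # R121: clock-and-shift elements and the Fourier matrix (part of task `UAvg`) -/

set_option autoImplicit false

namespace Crest.Agent.R121

section
variable {A : Type*} [Ring A] [StarRing A] [Algebra ℂ A] [StarModule ℂ A] {n : ℕ} [NeZero n]

/-- Clock-and-shift element `∑_p ζ^{κ p} w_{p+s} w_p*`. -/
noncomputable def clk (w : ZMod n → A) (g : ZMod n × ZMod n) : A :=
  ∑ p, (ZMod.stdAddChar (g.1 * p) : ℂ) • (w (p + g.2) * star (w p))

theorem star_clk (w : ZMod n → A) (g : ZMod n × ZMod n) :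
    star (clk w g) = ∑ p, (ZMod.stdAddChar (-(g.1 * p)) : ℂ) • (w p * star (w (p + g.2))) := by
  rw [clk, star_sum]
  refine Finset.sum_congr rfl fun p _ => ?_
  rw [star_smul, star_mul, star_star, AddChar.map_neg_eq_conj]
  rfl

/-- Character orthogonality. -/
theorem clk_sum_char (b : ZMod n) :
    ∑ κ : ZMod n, (ZMod.stdAddChar (κ * b) : ℂ) = if b = 0 then (n : ℂ) else 0 := by
  rw [AddChar.sum_mulShift b (ZMod.isPrimitive_stdAddChar n), ZMod.card]
  split_ifs <;> simp

/-- Expand; `|ζ| = 1` (`AddChar.map_neg_eq_conj`, `AddChar.map_add_eq_mul`, or `Circle`). -/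
theorem star_clk_mul {w : ZMod n → A} {e z : A} (h : MU w e z) (g : ZMod n × ZMod n) :
    star (clk w g) * clk w g = z := by
  rw [star_clk, clk, Finset.sum_mul_sum, ← h.sum]
  refine Finset.sum_congr rfl fun p _ => ?_
  rw [Finset.sum_eq_single p]
  · rw [smul_mul_smul_comm, h.mul, if_pos rfl, ← AddChar.map_add_eq_mul, neg_add_cancel,
      AddChar.map_zero_eq_one, one_smul]
  · intro q _ hq
    rw [smul_mul_smul_comm, h.mul, if_neg (fun e => hq (add_right_cancel e).symm), smul_zero]
  · simp

theorem clk_mul_star {w : ZMod n → A} {e z : A} (h : MU w e z) (g : ZMod n × ZMod n) :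
    clk w g * star (clk w g) = z := by
  rw [star_clk, clk, Finset.sum_mul_sum, ← h.sum,
    ← Equiv.sum_comp (Equiv.addRight g.2) fun p => w p * star (w p)]
  refine Finset.sum_congr rfl fun p _ => ?_
  rw [Finset.sum_eq_single p]
  · rw [smul_mul_smul_comm, h.mul, if_pos rfl, ← AddChar.map_add_eq_mul, add_neg_cancel,
      AddChar.map_zero_eq_one, one_smul]
    rfl
  · intro q _ hq
    rw [smul_mul_smul_comm, h.mul, if_neg (fun e => hq e.symm), smul_zero]
  · simp

/-- `E g* ⊗ g = (1/n) ∑_{p,q} e_{pq} ⊗ e_{qp}`. Proof: expand by bilinearity, character orthogonality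
`∑_κ ζ^{κ (p' - p)} = n δ` (`AddChar.sum_mulShift`, `ZMod.isPrimitive_stdAddChar`), and reindex
`q = p + s` (`Equiv.addLeft`). -/
theorem clk_avg {V : Type*} [AddCommGroup V] [Module ℂ V] (w : ZMod n → A) (Bl : A → A → V)
    (h1 : ∀ y, IsLinearMap ℂ fun x => Bl x y) (h2 : ∀ x, IsLinearMap ℂ (Bl x)) :
    avg (fun g => Bl (star (clk w g)) (clk w g)) =
      avg fun q => ∑ p, Bl (w p * star (w q)) (w q * star (w p)) := by
  have hn : (n : ℂ) ≠ 0 := Nat.cast_ne_zero.2 (NeZero.ne n)
  let B : A →ₗ[ℂ] A →ₗ[ℂ] V := LinearMap.mk₂ ℂ Bl (fun x x' y => (h1 y).map_add x x')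
    (fun c x y => (h1 y).map_smul c x) (fun x y y' => (h2 x).map_add y y')
    (fun c x y => (h2 x).map_smul c y)
  have hB : ∀ x y, Bl x y = B x y := fun _ _ => rfl
  have e1 : ∀ g : ZMod n × ZMod n, Bl (star (clk w g)) (clk w g) =
      ∑ p, ∑ p', (ZMod.stdAddChar (g.1 * (p' - p)) : ℂ) •
        Bl (w p * star (w (p + g.2))) (w (p' + g.2) * star (w p')) := by
    intro g
    rw [hB, star_clk, clk, map_sum B, LinearMap.sum_apply]
    refine Finset.sum_congr rfl fun p _ => ?_
    rw [map_sum]
    refine Finset.sum_congr rfl fun p' _ => ?_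
    rw [map_smul, map_smul, LinearMap.smul_apply, smul_smul, ← AddChar.map_add_eq_mul, hB]
    congr 2
    ring
  have e2 : ∀ s : ZMod n, (avg fun κ : ZMod n => Bl (star (clk w (κ, s))) (clk w (κ, s))) =
      ∑ p, Bl (w p * star (w (p + s))) (w (p + s) * star (w p)) := by
    intro s
    simp only [e1]
    rw [avg_sum]
    refine Finset.sum_congr rfl fun p _ => ?_
    rw [avg_sum, Finset.sum_eq_single p]
    · simp only [sub_self, mul_zero, AddChar.map_zero_eq_one, one_smul]
      exact avg_const _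
    · intro q _ hq
      rw [avg, ← Finset.sum_smul, clk_sum_char, if_neg (sub_ne_zero.2 hq), zero_smul, smul_zero]
    · simp
  rw [avg_prod, avg_comm]
  simp only [e2]
  rw [avg, avg, Finset.sum_comm]
  congr 1
  rw [Finset.sum_comm (f := fun q p => Bl (w p * star (w q)) (w q * star (w p)))]
  refine Finset.sum_congr rfl fun p _ => ?_
  exact Equiv.sum_comp (Equiv.addLeft p) fun q => Bl (w p * star (w q)) (w q * star (w p))

/-- All matrix entries of `x` are scalars of modulus `≤ n^{-1/2}`. -/
def Flat {ι : Type*} [Fintype ι] (w : ι → A) (x : A) : Prop := ∀ i p, ∃ c : ℂ,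
  ‖c‖ ^ 2 ≤ (Fintype.card ι : ℝ)⁻¹ ∧
    w i * star (w i) * x * (w p * star (w p)) = c • (w i * star (w p))

theorem Flat.star' {ι : Type*} [Fintype ι] {w : ι → A} {x : A} (h : Flat w x) :
    Flat w (star x) := by
  intro i p
  obtain ⟨c, hc, he⟩ := h p i
  refine ⟨star c, by simpa using hc, ?_⟩
  have := congrArg star he
  simpa only [star_mul, star_star, star_smul, mul_assoc] using this

/-- The Fourier matrix `F = n^{-1/2} ∑ ζ^{pq} w_p w_q*`. -/
theorem exists_flat {w : ZMod n → A} {e : A} (h : MU w e 1) : ∃ F ∈ unitary A, Flat w F ∧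
    F ∈ Submodule.span ℂ (Set.range fun p : ZMod n × ZMod n => w p.1 * star (w p.2)) := by
  have hn : (0 : ℝ) < n := Nat.cast_pos.2 (Nat.pos_of_ne_zero (NeZero.ne n))
  obtain ⟨r, hr⟩ : ∃ r : ℂ, r = (((Real.sqrt n)⁻¹ : ℝ) : ℂ) := ⟨_, rfl⟩
  have hrr : r * r * n = 1 := by
    rw [hr]
    norm_cast
    rw [← mul_inv, Real.mul_self_sqrt hn.le, inv_mul_cancel₀ hn.ne']
  have hsr : star r = r := by rw [hr]; exact Complex.conj_ofReal _
  let G : (ZMod n → ZMod n → ℂ) → A := fun c => ∑ p, ∑ q, c p q • (w p * star (w q))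
  have Gmul : ∀ c d, G c * G d = G fun p q => ∑ k, c p k * d k q := by
    intro c d
    simp only [G]
    rw [Finset.sum_mul]
    refine Finset.sum_congr rfl fun p _ => ?_
    simp only [Finset.sum_smul]
    rw [Finset.sum_mul]
    refine Eq.trans ?_ Finset.sum_comm
    refine Finset.sum_congr rfl fun k _ => ?_
    rw [Finset.mul_sum, Finset.sum_eq_single k]
    · simp only [Finset.mul_sum, smul_mul_smul_comm, h.mul, if_true]
    · intro l _ hl
      simp [Finset.mul_sum, h.mul, Ne.symm hl]
    · simp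
  have Gstar : ∀ c, star (G c) = G fun p q => star (c q p) := by
    intro c
    simp only [G, star_sum, star_smul, star_mul, star_star]
    exact Finset.sum_comm
  have Gone : G (fun p q => if p = q then 1 else 0) = 1 := by
    rw [← h.sum]
    simp [G]
  let c : ZMod n → ZMod n → ℂ := fun p q => r * ZMod.stdAddChar (p * q)
  have hc : ∀ p q, star (c p q) = r * ZMod.stdAddChar (-(p * q)) := by
    intro p q
    simp only [c, star_mul', hsr, AddChar.map_neg_eq_conj]
    rfl
  have key : ∀ b : ZMod n, ∑ k : ZMod n, r * r * (ZMod.stdAddChar (k * b) : ℂ) =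
      if b = 0 then 1 else 0 := by
    intro b
    rw [← Finset.mul_sum, clk_sum_char]
    split_ifs
    · exact hrr
    · simp
  refine ⟨G c, ⟨?_, ?_⟩, ?_, ?_⟩
  · rw [Gstar, Gmul, ← Gone]
    congr 1
    funext p q
    have := key (q - p)
    simp only [sub_eq_zero, eq_comm (a := q)] at this
    rw [← this]
    refine Finset.sum_congr rfl fun k _ => ?_
    rw [hc]
    simp only [c]
    rw [mul_mul_mul_comm, ← AddChar.map_add_eq_mul]
    congr 2
    ring
  · rw [Gstar, Gmul, ← Gone]
    congr 1
    funext p q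
    have := key (p - q)
    simp only [sub_eq_zero] at this
    rw [← this]
    refine Finset.sum_congr rfl fun k _ => ?_
    rw [hc]
    simp only [c]
    rw [mul_mul_mul_comm, ← AddChar.map_add_eq_mul]
    congr 2
    ring
  · intro i p
    refine ⟨c i p, ?_, ?_⟩
    · simp only [c, norm_mul, AddChar.norm_apply, mul_one, hr, Complex.norm_real, ZMod.card,
        Real.norm_eq_abs, sq_abs]
      rw [inv_pow, Real.sq_sqrt hn.le]
    · simp only [G, Finset.mul_sum, Finset.sum_mul, mul_smul_comm, smul_mul_assoc, h.mul]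
      rw [Finset.sum_eq_single i]
      · rw [Finset.sum_eq_single p]
        · simp [h.mul]
        · intro q _ hq
          simp [h.mul, hq]
        · simp
      · intro k _ hk
        simp [Ne.symm hk]
      · simp
  · refine Submodule.sum_mem _ fun p _ => Submodule.sum_mem _ fun q _ => ?_
    exact Submodule.smul_mem _ _ (Submodule.subset_span ⟨(p, q), rfl⟩)

/-- Averaging `ψ` over a finite family of unitaries. -/
noncomputable def uavg {G : Type*} [Fintype G] (u : G → A) (ψ : A → A) (y : A) : A :=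
  avg fun g => star (u g) * ψ (u g * y)

end

end Crest.Agent.R121
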