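import Crest.Agent.R121.Coch

/-! # R121: the prism (chain homotopy) operators (task `Prism`)

For a finite family of pairs `(a g, b g)` with `b g * a g = 1`, a cocycle `φ` is cohomologous to
`AA φ (x₁, …, x_k) = E b₀ φ (a₀ x₁ b₁, a₁ x₂ b₂, …, a_{k-1} x_k b_k) a_k`. -/

set_option autoImplicit false
set_option linter.unusedSectionVars false

namespace Crest.Agent.R121

variable {A : Type*} [NormedRing A] [NormedAlgebra ℂ A] {G : Type*} [Fintype G] [Nonempty G]

/-- `Ap x f (y₁, …, y_k) = E f (x y₁ b₁, a₁ y₂ b₂, …, a_{k-1} y_k b_k) a_k`. -/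
noncomputable def Ap (a b : G → A) : A → (List A → A) → List A → A
  | x, f, [] => f [] * x
  | x, f, y :: l => avg fun g => Ap a b (a g) (fun l' => f (x * y * b g :: l')) l

/-- The prism operator. -/
noncomputable def hp (a b : G → A) : A → (List A → A) → List A → A
  | x, f, [] => f [x]
  | x, f, y :: l => f (x :: y :: l) - avg fun g => hp a b (a g) (fun l' => f (x * y * b g :: l')) l

noncomputable def AA (a b : G → A) (φ : List A → A) (l : List A) : A :=
  avg fun g => b g * Ap a b (a g) φ l

noncomputable def hh (a b : G → A) (φ : List A → A) (l : List A) : A :=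
  avg fun g => b g * hp a b (a g) φ l

variable {a b : G → A}

theorem Ap_nil (x : A) (f : List A → A) : Ap a b x f [] = f [] * x := by simp [Ap]
theorem Ap_cons (x y : A) (f : List A → A) (l : List A) : Ap a b x f (y :: l) =
    avg fun g => Ap a b (a g) (fun l' => f (x * y * b g :: l')) l := by simp [Ap]
theorem hp_nil (x : A) (f : List A → A) : hp a b x f [] = f [x] := by simp [hp]
theorem hp_cons (x y : A) (f : List A → A) (l : List A) : hp a b x f (y :: l) =
    f (x :: y :: l) - avg fun g => hp a b (a g) (fun l' => f (x * y * b g :: l')) l := by simp [hp]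

/-! Linearity of `Ap` in the cochain, locality (induction on `l` generalizing `x`, `f`). The same
lemmas are needed for `hp` (with lists of length `l.length + 1`). -/

theorem Ap_congr {x : A} {f f' : List A → A} {l : List A}
    (h : ∀ l' : List A, l'.length = l.length → f l' = f' l') : Ap a b x f l = Ap a b x f' l := by
  induction l generalizing x f f' with
  | nil => rw [Ap_nil, Ap_nil, h [] rfl]
  | cons y l ih =>
    rw [Ap_cons, Ap_cons]
    congr 1
    funext g
    exact ih fun l' hl' => h _ (by simp [hl'])

theorem Ap_add (x : A) (f f' : List A → A) (l : List A) :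
    Ap a b x (fun l => f l + f' l) l = Ap a b x f l + Ap a b x f' l := by
  induction l generalizing x f f' with
  | nil => simp only [Ap_nil, add_mul]
  | cons y l ih =>
    simp only [Ap_cons]
    rw [← avg_add]
    congr 1
    funext g
    exact ih _ _ _

theorem Ap_smul (x : A) (t : ℂ) (f : List A → A) (l : List A) :
    Ap a b x (fun l => t • f l) l = t • Ap a b x f l := by
  induction l generalizing x f with
  | nil => simp only [Ap_nil, smul_mul_assoc]
  | cons y l ih =>
    simp only [Ap_cons]
    rw [← avg_smul]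
    congr 1
    funext g
    exact ih _ _

theorem Ap_mul_left (x c : A) (f : List A → A) (l : List A) :
    Ap a b x (fun l => c * f l) l = c * Ap a b x f l := by
  induction l generalizing x f with
  | nil => simp only [Ap_nil, mul_assoc]
  | cons y l ih =>
    simp only [Ap_cons]
    rw [mul_avg]
    congr 1
    funext g
    exact ih _ _

theorem hp_congr {x : A} {f f' : List A → A} {l : List A}
    (h : ∀ l' : List A, l'.length = l.length + 1 → f l' = f' l') :
    hp a b x f l = hp a b x f' l := by
  induction l generalizing x f f' with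
  | nil => rw [hp_nil, hp_nil, h [x] rfl]
  | cons y l ih =>
    rw [hp_cons, hp_cons, h _ (by simp)]
    congr 2
    funext g
    exact ih fun l' hl' => h _ (by simp [hl'])

theorem hp_add (x : A) (f f' : List A → A) (l : List A) :
    hp a b x (fun l => f l + f' l) l = hp a b x f l + hp a b x f' l := by
  induction l generalizing x f f' with
  | nil => simp only [hp_nil]
  | cons y l ih =>
    simp only [hp_cons]
    simp only [ih, avg_add]
    abel

theorem hp_sub (x : A) (f f' : List A → A) (l : List A) :
    hp a b x (fun l => f l - f' l) l = hp a b x f l - hp a b x f' l := by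
  induction l generalizing x f f' with
  | nil => simp only [hp_nil]
  | cons y l ih =>
    simp only [hp_cons]
    simp only [ih, avg_sub]
    abel

theorem hp_smul (x : A) (t : ℂ) (f : List A → A) (l : List A) :
    hp a b x (fun l => t • f l) l = t • hp a b x f l := by
  induction l generalizing x f with
  | nil => simp only [hp_nil]
  | cons y l ih =>
    simp only [hp_cons]
    simp only [ih, avg_smul, smul_sub]

theorem hp_mul_left (x c : A) (f : List A → A) (l : List A) :
    hp a b x (fun l => c * f l) l = c * hp a b x f l := by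
  induction l generalizing x f with
  | nil => simp only [hp_nil]
  | cons y l ih =>
    simp only [hp_cons]
    simp only [ih, mul_sub, mul_avg]

theorem hp_Sh (x c : A) (f : List A → A) (l : List A) :
    hp a b x (Sh c f) l = hp a b (c * x) f l := by
  cases l with
  | nil => simp only [hp_nil, Sh]
  | cons y l => simp only [hp_cons, Sh, mul_assoc]

/-- The homotopy identity `h_x (∂ f) + ∂ (h_x f) = A_x f`. Proof: induction on `l` generalizing
`x, f`. For `l = y :: l'`: `(∂ f)(x y b :: ·) = Sh (x y b) f - ∂ (f (x y b :: ·))` (`pd_cons_eq`),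
`hp a' (Sh c f) = hp (c a') f` (cases on the list), and `x y b a' = x y`; so by the induction
hypothesis `h_x (∂ f)(y :: l') = f (x y :: l') - ∂ f_x (y :: l') - h_{xy} f l' + A_x f (y :: l')
- E ∂ (h_{a'} f_{x y b'}) l'`. Then cases on `l'` for `∂ (h_x f)(y :: l')` (`pd_sub`, `pd_avg`). -/
theorem hp_pd (hab : ∀ g, b g * a g = 1) (x : A) (f : List A → A) (l : List A) :
    hp a b x (pd f) l + pd (hp a b x f) l = Ap a b x f l := by
  induction l generalizing x f with
  | nil => rw [hp_nil, pd_single, pd_nil, add_zero, Ap_nil]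
  | cons y l ih =>
    have e1 : ∀ g, hp a b (a g) (fun l' => pd f (x * y * b g :: l')) l =
        hp a b (x * y) f l - (Ap a b (a g) (fun l' => f (x * y * b g :: l')) l -
          pd (hp a b (a g) (fun l' => f (x * y * b g :: l'))) l) := by
      intro g
      simp only [pd_cons_eq]
      rw [hp_sub, hp_Sh, mul_assoc (x * y), hab, mul_one, ← ih, add_sub_cancel_right]
    have e2 : pd (fun l' => hp a b x f (y :: l')) l = pd (fun l' => f (x :: y :: l')) l -
        avg fun g => pd (hp a b (a g) (fun l' => f (x * y * b g :: l'))) l := by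
      simp only [hp_cons]
      rw [pd_sub, pd_avg]
    have e3 : f (x * y :: l) - Sh y (fun l' => f (x :: l')) l - hp a b (x * y) f l +
        Sh y (hp a b x f) l = 0 := by
      cases l with
      | nil => simp only [Sh, hp_nil]; abel
      | cons w l => simp only [Sh, hp_cons, mul_assoc]; abel
    rw [hp_cons, pd_cons, pd_cons_eq (fun l' => f (x :: l')), pd_cons_eq (hp a b x f), e2, Ap_cons]
    simp only [e1]
    rw [avg_sub, avg_sub, avg_const]
    rw [← sub_eq_zero, ← e3]
    abel

/-- For a cocycle: `φ - δ (h φ) = A φ`. Proof: on lists of length `k + 2`, `pd φ (x :: l) = x φ l`;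
so `hp a₀ (pd φ)(y :: l') = a₀ φ (y :: l') - a₀ y (hh φ l')` (`hp_congr`, `hp_mul_left`); multiply by
`b₀`, average, use `hp_pd`, `pd_mul_left`, `pd_avg`. -/
theorem prism (hab : ∀ g, b g * a g = 1) {k : ℕ} {φ : List A → A} (hφ : Cocycle (k + 1) φ)
    {l : List A} (hl : l.length = k + 1) : φ l - dd (hh a b φ) l = AA a b φ l := by
  cases l with
  | nil => simp at hl
  | cons y l =>
    have hc : ∀ (x : A) (l' : List A), l'.length = k + 1 → pd φ (x :: l') = x * φ l' := by
      intro x l' hl'
      have := hφ (x :: l') (by simp [hl'])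
      rw [dd_cons, sub_eq_zero] at this
      exact this.symm
    have e1 : ∀ g, b g * hp a b (a g) (pd φ) (y :: l) = φ (y :: l) - y * hh a b φ l := by
      intro g
      have e : ∀ g', hp a b (a g') (fun l' => pd φ (a g * y * b g' :: l')) l =
          a g * y * (b g' * hp a b (a g') φ l) := by
        intro g'
        rw [← mul_assoc, ← hp_mul_left]
        exact hp_congr fun l' hl' => hc _ _ (by simp only [List.length_cons] at hl; omega)
      rw [hp_cons, hc _ _ hl]
      simp only [e]
      rw [← mul_avg, mul_sub, ← mul_assoc, ← mul_assoc, ← mul_assoc, hab, one_mul, one_mul, hh]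
    have e2 : pd (hh a b φ) (y :: l) = AA a b φ (y :: l) - (φ (y :: l) - y * hh a b φ l) := by
      have : hh a b φ = fun l => avg fun g => b g * hp a b (a g) φ l := rfl
      conv_lhs => rw [this, pd_avg]
      rw [AA, ← avg_const (G := G) (φ (y :: l) - y * hh a b φ l), ← avg_sub]
      congr 1
      funext g
      rw [pd_mul_left, ← e1 g, ← mul_sub, ← hp_pd hab, add_sub_cancel_left]
    rw [dd_cons, e2]
    abel

/-- Induction on `k` (`ML_succ`), generalizing `x`, `f`; linearity in the first slot uses
`Ap_congr`, `Ap_add`, `Ap_smul`. -/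
theorem ML.Ap {k : ℕ} {f : List A → A} (hf : ML k f) (x : A) : ML k (Ap a b x f) := by
  induction k generalizing x f with
  | zero => exact ML_zero _
  | succ k ih =>
    refine ML_succ (fun l hl => ⟨fun y y' => ?_, fun t y => ?_⟩) fun y => ?_
    · simp only [Ap_cons]
      rw [← avg_add]
      congr 1
      funext g
      rw [← Ap_add]
      refine Ap_congr fun l' hl' => ?_
      rw [mul_add, add_mul]
      exact (hf.first (hl'.trans hl)).map_add _ _
    · simp only [Ap_cons]
      rw [← avg_smul]
      congr 1
      funext g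
      rw [← Ap_smul]
      refine Ap_congr fun l' hl' => ?_
      rw [mul_smul_comm, smul_mul_assoc]
      exact (hf.first (hl'.trans hl)).map_smul _ _
    · simp only [Ap_cons]
      exact ML.avg fun g => ih (hf.cons _) _

theorem isLinearMap_mul_left (c : A) : IsLinearMap ℂ fun y : A => c * y :=
  ⟨fun _ _ => mul_add _ _ _, fun _ _ => mul_smul_comm _ _ _⟩

theorem ML.hp {k : ℕ} {f : List A → A} (hf : ML (k + 1) f) (x : A) : ML k (hp a b x f) := by
  induction k generalizing x f with
  | zero => exact ML_zero _
  | succ k ih =>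
    refine ML_succ (fun l hl => ⟨fun y y' => ?_, fun t y => ?_⟩) fun y => ?_
    · simp only [hp_cons]
      have e : ∀ g, R121.hp a b (a g) (fun l' => f (x * (y + y') * b g :: l')) l =
          R121.hp a b (a g) (fun l' => f (x * y * b g :: l')) l +
            R121.hp a b (a g) (fun l' => f (x * y' * b g :: l')) l := by
        intro g
        rw [← hp_add]
        refine hp_congr fun l' hl' => ?_
        rw [mul_add, add_mul]
        exact (hf.first (by omega)).map_add _ _
      have e' := ((hf.cons x).first hl).map_add y y'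
      simp only [e, avg_add]
      rw [e']
      abel
    · simp only [hp_cons]
      have e : ∀ g, R121.hp a b (a g) (fun l' => f (x * (t • y) * b g :: l')) l =
          t • R121.hp a b (a g) (fun l' => f (x * y * b g :: l')) l := by
        intro g
        rw [← hp_smul]
        refine hp_congr fun l' hl' => ?_
        rw [mul_smul_comm, smul_mul_assoc]
        exact (hf.first (by omega)).map_smul _ _
      have e' := ((hf.cons x).first hl).map_smul t y
      simp only [e, avg_smul]
      rw [e', smul_sub]
    · simp only [hp_cons]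
      exact ((hf.cons x).cons y).sub (ML.avg fun g => ih (hf.cons _) _)

theorem ML.AA {k : ℕ} {f : List A → A} (hf : ML k f) : ML k (AA a b f) :=
  ML.avg fun g => (hf.Ap (a g)).comp (isLinearMap_mul_left (b g))

theorem ML.hh {k : ℕ} {f : List A → A} (hf : ML (k + 1) f) : ML k (hh a b f) :=
  ML.avg fun g => (hf.hp (a g)).comp (isLinearMap_mul_left (b g))

/-- `‖Ap x f l‖ ≤ c ‖x‖ nrm l`: induction on `l` generalizing `x, f, c` (`Bd.cons`, `norm_avg_le`). -/
theorem Bd.Ap (ha : ∀ g, ‖a g‖ ≤ 1) (hb : ∀ g, ‖b g‖ ≤ 1) {k : ℕ} {f : List A → A} {c : ℝ}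
    (hc : 0 ≤ c) (hf : Bd k f c) (x : A) : Bd k (Ap a b x f) (c * ‖x‖) := by
  intro l hl
  induction l generalizing x f c k with
  | nil =>
    rw [Ap_nil, nrm_nil, mul_one]
    have := hf [] hl
    rw [nrm_nil, mul_one] at this
    exact (norm_mul_le _ _).trans (mul_le_mul_of_nonneg_right this (norm_nonneg _))
  | cons y l ih =>
    subst hl
    rw [Ap_cons]
    refine norm_avg_le fun g => ?_
    refine (ih (by positivity) (hf.cons (x * y * b g)) (a g) rfl).trans ?_
    have h1 : ‖x * y * b g‖ ≤ ‖x‖ * ‖y‖ := (norm_mul_le _ _).trans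
      ((mul_le_of_le_one_right (norm_nonneg _) (hb g)).trans (norm_mul_le _ _))
    have h2 := nrm_nonneg l
    rw [nrm_cons]
    calc c * ‖x * y * b g‖ * ‖a g‖ * nrm l ≤ c * (‖x‖ * ‖y‖) * 1 * nrm l := by
          gcongr
          exact ha g
      _ = _ := by ring

theorem Bd.hp (ha : ∀ g, ‖a g‖ ≤ 1) (hb : ∀ g, ‖b g‖ ≤ 1) {k : ℕ} {f : List A → A} {c : ℝ}
    (hc : 0 ≤ c) (hf : Bd (k + 1) f c) (x : A) : Bd k (hp a b x f) ((k + 1) * c * ‖x‖) := by
  intro l hl
  induction l generalizing x f c k with
  | nil =>
    subst hl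
    have := hf [x] rfl
    simpa [hp_nil] using this
  | cons y l ih =>
    subst hl
    rw [hp_cons]
    have h0 := hf (x :: y :: l) rfl
    have h1 : ‖avg fun g => R121.hp a b (a g) (fun l' => f (x * y * b g :: l')) l‖ ≤
        (l.length + 1) * (c * (‖x‖ * ‖y‖)) * 1 * nrm l := by
      refine norm_avg_le fun g => ?_
      refine (ih (by positivity) (hf.cons (x * y * b g)) (a g) rfl).trans ?_
      have h1 : ‖x * y * b g‖ ≤ ‖x‖ * ‖y‖ := (norm_mul_le _ _).trans
        ((mul_le_of_le_one_right (norm_nonneg _) (hb g)).trans (norm_mul_le _ _))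
      have h2 := nrm_nonneg l
      gcongr
      exact ha g
    refine (norm_sub_le _ _).trans ((add_le_add h0 h1).trans (le_of_eq ?_))
    simp only [nrm_cons, List.length_cons]
    push_cast
    ring

theorem Bd.AA (ha : ∀ g, ‖a g‖ ≤ 1) (hb : ∀ g, ‖b g‖ ≤ 1) {k : ℕ} {f : List A → A} {c : ℝ}
    (hc : 0 ≤ c) (hf : Bd k f c) : Bd k (AA a b f) c := by
  intro l hl
  refine norm_avg_le fun g => (norm_mul_le _ _).trans ?_
  have h1 := hf.Ap ha hb hc (a g) l hl
  have h2 := nrm_nonneg l
  calc ‖b g‖ * ‖R121.Ap a b (a g) f l‖ ≤ 1 * (c * ‖a g‖ * nrm l) := by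
        gcongr
        exact hb g
    _ ≤ 1 * (c * 1 * nrm l) := by
        gcongr
        exact ha g
    _ = _ := by ring

/-- `‖hp x f l‖ ≤ (k + 1) c ‖x‖ nrm l` for `l` of length `k`. -/
theorem Bd.hh (ha : ∀ g, ‖a g‖ ≤ 1) (hb : ∀ g, ‖b g‖ ≤ 1) {k : ℕ} {f : List A → A} {c : ℝ}
    (hc : 0 ≤ c) (hf : Bd (k + 1) f c) : Bd k (hh a b f) ((k + 1) * c) := by
  intro l hl
  refine norm_avg_le fun g => (norm_mul_le _ _).trans ?_
  have h1 := hf.hp ha hb hc (a g) l hl
  have h2 := nrm_nonneg l
  calc ‖b g‖ * ‖R121.hp a b (a g) f l‖ ≤ 1 * ((k + 1) * c * ‖a g‖ * nrm l) := by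
        gcongr
        exact hb g
    _ ≤ 1 * ((k + 1) * c * 1 * nrm l) := by
        gcongr
        exact ha g
    _ = _ := by ring

theorem Ap_restrict {z : A} (hc : ∀ x, z * x = x * z) (haz : ∀ g, a g * z = z) (hav : avg a = z)
    (l : List A) (F : A → List A → A)
    (h1 : ∀ l' : List A, l'.length = l.length → IsLinearMap ℂ fun g => F g l')
    (h2 : ∀ g, ML l.length (F g)) :
    (avg fun g => Ap a a (a g) (F (a g)) l) * z = F z (l.map (z * ·)) * z := by
  induction l generalizing F with
  | nil =>
    simp only [Ap_nil, List.map_nil]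
    rw [avg_mul]
    simp only [mul_assoc, haz]
    rw [← avg_mul, ← hav, IsLinearMap.map_avg (h1 [] rfl)]
  | cons y l ih =>
    simp only [Ap_cons, List.map_cons]
    rw [avg_mul]
    have e : ∀ g, (avg fun g' => Ap a a (a g') (fun l' => F (a g) (a g * y * a g' :: l')) l) * z =
        F (a g) (z * y :: l.map (z * ·)) * z := by
      intro g
      have := ih (fun g' l' => F (a g) (a g * y * g' :: l'))
        (fun l' hl' => ⟨fun u v => by
            rw [mul_add]; exact ((h2 (a g)).first hl').map_add _ _,
          fun t u => by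
            rw [mul_smul_comm]; exact ((h2 (a g)).first hl').map_smul _ _⟩)
        (fun g' => (h2 (a g)).cons _)
      rw [this, mul_assoc (a g), ← hc y, ← mul_assoc (a g), haz]
    simp only [e]
    rw [← avg_mul]
    congr 1
    conv_rhs => rw [← hav]
    rw [hav]
    have := IsLinearMap.map_avg (h1 (z * y :: l.map (z * ·)) (by simp)) a
    rw [hav] at this
    exact this.symm

/-- Restriction of the arguments to `z A`. Take `G = Bool`, `a = b = (1, z + z - 1)`. Claim, by
induction on `l` generalizing `F : A → List A → A` with `g ↦ F g l'` linear for all `l'` of the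
length of `l` and `ML l.length (F g)`:
`(E_g Ap (a g) (F (a g)) l) z = F z (l.map (z * ·)) z` (use `a g * z = z`, `E a g = z`, `z` central; in
the step apply the induction hypothesis to `F' g' = F g (g y g' :: ·)` and note `g y z = z y`).
With `F g = g φ` (`Ap_mul_left`) this gives `AA φ l * z = z φ (l.map (z * ·)) z`. Take
`h = z * hh φ` (`prism`, `dd_mul_central`). -/
theorem exists_restrict {z : A} (hz : z * z = z) (hc : ∀ x, z * x = x * z) (h1 : ‖(1 : A)‖ ≤ 1)
    (hz1 : ‖z‖ ≤ 1) (hz2 : ‖z + z - 1‖ ≤ 1) {k : ℕ} {φ : List A → A} {c : ℝ} (hc0 : 0 ≤ c)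
    (hML : ML (k + 1) φ) (hBd : Bd (k + 1) φ c) (hφ : Cocycle (k + 1) φ) :
    ∃ h : List A → A, ML k h ∧ Bd k h ((k + 1) * c) ∧ ∀ l : List A, l.length = k + 1 →
      z * φ l = dd h l + z * φ (l.map (z * ·)) := by
  let a : Bool → A := fun g => if g then 1 else z + z - 1
  have haa : ∀ g, a g * a g = 1 := by
    intro g
    cases g
    · show (z + z - 1) * (z + z - 1) = 1
      simp only [mul_sub, sub_mul, mul_add, add_mul, hz, mul_one, one_mul]
      abel
    · exact mul_one _
  have haz : ∀ g, a g * z = z := by
    intro g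
    cases g
    · show (z + z - 1) * z = z
      simp only [sub_mul, add_mul, hz, one_mul]
      abel
    · exact one_mul _
  have hav : avg a = z := by
    have e : ∑ g, a g = (2 : ℂ) • z := by
      rw [Fintype.sum_bool, two_smul]
      show 1 + (z + z - 1) = z + z
      abel
    rw [avg, e, smul_smul, Fintype.card_bool]
    norm_num
  have hn : ∀ g, ‖a g‖ ≤ 1 := by
    intro g
    cases g
    · exact hz2
    · exact h1
  refine ⟨fun l => z * hh a a φ l, hML.hh.comp (isLinearMap_mul_left z), fun l hl => ?_,
    fun l hl => ?_⟩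
  · exact (norm_mul_le _ _).trans ((mul_le_of_le_one_left (norm_nonneg _) hz1).trans
      (hBd.hh hn hn hc0 l hl))
  · have e1 := prism haa hφ hl
    have e2 := Ap_restrict hc haz hav l (fun g l => g * φ l)
      (fun l' _ => ⟨fun _ _ => add_mul _ _ _, fun _ _ => smul_mul_assoc _ _ _⟩)
      (fun g => (hl ▸ hML).comp (isLinearMap_mul_left g))
    simp only [Ap_mul_left] at e2
    have e3 : z * AA a a φ l = z * φ (l.map (z * ·)) := by
      rw [hc, AA, e2, ← hc, ← mul_assoc, hz]
    rw [dd_mul_central hc, ← e3, ← e1, ← mul_add, add_sub_cancel]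

end Crest.Agent.R121
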