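import Crest.Agent.R121.CS
import Crest.Agent.R121.Prism
import Crest.Agent.R121.Clock

/-! # R121: the properly infinite case (task `Amp`) -/

set_option autoImplicit false
open Filter Topology
open scoped InnerProductSpace

namespace Crest.Agent.R121

section
variable {A : Type*} [NormedRing A] [NormedAlgebra ℂ A] {G : Type*} [Fintype G] [Nonempty G]
  {a b : G → A}

omit [Nonempty G] in
theorem amp_lin_avg {V : Type*} [AddCommGroup V] [Module ℂ V] {T : G → A → V}
    (h : ∀ g, IsLinearMap ℂ (T g)) : IsLinearMap ℂ fun x => avg fun g => T g x :=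
  ⟨fun x y => by simp only [(h _).map_add, avg_add],
    fun c x => by simp only [(h _).map_smul, avg_smul]⟩

theorem amp_lin_comp {V : Type*} [AddCommGroup V] [Module ℂ V] {T : A → V} (h : IsLinearMap ℂ T)
    (u v : A) : IsLinearMap ℂ fun x => T (u * x * v) :=
  ⟨fun x y => by rw [mul_add, add_mul, h.map_add],
    fun c x => by rw [mul_smul_comm, smul_mul_assoc, h.map_smul]⟩

/-- `Ap` is linear in a parameter of the cochain. -/
theorem amp_lin_f (z : A) {l : List A} {F : A → List A → A}
    (hF : ∀ l' : List A, l'.length = l.length → IsLinearMap ℂ fun x => F x l') :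
    IsLinearMap ℂ fun x => Ap a b z (F x) l :=
  ⟨fun x y => by rw [← Ap_add]; exact Ap_congr fun l' hl' => (hF l' hl').map_add x y,
    fun c x => by rw [← Ap_smul]; exact Ap_congr fun l' hl' => (hF l' hl').map_smul c x⟩

/-- `Ap` is linear in the base point. -/
theorem amp_lin_x {l : List A} {f : List A → A} (hf : ML l.length f) :
    IsLinearMap ℂ fun z => Ap a b z f l := by
  cases l with
  | nil => exact ⟨fun x y => by simp only [Ap_nil, mul_add],
      fun c x => by simp only [Ap_nil, mul_smul_comm]⟩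
  | cons y l =>
    simp only [Ap_cons]
    refine amp_lin_avg fun g => amp_lin_f _ fun l' hl' => ?_
    simpa only [one_mul, mul_assoc] using amp_lin_comp (hf.first hl') 1 (y * b g)

end

section
variable {A : Type*} [NormedRing A] [StarRing A] [NormedAlgebra ℂ A] [StarModule ℂ A]
variable {n : ℕ} [NeZero n]

theorem amp_clk_avg {t : ZMod n → A} (ht : ∀ i k, star (t i) * t k = if i = k then 1 else 0)
    (q : ZMod n) (Bl : A → A → A) (h1 : ∀ y, IsLinearMap ℂ fun x => Bl x y)
    (h2 : ∀ x, IsLinearMap ℂ (Bl x)) :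
    (avg fun g => Bl (star (clk t g)) (clk t g * t q)) =
      avg fun i => Bl (t q * star (t i)) (t i) := by
  rw [clk_avg t (fun x y => Bl x (y * t q)) (fun y => h1 _)
    fun x => by simpa only [one_mul] using amp_lin_comp (h2 x) 1 (t q)]
  congr 1
  funext i
  rw [Finset.sum_eq_single q]
  · rw [mul_assoc, ht, if_pos rfl, mul_one]
  · intro p _ hp
    rw [mul_assoc, ht, if_neg hp, mul_zero, (h2 _).map_zero]
  · simp

omit [NormedAlgebra ℂ A] [StarModule ℂ A] in
theorem amp_mul {t : ZMod n → A} (ht : ∀ i k, star (t i) * t k = if i = k then 1 else 0)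
    (y : A) (q : ZMod n) : (∑ p, t p * y * star (t p)) * t q = t q * y := by
  simp [Finset.sum_mul, mul_assoc, ht]

theorem amp_key {t : ZMod n → A} (ht : ∀ i k, star (t i) * t k = if i = k then 1 else 0)
    (q : ZMod n) (l : List A) : ∀ (x : A) (f : List A → A), ML l.length f →
    Ap (clk t) (fun g => star (clk t g)) x f (l.map fun y => ∑ p, t p * y * star (t p)) * t q =
      Ap t (fun i => star (t i)) (x * t q) f l := by
  induction l with
  | nil => intro x f _; simp only [List.map_nil, Ap_nil, mul_assoc]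
  | cons y l ih =>
    intro x f hf
    rw [List.map_cons, Ap_cons, Ap_cons, avg_mul]
    simp only [ih _ _ (hf.cons _)]
    rw [amp_clk_avg ht q (fun u z => Ap t (fun i => star (t i)) z
      (fun l' => f (x * (∑ p, t p * y * star (t p)) * u :: l')) l)
      (fun z => amp_lin_f z fun l' hl' => by
        simpa only [mul_one] using amp_lin_comp (hf.first hl') _ 1)
      fun u => amp_lin_x (hf.cons _)]
    simp only [← mul_assoc, mul_assoc x _ (t q), amp_mul ht]

/-- Key identity. Let `g = clk t`, `amp y = ∑_p t_p y t_p*`. Induction on `l` generalizing `F`.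
`l = []`: `clk_avg` with `Bl x y = F x [] * y * t q`, and `t_p* t_q = δ`. `l = y :: l'`: apply the
induction hypothesis to `F' h = F (g*) (g (amp y) h :: ·)`, note `amp y * t_q = t_q y`, then `clk_avg`
with `Bl x x' = E_{i'} Ap t t* (t_{i'}) (F x (x' t_q y t_{i'}* :: ·)) l'` (bilinear by `Ap_congr`, `Ap_add`,
`Ap_smul`); the terms `p ≠ q` vanish by linearity in `x'`. -/
theorem Ap_clk {t : ZMod n → A} (ht : ∀ i k, star (t i) * t k = if i = k then 1 else 0)
    (q : ZMod n) (l : List A) (F : A → List A → A)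
    (hF1 : ∀ l' : List A, l'.length = l.length → IsLinearMap ℂ fun x => F x l')
    (hF2 : ∀ x, ML l.length (F x)) :
    (avg fun g => Ap (clk t) (fun g => star (clk t g)) (clk t g) (F (star (clk t g)))
      (l.map fun y => ∑ p, t p * y * star (t p))) * t q =
    avg fun i => Ap t (fun i => star (t i)) (t i) (F (t q * star (t i))) l := by
  simp only [avg_mul, amp_key ht q l _ _ (hF2 _)]
  exact amp_clk_avg ht q (fun x z => Ap t (fun i => star (t i)) z (F x) l)
    (fun z => amp_lin_f z hF1) fun x => amp_lin_x (hF2 x)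

/-- Entries of the clock average of the amplified cocycle (`Ap_clk`, then `clk_avg` once more). -/
theorem AA_clk {t : ZMod n → A} (ht : ∀ i k, star (t i) * t k = if i = k then 1 else 0)
    {φ : List A → A} {l : List A} (hφ : ML (l.length + 1) φ) (X : A) (p q : ZMod n) :
    star (t p) * AA (clk t) (fun g => star (clk t g)) φ
      (X :: l.map fun y => ∑ p, t p * y * star (t p)) * t q =
    AA t (fun i => star (t i)) φ (star (t p) * X * t q :: l) := by
  have e : ∀ x : A, Ap (clk t) (fun g => star (clk t g)) x φ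
      (X :: l.map fun y => ∑ p, t p * y * star (t p)) * t q =
      Ap t (fun i => star (t i)) x φ (X * t q :: l) := fun x => by
    rw [Ap_cons, Ap_cons, Ap_clk ht q l (fun u l' => φ (x * X * u :: l'))
      (fun l' hl' => by simpa only [mul_one] using amp_lin_comp (hφ.first hl') _ 1)
      fun u => hφ.cons _]
    simp only [mul_assoc]
  rw [AA, AA, mul_assoc, avg_mul, mul_avg]
  simp only [mul_assoc _ _ (t q), e]
  rw [clk_avg t (fun u u' => star (t p) * (u * Ap t (fun i => star (t i)) u' φ (X * t q :: l)))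
    (fun y => ⟨fun x x' => by rw [add_mul, mul_add],
      fun c x => by rw [smul_mul_assoc, mul_smul_comm]⟩)
    fun x => by
      simpa only [mul_one, mul_assoc, Function.comp_def] using
        ⟨fun y y' => by rw [(amp_lin_x (l := X * t q :: l) hφ).map_add, mul_add, mul_add],
          fun c y => by
            rw [(amp_lin_x (l := X * t q :: l) hφ).map_smul, mul_smul_comm, mul_smul_comm]⟩]
  congr 1
  funext i
  rw [Finset.sum_eq_single p]
  · simp only [← mul_assoc, ht, if_true, one_mul, Ap_cons]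
  · intro p' _ hp
    simp only [← mul_assoc, ht, if_neg hp.symm, zero_mul]
  · simp

end

universe u
variable {H : Type u} [NormedAddCommGroup H] [InnerProductSpace ℂ H] [CompleteSpace H]
variable {M : VonNeumannAlgebra H}

/-- `t_i = s₂^i s₁`. -/
theorem exists_isoms (h : P3 (1 : Al M)) :
    ∃ t : ℕ → Al M, ∀ i k, star (t i) * t k = if i = k then 1 else 0 := by
  obtain ⟨s1, s2, h1, h2, h12⟩ := h
  have h0 : ∀ k, star s1 * (s2 ^ (k + 1) * s1) = 0 := fun k => by
    rw [pow_succ', mul_assoc, ← mul_assoc, h12, zero_mul]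
  refine ⟨fun i => s2 ^ i * s1, fun i => ?_⟩
  induction i with
  | zero =>
    intro k
    cases k with
    | zero => simpa using h1
    | succ k => simpa using h0 k
  | succ i ih =>
    intro k
    cases k with
    | zero => simpa using congrArg star (h0 i)
    | succ k =>
      have := ih k
      simp only [Nat.add_right_cancel_iff]
      rw [← this, pow_succ', pow_succ', mul_assoc s2, mul_assoc s2, star_mul s2, mul_assoc,
        ← mul_assoc (star s2), h2, one_mul]

theorem amp_nrm_map {α : Al M → Al M} (h : ∀ y, ‖α y‖ ≤ ‖y‖) (l : List (Al M)) :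
    nrm (l.map α) ≤ nrm l := by
  induction l with
  | nil => simp
  | cons y l ih =>
    rw [List.map_cons, nrm_cons, nrm_cons]
    exact mul_le_mul (h y) ih (nrm_nonneg _) (norm_nonneg _)

/-- Level-`n` bound. Proof: `X̂ = ∑ t_p X_pq t_q*` has norm `≤ r`, `‖amp y‖ ≤ ‖y‖` (both from `MB.mul`,
`MB_col`, `MB.star`, `MB_one`; `∑ t_p t_p*` is a projection, `MU t 1 (∑ t_p t_p*)`), `‖clk t g‖ ≤ 1`
(`star_clk_mul`, `PI.of_init`), so by `Bd.AA` the element `Φ = AA (clk) φ (X̂ :: amp l)` has norm
`≤ c r nrm l`, and the matrix `t_p* Φ t_q` is the one in the statement (`AA_clk`). -/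
theorem amp_bound {n : ℕ} [NeZero n] {t : ZMod n → Al M}
    (ht : ∀ i k, star (t i) * t k = if i = k then 1 else 0) {k : ℕ} {φ : List (Al M) → Al M}
    {c : ℝ} (hc : 0 ≤ c) (hML : ML (k + 1) φ) (hBd : Bd (k + 1) φ c) {l : List (Al M)}
    (hl : l.length = k) {X : ZMod n → ZMod n → Al M} {r : ℝ} (hr : 0 ≤ r) (hX : MB X r) :
    MB (fun p q => AA t (fun i => star (t i)) φ (X p q :: l)) (c * nrm l * r) := by
  subst hl
  have hMU : MU t 1 (∑ p, t p * star (t p)) := ⟨.one _, fun i => mul_one _, ht, rfl⟩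
  have hz : IsStarProjection (∑ p, t p * star (t p)) := by
    refine ⟨?_, by simp [IsSelfAdjoint]⟩
    rw [IsIdempotentElem, Finset.mul_sum]
    simp only [← mul_assoc, hMU.z_mul]
  have hC : MB (fun i (_ : Unit) => star (t i)) 1 :=
    MB_col (by simpa only [star_star] using proj_norm_le hz)
  have hR : MB (fun (_ : Unit) i => t i) 1 := by simpa only [star_star] using hC.star
  have hX' : ‖∑ q, (∑ p, t p * X p q) * star (t q)‖ ≤ r :=
    (MB_one hr).1 (by simpa only [one_mul, mul_one] using (hR.mul hX).mul hC)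
  have hy : ∀ y : Al M, ‖∑ p, t p * y * star (t p)‖ ≤ ‖y‖ := fun y =>
    (MB_one (norm_nonneg y)).1 (by simpa only [one_mul, mul_one] using (hR.mul_right y).mul hC)
  have hg : ∀ g, ‖clk t g‖ ≤ 1 := fun g =>
    (PI.of_init (by rw [star_clk_mul hMU]; exact hz)).norm_le
  have hΦ := hBd.AA (a := clk t) (b := fun g => star (clk t g)) hg
    (fun g => by rw [norm_star]; exact hg g) hc
    ((∑ q, (∑ p, t p * X p q) * star (t q)) :: l.map fun y => ∑ p, t p * y * star (t p)) (by simp)
  have e : ∀ p q, star (t p) * (∑ q, (∑ p, t p * X p q) * star (t q)) * t q = X p q := by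
    intro p q
    rw [mul_assoc, Finset.sum_mul]
    simp [mul_assoc, ht, Finset.mul_sum, ← mul_assoc (star (t p))]
  have h := (hC.mul_right (AA (clk t) (fun g => star (clk t g)) φ
    ((∑ q, (∑ p, t p * X p q) * star (t q)) :: l.map fun y => ∑ p, t p * y * star (t p)))).mul hR
  simp only [Finset.univ_unique, Finset.sum_singleton, AA_clk ht hML, e, one_mul, mul_one] at h
  refine h.mono (norm_nonneg _) (hΦ.trans ?_)
  rw [nrm_cons, mul_assoc, mul_comm (nrm l)]
  exact mul_le_mul_of_nonneg_left (mul_le_mul hX' (amp_nrm_map hy l) (nrm_nonneg _) hr) hc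

/-- Properly infinite case. Proof: for `n : ℕ` let `t^n : ZMod (n+1) → M`, `i ↦ t i.val`,
`φ_n = AA φ`, `h_n = hh φ` (`prism`, `ML.AA`, `Bd.AA`, `ML.hh`, `Bd.hh`), limits `φ'`, `h'` along
`hyperfilter ℕ` (`exists_lim_cochain`, `WL.dd`): `φ - dd h' = φ'`; `φ'` is a cocycle (`dd_congr`, `dd_sub`,
`dd_dd`); `CB (φ' (· :: l)) (c nrm l)` by `MB.pad`, `amp_bound`, `MB.sub` for `n` large and `MB.of_WL`.
Then `cob_of_Avg gauge_CB SM3` and add `h'`. -/
theorem cob_P3 (h : P3 (1 : Al M)) {k : ℕ} {φ : List (Al M) → Al M} {c : ℝ} (hc : 0 ≤ c)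
    (hML : ML (k + 1) φ) (hBd : Bd (k + 1) φ c) (hφ : Cocycle (k + 1) φ) :
    Cob k φ ((k + 2) * c) := by
  obtain ⟨t, ht⟩ := exists_isoms h
  let T : ∀ n : ℕ, ZMod (n + 1) → Al M := fun n i => t i.val
  have hT : ∀ n i k, star (T n i) * T n k = if i = k then 1 else 0 := fun n i k => by
    simp only [T, ht, (ZMod.val_injective (n + 1)).eq_iff]
  have hab : ∀ n i, star (T n i) * T n i = 1 := fun n i => by simp [hT]
  have ha : ∀ n i, ‖T n i‖ ≤ 1 := fun n i =>
    (PI.of_init (by rw [hab]; exact .one _)).norm_le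
  have hb : ∀ n i, ‖star (T n i)‖ ≤ 1 := fun n i => by rw [norm_star]; exact ha n i
  obtain ⟨φ', hML', -, hφ'⟩ := exists_lim_cochain (hyperfilter ℕ)
    (fun n => AA (T n) (fun i => star (T n i)) φ) (fun n => hML.AA)
    fun n => hBd.AA (ha n) (hb n) hc
  obtain ⟨h', hML'', hBd'', hh'⟩ := exists_lim_cochain (hyperfilter ℕ)
    (fun n => hh (T n) (fun i => star (T n i)) φ) (fun n => hML.hh)
    fun n => hBd.hh (ha n) (hb n) hc
  have e : ∀ l : List (Al M), l.length = k + 1 → φ' l = φ l - dd h' l := fun l hl =>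
    (hφ' l hl).unique (((WL.const _ (φ l)).sub
      (WL.dd fun l' hl' => hh' l' (by omega))).congr fun n => prism (hab n) hφ hl)
  have hco : Cocycle (k + 1) φ' := fun l hl => by
    rw [dd_congr fun l' hl' => e l' (by omega), dd_sub, hφ l hl, dd_dd, sub_zero]
  obtain ⟨G, hG1, hG2, hG3⟩ := cob_of_Avg (c := c) gauge_CB SM3 hML' hco fun l hl => by
    refine ⟨hML'.first hl, mul_nonneg hc (nrm_nonneg l), fun n m X r hr hX => ?_⟩
    refine MB.of_WL (F := (hyperfilter ℕ : Filter ℕ)) ?_ fun i j => hφ' (X i j :: l) (by simp [hl])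
    filter_upwards [Nat.hyperfilter_le_atTop (eventually_ge_atTop n),
      Nat.hyperfilter_le_atTop (eventually_ge_atTop m)] with N hn hm
    have hσ : Function.Injective fun i : Fin n =>
        (Fin.castLE (Nat.le_succ_of_le hn) i : ZMod (N + 1)) := Fin.castLE_injective _
    have hτ : Function.Injective fun i : Fin m =>
        (Fin.castLE (Nat.le_succ_of_le hm) i : ZMod (N + 1)) := Fin.castLE_injective _
    obtain ⟨X', hX', hXX⟩ := hX.pad hσ hτ
    simpa only [hXX] using (amp_bound (hT N) hc hML hBd hl hr hX').sub hσ hτ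
  refine ⟨fun l => G l + h' l, hG1.add hML'', fun l hl => ?_, fun l hl => ?_⟩
  · refine (norm_add_le _ _).trans ((add_le_add (hG2 l hl) (hBd'' l hl)).trans_eq ?_)
    ring
  · rw [dd_add, hG3 l hl, e l hl, sub_add_cancel]

end Crest.Agent.R121
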