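import Crest.Agent.R121.Alg

/-! # R121: uniform averages over finite types -/

set_option autoImplicit false

namespace Crest.Agent.R121

/-- Uniform average over a finite type. -/
noncomputable def avg {G V : Type*} [Fintype G] [AddCommGroup V] [Module ℂ V] (f : G → V) : V :=
  (Fintype.card G : ℂ)⁻¹ • ∑ g, f g

section
variable {G G' V W : Type*} [Fintype G] [Fintype G'] [AddCommGroup V] [Module ℂ V]
  [AddCommGroup W] [Module ℂ W]

theorem avg_add (f g : G → V) : avg (fun x => f x + g x) = avg f + avg g := by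
  simp [avg, Finset.sum_add_distrib]
theorem avg_sub (f g : G → V) : avg (fun x => f x - g x) = avg f - avg g := by
  simp [avg, Finset.sum_sub_distrib, smul_sub]
theorem avg_neg (f : G → V) : avg (fun x => - f x) = - avg f := by simp [avg]
theorem avg_smul (t : ℂ) (f : G → V) : avg (fun x => t • f x) = t • avg f := by
  rw [avg, avg, ← Finset.smul_sum, smul_comm]
theorem avg_zero : avg (fun _ : G => (0 : V)) = 0 := by simp [avg]
theorem avg_const [Nonempty G] (v : V) : avg (fun _ : G => v) = v := by
  have : (Fintype.card G : ℂ) ≠ 0 := Nat.cast_ne_zero.2 Fintype.card_ne_zero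
  rw [avg, Finset.sum_const, Finset.card_univ, ← Nat.cast_smul_eq_nsmul ℂ, smul_smul,
    inv_mul_cancel₀ this, one_smul]
theorem avg_sum {ι : Type*} (s : Finset ι) (f : ι → G → V) :
    avg (fun x => ∑ i ∈ s, f i x) = ∑ i ∈ s, avg (f i) := by
  simp only [avg]; rw [Finset.sum_comm, Finset.smul_sum]
theorem avg_comm (f : G → G' → V) :
    avg (fun x => avg fun y => f x y) = avg fun y => avg fun x => f x y := by
  simp only [avg, ← Finset.smul_sum]; rw [Finset.sum_comm, smul_comm]
theorem avg_equiv (σ : G ≃ G') (f : G' → V) : avg (fun x => f (σ x)) = avg f := by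
  rw [avg, avg, Fintype.card_congr σ, Equiv.sum_comp σ f]
theorem avg_prod (f : G × G' → V) : avg f = avg fun x => avg fun y => f (x, y) := by
  simp only [avg, ← Finset.smul_sum, smul_smul, Fintype.card_prod, Nat.cast_mul, mul_inv]
  rw [Fintype.sum_prod_type]
theorem IsLinearMap.map_avg {T : V → W} (hT : IsLinearMap ℂ T) (f : G → V) :
    T (avg f) = avg fun x => T (f x) := by
  have := map_sum (hT.mk' T) f Finset.univ
  simp only [IsLinearMap.mk'_apply] at this
  rw [avg, avg, hT.map_smul, this]
theorem map_avg (T : V →ₗ[ℂ] W) (f : G → V) : T (avg f) = avg fun x => T (f x) := by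
  simp [avg]
theorem card_smul_avg [Nonempty G] (f : G → V) : (Fintype.card G : ℂ) • avg f = ∑ g, f g := by
  have : (Fintype.card G : ℂ) ≠ 0 := Nat.cast_ne_zero.2 Fintype.card_ne_zero
  rw [avg, smul_smul, mul_inv_cancel₀ this, one_smul]
end

section
variable {G A : Type*} [Fintype G] [Ring A] [Algebra ℂ A]
theorem mul_avg (a : A) (f : G → A) : a * avg f = avg fun x => a * f x := by
  simp [avg, Finset.mul_sum]
theorem avg_mul (f : G → A) (a : A) : avg f * a = avg fun x => f x * a := by
  simp [avg, Finset.sum_mul]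
end

theorem norm_avg_le {G V : Type*} [Fintype G] [Nonempty G] [NormedAddCommGroup V] [NormedSpace ℂ V]
    {f : G → V} {r : ℝ} (h : ∀ g, ‖f g‖ ≤ r) : ‖avg f‖ ≤ r := by
  have hc : (0 : ℝ) < Fintype.card G := Nat.cast_pos.2 Fintype.card_pos
  rw [avg, norm_smul, norm_inv, Complex.norm_natCast, inv_mul_le_iff₀ hc]
  refine (norm_sum_le _ _).trans ((Finset.sum_le_sum fun g _ => h g).trans ?_)
  simp

theorem norm_avg_le_sum {G V : Type*} [Fintype G] [NormedAddCommGroup V] [NormedSpace ℂ V]
    (f : G → V) : ‖avg f‖ ≤ (Fintype.card G : ℝ)⁻¹ * ∑ g, ‖f g‖ := by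
  rw [avg, norm_smul, norm_inv, Complex.norm_natCast]
  gcongr
  exact norm_sum_le _ _

theorem WL.avg {H : Type*} [NormedAddCommGroup H] [InnerProductSpace ℂ H] [CompleteSpace H]
    {M : VonNeumannAlgebra H} {ι G : Type*} [Fintype G] {F : Filter ι} {x : G → ι → Al M}
    {y : G → Al M} (h : ∀ g, WL F (x g) (y g)) : WL F (fun i => avg fun g => x g i) (avg y) :=
  (WL.sum _ fun g _ => h g).smul _

end Crest.Agent.R121
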