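import Crest.Agent.R121.Coch

/-! # R121: abstract averaging operators (task `Avg`) -/

set_option autoImplicit false
open Filter Topology

namespace Crest.Agent.R121

universe u
variable {H : Type u} [NormedAddCommGroup H] [InnerProductSpace ℂ H] [CompleteSpace H]
variable {M : VonNeumannAlgebra H}

/-- `B ψ c` means "`ψ` is a linear map of norm `≤ c`" for a norm (operator norm or cb norm). -/
structure Gauge (B : (Al M → Al M) → ℝ → Prop) : Prop where
  lin : ∀ {ψ c}, B ψ c → IsLinearMap ℂ ψ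
  nonneg : ∀ {ψ c}, B ψ c → 0 ≤ c
  le : ∀ {ψ c}, B ψ c → ∀ a, ‖ψ a‖ ≤ c * ‖a‖
  add : ∀ {ψ ψ' c c'}, B ψ c → B ψ' c' → B (fun a => ψ a + ψ' a) (c + c')
  smul : ∀ {ψ c} (t : ℂ), B ψ c → B (fun a => t • ψ a) (‖t‖ * c)
  rarg : ∀ {ψ c} (x : Al M), B ψ c → B (fun a => ψ (a * x)) (c * ‖x‖)
  rval : ∀ {ψ c} (x : Al M), B ψ c → B (fun a => ψ a * x) (c * ‖x‖)
  id : B (fun a => a) 1
  lim : ∀ (U : Ultrafilter (Al M → Al M)) (ψ : Al M → Al M) (c : ℝ), (∀ᶠ ψ' in U, B ψ' c) →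
    (∀ a, WL (U : Filter (Al M → Al M)) (fun ψ' => ψ' a) (ψ a)) → B ψ c

/-- Averaging operators: contractive, linear, commuting with right multiplications, fixing `id`. -/
structure Avg (B : (Al M → Al M) → ℝ → Prop) (ρ : (Al M → Al M) → Al M → Al M) : Prop where
  bnd : ∀ {ψ c}, B ψ c → B (ρ ψ) c
  add : ∀ {ψ ψ' c c'}, B ψ c → B ψ' c' → ρ (fun a => ψ a + ψ' a) = fun a => ρ ψ a + ρ ψ' a
  smul : ∀ {ψ c} (t : ℂ), B ψ c → ρ (fun a => t • ψ a) = fun a => t • ρ ψ a
  rarg : ∀ {ψ c} (x : Al M), B ψ c → ρ (fun a => ψ (a * x)) = fun a => ρ ψ (a * x)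
  rval : ∀ {ψ c} (x : Al M), B ψ c → ρ (fun a => ψ a * x) = fun a => ρ ψ a * x
  id : ρ (fun a => a) = fun a => a

/-- Left module maps. -/
def Mod (ψ : Al M → Al M) : Prop := ∀ a, ψ a = a * ψ 1

/-- Averaging along a finite family with `∑ b_j a_j = 1`. -/
noncomputable def fam {κ : Type*} [Fintype κ] (b a : κ → Al M) (ψ : Al M → Al M) (y : Al M) :
    Al M := ∑ j, b j * ψ (a j * y)

variable {B : (Al M → Al M) → ℝ → Prop}

/-- `Gauge.lim` for an arbitrary index type (push the ultrafilter forward along `Ψ`). -/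
theorem Gauge.lim' (hB : Gauge B) {ι : Type*} (U : Ultrafilter ι) {Ψ : ι → Al M → Al M}
    {ψ : Al M → Al M} {c : ℝ} (h1 : ∀ᶠ i in U, B (Ψ i) c)
    (h2 : ∀ a, WL (U : Filter ι) (fun i => Ψ i a) (ψ a)) : B ψ c := by
  refine hB.lim (U.map Ψ) ψ c ?_ fun a ξ η => ?_
  · rw [Ultrafilter.coe_map, eventually_map]; exact h1
  · rw [Ultrafilter.coe_map, tendsto_map'_iff]; exact h2 a ξ η

theorem Avg.refl : Avg B fun ψ => ψ := ⟨fun h => h, fun _ _ => rfl, fun _ _ => rfl,
  fun _ _ => rfl, fun _ _ => rfl, rfl⟩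

theorem Avg.comp {ρ σ : (Al M → Al M) → Al M → Al M} (hρ : Avg B ρ) (hσ : Avg B σ) :
    Avg B fun ψ => ρ (σ ψ) := by
  refine ⟨fun h => hρ.bnd (hσ.bnd h), fun h h' => ?_, fun t h => ?_, fun x h => ?_,
    fun x h => ?_, ?_⟩
  · rw [hσ.add h h', hρ.add (hσ.bnd h) (hσ.bnd h')]
  · rw [hσ.smul t h, hρ.smul t (hσ.bnd h)]
  · rw [hσ.rarg x h, hρ.rarg x (hσ.bnd h)]
  · rw [hσ.rval x h, hρ.rval x (hσ.bnd h)]
  · rw [hσ.id, hρ.id]

theorem Avg.fam {κ : Type*} [Fintype κ] {b a : κ → Al M} (hab : ∑ j, b j * a j = 1)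
    (hbnd : ∀ ψ c, B ψ c → B (fam b a ψ) c) : Avg B (fam b a) := by
  refine ⟨fun h => hbnd _ _ h, fun _ _ => ?_, fun t _ => ?_, fun x _ => ?_, fun x _ => ?_, ?_⟩
  · funext y; simp only [R121.fam, mul_add, Finset.sum_add_distrib]
  · funext y; simp only [R121.fam, mul_smul_comm, Finset.smul_sum]
  · funext y; simp only [R121.fam, mul_assoc]
  · funext y; simp only [R121.fam, mul_assoc, Finset.sum_mul]
  · funext y
    simp only [R121.fam, ← mul_assoc]
    rw [← Finset.sum_mul, hab, one_mul]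

/-- Averaging operators fix module maps (`ψ = fun a => a * ψ 1`, use `rval` and `id`). -/
theorem Avg.fix (hB : Gauge B) {ρ : (Al M → Al M) → Al M → Al M} (hρ : Avg B ρ)
    {ψ : Al M → Al M} (h : Mod ψ) : ρ ψ = ψ := by
  have e : ψ = fun a => (fun a => a) a * ψ 1 := funext h
  have h1 := hρ.rval (ψ 1) hB.id
  rw [hρ.id] at h1
  rw [e]
  exact h1

/-- Ultralimits of averaging operators: `ρ ψ a` is a choice of weak limit of `R i ψ a` when it
exists (`Classical.epsilon`/`if h : ∃ y, WL .. y then h.choose else 0`); properties by `WL.unique`. -/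
theorem exists_Avg_lim (hB : Gauge B) {ι : Type*} (U : Ultrafilter ι)
    (R : ι → (Al M → Al M) → Al M → Al M) (hR : ∀ i, Avg B (R i)) :
    ∃ ρ, Avg B ρ ∧ ∀ ψ c, B ψ c → ∀ a, WL (U : Filter ι) (fun i => R i ψ a) (ρ ψ a) := by
  classical
  let ρ : (Al M → Al M) → Al M → Al M := fun ψ a =>
    if h : ∃ y, WL (U : Filter ι) (fun i => R i ψ a) y then h.choose else 0
  have key : ∀ ψ c, B ψ c → ∀ a, WL (U : Filter ι) (fun i => R i ψ a) (ρ ψ a) := by
    intro ψ c h a
    have hex : ∃ y, WL (U : Filter ι) (fun i => R i ψ a) y :=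
      exists_WL U _ (c * ‖a‖) (Eventually.of_forall fun i => hB.le ((hR i).bnd h) a)
    simp only [ρ, dif_pos hex]
    exact hex.choose_spec
  refine ⟨ρ, ⟨fun h => ?_, fun h h' => ?_, fun t h => ?_, fun x h => ?_, fun x h => ?_, ?_⟩, key⟩
  · exact hB.lim' U (Eventually.of_forall fun i => (hR i).bnd h) (key _ _ h)
  · funext a
    exact (key _ _ (hB.add h h') a).unique
      (((key _ _ h a).add (key _ _ h' a)).congr fun i => by rw [(hR i).add h h'])
  · funext a
    exact (key _ _ (hB.smul t h) a).unique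
      (((key _ _ h a).smul t).congr fun i => by rw [(hR i).smul t h])
  · funext a
    exact (key _ _ (hB.rarg x h) a).unique
      ((key _ _ h (a * x)).congr fun i => by rw [(hR i).rarg x h])
  · funext a
    exact (key _ _ (hB.rval x h) a).unique
      (((key _ _ h a).mul_right x).congr fun i => by rw [(hR i).rval x h])
  · funext a
    exact (key _ _ hB.id a).unique ((WL.const _ a).congr fun i => by rw [(hR i).id])

/-- One averaging operator for all maps at once. Proof: by induction on finite sets `s` of maps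
there is `ρ_s` making all gauge-bounded `ψ ∈ s` modular (compose; `Avg.fix`); take the limit along
`fU`; `Mod` passes to weak limits (`WL.mul_left`, `WL.unique`, `fU_mem`). -/
theorem exists_Avg_all (hB : Gauge B) (h : ∀ ψ c, B ψ c → ∃ ρ, Avg B ρ ∧ Mod (ρ ψ)) :
    ∃ ρ, Avg B ρ ∧ ∀ ψ c, B ψ c → Mod (ρ ψ) := by
  classical
  have hs : ∀ s : Finset (Al M → Al M),
      ∃ ρ, Avg B ρ ∧ ∀ ψ ∈ s, ∀ c, B ψ c → Mod (ρ ψ) := by
    intro s
    induction s using Finset.induction_on with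
    | empty => exact ⟨_, Avg.refl, fun _ h => absurd h (Finset.notMem_empty _)⟩
    | insert ψ₀ s _ ih =>
      obtain ⟨ρ, hρ, hm⟩ := ih
      by_cases h0 : ∃ c, B ψ₀ c
      · obtain ⟨c₀, h0⟩ := h0
        obtain ⟨σ, hσ, hσm⟩ := h _ _ (hρ.bnd h0)
        refine ⟨fun ψ => σ (ρ ψ), hσ.comp hρ, fun ψ hψ c hc => ?_⟩
        rcases Finset.mem_insert.1 hψ with rfl | hψ
        · exact hσm
        · have := hm ψ hψ c hc
          show Mod (σ (ρ ψ))
          rw [hσ.fix hB this]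
          exact this
      · refine ⟨ρ, hρ, fun ψ hψ c hc => ?_⟩
        rcases Finset.mem_insert.1 hψ with rfl | hψ
        · exact absurd ⟨c, hc⟩ h0
        · exact hm ψ hψ c hc
  choose R hR hRm using hs
  obtain ⟨ρ, hρ, hlim⟩ := exists_Avg_lim hB (fU (Al M → Al M)) R hR
  refine ⟨ρ, hρ, fun ψ c hc a => ?_⟩
  refine (hlim ψ c hc a).unique (((hlim ψ c hc 1).mul_left a).congr' ?_)
  exact (fU_mem ψ).mono fun s hs => (hRm s ψ hs c hc a).symm

theorem avg_sub' (hB : Gauge B) {ρ : (Al M → Al M) → Al M → Al M} (hρ : Avg B ρ)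
    {ψ ψ' : Al M → Al M} {c c' : ℝ} (h : B ψ c) (h' : B ψ' c') :
    (∃ c'', B (fun a => ψ a - ψ' a) c'') ∧
      ρ (fun a => ψ a - ψ' a) = fun a => ρ ψ a - ρ ψ' a := by
  have e : (fun a => ψ a - ψ' a) = fun a => ψ a + (-1 : ℂ) • ψ' a := by
    funext a; rw [neg_one_smul, sub_eq_add_neg]
  rw [e]
  refine ⟨⟨_, hB.add h (hB.smul (-1) h')⟩, ?_⟩
  rw [hρ.add h (hB.smul (-1) h'), hρ.smul (-1) h']
  funext a; simp only [neg_one_smul, sub_eq_add_neg]

theorem avg_pd (hB : Gauge B) {ρ : (Al M → Al M) → Al M → Al M} (hρ : Avg B ρ)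
    (l : List (Al M)) : ∀ Ψ : List (Al M) → Al M → Al M,
    (∀ l' : List (Al M), l'.length + 1 = l.length → ∃ c, B (Ψ l') c) →
    (∃ c, B (fun a => pd (fun l' => Ψ l' a) l) c) ∧
      ρ (fun a => pd (fun l' => Ψ l' a) l) = fun a => pd (fun l' => ρ (Ψ l') a) l := by
  induction l with
  | nil =>
    intro Ψ _
    have e : (fun _ : Al M => (0 : Al M)) = fun a => (0 : ℂ) • (fun a : Al M => a) a := by
      funext a; rw [zero_smul]
    simp only [pd_nil]
    refine ⟨⟨_, e ▸ hB.smul 0 hB.id⟩, ?_⟩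
    conv_lhs => rw [e, hρ.smul 0 hB.id]
    funext a; rw [zero_smul]
  | cons x l ih =>
    intro Ψ hΨ
    cases l with
    | nil =>
      obtain ⟨c, hc⟩ := hΨ [] rfl
      simp only [pd_single]
      exact ⟨⟨_, hB.rval x hc⟩, hρ.rval x hc⟩
    | cons y l =>
      obtain ⟨c, hc⟩ := hΨ (x * y :: l) rfl
      obtain ⟨⟨c', hc'⟩, h2⟩ := ih (fun l' => Ψ (x :: l')) fun l' hl' =>
        hΨ (x :: l') (by simp only [List.length_cons] at hl' ⊢; omega)
      simp only [pd_cons]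
      obtain ⟨h3, h4⟩ := avg_sub' hB hρ hc hc'
      exact ⟨h3, by rw [h4, h2]⟩

/-- Averaging in the first variable kills a cocycle. Proof: `G l = ρ (φ (· :: l)) 1`.
Lemma (induction on `l` generalizing `Ψ : List → Al M → Al M` with `∃ c, B (Ψ l') c` for all `l'`
with `l'.length + 1 = l.length`): `a ↦ pd (fun l' => Ψ l' a) l` is gauge-bounded and
`ρ (fun a => pd (fun l' => Ψ l' a) l) = fun a => pd (fun l' => ρ (Ψ l') a) l`
(differences: `ψ - ψ' = ψ + (-1) • ψ'`). The cocycle identity at `a :: x :: l` reads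
`a φ (x :: l) = φ (a x :: l) - pd (φ (a :: ·)) (x :: l)`; apply `ρ` and evaluate at `1`:
`φ (x :: l) = x G l - pd G (x :: l)`. `‖1‖ ≤ 1` is `norm_one_le'`. -/
theorem cob_of_Avg (hB : Gauge B) (h : ∀ ψ c, B ψ c → ∃ ρ, Avg B ρ ∧ Mod (ρ ψ)) {k : ℕ}
    {φ : List (Al M) → Al M} {c : ℝ} (hML : ML (k + 1) φ) (hφ : Cocycle (k + 1) φ)
    (hb : ∀ l : List (Al M), l.length = k → B (fun a => φ (a :: l)) (c * nrm l)) : Cob k φ c := by
  obtain ⟨ρ, hρ, hm⟩ := exists_Avg_all hB h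
  refine ⟨fun l => ρ (fun a => φ (a :: l)) 1, fun l₁ l₂ hl => ?_, fun l hl => ?_,
    fun l hl => ?_⟩
  · have hlen : ∀ y : Al M, (l₁ ++ y :: l₂).length = k := fun y => by
      simp only [List.length_append, List.length_cons]; omega
    have hlin : ∀ a : Al M, IsLinearMap ℂ fun y => φ (a :: (l₁ ++ y :: l₂)) := fun a =>
      hML (a :: l₁) l₂ (by simp only [List.length_cons]; omega)
    refine ⟨fun y y' => ?_, fun t y => ?_⟩
    · have e : (fun a => φ (a :: (l₁ ++ (y + y') :: l₂))) =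
          fun a => φ (a :: (l₁ ++ y :: l₂)) + φ (a :: (l₁ ++ y' :: l₂)) :=
        funext fun a => (hlin a).map_add y y'
      show ρ (fun a => φ (a :: (l₁ ++ (y + y') :: l₂))) 1 = _
      rw [e, hρ.add (hb _ (hlen y)) (hb _ (hlen y'))]
    · have e : (fun a => φ (a :: (l₁ ++ (t • y) :: l₂))) =
          fun a => t • φ (a :: (l₁ ++ y :: l₂)) :=
        funext fun a => (hlin a).map_smul t y
      show ρ (fun a => φ (a :: (l₁ ++ (t • y) :: l₂))) 1 = _
      rw [e, hρ.smul t (hb _ (hlen y))]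
  · have h1 := hρ.bnd (hb l hl)
    exact (hB.le h1 1).trans (mul_le_of_le_one_right (hB.nonneg h1) norm_one_le')
  · obtain ⟨x, l, rfl⟩ : ∃ x l', l = x :: l' := by
      cases l with
      | nil => simp at hl
      | cons x l => exact ⟨x, l, rfl⟩
    have hl' : l.length = k := by simpa using hl
    obtain ⟨⟨c', hc'⟩, hpd⟩ := avg_pd hB hρ (x :: l) (fun l' a => φ (a :: l')) fun l' h' =>
      ⟨_, hb l' (by simp only [List.length_cons] at h'; omega)⟩
    have e : (fun a => a * φ (x :: l)) =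
        fun a => φ (a * x :: l) - pd (fun l' => φ (a :: l')) (x :: l) := by
      funext a
      have := hφ (a :: x :: l) (by simp [hl'])
      rwa [dd_cons, pd_cons, sub_eq_zero] at this
    have h1 : ρ (fun a => a * φ (x :: l)) = fun a => a * φ (x :: l) :=
      hρ.fix hB fun a => by simp only [one_mul]
    have h2 := hρ.rarg x (hb l hl')
    have h3 := (avg_sub' hB hρ (hB.rarg x (hb l hl')) hc').2
    rw [← e, h1, h2, hpd] at h3
    have h4 := congrFun h3 1
    simp only [one_mul] at h4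
    rw [dd_cons, h4, hm _ _ (hb l hl') x]

end Crest.Agent.R121
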