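import Mathlib

/-!
# R121 (Kadison-Ringrose): basic definitions

`Al M` is the C*-algebra of elements of a von Neumann algebra `M`, `WL F x y` says that `x → y` in
the weak operator topology along the filter `F`, `J ξ a = (a ξ_i)_i`.
-/

set_option autoImplicit false
open Filter Topology
open scoped InnerProductSpace

namespace Crest.Agent.R121

universe u
variable {H : Type u} [NormedAddCommGroup H] [InnerProductSpace ℂ H] [CompleteSpace H]

/-- The elements of `M` as a type. -/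
abbrev Al (M : VonNeumannAlgebra H) : Type u := ↥M.toStarSubalgebra

variable {M : VonNeumannAlgebra H}

theorem mem_iff_comm {x : H →L[ℂ] H} :
    x ∈ M.toStarSubalgebra ↔ ∀ t ∈ M.commutant, t * x = x * t := by
  rw [VonNeumannAlgebra.mem_carrier, ← M.commutant_commutant, SetLike.mem_coe,
    VonNeumannAlgebra.mem_commutant_iff, VonNeumannAlgebra.commutant_commutant]

theorem comm_of_mem (a : Al M) {t : H →L[ℂ] H} (ht : t ∈ M.commutant) :
    t * (a : H →L[ℂ] H) = a * t := mem_iff_comm.1 a.2 t ht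

instance isClosed_Al (M : VonNeumannAlgebra H) :
    IsClosed (M.toStarSubalgebra : Set (H →L[ℂ] H)) := by
  have : (M.toStarSubalgebra : Set (H →L[ℂ] H)) =
      ⋂ t ∈ M.commutant, {x | t * x = x * t} := by
    ext x
    simp only [SetLike.mem_coe, Set.mem_iInter, Set.mem_ofPred_eq]
    exact mem_iff_comm
  rw [this]
  exact isClosed_biInter fun t _ => isClosed_eq (by fun_prop) (by fun_prop)

noncomputable example : CStarAlgebra (Al M) := inferInstance

/-- Application of an element of `M` to a vector. -/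
abbrev ap (a : Al M) (ξ : H) : H := (a : H →L[ℂ] H) ξ

@[simp] theorem ap_mul (a b : Al M) (ξ : H) : ap (a * b) ξ = ap a (ap b ξ) := rfl
@[simp] theorem ap_add (a b : Al M) (ξ : H) : ap (a + b) ξ = ap a ξ + ap b ξ := rfl
@[simp] theorem ap_sub (a b : Al M) (ξ : H) : ap (a - b) ξ = ap a ξ - ap b ξ := rfl
@[simp] theorem ap_neg (a : Al M) (ξ : H) : ap (-a) ξ = - ap a ξ := rfl
@[simp] theorem ap_smul (t : ℂ) (a : Al M) (ξ : H) : ap (t • a) ξ = t • ap a ξ := rfl
@[simp] theorem ap_one (ξ : H) : ap (1 : Al M) ξ = ξ := rfl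
@[simp] theorem ap_zero (ξ : H) : ap (0 : Al M) ξ = 0 := rfl
theorem ap_sum {ι : Type*} (s : Finset ι) (a : ι → Al M) (ξ : H) :
    ap (∑ i ∈ s, a i) ξ = ∑ i ∈ s, ap (a i) ξ := by
  classical
  induction s using Finset.induction_on with
  | empty => simp
  | insert i s hi ih => rw [Finset.sum_insert hi, Finset.sum_insert hi, ap_add, ih]

theorem inner_ap_left (a : Al M) (ξ η : H) : ⟪ap a ξ, η⟫_ℂ = ⟪ξ, ap (star a) η⟫_ℂ :=
  (ContinuousLinearMap.adjoint_inner_right (a : H →L[ℂ] H) ξ η).symm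

theorem inner_ap_right (a : Al M) (ξ η : H) : ⟪ξ, ap a η⟫_ℂ = ⟪ap (star a) ξ, η⟫_ℂ :=
  (ContinuousLinearMap.adjoint_inner_left (a : H →L[ℂ] H) η ξ).symm

theorem norm_ap_le (a : Al M) (ξ : H) : ‖ap a ξ‖ ≤ ‖a‖ * ‖ξ‖ := (a : H →L[ℂ] H).le_opNorm ξ

theorem norm_le_of_ap (a : Al M) {r : ℝ} (hr : 0 ≤ r) (h : ∀ ξ, ‖ap a ξ‖ ≤ r * ‖ξ‖) : ‖a‖ ≤ r :=
  (a : H →L[ℂ] H).opNorm_le_bound hr h

theorem Al_ext {a b : Al M} (h : ∀ ξ, ap a ξ = ap b ξ) : a = b :=
  Subtype.ext (ContinuousLinearMap.ext h)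

theorem Al_ext_inner {a b : Al M} (h : ∀ ξ η, ⟪η, ap a ξ⟫_ℂ = ⟪η, ap b ξ⟫_ℂ) : a = b :=
  Al_ext fun ξ => ext_inner_left ℂ fun η => h ξ η

/-! ### Weak limits -/

/-- `x → y` weakly along `F`. -/
def WL {ι : Type*} (F : Filter ι) (x : ι → Al M) (y : Al M) : Prop :=
  ∀ ξ η : H, Tendsto (fun i => ⟪η, ap (x i) ξ⟫_ℂ) F (𝓝 ⟪η, ap y ξ⟫_ℂ)

section WL
variable {ι : Type*} {F : Filter ι} {x x' : ι → Al M} {y y' : Al M}

theorem WL.unique [F.NeBot] (h : WL F x y) (h' : WL F x y') : y = y' :=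
  Al_ext_inner fun ξ η => tendsto_nhds_unique (h ξ η) (h' ξ η)

theorem WL.const (F : Filter ι) (y : Al M) : WL F (fun _ => y) y := fun _ _ => tendsto_const_nhds

theorem WL.congr' (h : WL F x y) (e : ∀ᶠ i in F, x i = x' i) : WL F x' y := fun ξ η =>
  (h ξ η).congr' (e.mono fun i hi => by simp only [hi])

theorem WL.congr (h : WL F x y) (e : ∀ i, x i = x' i) : WL F x' y :=
  h.congr' (Eventually.of_forall e)

theorem WL.mono {F' : Filter ι} (h : WL F x y) (hF : F' ≤ F) : WL F' x y := fun ξ η =>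
  (h ξ η).mono_left hF

theorem WL.comp {κ : Type*} {G : Filter κ} {f : κ → ι} (h : WL F x y) (hf : Tendsto f G F) :
    WL G (fun k => x (f k)) y := fun ξ η => (h ξ η).comp hf

theorem WL.eq_of_eventually [F.NeBot] (h : WL F x y) (e : ∀ᶠ i in F, x i = y') : y = y' :=
  h.unique ((WL.const F y').congr' (e.mono fun _ hi => hi.symm))

theorem WL.add (h : WL F x y) (h' : WL F x' y') : WL F (fun i => x i + x' i) (y + y') :=
  fun ξ η => by simpa only [ap_add, inner_add_right] using (h ξ η).add (h' ξ η)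

theorem WL.sub (h : WL F x y) (h' : WL F x' y') : WL F (fun i => x i - x' i) (y - y') :=
  fun ξ η => by simpa only [ap_sub, inner_sub_right] using (h ξ η).sub (h' ξ η)

theorem WL.neg (h : WL F x y) : WL F (fun i => - x i) (-y) :=
  fun ξ η => by simpa only [ap_neg, inner_neg_right] using (h ξ η).neg

theorem WL.smul (t : ℂ) (h : WL F x y) : WL F (fun i => t • x i) (t • y) :=
  fun ξ η => by simpa only [ap_smul, inner_smul_right] using (h ξ η).const_mul t

theorem WL.sum {κ : Type*} (s : Finset κ) {x : κ → ι → Al M} {y : κ → Al M}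
    (h : ∀ k ∈ s, WL F (x k) (y k)) : WL F (fun i => ∑ k ∈ s, x k i) (∑ k ∈ s, y k) :=
  fun ξ η => by
    simpa only [ap_sum, inner_sum] using tendsto_finsetSum s fun k hk => h k hk ξ η

theorem WL.mul_left (a : Al M) (h : WL F x y) : WL F (fun i => a * x i) (a * y) :=
  fun ξ η => by simpa only [ap_mul, inner_ap_right a] using h ξ (ap (star a) η)

theorem WL.mul_right (a : Al M) (h : WL F x y) : WL F (fun i => x i * a) (y * a) :=
  fun ξ η => by simpa only [ap_mul] using h (ap a ξ) η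

theorem WL.star (h : WL F x y) : WL F (fun i => star (x i)) (star y) := fun ξ η => by
  have := (Complex.continuous_conj.tendsto _).comp (h η ξ)
  simpa only [Function.comp_def, inner_conj_symm, inner_ap_left] using this

theorem WL.of_tendsto (h : Tendsto x F (𝓝 y)) : WL F x y := fun ξ η => by
  have hc : Continuous fun a : Al M => ⟪η, ap a ξ⟫_ℂ := by
    refine continuous_const.inner ?_
    exact (ContinuousLinearMap.apply ℂ H ξ).continuous.comp continuous_subtype_val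
  exact (hc.tendsto y).comp h

/-- A norm-null perturbation does not change the weak limit. -/
theorem WL.of_sub (h : WL F x y) (h' : Tendsto (fun i => x' i - x i) F (𝓝 0)) : WL F x' y := by
  have := h.add (WL.of_tendsto h')
  simpa using this

theorem WL.norm_ap_le [F.NeBot] (h : WL F x y) (ξ : H) {r : ℝ}
    (e : ∀ᶠ i in F, ‖ap (x i) ξ‖ ≤ r) : ‖ap y ξ‖ ≤ r := by
  obtain ⟨i0, hi0⟩ := e.exists
  have hr : 0 ≤ r := (norm_nonneg _).trans hi0
  have h1 := (h ξ (ap y ξ)).norm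
  have h2 : ‖⟪ap y ξ, ap y ξ⟫_ℂ‖ ≤ ‖ap y ξ‖ * r :=
    le_of_tendsto h1 (e.mono fun i hi =>
      (norm_inner_le_norm _ _).trans (mul_le_mul_of_nonneg_left hi (norm_nonneg _)))
  rw [inner_self_eq_norm_sq_to_K] at h2
  simp only [Complex.coe_algebraMap, norm_pow, Complex.norm_real, norm_norm] at h2
  by_contra hc
  push Not at hc
  nlinarith [norm_nonneg (ap y ξ)]

theorem WL.norm_le [F.NeBot] (h : WL F x y) {r : ℝ} (e : ∀ᶠ i in F, ‖x i‖ ≤ r) : ‖y‖ ≤ r := by
  obtain ⟨i0, hi0⟩ := e.exists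
  have hr : 0 ≤ r := (norm_nonneg _).trans hi0
  refine norm_le_of_ap y hr fun ξ => h.norm_ap_le ξ (e.mono fun i hi => ?_)
  exact (R121.norm_ap_le _ _).trans (mul_le_mul_of_nonneg_right hi (norm_nonneg _))

/-- Bounded families have weak limits along ultrafilters. -/
theorem exists_WL (U : Ultrafilter ι) (x : ι → Al M) (r : ℝ) (h : ∀ᶠ i in U, ‖x i‖ ≤ r) :
    ∃ y, WL (U : Filter ι) x y := by
  obtain ⟨i0, hi0⟩ := h.exists
  have hr : 0 ≤ r := (norm_nonneg _).trans hi0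
  have hb : ∀ ξ η : H, ∀ᶠ i in U, ‖⟪η, ap (x i) ξ⟫_ℂ‖ ≤ r * ‖ξ‖ * ‖η‖ := fun ξ η =>
    h.mono fun i hi => by
      calc _ ≤ ‖η‖ * ‖ap (x i) ξ‖ := norm_inner_le_norm _ _
        _ ≤ ‖η‖ * (r * ‖ξ‖) := mul_le_mul_of_nonneg_left ((norm_ap_le _ _).trans
            (mul_le_mul_of_nonneg_right hi (norm_nonneg _))) (norm_nonneg _)
        _ = _ := by ring
  have hex : ∀ ξ η : H, ∃ c : ℂ, Tendsto (fun i => ⟪η, ap (x i) ξ⟫_ℂ) U (𝓝 c) := fun ξ η => by
    obtain ⟨c, -, hc⟩ := (isCompact_closedBall (0 : ℂ) (r * ‖ξ‖ * ‖η‖)).ultrafilter_le_nhds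
      (U.map fun i => ⟪η, ap (x i) ξ⟫_ℂ) (by
        rw [Ultrafilter.coe_map, le_principal_iff, mem_map]
        exact (hb ξ η).mono fun i hi => by simpa using hi)
    exact ⟨c, hc⟩
  choose L hL using hex
  have hLb : ∀ ξ η, ‖L ξ η‖ ≤ r * ‖ξ‖ * ‖η‖ := fun ξ η => le_of_tendsto (hL ξ η).norm (hb ξ η)
  -- the sesquilinear form, conjugate-linear in `ξ` after conjugation
  let B0 : H →ₗ⋆[ℂ] H →ₗ[ℂ] ℂ := LinearMap.mk₂'ₛₗ (starRingEnd ℂ) (RingHom.id ℂ)
    (fun ξ η => (starRingEnd ℂ) (L ξ η))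
    (fun ξ ξ' η => by
      rw [← map_add]; congr 1
      refine tendsto_nhds_unique (hL _ _) ?_
      simpa only [ap, map_add, inner_add_right] using (hL ξ η).add (hL ξ' η))
    (fun t ξ η => by
      rw [smul_eq_mul, ← map_mul]; congr 1
      refine tendsto_nhds_unique (hL _ _) ?_
      simpa only [ap, map_smul, inner_smul_right] using (hL ξ η).const_mul t)
    (fun ξ η η' => by
      rw [← map_add]; congr 1
      refine tendsto_nhds_unique (hL _ _) ?_
      simpa only [inner_add_left] using (hL ξ η).add (hL ξ η'))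
    (fun t ξ η => by
      have : L ξ (t • η) = (starRingEnd ℂ) t * L ξ η := by
        refine tendsto_nhds_unique (hL _ _) ?_
        simpa only [inner_smul_left] using (hL ξ η).const_mul ((starRingEnd ℂ) t)
      rw [this]; simp)
  let B : H →L⋆[ℂ] H →L[ℂ] ℂ := B0.mkContinuous₂ r fun ξ η => by
    simpa [B0] using hLb ξ η
  let T : H →L[ℂ] H := InnerProductSpace.continuousLinearMapOfBilin B
  have hT : ∀ ξ η, ⟪η, T ξ⟫_ℂ = L ξ η := fun ξ η => by
    rw [← inner_conj_symm, InnerProductSpace.continuousLinearMapOfBilin_apply]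
    simp [B, B0]
  have hTM : T ∈ M.toStarSubalgebra := by
    refine mem_iff_comm.2 fun t ht => ?_
    ext ξ
    refine ext_inner_left ℂ fun η => ?_
    change ⟪η, t (T ξ)⟫_ℂ = ⟪η, T (t ξ)⟫_ℂ
    rw [← ContinuousLinearMap.adjoint_inner_left, hT, hT]
    refine tendsto_nhds_unique (hL _ _) ?_
    refine (hL (t ξ) η).congr fun i => ?_
    rw [ContinuousLinearMap.adjoint_inner_left]
    congr 1
    exact (congrArg (fun S : H →L[ℂ] H => S ξ) (comm_of_mem (x i) ht)).symm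
  exact ⟨⟨T, hTM⟩, fun ξ η => by simpa only [ap, hT] using hL ξ η⟩

end WL

/-! ### Finite sums of vector states -/

/-- `J ξ a = (a ξ_i)_i`, so that `‖J ξ a‖² = ∑ ‖a ξ_i‖² = φ(a* a)` for `φ = ∑ ω_{ξ_i}`. -/
noncomputable def J {κ : Type*} (ξ : κ → H) : Al M →ₗ[ℂ] PiLp 2 (fun _ : κ => H) where
  toFun a := WithLp.toLp 2 fun i => ap a (ξ i)
  map_add' _ _ := rfl
  map_smul' _ _ := rfl

@[simp] theorem J_apply {κ : Type*} (ξ : κ → H) (a : Al M) (i : κ) : J ξ a i = ap a (ξ i) := rfl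

theorem norm_J_sq {κ : Type*} [Fintype κ] (ξ : κ → H) (a : Al M) :
    ‖J ξ a‖ ^ 2 = ∑ i, ‖ap a (ξ i)‖ ^ 2 := by
  rw [PiLp.norm_sq_eq_of_L2]; rfl

theorem inner_J {κ : Type*} [Fintype κ] (ξ : κ → H) (a b : Al M) :
    ⟪J ξ a, J ξ b⟫_ℂ = ∑ i, ⟪ap a (ξ i), ap b (ξ i)⟫_ℂ := by
  rw [PiLp.inner_apply]; rfl

theorem J_adj {κ : Type*} [Fintype κ] (ξ : κ → H) (x a b : Al M) :
    ⟪J ξ (x * a), J ξ b⟫_ℂ = ⟪J ξ a, J ξ (star x * b)⟫_ℂ := by
  simp only [inner_J, ap_mul, inner_ap_left x]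

theorem J_mul_le {κ : Type*} [Fintype κ] (ξ : κ → H) (a b : Al M) :
    ‖J ξ (a * b)‖ ≤ ‖a‖ * ‖J ξ b‖ := by
  refine (pow_le_pow_iff_left₀ (norm_nonneg _) (by positivity) two_ne_zero).1 ?_
  rw [mul_pow, norm_J_sq, norm_J_sq, Finset.mul_sum]
  refine Finset.sum_le_sum fun i _ => ?_
  rw [← mul_pow]
  exact pow_le_pow_left₀ (norm_nonneg _) (norm_ap_le a (ap b (ξ i))) 2

theorem WL.tendsto_inner_J {ι κ : Type*} [Fintype κ] {F : Filter ι} {x : ι → Al M} {y : Al M}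
    (h : WL F x y) (ξ : κ → H) (v : PiLp 2 (fun _ : κ => H)) :
    Tendsto (fun i => ⟪v, J ξ (x i)⟫_ℂ) F (𝓝 ⟪v, J ξ y⟫_ℂ) := by
  simp only [PiLp.inner_apply]
  exact tendsto_finsetSum _ fun k _ => h (ξ k) (v k)

theorem WL.norm_J_le {ι κ : Type*} [Fintype κ] {F : Filter ι} [F.NeBot] {x : ι → Al M}
    {y : Al M} (h : WL F x y) (ξ : κ → H) {r : ℝ} (e : ∀ᶠ i in F, ‖J ξ (x i)‖ ≤ r) :
    ‖J ξ y‖ ≤ r := by
  obtain ⟨i0, hi0⟩ := e.exists
  have hr : 0 ≤ r := (norm_nonneg _).trans hi0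
  have h1 := (h.tendsto_inner_J ξ (J ξ y)).norm
  have h2 : ‖⟪J ξ y, J ξ y⟫_ℂ‖ ≤ ‖J ξ y‖ * r :=
    le_of_tendsto h1 (e.mono fun i hi =>
      (norm_inner_le_norm _ _).trans (mul_le_mul_of_nonneg_left hi (norm_nonneg _)))
  rw [inner_self_eq_norm_sq_to_K] at h2
  simp only [Complex.coe_algebraMap, norm_pow, Complex.norm_real, norm_norm] at h2
  by_contra hc
  push Not at hc
  nlinarith [norm_nonneg (J ξ y)]

/-! ### Sums of families -/

/-- An ultrafilter on finite sets, finer than `atTop`. -/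
noncomputable def fU (ι : Type*) : Ultrafilter (Finset ι) :=
  Ultrafilter.of (atTop : Filter (Finset ι))

theorem fU_le (ι : Type*) : (fU ι : Filter (Finset ι)) ≤ atTop := Ultrafilter.of_le _

theorem fU_sub {ι : Type*} (s : Finset ι) : ∀ᶠ t in (fU ι : Filter (Finset ι)), s ⊆ t :=
  fU_le ι (eventually_ge_atTop s)

theorem fU_mem {ι : Type*} (i : ι) : ∀ᶠ t in (fU ι : Filter (Finset ι)), i ∈ t :=
  (fU_sub {i}).mono fun _ h => h (Finset.mem_singleton_self i)

/-- `P` is the weak limit of the finite partial sums of `p` along `fU`. -/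
def IsSum {ι : Type*} (p : ι → Al M) (P : Al M) : Prop :=
  WL (fU ι : Filter (Finset ι)) (fun s => ∑ i ∈ s, p i) P

/-- A maximal pairwise related family (Zorn). -/
theorem exists_maximal_pairwise {α : Type*} (P : α → Prop) (R : α → α → Prop)
    (hR : ∀ x y, R x y → R y x) :
    ∃ S : Set α, (∀ x ∈ S, P x) ∧ S.Pairwise R ∧ ∀ x, P x → (∀ y ∈ S, R x y) → x ∈ S := by
  obtain ⟨S, hS⟩ := zorn_subset {S : Set α | (∀ x ∈ S, P x) ∧ S.Pairwise R} (fun c hc hch => by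
    refine ⟨⋃₀ c, ⟨?_, ?_⟩, fun s hs => Set.subset_sUnion_of_mem hs⟩
    · rintro x ⟨s, hs, hx⟩
      exact (hc hs).1 x hx
    · rintro x ⟨s, hs, hx⟩ y ⟨t, ht, hy⟩ hxy
      rcases hch.total hs ht with h | h
      · exact (hc ht).2 (h hx) hy hxy
      · exact (hc hs).2 hx (h hy) hxy)
  refine ⟨S, hS.prop.1, hS.prop.2, fun x hx hxS => ?_⟩
  have : insert x S ⊆ S := by
    refine hS.le_of_ge (y := insert x S) ⟨?_, ?_⟩ (Set.subset_insert x S)
    · rintro y (rfl | hy)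
      · exact hx
      · exact hS.prop.1 y hy
    · rintro y (rfl | hy) z (rfl | hz) hyz
      · exact absurd rfl hyz
      · exact hxS z hz
      · exact hR _ _ (hxS y hy)
      · exact hS.prop.2 hy hz hyz
  exact this (Set.mem_insert x S)

/-! ### Algebraic notions (for any star ring) -/

section Alg
variable {A : Type*} [Ring A] [StarRing A]

/-- Partial isometry. -/
def PI (u : A) : Prop := u * star u * u = u

/-- Central projection. -/
def CP (z : A) : Prop := IsStarProjection z ∧ ∀ a, z * a = a * z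

/-- `w_i w_k*` is a system of matrix units with sum `z`; all `w_i` have initial projection `e`. -/
structure MU {ι : Type*} [Fintype ι] [DecidableEq ι] (w : ι → A) (e z : A) : Prop where
  proj : IsStarProjection e
  mul_e : ∀ i, w i * e = w i
  orth : ∀ i k, star (w i) * w k = if i = k then e else 0
  sum : ∑ i, w i * star (w i) = z

end Alg

/-- `z M` is homogeneous of type `I_n`. -/
def P1 (z : Al M) : Prop := ∃ (n : ℕ) (_ : NeZero n) (w : ZMod n → Al M) (e : Al M),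
  MU w e z ∧ ∀ a b : Al M, e * a * e * b * e = e * b * e * a * e

/-- `z M` has a faithful normal quasi-trace and matrix units of arbitrarily large size. -/
def P2 (z : Al M) : Prop :=
  (∃ (m : ℕ) (ξ : Fin m → H) (C : ℝ), 1 ≤ C ∧ (∀ a : Al M, ‖J ξ (star a)‖ ≤ C * ‖J ξ a‖) ∧
    (∀ i, ap z (ξ i) = ξ i) ∧ ∀ a : Al M, J ξ a = 0 → a * z = 0) ∧
  ∀ n0 : ℕ, ∃ (n : ℕ) (_ : NeZero n) (w : ZMod n → Al M) (e : Al M), n0 ≤ n ∧ MU w e z

/-- `z M` is properly infinite. -/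
def P3 (z : Al M) : Prop :=
  ∃ s1 s2 : Al M, star s1 * s1 = z ∧ star s2 * s2 = z ∧ star s1 * s2 = 0

/-- An abstract `C`-quasi-trace on a C*-algebra: `j a` is the GNS vector of `a`. -/
structure QT {A E : Type*} [CStarAlgebra A] [NormedAddCommGroup E] [InnerProductSpace ℂ E]
    (j : A →ₗ[ℂ] E) (C : ℝ) : Prop where
  one_le : 1 ≤ C
  adj : ∀ x a b, ⟪j (x * a), j b⟫_ℂ = ⟪j a, j (star x * b)⟫_ℂ
  mul_le : ∀ a b, ‖j (a * b)‖ ≤ ‖a‖ * ‖j b‖
  star_le : ∀ a, ‖j (star a)‖ ≤ C * ‖j a‖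

theorem QT_J {κ : Type*} [Fintype κ] (ξ : κ → H) {C : ℝ} (hC : 1 ≤ C)
    (h : ∀ a : Al M, ‖J ξ (star a)‖ ≤ C * ‖J ξ a‖) : QT (J (M := M) ξ) C :=
  ⟨hC, J_adj ξ, J_mul_le ξ, h⟩

end Crest.Agent.R121
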