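import Crest.Agent.R121.Avg

/-! # R121: completely bounded maps (task `CB`) -/

set_option autoImplicit false
open Filter Topology
open scoped InnerProductSpace

namespace Crest.Agent.R121

universe u
variable {H : Type u} [NormedAddCommGroup H] [InnerProductSpace ℂ H] [CompleteSpace H]
variable {M : VonNeumannAlgebra H}

/-- The matrix `X` has operator norm `≤ r` (as a map `H^K → H^I`). -/
def MB {I K : Type*} [Fintype I] [Fintype K] (X : I → K → Al M) (r : ℝ) : Prop :=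
  ∀ ξ : K → H, ∑ i, ‖∑ k, ap (X i k) (ξ k)‖ ^ 2 ≤ r ^ 2 * ∑ k, ‖ξ k‖ ^ 2

/-- Completely bounded with cb-norm `≤ c`. -/
def CB (ψ : Al M → Al M) (c : ℝ) : Prop := IsLinearMap ℂ ψ ∧ 0 ≤ c ∧
  ∀ (n m : ℕ) (X : Fin n → Fin m → Al M) (r : ℝ), 0 ≤ r → MB X r →
    MB (fun i k => ψ (X i k)) (c * r)

section
variable {I K L I' K' : Type*} [Fintype I] [Fintype K] [Fintype L] [Fintype I'] [Fintype K']

/-! Hint: `MB X r` (for `0 ≤ r`) is equivalent to `‖mat X‖ ≤ r` for the continuous linear map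
`mat X : PiLp 2 (fun _ : K => H) →L[ℂ] PiLp 2 (fun _ : I => H)`, or to the bilinear bound
`MB_iff_inner`; then sums, products and adjoints are easy. -/

/-- The matrix `X` applied to a vector. -/
noncomputable def cbMv (X : I → K → Al M) (ξ : PiLp 2 fun _ : K => H) : PiLp 2 fun _ : I => H :=
  WithLp.toLp 2 fun i => ∑ k, ap (X i k) (ξ k)

theorem MB_abs {X : I → K → Al M} {r : ℝ} : MB X |r| ↔ MB X r := by simp only [MB, sq_abs]

theorem MB_iff_norm {X : I → K → Al M} {r : ℝ} : MB X r ↔ ∀ ξ, ‖cbMv X ξ‖ ≤ |r| * ‖ξ‖ := by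
  have key : ∀ ξ : PiLp 2 fun _ : K => H, ‖cbMv X ξ‖ ≤ |r| * ‖ξ‖ ↔
      ∑ i, ‖∑ k, ap (X i k) (ξ k)‖ ^ 2 ≤ r ^ 2 * ∑ k, ‖ξ k‖ ^ 2 := fun ξ => by
    rw [← sq_le_sq₀ (norm_nonneg _) (by positivity), mul_pow, sq_abs, PiLp.norm_sq_eq_of_L2,
      PiLp.norm_sq_eq_of_L2]
    rfl
  exact ⟨fun h ξ => (key ξ).2 (h _), fun h ξ => (key (WithLp.toLp 2 ξ)).1 (h _)⟩

theorem cb_sum_le {σ : I' → I} (hσ : Function.Injective σ) {g : I → ℝ} (hg : ∀ i, 0 ≤ g i) :
    ∑ i, g (σ i) ≤ ∑ i, g i := by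
  have := Finset.sum_map Finset.univ ⟨σ, hσ⟩ g
  simp only [Function.Embedding.coeFn_mk] at this
  rw [← this]
  exact Finset.sum_le_sum_of_subset_of_nonneg (Finset.subset_univ _) fun i _ _ => hg i

theorem cb_sum_extend {V W : Type*} [Zero V] [AddCommMonoid W] {τ : K' → K}
    (hτ : Function.Injective τ) (ξ : K' → V) (f : K → V → W) (hf : ∀ k, f k 0 = 0) :
    ∑ k, f k (Function.extend τ ξ 0 k) = ∑ k, f (τ k) (ξ k) :=
  (Fintype.sum_of_injective τ hτ _ _
    (fun k hk => by rw [Function.extend_apply' _ _ _ hk]; exact hf k)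
    fun k => by rw [hτ.extend_apply]).symm

theorem MB_iff_inner {X : I → K → Al M} {r : ℝ} (hr : 0 ≤ r) : MB X r ↔
    ∀ (ξ : K → H) (η : I → H), ‖∑ i, ∑ k, ⟪η i, ap (X i k) (ξ k)⟫_ℂ‖ ≤
      r * Real.sqrt (∑ k, ‖ξ k‖ ^ 2) * Real.sqrt (∑ i, ‖η i‖ ^ 2) := by
  have e : ∀ (ξ : K → H) (η : I → H), ∑ i, ∑ k, ⟪η i, ap (X i k) (ξ k)⟫_ℂ =
      ⟪(WithLp.toLp 2 η : PiLp 2 fun _ : I => H), cbMv X (WithLp.toLp 2 ξ)⟫_ℂ := fun ξ η => by
    simp only [PiLp.inner_apply, cbMv, inner_sum]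
  have n1 : ∀ ξ : K → H, Real.sqrt (∑ k, ‖ξ k‖ ^ 2) =
      ‖(WithLp.toLp 2 ξ : PiLp 2 fun _ : K => H)‖ := fun ξ => (PiLp.norm_eq_of_L2 _).symm
  have n2 : ∀ η : I → H, Real.sqrt (∑ k, ‖η k‖ ^ 2) =
      ‖(WithLp.toLp 2 η : PiLp 2 fun _ : I => H)‖ := fun η => (PiLp.norm_eq_of_L2 _).symm
  simp only [e, n1, n2, MB_iff_norm, abs_of_nonneg hr]
  constructor
  · intro h ξ η
    refine (norm_inner_le_norm _ _).trans ?_
    rw [mul_comm]
    exact mul_le_mul_of_nonneg_right (h _) (norm_nonneg _)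
  · intro h ξ
    have h1 := h ξ.ofLp (cbMv X ξ).ofLp
    simp only [WithLp.toLp_ofLp, inner_self_eq_norm_sq_to_K, Complex.coe_algebraMap, norm_pow,
      Complex.norm_real, norm_norm] at h1
    by_contra hc
    push Not at hc
    nlinarith [mul_nonneg hr (norm_nonneg ξ)]

/-- Submatrix along injections. -/
theorem MB.sub {X : I → K → Al M} {r : ℝ} (h : MB X r) {σ : I' → I} {τ : K' → K}
    (hσ : Function.Injective σ) (hτ : Function.Injective τ) : MB (fun i k => X (σ i) (τ k)) r := by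
  intro ξ
  have h1 := h (Function.extend τ ξ 0)
  rw [cb_sum_extend hτ ξ (fun _ v => ‖v‖ ^ 2) fun _ => by simp] at h1
  refine le_trans ?_ h1
  refine le_trans (le_of_eq ?_) (cb_sum_le hσ fun _ => by positivity)
  refine Finset.sum_congr rfl fun i _ => ?_
  rw [cb_sum_extend hτ ξ (fun k v => ap (X (σ i) k) v) fun _ => map_zero _]

theorem MB.reindex {X : I → K → Al M} {r : ℝ} (h : MB X r) (σ : I' ≃ I) (τ : K' ≃ K) :
    MB (fun i k => X (σ i) (τ k)) r := by
  exact h.sub σ.injective τ.injective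

/-- Padding by zeros along injections. -/
theorem MB.pad {X : I' → K' → Al M} {r : ℝ} (h : MB X r) {σ : I' → I} {τ : K' → K}
    (hσ : Function.Injective σ) (hτ : Function.Injective τ) :
    ∃ X' : I → K → Al M, MB X' r ∧ ∀ i k, X' (σ i) (τ k) = X i k := by
  refine ⟨Function.extend σ (fun i => Function.extend τ (X i) 0) 0, fun ξ => ?_,
    fun i k => by rw [hσ.extend_apply, hτ.extend_apply]⟩
  rw [cb_sum_extend hσ _ (fun _ (Y : K → Al M) => ‖∑ k, ap (Y k) (ξ k)‖ ^ 2) fun _ => by simp]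
  refine le_trans (le_of_eq ?_) ((h fun k => ξ (τ k)).trans (mul_le_mul_of_nonneg_left
    (cb_sum_le hτ (g := fun k => ‖ξ k‖ ^ 2) fun _ => by positivity) (sq_nonneg r)))
  refine Finset.sum_congr rfl fun i _ => ?_
  rw [cb_sum_extend hτ (X i) (fun k x => ap x (ξ k)) fun _ => rfl]

theorem MB.mono {X : I → K → Al M} {r r' : ℝ} (h : MB X r) (hr : 0 ≤ r) (hrr : r ≤ r') :
    MB X r' := by
  intro ξ
  refine (h ξ).trans ?_
  gcongr

theorem MB.star {X : I → K → Al M} {r : ℝ} (h : MB X r) : MB (fun k i => star (X i k)) r := by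
  rw [← MB_abs, MB_iff_inner (abs_nonneg r)] at h ⊢
  intro ξ η
  rw [mul_right_comm, ← Complex.norm_conj, Finset.sum_comm]
  simpa only [map_sum, inner_conj_symm, inner_ap_left, star_star] using h η ξ

theorem MB.add {X X' : I → K → Al M} {r r' : ℝ} (hr : 0 ≤ r) (hr' : 0 ≤ r') (h : MB X r)
    (h' : MB X' r') : MB (fun i k => X i k + X' i k) (r + r') := by
  rw [MB_iff_norm] at h h' ⊢
  intro ξ
  have e : cbMv (fun i k => X i k + X' i k) ξ = cbMv X ξ + cbMv X' ξ := by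
    ext i; simp [cbMv, Finset.sum_add_distrib]
  have h1 := h ξ
  have h2 := h' ξ
  rw [abs_of_nonneg hr] at h1
  rw [abs_of_nonneg hr'] at h2
  rw [e, abs_of_nonneg (add_nonneg hr hr'), add_mul]
  exact (norm_add_le _ _).trans (add_le_add h1 h2)

theorem MB.mul {X : I → K → Al M} {X' : K → L → Al M} {r r' : ℝ} (h : MB X r) (h' : MB X' r') :
    MB (fun i l => ∑ k, X i k * X' k l) (r * r') := by
  rw [MB_iff_norm] at h h' ⊢
  intro ξ
  have e : cbMv (fun i l => ∑ k, X i k * X' k l) ξ = cbMv X (cbMv X' ξ) := by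
    ext i
    simp only [cbMv, ap_sum, ap_mul, map_sum]
    exact Finset.sum_comm
  rw [e, abs_mul, mul_assoc]
  exact (h _).trans (mul_le_mul_of_nonneg_left (h' ξ) (abs_nonneg r))

theorem MB.mul_left {X : I → K → Al M} {r : ℝ} (h : MB X r) (x : Al M) :
    MB (fun i k => x * X i k) (‖x‖ * r) := by
  intro ξ
  rw [mul_pow, mul_assoc]
  refine le_trans ?_ (mul_le_mul_of_nonneg_left (h ξ) (sq_nonneg _))
  rw [Finset.mul_sum]
  refine Finset.sum_le_sum fun i _ => ?_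
  simp only [ap_mul, ← map_sum, ← mul_pow]
  exact pow_le_pow_left₀ (norm_nonneg _) (norm_ap_le _ _) 2

theorem MB.mul_right {X : I → K → Al M} {r : ℝ} (h : MB X r) (x : Al M) :
    MB (fun i k => X i k * x) (r * ‖x‖) := by
  intro ξ
  rw [mul_pow, mul_assoc]
  refine (h fun k => ap x (ξ k)).trans (mul_le_mul_of_nonneg_left ?_ (sq_nonneg _))
  rw [Finset.mul_sum]
  refine Finset.sum_le_sum fun i _ => ?_
  rw [← mul_pow]
  exact pow_le_pow_left₀ (norm_nonneg _) (norm_ap_le _ _) 2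

theorem MB_one {x : Al M} {r : ℝ} (hr : 0 ≤ r) : MB (fun (_ _ : Unit) => x) r ↔ ‖x‖ ≤ r := by
  simp only [MB, Finset.univ_unique, Finset.sum_singleton, ← mul_pow]
  constructor
  · intro h
    exact norm_le_of_ap x hr fun ξ =>
      (sq_le_sq₀ (norm_nonneg _) (by positivity)).1 (h fun _ => ξ)
  · intro h ξ
    exact pow_le_pow_left₀ (norm_nonneg _)
      ((norm_ap_le _ _).trans (mul_le_mul_of_nonneg_right h (norm_nonneg _))) 2

/-- A column: `∑_i ‖m_i ξ‖² = ⟪ξ, (∑ m_i* m_i) ξ⟫`. -/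
theorem MB_col {m : I → Al M} (h : ‖∑ i, star (m i) * m i‖ ≤ 1) :
    MB (fun i (_ : Unit) => m i) 1 := by
  intro ξ
  simp only [Finset.univ_unique, Finset.sum_singleton, one_pow, one_mul]
  generalize ξ default = v
  have e : ∑ i, ‖ap (m i) v‖ ^ 2 = (⟪v, ap (∑ i, star (m i) * m i) v⟫_ℂ).re := by
    rw [ap_sum, inner_sum, Complex.re_sum]
    refine Finset.sum_congr rfl fun i _ => ?_
    rw [ap_mul, ← inner_ap_left, inner_self_eq_norm_sq_to_K]
    norm_cast
  rw [e, sq]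
  refine (Complex.re_le_norm _).trans ((norm_inner_le_norm _ _).trans ?_)
  refine mul_le_mul_of_nonneg_left ((norm_ap_le _ _).trans ?_) (norm_nonneg _)
  exact mul_le_of_le_one_left (norm_nonneg _) h

theorem MB.of_WL {ι : Type*} {F : Filter ι} [F.NeBot] {X : ι → I → K → Al M} {X' : I → K → Al M}
    {r : ℝ} (h1 : ∀ᶠ n in F, MB (X n) r) (h2 : ∀ i k, WL F (fun n => X n i k) (X' i k)) :
    MB X' r := by
  rw [← MB_abs, MB_iff_inner (abs_nonneg r)]
  intro ξ η
  refine le_of_tendsto (tendsto_finsetSum _ fun i _ => tendsto_finsetSum _ fun k _ =>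
    h2 i k (ξ k) (η i)).norm (h1.mono fun n hn => ?_)
  exact (MB_iff_inner (abs_nonneg r)).1 (MB_abs.2 hn) ξ η

/-- `CB` for arbitrary finite index types (`Fintype.equivFin`, `MB.reindex`). -/
theorem CB.mat {ψ : Al M → Al M} {c : ℝ} (h : CB ψ c) {X : I → K → Al M} {r : ℝ} (hr : 0 ≤ r)
    (hX : MB X r) : MB (fun i k => ψ (X i k)) (c * r) := by
  simpa using (h.2.2 _ _ _ r hr
    (hX.reindex (Fintype.equivFin I).symm (Fintype.equivFin K).symm)).reindex
      (Fintype.equivFin I) (Fintype.equivFin K)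

theorem MB.smul {X : I → K → Al M} {r : ℝ} (h : MB X r) (t : ℂ) :
    MB (fun i k => t • X i k) (‖t‖ * r) := by
  intro ξ
  simp only [ap_smul, ← Finset.smul_sum, norm_smul, mul_pow, ← Finset.mul_sum, mul_assoc]
  exact mul_le_mul_of_nonneg_left (h ξ) (sq_nonneg _)

theorem gauge_CB : Gauge (CB (M := M)) := by
  refine ⟨fun h => h.1, fun h => h.2.1, fun h a => ?_, fun h h' => ?_, fun t h => ?_,
    fun x h => ?_, fun x h => ?_, ?_, fun U ψ c h1 h2 => ?_⟩
  · exact (MB_one (mul_nonneg h.2.1 (norm_nonneg a))).1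
      (h.mat (norm_nonneg a) ((MB_one (norm_nonneg a)).2 le_rfl))
  · refine ⟨⟨fun x y => by rw [h.1.map_add, h'.1.map_add]; abel,
      fun t x => by rw [h.1.map_smul, h'.1.map_smul, smul_add]⟩, add_nonneg h.2.1 h'.2.1,
      fun n m X r hr hX => ?_⟩
    rw [add_mul]
    exact (h.mat hr hX).add (mul_nonneg h.2.1 hr) (mul_nonneg h'.2.1 hr) (h'.mat hr hX)
  · refine ⟨⟨fun x y => by rw [h.1.map_add, smul_add],
      fun s x => by rw [h.1.map_smul, smul_comm]⟩, mul_nonneg (norm_nonneg t) h.2.1,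
      fun n m X r hr hX => ?_⟩
    rw [mul_assoc]
    exact (h.mat hr hX).smul t
  · refine ⟨⟨fun a b => by rw [add_mul, h.1.map_add],
      fun s a => by rw [smul_mul_assoc, h.1.map_smul]⟩, mul_nonneg h.2.1 (norm_nonneg x),
      fun n m X r hr hX => ?_⟩
    rw [mul_assoc, mul_comm _ r]
    exact h.mat (mul_nonneg hr (norm_nonneg x)) (hX.mul_right x)
  · refine ⟨⟨fun a b => by rw [h.1.map_add, add_mul],
      fun s a => by rw [h.1.map_smul, smul_mul_assoc]⟩, mul_nonneg h.2.1 (norm_nonneg x),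
      fun n m X r hr hX => ?_⟩
    rw [mul_right_comm]
    exact (h.mat hr hX).mul_right x
  · exact ⟨⟨fun _ _ => rfl, fun _ _ => rfl⟩, zero_le_one, fun n m X r _ hX => by rwa [one_mul]⟩
  · obtain ⟨ψ₀, h₀⟩ := h1.exists
    refine ⟨⟨fun a b => (h2 _).unique (((h2 a).add (h2 b)).congr' (h1.mono fun ψ' h => ?_)),
      fun t a => (h2 _).unique (((h2 a).smul t).congr' (h1.mono fun ψ' h => ?_))⟩, h₀.2.1,
      fun n m X r hr hX => MB.of_WL (h1.mono fun ψ' h => h.mat hr hX) fun i k => h2 _⟩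
    · exact (h.1.map_add a b).symm
    · exact (h.1.map_smul t a).symm

theorem CB.mul_left {ψ : Al M → Al M} {c : ℝ} (h : CB ψ c) (x : Al M) :
    CB (fun a => x * ψ a) (‖x‖ * c) := by
  refine ⟨⟨fun a b => by rw [h.1.map_add, mul_add],
    fun s a => by rw [h.1.map_smul, mul_smul_comm]⟩, mul_nonneg (norm_nonneg x) h.2.1,
    fun n m X r hr hX => ?_⟩
  rw [mul_assoc]
  exact (h.mat hr hX).mul_left x

theorem CB.larg {ψ : Al M → Al M} {c : ℝ} (h : CB ψ c) (x : Al M) :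
    CB (fun a => ψ (x * a)) (c * ‖x‖) := by
  refine ⟨⟨fun a b => by rw [mul_add, h.1.map_add],
    fun s a => by rw [mul_smul_comm, h.1.map_smul]⟩, mul_nonneg h.2.1 (norm_nonneg x),
    fun n m X r hr hX => ?_⟩
  rw [mul_assoc]
  exact h.mat (mul_nonneg (norm_nonneg x) hr) (hX.mul_left x)

theorem CB.mono {ψ : Al M → Al M} {c c' : ℝ} (h : CB ψ c) (hc : c ≤ c') : CB ψ c' := by
  exact ⟨h.1, h.2.1.trans hc, fun n m X r hr hX =>
    (h.mat hr hX).mono (mul_nonneg h.2.1 hr) (mul_le_mul_of_nonneg_right hc hr)⟩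

theorem MB.col_mul {m : L → Al M} (hm : ‖∑ j, Star.star (m j) * m j‖ ≤ 1) {X : I → K → Al M}
    {r : ℝ} (h : MB X r) : MB (fun (p : I × L) k => m p.2 * X p.1 k) r := by
  intro ξ
  refine le_trans ?_ (h ξ)
  rw [Fintype.sum_prod_type]
  refine Finset.sum_le_sum fun i _ => ?_
  simpa only [Finset.univ_unique, Finset.sum_singleton, one_pow, one_mul, map_sum, ap_mul]
    using MB_col hm fun _ => ∑ k, ap (X i k) (ξ k)

theorem MB.row_mul {m : L → Al M} (hm : ‖∑ j, Star.star (m j) * m j‖ ≤ 1) {Z : I × L → K → Al M}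
    {r : ℝ} (h : MB Z r) : MB (fun i k => ∑ j, Star.star (m j) * Z (i, j) k) r := by
  intro ξ
  refine le_trans ?_ (h ξ)
  rw [Fintype.sum_prod_type]
  refine Finset.sum_le_sum fun i _ => ?_
  have := (MB_col hm).star fun j => ∑ k, ap (Z (i, j) k) (ξ k)
  simp only [Finset.univ_unique, Finset.sum_singleton, one_pow, one_mul, map_sum] at this
  simp only [ap_sum, ap_mul]
  rwa [Finset.sum_comm]

/-- `∑_j m_j* ψ (m_j X_{ik})` is (row) · `ψ`(column · `X`): the matrix `Z_{(j,i),k} = m_j X_{ik}` has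
`MB Z r` (apply the column bound to each vector `∑_k X_{ik} ξ_k`), so `ψ Z` has `MB _ (c r)`, and the
row `(m_j*)_j` is contractive (`MB.star`). -/
theorem CB.fam {ψ : Al M → Al M} {c : ℝ} (h : CB ψ c) {m : I → Al M}
    (hm : ‖∑ i, star (m i) * m i‖ ≤ 1) : CB (fam (fun i => star (m i)) m ψ) c := by
  refine ⟨⟨fun a b => ?_, fun s a => ?_⟩, h.2.1, fun n k X r hr hX =>
    (h.mat hr (hX.col_mul hm)).row_mul hm⟩
  · simp only [R121.fam, mul_add, h.1.map_add, Finset.sum_add_distrib]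
  · simp only [R121.fam, mul_smul_comm, h.1.map_smul, Finset.smul_sum]

end

end Crest.Agent.R121
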