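import Crest.Agent.R121.Proj

/-! # R121: approximation by projections, domination lemma (task `Spec`) -/

set_option autoImplicit false
open Filter Topology
open scoped InnerProductSpace

namespace Crest.Agent.R121

universe u
variable {H : Type u} [NormedAddCommGroup H] [InnerProductSpace ℂ H] [CompleteSpace H]
variable {M : VonNeumannAlgebra H}

section Gen
variable {A : Type*} [CStarAlgebra A] [PartialOrder A] [StarOrderedRing A]

/-- One step of the dyadic spectral approximation. -/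
theorem spec_step
    (hS : ∀ x : A, ∃ e : A, IsStarProjection e ∧ e * x = x ∧ ∀ y, y * x = 0 → y * e = 0)
    {p a : A} (hp : IsStarProjection p) {r : ℝ} (hr : 0 ≤ r) (ha : 0 ≤ a)
    (har : a ≤ algebraMap ℝ A (2 * r)) (hpa : p * a = a) :
    ∃ e : A, IsStarProjection e ∧ p * e = e ∧ e * a = a * e ∧ 0 ≤ a - r • e ∧
      a - r • e ≤ algebraMap ℝ A r := by
  have hb : IsSelfAdjoint (a - r • (1 : A)) := by
    refine ha.isSelfAdjoint.sub ?_
    rw [← Algebra.algebraMap_eq_smul_one]
    exact IsSelfAdjoint.algebraMap A (IsSelfAdjoint.all r)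
  obtain ⟨u, v, hu, hv, huv, hd⟩ : ∃ u v : A, 0 ≤ u ∧ 0 ≤ v ∧ v * u = 0 ∧ a = u - v + r • (1 : A) :=
    ⟨_, _, CFC.posPart_nonneg (a - r • (1 : A)), CFC.negPart_nonneg (a - r • (1 : A)),
      CFC.negPart_mul_posPart _, by rw [CFC.posPart_sub_negPart _ hb, sub_add_cancel]⟩
  obtain ⟨e, he, heu, hmin⟩ := hS u
  have hve : v * e = 0 := hmin v huv
  have hev : e * v = 0 := by simpa [star_mul, proj_star he, hv.star_eq] using congrArg star hve
  have hue : u * e = u := by simpa [star_mul, proj_star he, hu.star_eq] using congrArg star heu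
  have huv' : u * v = 0 := by simpa [star_mul, hu.star_eq, hv.star_eq] using congrArg star huv
  have hee := proj_mul_self he
  have hea : e * a = u + r • e := by
    rw [hd, mul_add, mul_sub, heu, hev, sub_zero, mul_smul_comm, mul_one]
  have hae : a * e = u + r • e := by
    rw [hd, add_mul, sub_mul, hue, hve, sub_zero, smul_mul_assoc, one_mul]
  refine ⟨e, he, ?_, hea.trans hae.symm, ?_, ?_⟩
  · have hap : a * p = a := by simpa [star_mul, proj_star hp, ha.star_eq] using congrArg star hpa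
    have hq : a * (1 - p) = 0 := by rw [mul_sub, hap, mul_one, sub_self]
    have huu : u * u = u * a - r • u := by
      rw [hd, mul_add, mul_sub, huv', sub_zero, mul_smul_comm, mul_one, add_sub_cancel_right]
    have h1 : star (u * (1 - p)) * (u * (1 - p)) = -(r • ((1 - p) * u * (1 - p))) := by
      rw [star_mul, proj_star hp.one_sub, hu.star_eq, mul_assoc, ← mul_assoc u u, huu, sub_mul (u * a),
        mul_assoc u a, hq, mul_zero, zero_sub, smul_mul_assoc, mul_neg, mul_smul_comm, mul_assoc]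
    have h2 : star (u * (1 - p)) * (u * (1 - p)) = 0 := by
      refine le_antisymm ?_ (star_mul_self_nonneg _)
      rw [h1, neg_nonpos]
      exact smul_nonneg hr (hp.one_sub.isSelfAdjoint.conjugate_nonneg hu)
    have h3 : u * (1 - p) = 0 := (CStarRing.star_mul_self_eq_zero_iff _).1 h2
    have h4 : (1 - p) * u = 0 := by
      have := congrArg star h3
      rwa [star_mul, proj_star hp.one_sub, hu.star_eq, star_zero] at this
    have h5 := hmin _ h4
    rw [sub_mul, one_mul, sub_eq_zero] at h5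
    exact h5.symm
  · have : a - r • e = u + (1 - e) * a * (1 - e) := by
      rw [sub_mul, one_mul, mul_sub, mul_one, sub_mul, hae, hea, add_mul, hue, smul_mul_assoc, hee]
      abel
    rw [this]
    exact add_nonneg hu (he.one_sub.isSelfAdjoint.conjugate_nonneg ha)
  · have : algebraMap ℝ A r - (a - r • e) = e * (algebraMap ℝ A (2 * r) - a) * e + v := by
      rw [mul_sub, sub_mul, hea, add_mul, hue, smul_mul_assoc, hee, Algebra.algebraMap_eq_smul_one,
        Algebra.algebraMap_eq_smul_one, mul_smul_comm, mul_one, smul_mul_assoc, hee, two_mul,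
        add_smul]
      conv_lhs => rw [hd]
      abel
    rw [← sub_nonneg, this]
    exact add_nonneg (he.isSelfAdjoint.conjugate_nonneg (sub_nonneg.2 har)) hv

theorem spec_cone
    (hS : ∀ x : A, ∃ e : A, IsStarProjection e ∧ e * x = x ∧ ∀ y, y * x = 0 → y * e = 0)
    {S : Set A} (hc : IsClosed S) (h0 : (0 : A) ∈ S)
    (hadd : ∀ a ∈ S, ∀ b ∈ S, a + b ∈ S) (hsmul : ∀ t : ℝ, 0 ≤ t → ∀ a ∈ S, (t : ℂ) • a ∈ S)
    {p : A} (hp : IsStarProjection p)
    (hproj : ∀ e : A, IsStarProjection e → p * e = e → e ∈ S)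
    {a : A} (ha : 0 ≤ a) (hpa : p * a = a) : a ∈ S := by
  have key : ∀ (k : ℕ) (r : ℝ) (a : A), 0 ≤ r → 0 ≤ a → a ≤ algebraMap ℝ A r → p * a = a →
      ∃ s ∈ S, ‖a - s‖ ≤ r * (1 / 2) ^ k := by
    intro k
    induction k with
    | zero =>
      intro r a hr ha har _
      exact ⟨0, h0, by simpa using (CStarAlgebra.norm_le_iff_le_algebraMap a hr ha).2 har⟩
    | succ k ih =>
      intro r a hr ha har hpa
      obtain ⟨e, he, hpe, -, h1, h2⟩ := spec_step hS hp (r := r / 2) (by positivity) ha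
        (by rwa [mul_div_cancel₀ _ two_ne_zero]) hpa
      obtain ⟨s, hs, hn⟩ := ih (r / 2) _ (by positivity) h1 h2
        (by rw [mul_sub, hpa, mul_smul_comm, hpe])
      refine ⟨((r / 2 : ℝ) : ℂ) • e + s, hadd _ (hsmul _ (by positivity) _ (hproj e he hpe)) _ hs, ?_⟩
      rw [Complex.coe_smul, ← sub_sub]
      refine hn.trans (le_of_eq ?_)
      ring
  rw [← hc.closure_eq, Metric.mem_closure_iff]
  intro ε hε
  have ht : Tendsto (fun k : ℕ => ‖a‖ * (1 / 2 : ℝ) ^ k) atTop (𝓝 (‖a‖ * 0)) :=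
    (tendsto_pow_atTop_nhds_zero_of_lt_one (by norm_num) (by norm_num)).const_mul _
  rw [mul_zero] at ht
  obtain ⟨k, hk⟩ := (ht.eventually (gt_mem_nhds hε)).exists
  obtain ⟨s, hs, hn⟩ := key k ‖a‖ a (norm_nonneg _) ha
    (IsSelfAdjoint.le_algebraMap_norm_self ha.isSelfAdjoint) hpa
  exact ⟨s, hs, by rw [dist_eq_norm]; exact hn.trans_lt hk⟩

theorem spec_ideal
    (hS : ∀ x : A, ∃ e : A, IsStarProjection e ∧ e * x = x ∧ ∀ y, y * x = 0 → y * e = 0)
    {b : A} (hb : b ≠ 0) : ∃ d : A, IsStarProjection (b * d) ∧ b * d ≠ 0 := by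
  have ha : 0 ≤ b * star b := mul_star_self_nonneg b
  have hn : 0 < ‖b * star b‖ := by
    rw [CStarRing.norm_self_mul_star]
    exact mul_pos (norm_pos_iff.2 hb) (norm_pos_iff.2 hb)
  set a := b * star b with hadef
  obtain ⟨e, he, -, hea, h1, h2⟩ := spec_step hS (IsStarProjection.one A) (r := ‖a‖ / 2)
    (by positivity) ha (by
      rw [mul_div_cancel₀ _ two_ne_zero]
      exact IsSelfAdjoint.le_algebraMap_norm_self ha.isSelfAdjoint) (one_mul a)
  have hee := proj_mul_self he
  have he0 : e ≠ 0 := by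
    rintro rfl
    rw [smul_zero, sub_zero] at h2
    have := (CStarAlgebra.norm_le_iff_le_algebraMap a (by positivity) ha).2 h2
    linarith
  have hle : algebraMap ℝ A (‖a‖ / 2) ≤ a * e + (‖a‖ / 2) • (1 - e) := by
    have : a * e + (‖a‖ / 2) • (1 - e) - algebraMap ℝ A (‖a‖ / 2) = e * (a - (‖a‖ / 2) • e) * e := by
      rw [Algebra.algebraMap_eq_smul_one, mul_sub, sub_mul, hea, mul_assoc a, hee, mul_smul_comm, hee,
        smul_mul_assoc, hee, smul_sub]
      abel
    rw [← sub_nonneg, this]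
    exact he.isSelfAdjoint.conjugate_nonneg h1
  have hu : IsUnit (a * e + (‖a‖ / 2) • (1 - e)) :=
    CStarAlgebra.isUnit_of_le _ hle (isStrictlyPositive_algebraMap (by positivity))
  obtain ⟨g, hg⟩ := hu.exists_right_inv
  have hfin : b * (star b * e * g) = e := by
    have : e * (a * e + (‖a‖ / 2) • (1 - e)) = a * e := by
      rw [mul_add, ← mul_assoc, hea, mul_assoc, hee, mul_smul_comm, mul_sub, mul_one, hee, sub_self,
        smul_zero, add_zero]
    calc b * (star b * e * g) = a * e * g := by simp only [hadef, mul_assoc]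
      _ = e := by rw [← this, mul_assoc, hg, mul_one]
  exact ⟨_, hfin.symm ▸ he, hfin.symm ▸ he0⟩

end Gen

theorem spec_supp (x : Al M) :
    ∃ e : Al M, IsStarProjection e ∧ e * x = x ∧ ∀ y, y * x = 0 → y * e = 0 := by
  obtain ⟨e, he, h1, h2⟩ := exists_range ({x} : Set (Al M))
  exact ⟨e, he, h1 x rfl, fun y hy => h2 y fun z hz => by rw [hz]; exact hy⟩

theorem spec_J_cont {κ : Type*} [Fintype κ] (ξ : κ → H) : Continuous (J (M := M) ξ) :=
  AddMonoidHomClass.continuous_of_bound (J (M := M) ξ) ‖J (M := M) ξ 1‖ fun a => by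
    simpa [mul_comm] using J_mul_le ξ a 1

theorem spec_J_sq {κ : Type*} [Fintype κ] (ξ : κ → H) (a : Al M) :
    ‖J ξ a‖ ^ 2 = (⟪J ξ (1 : Al M), J ξ (star a * a)⟫_ℂ).re := by
  rw [← J_adj, mul_one, inner_self_eq_norm_sq_to_K]; norm_cast

/-- Positive elements under `p` are norm limits of nonnegative combinations of projections under
`p`. Proof (use `let _ := CStarAlgebra.spectralOrder (Al M)`, `CStarAlgebra.spectralOrderedRing`, or
work with the Loewner order): ONE-STEP LEMMA: if `0 ≤ a`, `‖a‖ ≤ r`, `p a = a` there is a projection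
`e` with `p e = e`, `0 ≤ a - (r/2) e`, `‖a - (r/2) e‖ ≤ r/2`. Indeed `b = a - r/2` is self-adjoint,
`‖b‖ ≤ r/2`, `b = b⁺ - b⁻`, `b⁺ b⁻ = 0`; `e` = left support of `b⁺` (`exists_range {b⁺}`), so
`e b⁺ = b⁺`, `b⁻ e = 0`; `a - (r/2) e = b⁺ + (1 - e)(r/2 - b⁻)(1 - e) ≥ 0` and
`r/2 - (a - (r/2) e) = e (r/2 - b⁺) e + b⁻ ≥ 0`. Finally `(1 - p) b⁺ = 0`, because
`(1-p) b⁺ b⁺ (1-p) = (1-p) b⁺ b (1-p) = -(r/2) (1-p) b⁺ (1-p) ≤ 0`, hence `(1 - p) e = 0`.
Iterating, `a = (element of S) + a_k` with `‖a_k‖ ≤ r / 2^k`. -/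
theorem cone_induction {S : Set (Al M)} (hS : IsClosed S) (h0 : (0 : Al M) ∈ S)
    (hadd : ∀ a ∈ S, ∀ b ∈ S, a + b ∈ S) (hsmul : ∀ t : ℝ, 0 ≤ t → ∀ a ∈ S, (t : ℂ) • a ∈ S)
    {p : Al M} (hp : IsStarProjection p)
    (hproj : ∀ e : Al M, IsStarProjection e → p * e = e → e ∈ S)
    {x : Al M} (hx : x * p = x) : star x * x ∈ S := by
  let _ := CStarAlgebra.spectralOrder (Al M)
  have := CStarAlgebra.spectralOrderedRing (Al M)
  refine spec_cone (A := Al M) spec_supp hS h0 hadd hsmul hp hproj (star_mul_self_nonneg x) ?_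
  have : p * star x = star x := by simpa [star_mul, proj_star hp] using congrArg star hx
  rw [← mul_assoc, this]

/-- Projections under `p` span a dense subspace of `p M p`
(polarisation: `4 a = ∑_k i^k (p + i^{-k}... )`, i.e. `a = p a p` is a combination of four
`x* x` with `x = p + i^k a` or `x = p + i^k a*`). -/
theorem span_induction (S : Submodule ℂ (Al M)) (hS : IsClosed (S : Set (Al M)))
    {p : Al M} (hp : IsStarProjection p)
    (hproj : ∀ e : Al M, IsStarProjection e → p * e = e → e ∈ S)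
    {a : Al M} (h1 : p * a = a) (h2 : a * p = a) : a ∈ S := by
  have h3 : star a * p = star a := by simpa [star_mul, proj_star hp] using congrArg star h1
  have key : ∀ t : ℂ, p + t • a + ((starRingEnd ℂ) t • star a + ((starRingEnd ℂ) t * t) •
      (star a * a)) ∈ S := fun t => by
    have := cone_induction (S := (S : Set (Al M))) hS S.zero_mem (fun a ha b hb => S.add_mem ha hb)
      (fun t _ a ha => S.smul_mem _ ha) hp hproj (x := p + t • a)
      (by rw [add_mul, proj_mul_self hp, smul_mul_assoc, h2])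
    rw [star_add, star_smul, proj_star hp, add_mul, mul_add, mul_add, proj_mul_self hp,
      mul_smul_comm, h1, smul_mul_assoc, h3, smul_mul_smul_comm] at this
    exact this
  have := S.smul_mem (1 / 4 : ℂ) (S.add_mem (S.sub_mem (key 1) (key (-1)))
    (S.smul_mem Complex.I (S.sub_mem (key (-Complex.I)) (key Complex.I))))
  convert this using 1
  simp only [map_one, map_neg, Complex.conj_I]
  match_scalars <;> ring_nf <;> norm_num

/-- A nonzero right ideal `b M` contains a nonzero projection. Proof: `a = b b* ≠ 0`,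
`c = ‖a‖ / 2`, `f = cfc (t ↦ max (t - c) 0) a ≠ 0`, `g = cfc (t ↦ 1 / max t c) a`, `a g f = f`.
With `e` the left support of `f`: `(a g - 1) e = 0`, so `e = b (b* g e)`, `e ≠ 0` as `e f = f`. -/
theorem exists_proj_mem_ideal {b : Al M} (hb : b ≠ 0) :
    ∃ d : Al M, IsStarProjection (b * d) ∧ b * d ≠ 0 := by
  let _ := CStarAlgebra.spectralOrder (Al M)
  have := CStarAlgebra.spectralOrderedRing (Al M)
  exact spec_ideal (A := Al M) spec_supp hb

/-- Domination of an arbitrary bounded functional by a normal positive one outside a small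
projection. Proof: maximal orthogonal family of projections `q_i ≤ p` with
`K ‖J q_i‖² < Re f q_i` (such `q_i` are nonzero, so `q_i q_i ≠ 0`); `q = ∑ q_i`;
`K ∑_{i ∈ s} ‖J q_i‖² ≤ Re f (q_s) ≤ ‖f‖` (`proj_finsum`), `IsSum.norm_J_le`. By maximality all
projections `e ≤ p - q` satisfy `Re f e ≤ K ‖J e‖²`; extend to `x* x` by `cone_induction` with
`S = {a | Re f a ≤ K Re ⟪J 1, J a⟫}` (note `‖J x‖² = Re ⟪J 1, J (x* x)⟫` by `J_adj`). -/
theorem exists_dom {κ : Type*} [Fintype κ] (ξ : κ → H) (f : Al M →L[ℂ] ℂ) {K : ℝ} (hK : 0 < K)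
    {p : Al M} (hp : IsStarProjection p) :
    ∃ q : Al M, IsStarProjection q ∧ p * q = q ∧ K * ‖J ξ q‖ ^ 2 ≤ ‖f‖ ∧
      ∀ x : Al M, x * (p - q) = x → (f (star x * x)).re ≤ K * ‖J ξ x‖ ^ 2 := by
  obtain ⟨S, hS, hSo, hmax⟩ := exists_maximal_pairwise
    (fun q : Al M => IsStarProjection q ∧ p * q = q ∧ K * ‖J ξ q‖ ^ 2 < (f q).re)
    (fun x y => IsStarProjection x → IsStarProjection y → x * y = 0)
    (fun x y h hy hx => proj_orth_comm hx hy (h hx hy))
  have hq : ∀ i : S, IsStarProjection (i : Al M) := fun i => (hS i i.2).1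
  have ho : Pairwise fun i k : S => (i : Al M) * (k : Al M) = 0 := fun i k hik =>
    hSo i.2 k.2 (fun h => hik (Subtype.ext h)) (hq i) (hq k)
  obtain ⟨q, hqp, hsum, hqi⟩ := exists_sumProj (fun i : S => (i : Al M)) hq ho
  have hpq : p * q = q := hsum.mul_eq fun i => (hS i i.2).2.1
  refine ⟨q, hqp, hpq, ?_, fun x hx => ?_⟩
  · rw [mul_comm, ← le_div_iff₀ hK]
    refine hsum.norm_J_le ξ hq ho fun s => ?_
    rw [le_div_iff₀ hK, Finset.sum_mul]
    calc ∑ i ∈ s, ‖J ξ (i : Al M)‖ ^ 2 * K ≤ ∑ i ∈ s, (f (i : Al M)).re :=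
          Finset.sum_le_sum fun i _ => by rw [mul_comm]; exact (hS i i.2).2.2.le
      _ = (f (∑ i ∈ s, (i : Al M))).re := by rw [map_sum, Complex.re_sum]
      _ ≤ ‖f (∑ i ∈ s, (i : Al M))‖ := Complex.re_le_norm _
      _ ≤ ‖f‖ * ‖∑ i ∈ s, (i : Al M)‖ := f.le_opNorm _
      _ ≤ ‖f‖ := mul_le_of_le_one_right (norm_nonneg _) (proj_norm_le (proj_finsum hq ho s))
  · rw [spec_J_sq]
    refine cone_induction (S := {a | (f a).re ≤ K * (⟪J ξ (1 : Al M), J ξ a⟫_ℂ).re}) ?_ (by simp)
      (fun a ha b hb => ?_) (fun t ht a ha => ?_) (proj_sub hp hqp hpq) (fun e he hpe => ?_) hx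
    · exact isClosed_le (by fun_prop) (continuous_const.mul (Complex.continuous_re.comp
        (continuous_const.inner (spec_J_cont ξ))))
    · simp only [Set.mem_ofPred_eq, map_add, inner_add_right, Complex.add_re] at ha hb ⊢
      linarith
    · simp only [Set.mem_ofPred_eq, map_smul, inner_smul_right, smul_eq_mul,
        Complex.re_ofReal_mul] at ha ⊢
      nlinarith [mul_le_mul_of_nonneg_left ha ht]
    · have h1 : p * e = e := by
        rw [← hpe, ← mul_assoc, mul_sub, proj_mul_self hp, hpq]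
      have h2 : q * e = 0 := by
        rw [← hpe, ← mul_assoc, mul_sub, proj_mul_self hqp, proj_le_comm hp hqp hpq, sub_self,
          zero_mul]
      have h3 : ∀ y ∈ S, e * y = 0 := fun y hy => by
        have := hqi ⟨y, hy⟩
        simp only at this
        rw [← this, ← mul_assoc, proj_orth_comm hqp he h2, zero_mul]
      have h4 := spec_J_sq ξ e
      rw [proj_star he, proj_mul_self he] at h4
      rw [Set.mem_ofPred_eq, ← h4]
      by_contra hlt
      have hmem := hmax e ⟨he, h1, not_le.1 hlt⟩ fun y hy _ _ => h3 y hy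
      have h5 := h3 e hmem
      rw [proj_mul_self he] at h5
      simp [h5] at hlt

/-- A quasi-trace inequality for partial isometries extends to all elements. Proof: polar
decomposition is NOT needed here: `u` is given. Apply `cone_induction` (with `p = u* u`) to
`S = {a | Re ⟪J 1, J (u a u*)⟫ ≤ K Re ⟪J 1, J a⟫}`; for a projection `e ≤ u* u`, `u e` is a partial
isometry (`PI.mul_proj`) with `‖J (u e)*‖² = Re ⟪J 1, J (u e u*)⟫`, `‖J (u e)‖² = Re ⟪J 1, J e⟫`. -/
theorem qt_extend {κ : Type*} [Fintype κ] (ξ : κ → H) {K : ℝ} {f : Al M}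
    (h : ∀ v : Al M, PI v → f * v = v → v * f = v → ‖J ξ (star v)‖ ^ 2 ≤ K * ‖J ξ v‖ ^ 2)
    {x u : Al M} (hu : PI u) (hfu : f * u = u) (huf : u * f = u) (hx : x * (star u * u) = x)
    (hxx : x * star x = u * (star x * x) * star u) :
    ‖J ξ (star x)‖ ^ 2 ≤ K * ‖J ξ x‖ ^ 2 := by
  rw [spec_J_sq, spec_J_sq, star_star, hxx]
  refine cone_induction (S := {a | (⟪J ξ (1 : Al M), J ξ (u * a * star u)⟫_ℂ).re ≤
    K * (⟪J ξ (1 : Al M), J ξ a⟫_ℂ).re}) ?_ (by simp)
    (fun a ha b hb => ?_) (fun t ht a ha => ?_) hu.init (fun e he hpe => ?_) hx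
  · exact isClosed_le (Complex.continuous_re.comp
      (continuous_const.inner ((spec_J_cont ξ).comp (by fun_prop))))
      (continuous_const.mul (Complex.continuous_re.comp (continuous_const.inner (spec_J_cont ξ))))
  · simp only [Set.mem_ofPred_eq, mul_add, add_mul, map_add, inner_add_right,
      Complex.add_re] at ha hb ⊢
    linarith
  · simp only [Set.mem_ofPred_eq, mul_smul_comm, smul_mul_assoc, map_smul, inner_smul_right,
      Complex.re_ofReal_mul] at ha ⊢
    nlinarith [mul_le_mul_of_nonneg_left ha ht]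
  · have h1 : e * (star u * u) = e := proj_le_comm hu.init he hpe
    have h2 := h (u * e) (hu.mul_proj he hpe) (by rw [← mul_assoc, hfu]) (by
      rw [mul_assoc, ← h1, mul_assoc, mul_assoc, huf])
    rw [spec_J_sq, spec_J_sq, star_star, star_mul, proj_star he, mul_assoc u e,
      proj_mul_self_left he, ← mul_assoc u e, mul_assoc e, ← mul_assoc (star u), hpe,
      proj_mul_self he] at h2
    exact h2

end Crest.Agent.R121
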