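import Crest.Agent.R121.CB
import Crest.Agent.R121.Polar
import Crest.Agent.R121.Spec

/-! # R121: the Christensen-Sinclair averaging theorem for cb maps (task `CS`) -/

set_option autoImplicit false
open Filter Topology
open scoped InnerProductSpace

namespace Crest.Agent.R121

universe u
variable {H : Type u} [NormedAddCommGroup H] [InnerProductSpace ℂ H] [CompleteSpace H]
variable {M : VonNeumannAlgebra H}

/-- A minimal element of the orbit. Proof: preorder `ψ₁ ≼ ψ₂ := ∀ z c, CP z → CB (z ψ₂) c → CB (z ψ₁) c`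
on `O = {ρ ψ | Avg CB ρ}`; Zorn (`exists_maximal_of_chains_bounded` on the subtype, reversed). A
nonempty chain has a lower bound: take an ultrafilter on the chain containing all down-sets
(finite intersection property; `Ultrafilter.exists_ultrafilter_of_finite_inter_nonempty` or a directed
`iInf` of principal filters), `exists_Avg_lim`, `Gauge.lim'`. `σ ψ' ≼ ψ'` for every averaging `σ`,
since `z ψ' a = ψ' a z` and `Avg.rval`. -/
theorem exists_min {ψ : Al M → Al M} {c : ℝ} (hψ : CB ψ c) : ∃ ρ, Avg CB ρ ∧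
    ∀ σ, Avg CB σ → ∀ z c', CP z → CB (fun a => z * σ (ρ ψ) a) c' → CB (fun a => z * ρ ψ a) c' := by
  classical
  let O := {ρ : (Al M → Al M) → Al M → Al M // Avg CB ρ}
  let r : O → O → Prop := fun ρ1 ρ2 => ∀ z c', CP z → CB (fun a => z * ρ1.1 ψ a) c' →
    CB (fun a => z * ρ2.1 ψ a) c'
  have hrefl : ∀ a, r a a := fun a z c' _ h => h
  have htrans : ∀ {a b d : O}, r a b → r b d → r a d :=
    fun h1 h2 z c' hz h => h2 z c' hz (h1 z c' hz h)
  have : Nonempty O := ⟨⟨fun ψ => ψ, Avg.refl⟩⟩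
  have hch : ∀ C : Set O, IsChain r C → C.Nonempty → ∃ ub, ∀ a ∈ C, r a ub := by
    intro C hC hne
    have : Nonempty C := hne.to_subtype
    let F : Filter C := ⨅ i : C, 𝓟 {j : C | r i.1 j.1}
    have hF : F.NeBot := by
      refine iInf_neBot_of_directed' (fun i j => ?_) (fun i => ?_)
      · by_cases hij : i.1 = j.1
        · have : i = j := Subtype.ext hij
          subst this
          exact ⟨i, le_rfl, le_rfl⟩
        · rcases hC i.2 j.2 hij with h | h
          · exact ⟨j, principal_mono.2 fun k hk => htrans h hk, le_rfl⟩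
          · exact ⟨i, le_rfl, principal_mono.2 fun k hk => htrans h hk⟩
      · exact principal_neBot_iff.2 ⟨i, hrefl _⟩
    let U : Ultrafilter C := Ultrafilter.of F
    obtain ⟨ρ, hρ, hlim⟩ := exists_Avg_lim gauge_CB U (fun i => i.1.1) (fun i => i.1.2)
    refine ⟨⟨ρ, hρ⟩, fun i hi z c' hz h => ?_⟩
    have hev : ∀ᶠ j in (U : Filter C), r i j.1 := by
      have h1 : (U : Filter C) ≤ 𝓟 {j : C | r i j.1} :=
        (Ultrafilter.of_le F).trans (iInf_le (fun i : C => 𝓟 {j : C | r i.1 j.1}) ⟨i, hi⟩)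
      exact le_principal_iff.1 h1
    exact gauge_CB.lim' U (Ψ := fun j a => z * j.1.1 ψ a) (hev.mono fun j hj => hj z c' hz h)
      fun a => (hlim ψ c hψ a).mul_left z
  obtain ⟨m, hm⟩ := exists_maximal_of_nonempty_chains_bounded hch htrans
  refine ⟨m.1, m.2, fun σ hσ => hm ⟨fun φ => σ (m.1 φ), hσ.comp m.2⟩ fun z c' hz h => ?_⟩
  have h1 : σ (fun a => m.1 ψ a * z) = fun a => σ (m.1 ψ) a * z := hσ.rval z (m.2.bnd hψ)
  have h2 : CB (fun a => m.1 ψ a * z) c' := by simpa only [hz.2] using h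
  have h3 := hσ.bnd h2
  rw [h1] at h3
  simpa only [hz.2] using h3

theorem norm_ap_proj_sq {q : Al M} (hq : IsStarProjection q) (η : H) :
    ‖ap q η‖ ^ 2 = (⟪η, ap q η⟫_ℂ).re := by
  have : ⟪η, ap q η⟫_ℂ = ⟪ap q η, ap q η⟫_ℂ := by
    conv_lhs => rw [← proj_mul_self hq, ap_mul, inner_ap_right, proj_star hq]
  rw [this, inner_self_eq_norm_sq_to_K]
  norm_cast

/-- Projections tending weakly to `0` tend strongly to `0`. -/
theorem WL.proj_mul_zero {ι : Type*} {F : Filter ι} {q y : ι → Al M} {r : ℝ}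
    (hq : ∀ i, IsStarProjection (q i)) (h : WL F q 0) (hy : ∀ i, ‖y i‖ ≤ r) :
    WL F (fun i => q i * y i) 0 := by
  intro ξ η
  have h1 : Tendsto (fun i => ‖ap (q i) η‖ ^ 2) F (𝓝 0) := by
    have := (Complex.continuous_re.tendsto _).comp (h η η)
    simpa only [Function.comp_def, ← norm_ap_proj_sq (hq _), ap_zero, inner_zero_right,
      Complex.zero_re] using this
  have h2 : Tendsto (fun i => ‖ap (q i) η‖) F (𝓝 0) := by
    have := (Real.continuous_sqrt.tendsto _).comp h1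
    simpa only [Function.comp_def, Real.sqrt_sq (norm_nonneg _), Real.sqrt_zero] using this
  rw [ap_zero, inner_zero_right]
  refine squeeze_zero_norm (a := fun i => ‖ap (q i) η‖ * (r * ‖ξ‖)) (fun i => ?_) ?_
  · rw [ap_mul, inner_ap_right, proj_star (hq i)]
    refine (norm_inner_le_norm _ _).trans (mul_le_mul_of_nonneg_left ?_ (norm_nonneg _))
    exact (R121.norm_ap_le _ _).trans (mul_le_mul_of_nonneg_right (hy i) (norm_nonneg _))
  · simpa using h2.mul_const (r * ‖ξ‖)

/-- A family of partial isometries into `e` whose initial projections add up to `z`. -/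
theorem exists_cover {e z : Al M} (he : IsStarProjection e) (hz : CP z) (hze : z * e = e)
    (hsupp : ∀ y : Al M, (∀ a : Al M, y * a * e = 0) → y * z = 0) :
    ∃ S : Set (Al M), (∀ w ∈ S, PI w ∧ e * w = w) ∧
      (Pairwise fun v w : S => (star v.1 * v.1) * (star w.1 * w.1) = 0) ∧
      IsSum (fun w : S => star w.1 * w.1) z := by
  obtain ⟨S, hS1, hS2, hS3⟩ := exists_maximal_pairwise
    (fun w : Al M => PI w ∧ w ≠ 0 ∧ e * w = w) (fun v w => v * star w = 0)
    (fun v w h => by simpa only [star_mul, star_star, star_zero] using congrArg star h)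
  have ho : Pairwise fun v w : S => (star v.1 * v.1) * (star w.1 * w.1) = 0 := by
    intro v w hvw
    have := hS2 v.2 w.2 (fun h => hvw (Subtype.ext h))
    rw [mul_assoc, ← mul_assoc v.1, this, zero_mul, mul_zero]
  obtain ⟨P, hP, hsum, hPw⟩ := exists_sumProj (fun w : S => star w.1 * w.1)
    (fun w => (hS1 w.1 w.2).1.init) ho
  have hzw : ∀ w ∈ S, z * star w = star w := fun w hw => by
    have h1 : z * w = w := by rw [← (hS1 w hw).2.2, ← mul_assoc, hze]
    rw [hz.2]
    simpa only [star_mul, hz.star_eq] using congrArg star h1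
  have hzP : z * P = P := hsum.mul_eq fun w => by rw [← mul_assoc, hzw w.1 w.2]
  have hq : IsStarProjection (z - P) := proj_sub hz.1 hP hzP
  have hkey : ∀ a : Al M, e * a * (z - P) = 0 := by
    intro a
    by_contra hne
    obtain ⟨u, hu, hu0, heu, huq⟩ := exists_PI_of_ne hq he hne
    have hall : ∀ w ∈ S, u * star w = 0 := fun w hw => by
      have h1 : P * star w = star w := by
        have h2 := (hS1 w hw).1.star'.fin_mul
        rw [star_star] at h2
        rw [← h2, ← mul_assoc, hPw ⟨w, hw⟩]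
      rw [← huq, mul_assoc, sub_mul, hzw w hw, h1, sub_self, mul_zero]
    exact hu0 (hu.eq_zero_of_fin (hall u (hS3 u ⟨hu, hu0, heu⟩ hall)))
  have h0 : (z - P) * z = 0 := hsupp _ fun a => by
    simpa only [star_mul, star_star, star_zero, proj_star hq, proj_star he, mul_assoc] using
      congrArg star (hkey (star a))
  have hPz : P = z := by
    rw [sub_mul, hz.mul_self, ← hz.2, hzP] at h0
    exact (sub_eq_zero.1 h0).symm
  exact ⟨S, fun w hw => ⟨(hS1 w hw).1, (hS1 w hw).2.2⟩, ho, hPz ▸ hsum⟩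

/-- The family `(1 - P_s, w ∈ s)`. -/
noncomputable def cfam {S : Set (Al M)} (s : Finset S) (o : Option s) : Al M :=
  o.elim (1 - ∑ w ∈ s, star w.1 * w.1) fun w => w.1.1

theorem cfam_sum {S : Set (Al M)} {s : Finset S}
    (hP : IsStarProjection (∑ w ∈ s, star w.1 * w.1)) :
    ∑ o, star (cfam s o) * cfam s o = 1 := by
  rw [Fintype.sum_option]
  simp only [cfam, Option.elim]
  rw [Finset.sum_coe_sort s fun w => star w.1 * w.1, proj_star hP.one_sub, proj_mul_self hP.one_sub,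
    sub_add_cancel]

theorem cfam_eq {S : Set (Al M)} {s : Finset S} {e z : Al M} (he : IsStarProjection e)
    (hP : IsStarProjection (∑ w ∈ s, star w.1 * w.1)) (hzw : ∀ w ∈ S, z * star w = star w)
    (hew : ∀ w ∈ S, e * w = w) (ψ : Al M → Al M) (a : Al M) :
    z * fam (fun o => star (cfam s o)) (cfam s) ψ a -
      (z - ∑ w ∈ s, star w.1 * w.1) * ψ ((1 - ∑ w ∈ s, star w.1 * w.1) * a) =
    fam (fun w : s => star w.1.1) (fun w : s => w.1.1) (fun a => e * ψ (e * a)) a := by
  have hzP : z * ∑ w ∈ s, star w.1 * w.1 = ∑ w ∈ s, star w.1 * w.1 := by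
    rw [Finset.mul_sum]
    exact Finset.sum_congr rfl fun w _ => by rw [← mul_assoc, hzw w.1 w.2]
  simp only [fam]
  rw [Fintype.sum_option]
  simp only [cfam, Option.elim]
  rw [proj_star hP.one_sub, mul_add, ← mul_assoc, mul_sub, mul_one, hzP, add_sub_cancel_left,
    Finset.mul_sum]
  refine Finset.sum_congr rfl fun w _ => ?_
  have h4 : star w.1.1 * e = star w.1.1 := by
    simpa only [star_mul, proj_star he] using congrArg star (hew w.1.1 w.1.2)
  rw [← mul_assoc, hzw w.1.1 w.1.2, ← mul_assoc, h4, ← mul_assoc, hew w.1.1 w.1.2]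

/-- Compression to a corner with full central support. Proof: maximal family of nonzero partial
isometries `w` with `e w = w`, pairwise `w w'* = 0`; `P = ∑ w* w` (`exists_sumProj`); `z w = w` so
`z P = P`; if `e a (z - P) ≠ 0` then `exists_PI_of_ne` contradicts maximality, so `(z - P) z = 0`,
`P = z`. For finite `s`, `P_s = ∑_s w* w`, `σ_s = fam` of the family `(w)_{w ∈ s}` and `1 - P_s`
(`Avg.fam`, `CB.fam`), `σ` = limit along `fU`. `z σ_s ψ a = fam (w*) w θ a + (z - P_s) ψ ((1 - P_s) a)`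
with `θ a = e ψ (e a)`; the last term tends weakly to `0` because
`‖(z - P_s) η‖² = Re ⟪η, (z - P_s) η⟫ → 0`. Conclude with `CB.fam` and `Gauge.lim'`. -/
theorem exists_compress {e z : Al M} (he : IsStarProjection e) (hz : CP z) (hze : z * e = e)
    (hsupp : ∀ y : Al M, (∀ a : Al M, y * a * e = 0) → y * z = 0) :
    ∃ σ, Avg CB σ ∧ ∀ ψ c, CB ψ c → ∀ c', CB (fun a => e * ψ (e * a)) c' →
      CB (fun a => z * σ ψ a) c' := by
  classical
  obtain ⟨S, hS, ho, hsum⟩ := exists_cover he hz hze hsupp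
  have hP : ∀ s : Finset S, IsStarProjection (∑ w ∈ s, star w.1 * w.1) :=
    fun s => proj_finsum (p := fun w : S => star w.1 * w.1) (fun w => (hS w.1 w.2).1.init) ho s
  have hzw : ∀ w ∈ S, z * star w = star w := fun w hw => by
    have h1 : z * w = w := by rw [← (hS w hw).2, ← mul_assoc, hze]
    rw [hz.2]
    simpa only [star_mul, hz.star_eq] using congrArg star h1
  have hzP : ∀ s : Finset S, z * ∑ w ∈ s, star w.1 * w.1 = ∑ w ∈ s, star w.1 * w.1 := fun s => by
    rw [Finset.mul_sum]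
    exact Finset.sum_congr rfl fun w _ => by rw [← mul_assoc, hzw w.1 w.2]
  have hA : ∀ s : Finset S, Avg CB (fam (fun o => star (cfam s o)) (cfam s)) := fun s =>
    Avg.fam (cfam_sum (hP s)) fun ψ c h => h.fam (by rw [cfam_sum (hP s)]; exact norm_one_le')
  obtain ⟨σ, hσ, hlim⟩ := exists_Avg_lim gauge_CB (fU S) _ hA
  refine ⟨σ, hσ, fun ψ c hψ c' hθ => ?_⟩
  have hB : ∀ s : Finset S,
      CB (fam (fun w : s => star w.1.1) (fun w : s => w.1.1) fun a => e * ψ (e * a)) c' := fun s =>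
    hθ.fam (by rw [Finset.sum_coe_sort s fun w => star w.1 * w.1]; exact proj_norm_le (hP s))
  refine gauge_CB.lim' (fU S) (Eventually.of_forall hB) fun a => ?_
  have h1 := (hlim ψ c hψ a).mul_left z
  have h2 : WL (fU S : Filter (Finset S))
      (fun s => (z - ∑ w ∈ s, star w.1 * w.1) * ψ ((1 - ∑ w ∈ s, star w.1 * w.1) * a)) 0 := by
    refine WL.proj_mul_zero (r := c * ‖a‖) (fun s => proj_sub hz.1 (hP s) (hzP s)) ?_ fun s => ?_
    · have h5 := (WL.const _ z).sub hsum
      rwa [sub_self] at h5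
    · refine (gauge_CB.le hψ _).trans (mul_le_mul_of_nonneg_left ?_ hψ.2.1)
      refine (norm_mul_le _ _).trans ?_
      exact mul_le_of_le_one_left (norm_nonneg a) (proj_norm_le (hP s).one_sub)
  have h3 := h1.sub h2
  rw [sub_zero] at h3
  exact h3.congr fun s => cfam_eq he (hP s) hzw (fun w hw => (hS w hw).2) ψ a

/-- Augmentation. Proof: for `MB X r` the matrix `X' = [e X, r • (x ⊗ 1)]` (columns `K ⊕ I`) has
`MB X' r` because `e` and `x` have orthogonal ranges. So `MB (ψ X') (c r)`, and by `MB.star`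
applied to vectors `e η_i`:
`∑_k ‖∑_i (e ψ (e X_ik))* η_i‖² + r² ∑_i ‖(ψ x)* e η_i‖² ≤ c² r² ∑ ‖e η_i‖²`. `γ ≤ c` by testing on a
vector with `e η ≠ 0` (`‖ψ x‖ ≤ c`). -/
theorem CB.augment {ψ : Al M → Al M} {c γ : ℝ} (hψ : CB ψ c) {e x : Al M}
    (he : IsStarProjection e) (he0 : e ≠ 0) (hex : e * x = 0) (hx : ‖x‖ ≤ 1) (hγ : 0 ≤ γ)
    (hlow : ∀ η : H, γ * ‖ap e η‖ ≤ ‖ap (star (ψ x)) (ap e η)‖) :
    γ ≤ c ∧ CB (fun a => e * ψ (e * a)) (Real.sqrt (c ^ 2 - γ ^ 2)) := by
  classical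
  have hc : 0 ≤ c := hψ.2.1
  have hen : ∀ η : H, ‖ap e η‖ ≤ ‖η‖ := fun η => by
    have := proj_norm_le he
    nlinarith [norm_ap_le e η, norm_nonneg η]
  have hγc : γ ≤ c := by
    obtain ⟨η, hη⟩ : ∃ η, ap e η ≠ 0 := by
      by_contra hcon
      push Not at hcon
      exact he0 (Al_ext fun η => by rw [hcon η, ap_zero])
    have hpos : 0 < ‖ap e η‖ := norm_pos_iff.2 hη
    have h1 : ‖ψ x‖ ≤ c := (gauge_CB.le hψ x).trans (by nlinarith)
    have h2 := norm_ap_le (star (ψ x)) (ap e η)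
    rw [norm_star] at h2
    have h3 : γ * ‖ap e η‖ ≤ c * ‖ap e η‖ :=
      (hlow η).trans (h2.trans (mul_le_mul_of_nonneg_right h1 hpos.le))
    exact le_of_mul_le_mul_right h3 hpos
  have hsq : 0 ≤ c ^ 2 - γ ^ 2 := by nlinarith
  refine ⟨hγc, ((hψ.larg e).mul_left e).1, Real.sqrt_nonneg _, fun n k X r hr hX => ?_⟩
  let X' : Fin n → Fin k ⊕ Fin n → Al M := fun i l =>
    l.elim (fun l => e * X i l) fun j => if i = j then (r : ℂ) • x else 0
  have hX' : MB X' r := by
    intro ξ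
    have h1 := hX fun l => ξ (Sum.inl l)
    rw [Fintype.sum_sum_type, mul_add]
    have h2 : ∀ i, ‖∑ l, ap (X' i l) (ξ l)‖ ^ 2 ≤
        ‖∑ l, ap (X i l) (ξ (Sum.inl l))‖ ^ 2 + r ^ 2 * ‖ξ (Sum.inr i)‖ ^ 2 := by
      intro i
      have h3 : ∑ l, ap (X' i l) (ξ l) =
          ap e (∑ l, ap (X i l) (ξ (Sum.inl l))) + (r : ℂ) • ap x (ξ (Sum.inr i)) := by
        rw [Fintype.sum_sum_type]
        congr 1
        · simp only [X', Sum.elim_inl, ap_mul, ap, map_sum]
        · rw [Finset.sum_eq_single i]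
          · simp only [X', Sum.elim_inr, if_true, ap_smul]
          · intro j _ hj
            simp only [X', Sum.elim_inr, if_neg (Ne.symm hj), ap_zero]
          · simp
      have h4 : ⟪ap e (∑ l, ap (X i l) (ξ (Sum.inl l))), (r : ℂ) • ap x (ξ (Sum.inr i))⟫_ℂ = 0 := by
        rw [inner_smul_right, inner_ap_left, proj_star he, ← ap_mul, hex, ap_zero, inner_zero_right,
          mul_zero]
      rw [h3, sq, norm_add_sq_eq_norm_sq_add_norm_sq_of_inner_eq_zero _ _ h4, ← sq, ← sq]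
      refine add_le_add (pow_le_pow_left₀ (norm_nonneg _) (hen _) 2) ?_
      rw [norm_smul, Complex.norm_real, Real.norm_of_nonneg hr, mul_pow]
      refine mul_le_mul_of_nonneg_left (pow_le_pow_left₀ (norm_nonneg _) ?_ 2) (sq_nonneg r)
      nlinarith [norm_ap_le x (ξ (Sum.inr i)), norm_nonneg (ξ (Sum.inr i))]
    refine (Finset.sum_le_sum fun i _ => h2 i).trans ?_
    rw [Finset.sum_add_distrib, ← Finset.mul_sum]
    exact add_le_add h1 le_rfl
  have hY := (hψ.mat hr hX').star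
  have hZ : MB (fun l i => star (e * ψ (e * X i l))) (Real.sqrt (c ^ 2 - γ ^ 2) * r) := by
    intro η
    have h1 := hY fun i => ap e (η i)
    rw [Fintype.sum_sum_type] at h1
    have h2 : ∀ j, r ^ 2 * (γ ^ 2 * ‖ap e (η j)‖ ^ 2) ≤
        ‖∑ i, ap (star (ψ (X' i (Sum.inr j)))) (ap e (η i))‖ ^ 2 := by
      intro j
      have h3 : ∑ i, ap (star (ψ (X' i (Sum.inr j)))) (ap e (η i)) =
          (r : ℂ) • ap (star (ψ x)) (ap e (η j)) := by
        rw [Finset.sum_eq_single j]
        · simp only [X', Sum.elim_inr, if_true, hψ.1.map_smul, star_smul, ap_smul]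
          simp
        · intro i _ hi
          simp only [X', Sum.elim_inr, if_neg hi, hψ.1.map_zero, star_zero, ap_zero]
        · simp
      rw [h3, norm_smul, Complex.norm_real, Real.norm_of_nonneg hr, mul_pow, ← mul_pow γ]
      exact mul_le_mul_of_nonneg_left
        (pow_le_pow_left₀ (mul_nonneg hγ (norm_nonneg _)) (hlow _) 2) (sq_nonneg r)
    have h4 := Finset.sum_le_sum fun j (_ : j ∈ Finset.univ) => h2 j
    rw [← Finset.mul_sum, ← Finset.mul_sum] at h4
    have h5 : ∑ l, ‖∑ i, ap (star (e * ψ (e * X i l))) (η i)‖ ^ 2 =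
        ∑ l, ‖∑ i, ap (star (ψ (X' i (Sum.inl l)))) (ap e (η i))‖ ^ 2 := by
      simp only [X', Sum.elim_inl, star_mul, proj_star he, ap_mul]
    have h6 : ∑ i, ‖ap e (η i)‖ ^ 2 ≤ ∑ i, ‖η i‖ ^ 2 :=
      Finset.sum_le_sum fun i _ => pow_le_pow_left₀ (norm_nonneg _) (hen _) 2
    rw [h5, mul_pow, Real.sq_sqrt hsq]
    have h7 := mul_le_mul_of_nonneg_left h6 (mul_nonneg hsq (sq_nonneg r))
    nlinarith
  simpa only [star_star] using hZ.star

/-- The key step: a minimal element of the orbit maps `(1 - p) M` into `(1 - p) M`. -/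
theorem corner_zero {ψ : Al M → Al M} {c : ℝ} (hψ : CB ψ c)
    (hmin : ∀ σ, Avg CB σ → ∀ z c', CP z → CB (fun a => z * σ ψ a) c' → CB (fun a => z * ψ a) c')
    {p x : Al M} (hp : IsStarProjection p) (hpx : p * x = 0) (hx : ‖x‖ ≤ 1) : p * ψ x = 0 := by
  by_contra hb
  obtain ⟨d, he, he0⟩ := exists_proj_mem_ideal hb
  set e := p * ψ x * d with hedef
  have hpe : p * e = e := by rw [hedef, ← mul_assoc, ← mul_assoc, proj_mul_self hp]
  have hex : e * x = 0 := by rw [← proj_le_comm hp he hpe, mul_assoc, hpx, mul_zero]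
  have hd0 : d ≠ 0 := fun h => he0 (by rw [hedef, h, mul_zero])
  have hd : 0 < ‖d‖ := norm_pos_iff.2 hd0
  obtain ⟨z, hz, hze, hsupp⟩ := exists_csupp e
  obtain ⟨σ, hσ, hcomp⟩ := exists_compress he hz hze hsupp
  have hγ : 0 < ‖d‖⁻¹ := inv_pos.2 hd
  have hlow : ∀ η : H, ‖d‖⁻¹ * ‖ap e η‖ ≤ ‖ap (star (z * ψ x)) (ap e η)‖ := by
    intro η
    have h1 : star d * (star (z * ψ x) * e) = e := by
      have h2 : star d * (star (ψ x) * p) = e := by
        rw [← proj_star he, hedef, star_mul, star_mul, proj_star hp]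
      rw [star_mul, hz.star_eq, mul_assoc, hze, ← hpe, ← mul_assoc (star (ψ x)), ← mul_assoc, h2,
        hpe, proj_mul_self he]
    have h3 : ‖ap e η‖ ≤ ‖d‖ * ‖ap (star (z * ψ x)) (ap e η)‖ := by
      conv_lhs => rw [← h1, ap_mul, ap_mul]
      simpa only [norm_star] using norm_ap_le (star d) _
    rw [inv_mul_le_iff₀ hd]
    exact h3
  have hind : ∀ k : ℕ, ∃ c', CB (fun a => z * ψ a) c' ∧ c' ^ 2 ≤ c ^ 2 - k * ‖d‖⁻¹ ^ 2 := by
    intro k
    induction k with
    | zero =>
      refine ⟨c, (hψ.mul_left z).mono ?_, by simp⟩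
      have := proj_norm_le hz.1
      nlinarith [hψ.2.1]
    | succ k ih =>
      obtain ⟨c', h1, h2⟩ := ih
      obtain ⟨h3, h4⟩ := h1.augment he he0 hex hx hγ.le hlow
      have h5 : CB (fun a => e * ψ (e * a)) (Real.sqrt (c' ^ 2 - ‖d‖⁻¹ ^ 2)) := by
        simpa only [← mul_assoc, ← hz.2 e, hze] using h4
      refine ⟨_, hmin σ hσ z _ hz (hcomp ψ c hψ _ h5), ?_⟩
      rw [Real.sq_sqrt (by nlinarith)]
      push_cast
      linarith
  obtain ⟨k, hk⟩ := exists_nat_gt (c ^ 2 / ‖d‖⁻¹ ^ 2)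
  obtain ⟨c', -, h⟩ := hind k
  rw [div_lt_iff₀ (by positivity)] at hk
  nlinarith [sq_nonneg c']

/-- Christensen-Sinclair. Proof: `ψ' = ρ ψ` from `exists_min`. Suppose `b = p ψ' ((1 - p) y) ≠ 0` with
`p` a projection, `‖y‖ ≤ 1`; `x = (1 - p) y`. `e = b d` a nonzero projection
(`exists_proj_mem_ideal`), `p e = e`, `e x = 0`, `‖e η‖ = ‖d* b* e η‖ ≤ ‖d‖ ‖(ψ' x)* e η‖`, `γ = 1/‖d‖ > 0`,
`z = c(e)`. If `CB (z ψ') c'` then (`augment` for `z ψ'`, `z e = e`) `γ ≤ c'` and
`CB (e ψ' (e ·)) (sqrt (c'² - γ²))`, so by `exists_compress` and minimality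
`CB (z ψ') (sqrt (c'² - γ²))`. Iterating, `k γ² ≤ c²` for all `k`: contradiction. Hence
`ψ' (p y) = p ψ' y` for all projections, and `span_induction` (with `p = 1`) gives `Mod ψ'`. -/
theorem SM3 (ψ : Al M → Al M) (c : ℝ) (hψ : CB ψ c) : ∃ ρ, Avg CB ρ ∧ Mod (ρ ψ) := by
  obtain ⟨ρ, hρ, hmin⟩ := exists_min hψ
  refine ⟨ρ, hρ, ?_⟩
  have hφ : CB (ρ ψ) c := hρ.bnd hψ
  generalize ρ ψ = φ at hφ hmin
  have hlin := hφ.1
  have h0 : ∀ p x : Al M, IsStarProjection p → p * x = 0 → p * φ x = 0 := by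
    intro p x hp hpx
    have hpos : 0 < ‖x‖ + 1 := by positivity
    have h1 := corner_zero hφ hmin (x := (((‖x‖ + 1)⁻¹ : ℝ) : ℂ) • x) hp
      (by rw [mul_smul_comm, hpx, smul_zero]) (by
        rw [norm_smul, Complex.norm_real, Real.norm_of_nonneg (inv_pos.2 hpos).le,
          inv_mul_le_iff₀ hpos]
        linarith)
    rw [hlin.map_smul, mul_smul_comm] at h1
    exact (smul_eq_zero.1 h1).resolve_left (Complex.ofReal_ne_zero.2 (inv_pos.2 hpos).ne')
  have h1 : ∀ p : Al M, IsStarProjection p → φ p = p * φ 1 := by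
    intro p hp
    have h2 := h0 p (1 - p) hp (by rw [mul_sub, mul_one, proj_mul_self hp, sub_self])
    have h3 := h0 (1 - p) p hp.one_sub (by rw [sub_mul, one_mul, proj_mul_self hp, sub_self])
    rw [hlin.map_sub, mul_sub, sub_eq_zero] at h2
    rw [sub_mul, one_mul, sub_eq_zero] at h3
    rw [h2, ← h3]
  have hcont : Continuous φ :=
    ((hlin.mk' φ).mkContinuous c fun a => gauge_CB.le hφ a).continuous
  let S : Submodule ℂ (Al M) :=
    { carrier := {a | φ a = a * φ 1}
      add_mem' := fun {a b} ha hb => by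
        simp only [Set.mem_ofPred_eq] at ha hb ⊢
        rw [hlin.map_add, ha, hb, add_mul]
      zero_mem' := by
        simp only [Set.mem_ofPred_eq]
        rw [hlin.map_zero, zero_mul]
      smul_mem' := fun t a ha => by
        simp only [Set.mem_ofPred_eq] at ha ⊢
        rw [hlin.map_smul, ha, smul_mul_assoc] }
  intro a
  exact span_induction S (isClosed_eq hcont (by fun_prop)) (IsStarProjection.one _)
    (fun e he _ => h1 e he) (one_mul a) (mul_one a)

end Crest.Agent.R121
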