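import Crest.Agent.R121.Av

/-! # R121: `ℓ²` norms of finite families, independence of one coordinate -/

set_option autoImplicit false
set_option linter.unusedSectionVars false
open scoped InnerProductSpace

namespace Crest.Agent.R121

variable {Ω E : Type*} [Fintype Ω] [NormedAddCommGroup E] [InnerProductSpace ℂ E]

/-- The `ℓ²` norm of a finite family of vectors. -/
noncomputable def N2 (f : Ω → E) : ℝ := ‖(WithLp.toLp 2 f : PiLp 2 fun _ : Ω => E)‖

theorem N2_nonneg (f : Ω → E) : 0 ≤ N2 f := norm_nonneg _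

theorem N2_sq (f : Ω → E) : N2 f ^ 2 = ∑ ω, ‖f ω‖ ^ 2 := by
  rw [N2, PiLp.norm_sq_eq_of_L2]

theorem N2_le {f : Ω → E} {r : ℝ} (hr : 0 ≤ r) (h : ∑ ω, ‖f ω‖ ^ 2 ≤ r ^ 2) : N2 f ≤ r :=
  (pow_le_pow_iff_left₀ (N2_nonneg f) hr two_ne_zero).1 (by rwa [N2_sq])

theorem N2_add (f g : Ω → E) : N2 (fun ω => f ω + g ω) ≤ N2 f + N2 g :=
  norm_add_le (WithLp.toLp 2 f : PiLp 2 fun _ : Ω => E) (WithLp.toLp 2 g)

theorem N2_sub (f g : Ω → E) : N2 (fun ω => f ω - g ω) ≤ N2 f + N2 g :=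
  norm_sub_le (WithLp.toLp 2 f : PiLp 2 fun _ : Ω => E) (WithLp.toLp 2 g)

theorem N2_zero : N2 (fun _ : Ω => (0 : E)) = 0 :=
  le_antisymm (N2_le le_rfl (by simp)) (N2_nonneg _)

theorem N2_sum {κ : Type*} (s : Finset κ) (f : κ → Ω → E) :
    N2 (fun ω => ∑ k ∈ s, f k ω) ≤ ∑ k ∈ s, N2 (f k) := by
  classical
  induction s using Finset.induction_on with
  | empty => simp [N2_zero]
  | insert k s hk ih =>
    simp only [Finset.sum_insert hk]
    exact (N2_add _ _).trans (by gcongr)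

theorem N2_mono {E' : Type*} [NormedAddCommGroup E'] [InnerProductSpace ℂ E'] {f : Ω → E}
    {g : Ω → E'} {κ : ℝ} (hκ : 0 ≤ κ) (h : ∀ ω, ‖f ω‖ ≤ κ * ‖g ω‖) : N2 f ≤ κ * N2 g := by
  refine N2_le (mul_nonneg hκ (N2_nonneg _)) ?_
  rw [mul_pow, N2_sq, Finset.mul_sum]
  refine Finset.sum_le_sum fun ω _ => ?_
  rw [← mul_pow]
  exact pow_le_pow_left₀ (norm_nonneg _) (h ω) 2

theorem N2_congr {E' : Type*} [NormedAddCommGroup E'] [InnerProductSpace ℂ E'] {f : Ω → E}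
    {g : Ω → E'} (h : ∀ ω, ‖f ω‖ = ‖g ω‖) : N2 f = N2 g := by
  refine (pow_left_inj₀ (N2_nonneg _) (N2_nonneg _) two_ne_zero).1 ?_
  simp only [N2_sq, h]

theorem N2_le_const {f : Ω → E} {r : ℝ} (hr : 0 ≤ r) (h : ∀ ω, ‖f ω‖ ≤ r) :
    N2 f ≤ Real.sqrt (Fintype.card Ω) * r := by
  refine N2_le (by positivity) ?_
  rw [mul_pow, Real.sq_sqrt (Nat.cast_nonneg _)]
  refine (Finset.sum_le_sum fun ω _ => pow_le_pow_left₀ (norm_nonneg _) (h ω) 2).trans ?_
  simp

theorem norm_sum_inner_le (f g : Ω → E) : ‖∑ ω, ⟪f ω, g ω⟫_ℂ‖ ≤ N2 f * N2 g := by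
  have := norm_inner_le_norm (𝕜 := ℂ) (WithLp.toLp 2 f : PiLp 2 fun _ : Ω => E) (WithLp.toLp 2 g)
  rwa [PiLp.inner_apply] at this

/-- One coordinate of a uniform random function is independent of the others. -/
theorem sum_update {Cell S V : Type*} [Fintype Cell] [DecidableEq Cell] [Fintype S]
    [AddCommMonoid V] (c : Cell) (s0 : S) (Φ : S → (Cell → S) → V) :
    Fintype.card S • ∑ s : Cell → S, Φ (s c) (Function.update s c s0) =
      ∑ s : Cell → S, ∑ y, Φ y (Function.update s c s0) := by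
  let σ : (Cell → S) × S ≃ (Cell → S) × S :=
    Function.Involutive.toPerm (fun p => (Function.update p.1 c p.2, p.1 c)) (fun p => by simp)
  have h1 : ∑ p : (Cell → S) × S, Φ (p.1 c) (Function.update p.1 c s0) =
      ∑ p : (Cell → S) × S, Φ p.2 (Function.update p.1 c s0) := by
    rw [← σ.sum_comp]
    refine Finset.sum_congr rfl fun p _ => ?_
    simp [σ]
  rw [Fintype.sum_prod_type, Fintype.sum_prod_type] at h1
  rw [← h1, Finset.smul_sum]
  refine Finset.sum_congr rfl fun s _ => ?_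
  simp

end Crest.Agent.R121
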