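import Crest.Agent.R121.Ret
import Crest.Agent.R121.L2

/-! # R121: removing the letters of a random word one at a time -/

set_option autoImplicit false
set_option linter.unusedSectionVars false
open scoped InnerProductSpace

namespace Crest.Agent.R121

variable {A E : Type*} [CStarAlgebra A] [NormedAddCommGroup E] [InnerProductSpace ℂ E]
variable {ι S : Type} [Fintype ι] [DecidableEq ι] [Fintype S] [Nonempty S]
variable {j : A →ₗ[ℂ] E} {C : ℝ} {w : ι → A} {e : A} {Y : S → A} {d : ℕ}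

theorem Dg_update (s : Bool × ι → S) (ℓ ℓ' : Bool) (i : ι) (s0 : S) :
    Dg w Y s ℓ' - Dg w Y (Function.update s (ℓ, i) s0) ℓ' =
      if ℓ' = ℓ then w i * star (w i) * (Y (s (ℓ, i)) - Y s0) else 0 := by
  rw [Dg, Dg, ← Finset.sum_sub_distrib]
  split_ifs with h
  · subst h
    rw [Finset.sum_eq_single i]
    · simp [mul_sub]
    · intro k _ hk
      rw [Function.update_of_ne (by simpa using hk), sub_self]
    · simp
  · refine Finset.sum_eq_zero fun k _ => ?_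
    rw [Function.update_of_ne (by simp [h]), sub_self]

theorem Setup.norm_Wd_mul (h : Setup j C w e Y d) {L : List (A × Bool)}
    (hL : ∀ st ∈ L, st.1 ∈ unitary A) (s : Bool × ι → S) (a : A) : ‖Wd w Y L s * a‖ = ‖a‖ :=
  CStarRing.norm_mem_unitary_mul a (h.Wd_mem hL s)

/-- Freezing the cell `(ℓ, i)` changes `e_i W` only a little. -/
theorem Setup.freeze (h : Setup j C w e Y d) (ℓ : Bool) (s0 : S) (a : A) {r : ℝ} (hr : 0 ≤ r)
    (L : List (A × Bool)) (hL : ∀ st ∈ L, st.1 ∈ unitary A) (L0 : List (A × Bool))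
    (hret : ∀ L1 x L2, L = L1 ++ (x, ℓ) :: L2 → N2 (fun p : (Bool × ι → S) × ι =>
      j (w p.2 * star (w p.2) * (Wd w Y (L0 ++ L1) p.1 * x) * (w p.2 * star (w p.2)))) ≤ r) :
    N2 (fun p : (Bool × ι → S) × ι => j (w p.2 * star (w p.2) * Wd w Y L0 p.1 *
      (Wd w Y L p.1 - Wd w Y L (Function.update p.1 (ℓ, p.2) s0)) * a)) ≤
      L.length * (2 * C ^ 2 * ‖a‖ * r) := by
  have hC := h.qt.nonneg
  induction L generalizing L0 with
  | nil => simp [Wd_nil, N2_zero]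
  | cons st L ih =>
    obtain ⟨x, ℓ'⟩ := st
    have hL' : ∀ st ∈ L, st.1 ∈ unitary A := fun st hst => hL st (List.mem_cons_of_mem _ hst)
    have ih' := ih hL' (L0 ++ [(x, ℓ')]) (fun L1 y L2 hs => by
      have := hret ((x, ℓ') :: L1) y L2 (by rw [hs]; rfl)
      simpa only [List.append_assoc, List.singleton_append] using this)
    have h1 : N2 (fun p : (Bool × ι → S) × ι => j (w p.2 * star (w p.2) * Wd w Y L0 p.1 * x *
        (Dg w Y p.1 ℓ' - Dg w Y (Function.update p.1 (ℓ, p.2) s0) ℓ') *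
          (Wd w Y L (Function.update p.1 (ℓ, p.2) s0) * a))) ≤ 2 * C ^ 2 * ‖a‖ * r := by
      by_cases hℓ : ℓ' = ℓ
      · subst hℓ
        have := hret [] x L rfl
        rw [List.append_nil] at this
        refine (N2_mono (κ := 2 * C ^ 2 * ‖a‖) (by positivity) fun p => ?_).trans
          (mul_le_mul_of_nonneg_left this (by positivity))
        rw [Dg_update, if_pos rfl]
        have e1 : w p.2 * star (w p.2) * Wd w Y L0 p.1 * x *
            (w p.2 * star (w p.2) * (Y (p.1 (ℓ', p.2)) - Y s0)) *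
              (Wd w Y L (Function.update p.1 (ℓ', p.2) s0) * a) =
            w p.2 * star (w p.2) * (Wd w Y L0 p.1 * x) * (w p.2 * star (w p.2)) *
              ((Y (p.1 (ℓ', p.2)) - Y s0) * (Wd w Y L (Function.update p.1 (ℓ', p.2) s0) * a)) := by
          simp only [mul_assoc]
        rw [e1]
        refine (h.qt.mul_le' _ _).trans ?_
        have h2 : ‖(Y (p.1 (ℓ', p.2)) - Y s0) * (Wd w Y L (Function.update p.1 (ℓ', p.2) s0) * a)‖
            ≤ 2 * ‖a‖ := by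
          rw [sub_mul]
          refine (norm_sub_le _ _).trans ?_
          rw [CStarRing.norm_mem_unitary_mul _ (h.unit _), CStarRing.norm_mem_unitary_mul _ (h.unit _),
            h.norm_Wd_mul hL']
          linarith
        calc _ ≤ C ^ 2 * (2 * ‖a‖) * _ := by gcongr
          _ = _ := by ring
      · simp only [Dg_update, if_neg hℓ, mul_zero, zero_mul, map_zero, N2_zero]
        positivity
    refine le_trans (le_of_eq ?_) ((N2_add _ _).trans ((add_le_add h1 ih').trans (le_of_eq ?_)))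
    · congr 1
      funext p
      rw [← map_add, Wd_append, Wd_cons, Wd_cons, Wd_cons, Wd_nil]
      congr 1
      noncomm_ring
    · simp only [List.length_cons]; push_cast; ring

section
variable {χ : A → A} {κ : ℝ}

theorem pairing_le {Ω : Type*} [Fintype Ω] (hχ : IsLinearMap ℂ χ) (hκ0 : 0 ≤ κ)
    (hκ : ∀ a, ‖j (χ a)‖ ≤ κ * ‖j a‖) (f f' g g' : Ω → A) :
    ‖∑ ω, ⟪j (g ω), j (χ (f ω))⟫_ℂ - ∑ ω, ⟪j (g' ω), j (χ (f' ω))⟫_ℂ‖ ≤
      κ * (N2 (fun ω => j (g ω - g' ω)) * N2 (fun ω => j (f ω)) +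
        N2 (fun ω => j (g' ω)) * N2 (fun ω => j (f ω - f' ω))) := by
  have e1 : ∑ ω, ⟪j (g ω), j (χ (f ω))⟫_ℂ - ∑ ω, ⟪j (g' ω), j (χ (f' ω))⟫_ℂ =
      ∑ ω, ⟪j (g ω - g' ω), j (χ (f ω))⟫_ℂ + ∑ ω, ⟪j (g' ω), j (χ (f ω - f' ω))⟫_ℂ := by
    rw [← Finset.sum_sub_distrib, ← Finset.sum_add_distrib]
    refine Finset.sum_congr rfl fun ω _ => ?_
    rw [hχ.map_sub, map_sub, map_sub, inner_sub_left, inner_sub_right]; ring
  rw [e1]
  refine (norm_add_le _ _).trans ?_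
  have h1 := norm_sum_inner_le (fun ω => j (g ω - g' ω)) (fun ω => j (χ (f ω)))
  have h2 := norm_sum_inner_le (fun ω => j (g' ω)) (fun ω => j (χ (f ω - f' ω)))
  have h3 := N2_mono (f := fun ω => j (χ (f ω))) (g := fun ω => j (f ω)) hκ0 fun ω => hκ _
  have h4 := N2_mono (f := fun ω => j (χ (f ω - f' ω))) (g := fun ω => j (f ω - f' ω)) hκ0
    fun ω => hκ _
  have h5 := mul_le_mul_of_nonneg_left h3 (N2_nonneg fun ω => j (g ω - g' ω))
  have h6 := mul_le_mul_of_nonneg_left h4 (N2_nonneg fun ω => j (g' ω))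
  linarith

theorem Setup.inner_split (h : Setup j C w e Y d)
    (hmod : ∀ i a, χ (w i * star (w i) * a) = w i * star (w i) * χ a) (u v : A) :
    ⟪j u, j (χ v)⟫_ℂ = ∑ i, ⟪j (w i * star (w i) * u), j (χ (w i * star (w i) * v))⟫_ℂ := by
  have : ∀ i, ⟪j (w i * star (w i) * u), j (χ (w i * star (w i) * v))⟫_ℂ =
      ⟪j u, j (w i * star (w i) * χ v)⟫_ℂ := fun i => by
    rw [hmod, h.qt.adj, proj_star (h.mu.pi i).fin, proj_mul_self_left (h.mu.pi i).fin]
  simp only [this]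
  rw [← inner_sum, ← map_sum, ← Finset.sum_mul, h.mu.sum, one_mul]

theorem Setup.N2_split (h : Setup j C w e Y d) {Ω : Type*} [Fintype Ω] (f : Ω → A) :
    N2 (fun p : Ω × ι => j (w p.2 * star (w p.2) * f p.1)) = N2 fun ω => j (f ω) := by
  refine (pow_left_inj₀ (N2_nonneg _) (N2_nonneg _) two_ne_zero).1 ?_
  rw [N2_sq, N2_sq, Fintype.sum_prod_type]
  exact Finset.sum_congr rfl fun ω _ => h.qt.sum_sq h.mu (f ω)

theorem Setup.harm_inner (h : Setup j C w e Y d) (harm : ∀ a, uavg Y χ a = χ a) (u v : A) :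
    ∑ y, ⟪j (Y y * u), j (χ (Y y * v))⟫_ℂ = Fintype.card S • ⟪j u, j (χ v)⟫_ℂ := by
  have e1 : ∀ y, ⟪j (Y y * u), j (χ (Y y * v))⟫_ℂ = ⟪j u, j (star (Y y) * χ (Y y * v))⟫_ℂ :=
    fun y => h.qt.adj _ _ _
  have e2 : ∑ y, star (Y y) * χ (Y y * v) = (Fintype.card S : ℂ) • χ v := by
    rw [← harm v]; exact (card_smul_avg _).symm
  simp only [e1]
  rw [← inner_sum, ← map_sum, e2, map_smul, inner_smul_right, nsmul_eq_mul]

section Step
variable {P : ι → A} {D W : (Bool × ι → S) → A} {ℓ : Bool} {s0 : S} {Q δ η : ℝ}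

/-- The data of one step, with the diagonal projections `P i` made abstract. -/
structure StepData (j : A →ₗ[ℂ] E) (C : ℝ) (χ : A → A) (κ : ℝ) (Y : S → A) (P : ι → A)
    (D W : (Bool × ι → S) → A) (ℓ : Bool) (s0 : S) (Q δ : ℝ) : Prop where
  qt : QT j C
  lin : IsLinearMap ℂ χ
  κ0 : 0 ≤ κ
  le : ∀ a, ‖j (χ a)‖ ≤ κ * ‖j a‖
  unit : ∀ y, Y y ∈ unitary A
  proj : ∀ i, IsStarProjection (P i)
  orth : ∀ i k, k ≠ i → P i * P k = 0
  comm : ∀ i y, P i * Y y = Y y * P i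
  PD : ∀ s i, P i * D s = P i * Y (s (ℓ, i))
  Dunit : ∀ s, D s ∈ unitary A
  Wunit : ∀ s, W s ∈ unitary A
  split : ∀ u v, ⟪j u, j (χ v)⟫_ℂ = ∑ i, ⟪j (P i * u), j (χ (P i * v))⟫_ℂ
  Nsplit : ∀ f : (Bool × ι → S) → A,
    N2 (fun p : (Bool × ι → S) × ι => j (P p.2 * f p.1)) = N2 fun ω => j (f ω)
  harm : ∀ u v, ∑ y, ⟪j (Y y * u), j (χ (Y y * v))⟫_ℂ = Fintype.card S • ⟪j u, j (χ v)⟫_ℂ
  Q0 : 0 ≤ Q
  Q2 : Q ^ 2 = Fintype.card (Bool × ι → S)
  δ0 : 0 ≤ δ
  fr : ∀ c, N2 (fun p : (Bool × ι → S) × ι => j (P p.2 * (W p.1 * c) -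
    P p.2 * (W (Function.update p.1 (ℓ, p.2) s0) * c))) ≤ Q * (δ * ‖c‖)

theorem StepData.jW (h : StepData j C χ κ Y P D W ℓ s0 Q δ) (s : Bool × ι → S) (c : A) :
    ‖j (W s * c)‖ ≤ ‖c‖ * ‖j 1‖ := by
  rw [h.qt.norm_unitary (h.Wunit s)]; exact h.qt.le c

theorem StepData.N2_le_const (h : StepData j C χ κ Y P D W ℓ s0 Q δ) {f : (Bool × ι → S) → E}
    {r : ℝ} (hr : 0 ≤ r) (hf : ∀ s, ‖f s‖ ≤ r) : N2 f ≤ Q * r := by
  have := R121.N2_le_const hr hf
  rwa [← h.Q2, Real.sqrt_sq h.Q0] at this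

theorem StepData.PDW (h : StepData j C χ κ Y P D W ℓ s0 Q δ) (s : Bool × ι → S) (i : ι) (c : A) :
    P i * (D s * W s * c) = Y (s (ℓ, i)) * (P i * (W s * c)) := by
  rw [mul_assoc (D s), ← mul_assoc (P i), h.PD, h.comm, mul_assoc]

theorem StepData.pair (h : StepData j C χ κ Y P D W ℓ s0 Q δ) (a b : A)
    (U : (Bool × ι → S) × ι → A) (hU : ∀ p, U p ∈ unitary A) :
    ‖∑ p, ⟪j (U p * (P p.2 * (W p.1 * b))), j (χ (U p * (P p.2 * (W p.1 * a))))⟫_ℂ -
      ∑ p, ⟪j (U p * (P p.2 * (W (Function.update p.1 (ℓ, p.2) s0) * b))),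
        j (χ (U p * (P p.2 * (W (Function.update p.1 (ℓ, p.2) s0) * a))))⟫_ℂ‖ ≤
      κ * (Q * (δ * ‖b‖) * (Q * (‖a‖ * ‖j 1‖)) +
        (Q * (‖b‖ * ‖j 1‖) + Q * (δ * ‖b‖)) * (Q * (δ * ‖a‖))) := by
  have hQ := h.Q0
  have hδ := h.δ0
  have hNW : ∀ c, N2 (fun p : (Bool × ι → S) × ι => j (P p.2 * (W p.1 * c))) ≤
      Q * (‖c‖ * ‖j 1‖) := fun c => by
    rw [h.Nsplit fun s => W s * c]
    exact h.N2_le_const (by positivity) fun s => h.jW s c
  have hNW' : ∀ c, N2 (fun p : (Bool × ι → S) × ι =>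
      j (P p.2 * (W (Function.update p.1 (ℓ, p.2) s0) * c))) ≤
      Q * (‖c‖ * ‖j 1‖) + Q * (δ * ‖c‖) := fun c => by
    refine le_trans (le_of_eq ?_) ((N2_sub _ _).trans (add_le_add (hNW c) (h.fr c)))
    congr 1; funext p; rw [← map_sub]; congr 1; abel
  refine (pairing_le h.lin h.κ0 h.le _ _ _ _).trans (mul_le_mul_of_nonneg_left ?_ h.κ0)
  have e1 : ∀ f : (Bool × ι → S) × ι → A, N2 (fun p => j (U p * f p)) = N2 fun p => j (f p) :=
    fun f => N2_congr fun p => h.qt.norm_unitary (hU p) _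
  simp only [← mul_sub (U _), e1]
  exact add_le_add
    (mul_le_mul (h.fr b) (hNW a) (N2_nonneg _) (by positivity))
    (mul_le_mul (hNW' b) (h.fr a) (N2_nonneg _) (by positivity))

theorem StepData.remove_D (h : StepData j C χ κ Y P D W ℓ s0 Q δ) (a b : A) :
    ‖∑ s, ⟪j (D s * W s * b), j (χ (D s * W s * a))⟫_ℂ - ∑ s, ⟪j (W s * b), j (χ (W s * a))⟫_ℂ‖ ≤
      2 * (κ * (Q * (δ * ‖b‖) * (Q * (‖a‖ * ‖j 1‖)) +
        (Q * (‖b‖ * ‖j 1‖) + Q * (δ * ‖b‖)) * (Q * (δ * ‖a‖)))) := by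
  have h23 := h.pair a b (fun p => Y (p.1 (ℓ, p.2))) fun p => h.unit _
  have h45 := h.pair a b (fun _ => 1) fun _ => one_mem _
  simp only [one_mul] at h45
  have hT2 : ∑ s, ⟪j (D s * W s * b), j (χ (D s * W s * a))⟫_ℂ =
      ∑ p : (Bool × ι → S) × ι, ⟪j (Y (p.1 (ℓ, p.2)) * (P p.2 * (W p.1 * b))),
        j (χ (Y (p.1 (ℓ, p.2)) * (P p.2 * (W p.1 * a))))⟫_ℂ := by
    rw [Fintype.sum_prod_type]
    refine Finset.sum_congr rfl fun s _ => ?_
    rw [h.split]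
    simp only [h.PDW]
  have hT5 : ∑ s, ⟪j (W s * b), j (χ (W s * a))⟫_ℂ =
      ∑ p : (Bool × ι → S) × ι, ⟪j (P p.2 * (W p.1 * b)), j (χ (P p.2 * (W p.1 * a)))⟫_ℂ := by
    rw [Fintype.sum_prod_type]
    exact Finset.sum_congr rfl fun s _ => h.split _ _
  have hT34 : ∑ p : (Bool × ι → S) × ι,
        ⟪j (Y (p.1 (ℓ, p.2)) * (P p.2 * (W (Function.update p.1 (ℓ, p.2) s0) * b))),
        j (χ (Y (p.1 (ℓ, p.2)) * (P p.2 * (W (Function.update p.1 (ℓ, p.2) s0) * a))))⟫_ℂ =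
      ∑ p : (Bool × ι → S) × ι, ⟪j (P p.2 * (W (Function.update p.1 (ℓ, p.2) s0) * b)),
        j (χ (P p.2 * (W (Function.update p.1 (ℓ, p.2) s0) * a)))⟫_ℂ := by
    rw [Fintype.sum_prod_type_right, Fintype.sum_prod_type_right]
    refine Finset.sum_congr rfl fun i _ => ?_
    have := sum_update (ℓ, i) s0 fun y s' =>
      ⟪j (Y y * (P i * (W s' * b))), j (χ (Y y * (P i * (W s' * a))))⟫_ℂ
    simp only [h.harm, ← Finset.smul_sum] at this
    exact nsmul_right_injective Fintype.card_ne_zero this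
  rw [hT34, ← hT2] at h23
  rw [← hT5, norm_sub_rev] at h45
  refine (norm_sub_le_norm_sub_add_norm_sub _ _ _).trans ((add_le_add h23 h45).trans ?_)
  rw [two_mul]

theorem StepData.move_main (h : StepData j C χ κ Y P D W ℓ s0 Q δ) (hη : 0 ≤ η) {x : A}
    (hgood : Good j χ Y η x) (a : A) (i : ι) :
    N2 (fun s : Bool × ι → S =>
      j (χ (x * (Y (s (ℓ, i)) * (P i * (W (Function.update s (ℓ, i) s0) * a)))) -
        x * χ (Y (s (ℓ, i)) * (P i * (W (Function.update s (ℓ, i) s0) * a))))) ≤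
      Q * (η * (‖a‖ * ‖j 1‖)) := by
  have hQ := h.Q0
  refine N2_le (by positivity) ?_
  have h1 := sum_update (ℓ, i) s0 fun y s' =>
    ‖j (χ (x * (Y y * (P i * (W s' * a)))) - x * χ (Y y * (P i * (W s' * a))))‖ ^ 2
  rw [nsmul_eq_mul] at h1
  refine le_of_mul_le_mul_left ?_ (Nat.cast_pos.2 (Fintype.card_pos (α := S)))
  refine h1.trans_le ?_
  have h2 : ∀ s' : Bool × ι → S, ∑ y,
      ‖j (χ (x * (Y y * (P i * (W s' * a)))) - x * χ (Y y * (P i * (W s' * a))))‖ ^ 2 ≤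
      Fintype.card S * (η * (‖a‖ * ‖j 1‖)) ^ 2 := fun s' => by
    have h3 := hgood (P i * (W s' * a))
    simp only [mul_assoc x] at h3
    refine h3.trans (mul_le_mul_of_nonneg_left ?_ (Nat.cast_nonneg _))
    rw [mul_pow]
    gcongr
    refine (h.qt.mul_le _ _).trans ?_
    calc _ ≤ 1 * (‖a‖ * ‖j 1‖) := mul_le_mul (proj_norm_le (h.proj i)) (h.jW _ _) (norm_nonneg _)
          zero_le_one
      _ = _ := one_mul _
  refine (Finset.sum_le_sum fun s _ => h2 _).trans (le_of_eq ?_)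
  rw [Finset.sum_const, Finset.card_univ, nsmul_eq_mul, mul_pow Q, h.Q2]; ring

theorem StepData.move_err (h : StepData j C χ κ Y P D W ℓ s0 Q δ) (a : A) :
    N2 (fun s => j (D s * W s * a -
      ∑ i, Y (s (ℓ, i)) * (P i * (W (Function.update s (ℓ, i) s0) * a)))) ≤ Q * (δ * ‖a‖) := by
  rw [← h.Nsplit]
  refine le_trans (le_of_eq (N2_congr fun p => ?_)) (h.fr a)
  obtain ⟨s, i⟩ := p
  have e1 : P i * (D s * W s * a -
      ∑ k, Y (s (ℓ, k)) * (P k * (W (Function.update s (ℓ, k) s0) * a))) =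
      Y (s (ℓ, i)) * (P i * (W s * a) - P i * (W (Function.update s (ℓ, i) s0) * a)) := by
    rw [mul_sub, mul_sub, Finset.mul_sum, Finset.sum_eq_single i]
    · rw [h.PDW, ← mul_assoc (P i) (Y _), h.comm, mul_assoc, proj_mul_self_left (h.proj i)]
    · intro k _ hk
      rw [← mul_assoc (P i), h.comm, mul_assoc, ← mul_assoc (P i), h.orth i k hk, zero_mul,
        mul_zero]
    · simp
  exact (congrArg (fun u => ‖j u‖) e1).trans (h.qt.norm_unitary (h.unit _) _)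

theorem StepData.move (h : StepData j C χ κ Y P D W ℓ s0 Q δ) (hη : 0 ≤ η) {x : A}
    (hx : x ∈ unitary A) (hgood : Good j χ Y η x) (a b : A) :
    ‖∑ s, ⟪j (x * D s * W s * b), j (χ (x * D s * W s * a))⟫_ℂ -
      ∑ s, ⟪j (D s * W s * b), j (χ (D s * W s * a))⟫_ℂ‖ ≤ Q * (‖b‖ * ‖j 1‖) *
      (Fintype.card ι * (Q * (η * (‖a‖ * ‖j 1‖))) + 2 * κ * (Q * (δ * ‖a‖))) := by
  have hQ := h.Q0
  have hκ0 := h.κ0
  have hΔ : ∀ y, ‖j (χ (x * y) - x * χ y)‖ ≤ 2 * κ * ‖j y‖ := fun y => by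
    rw [map_sub]
    refine (norm_sub_le _ _).trans ?_
    have h1 := h.le (x * y)
    rw [h.qt.norm_unitary hx] at h1
    rw [h.qt.norm_unitary hx]
    linarith [h.le y]
  have hmove : N2 (fun s => j (χ (x * (D s * W s * a)) - x * χ (D s * W s * a))) ≤
      Fintype.card ι * (Q * (η * (‖a‖ * ‖j 1‖))) + 2 * κ * (Q * (δ * ‖a‖)) := by
    have h1 := (N2_sum Finset.univ _).trans
      (Finset.sum_le_sum fun i _ => h.move_main hη hgood a i)
    rw [Finset.sum_const, Finset.card_univ, nsmul_eq_mul] at h1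
    have h2 := (N2_mono (by positivity) fun s => hΔ _).trans
      (mul_le_mul_of_nonneg_left (h.move_err a) (by positivity : 0 ≤ 2 * κ))
    refine le_trans (le_of_eq ?_) ((N2_add _ _).trans (add_le_add h1 h2))
    congr 1; funext s
    obtain ⟨T, hT⟩ : ∃ T : A →ₗ[ℂ] A, ∀ y, χ y = T y := ⟨h.lin.mk' χ, fun _ => rfl⟩
    simp only [hT, mul_sub, Finset.mul_sum, map_sub, map_sum, Finset.sum_sub_distrib]
    abel
  have e1 : ∑ s, ⟪j (x * D s * W s * b), j (χ (x * D s * W s * a))⟫_ℂ -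
      ∑ s, ⟪j (D s * W s * b), j (χ (D s * W s * a))⟫_ℂ =
      ∑ s, ⟪j (x * (D s * W s * b)), j (χ (x * (D s * W s * a)) - x * χ (D s * W s * a))⟫_ℂ := by
    rw [← Finset.sum_sub_distrib]
    refine Finset.sum_congr rfl fun s _ => ?_
    rw [map_sub, inner_sub_right, h.qt.inner_unitary hx]
    simp only [mul_assoc]
  rw [e1]
  refine (norm_sum_inner_le _ _).trans (mul_le_mul ?_ hmove (N2_nonneg _) (by positivity))
  refine h.N2_le_const (by positivity) fun s => ?_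
  rw [h.qt.norm_unitary hx, mul_assoc, h.qt.norm_unitary (h.Dunit s)]
  exact h.jW s b

theorem StepData.step (h : StepData j C χ κ Y P D W ℓ s0 Q δ) (hη : 0 ≤ η) {x : A}
    (hx : x ∈ unitary A) (hgood : Good j χ Y η x) (a b : A) :
    ‖∑ s, ⟪j (x * D s * W s * b), j (χ (x * D s * W s * a))⟫_ℂ -
      ∑ s, ⟪j (W s * b), j (χ (W s * a))⟫_ℂ‖ ≤ Fintype.card (Bool × ι → S) *
      ((10 * κ * δ * (‖j 1‖ + δ) + Fintype.card ι * η * ‖j 1‖ ^ 2) * ‖a‖ * ‖b‖) := by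
  refine (norm_sub_le_norm_sub_add_norm_sub _ _ _).trans
    ((add_le_add (h.move hη hx hgood a b) (h.remove_D a b)).trans ?_)
  rw [← h.Q2]
  have hκ0 := h.κ0
  have hδ0 := h.δ0
  have hab : 0 ≤ Q ^ 2 * ‖a‖ * ‖b‖ * (κ * δ) := by positivity
  nlinarith [mul_nonneg hab (norm_nonneg (j 1)), mul_nonneg hab hδ0]

end Step

/-- Removal of one letter. -/
theorem Setup.step (h : Setup j C w e Y d) (hχ : IsLinearMap ℂ χ) {η δ : ℝ}
    (hκ0 : 0 ≤ κ) (hκ : ∀ a, ‖j (χ a)‖ ≤ κ * ‖j a‖)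
    (hmod : ∀ i a, χ (w i * star (w i) * a) = w i * star (w i) * χ a)
    (harm : ∀ a, uavg Y χ a = χ a) (hη : 0 ≤ η) (hδ0 : 0 ≤ δ) {x : A} (hx : x ∈ unitary A)
    (hgood : Good j χ Y η x) (ℓ : Bool) (W : (Bool × ι → S) → A) (hW : ∀ s, W s ∈ unitary A)
    (s0 : S) (hfr : ∀ a, N2 (fun p : (Bool × ι → S) × ι => j (w p.2 * star (w p.2) *
      (W p.1 - W (Function.update p.1 (ℓ, p.2) s0)) * a)) ≤
        Real.sqrt (Fintype.card (Bool × ι → S)) * (δ * ‖a‖)) (a b : A) :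
    ‖∑ s, ⟪j (x * Dg w Y s ℓ * W s * b), j (χ (x * Dg w Y s ℓ * W s * a))⟫_ℂ -
      ∑ s, ⟪j (W s * b), j (χ (W s * a))⟫_ℂ‖ ≤ Fintype.card (Bool × ι → S) *
      ((10 * κ * δ * (‖j 1‖ + δ) + Fintype.card ι * η * ‖j 1‖ ^ 2) * ‖a‖ * ‖b‖) := by
  have hd : StepData j C χ κ Y (fun i => w i * star (w i)) (fun s => Dg w Y s ℓ) W ℓ s0
      (Real.sqrt (Fintype.card (Bool × ι → S))) δ :=
    { qt := h.qt, lin := hχ, κ0 := hκ0, le := hκ, unit := h.unit
      proj := fun i => (h.mu.pi i).fin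
      orth := fun i k hk => by simpa [hk.symm] using h.mu.mul i i k k
      comm := h.comm
      PD := fun s i => h.e_mul_Dg s ℓ i
      Dunit := fun s => h.Dg_mem s ℓ
      Wunit := hW
      split := h.inner_split hmod
      Nsplit := fun f => h.N2_split f
      harm := h.harm_inner harm
      Q0 := Real.sqrt_nonneg _
      Q2 := Real.sq_sqrt (Nat.cast_nonneg _)
      δ0 := hδ0
      fr := fun c => by
        refine le_trans (le_of_eq ?_) (hfr c)
        congr 1; funext p; congr 1; noncomm_ring }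
  exact hd.step hη hx hgood a b

end

theorem Setup.claimF (h : Setup j C w e Y d) {χ : A → A} (hχ : IsLinearMap ℂ χ) {κ η δ : ℝ}
    (hκ0 : 0 ≤ κ) (hκ : ∀ a, ‖j (χ a)‖ ≤ κ * ‖j a‖)
    (hmod : ∀ i a, χ (w i * star (w i) * a) = w i * star (w i) * χ a)
    (harm : ∀ a, uavg Y χ a = χ a) (hη : 0 ≤ η) (hδ0 : 0 ≤ δ)
    (hδ : 4 * (d : ℝ) ^ 2 * C ^ 6 * (d : ℝ) ^ d * ‖j 1‖ ^ 2 / Fintype.card ι ≤ δ ^ 2)
    (b0 : Bool) (L : List (A × Bool)) (hd : L.length ≤ d)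
    (hL : ∀ st ∈ L, st.1 ∈ unitary A ∧ Good j χ Y η st.1 ∧ (st.2 = b0 → Flat w st.1))
    (hch : L.IsChain fun p q => p.2 ≠ q.2) (a b : A) :
    ‖avg (fun s => ⟪j (Wd w Y L s * b), j (χ (Wd w Y L s * a))⟫_ℂ) - ⟪j b, j (χ a)⟫_ℂ‖ ≤
      L.length * ((10 * κ * δ * (‖j 1‖ + δ) + Fintype.card ι * η * ‖j 1‖ ^ 2) * ‖a‖ * ‖b‖) := by
  have hC := h.qt.nonneg
  induction L with
  | nil => simp [Wd_nil, avg_const]
  | cons st L ih =>
    obtain ⟨x, ℓ⟩ := st
    have hL' := fun st hst => hL st (List.mem_cons_of_mem _ hst)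
    have hU : ∀ st ∈ L, st.1 ∈ unitary A := fun st hst => (hL' st hst).1
    rw [List.length_cons] at hd
    have ih' := ih (by omega) hL' hch.of_cons
    set Pc : ℝ := (Fintype.card (Bool × ι → S) : ℝ) with hPc
    have hP0 : 0 < Pc := Nat.cast_pos.2 Fintype.card_pos
    set r := Real.sqrt (C ^ 2 * (d : ℝ) ^ d * ‖j 1‖ ^ 2 / Fintype.card ι) with hr
    have hr0 : 0 ≤ r := Real.sqrt_nonneg _
    have hr2 : r ^ 2 = C ^ 2 * (d : ℝ) ^ d * ‖j 1‖ ^ 2 / Fintype.card ι :=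
      Real.sq_sqrt (by positivity)
    have hrδ : d * (2 * C ^ 2 * r) ≤ δ := by
      refine (pow_le_pow_iff_left₀ (by positivity) hδ0 two_ne_zero).1 (le_trans (le_of_eq ?_) hδ)
      rw [mul_pow, mul_pow, hr2]; ring
    obtain ⟨s0⟩ := ‹Nonempty S›
    have hfr : ∀ a, N2 (fun p : (Bool × ι → S) × ι => j (w p.2 * star (w p.2) *
        (Wd w Y L p.1 - Wd w Y L (Function.update p.1 (ℓ, p.2) s0)) * a)) ≤
          Real.sqrt Pc * (δ * ‖a‖) := fun a => by
      have := h.freeze ℓ s0 a (r := Real.sqrt Pc * r) (by positivity) L hU [] (by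
        intro L1 y L2 hs
        rw [List.nil_append]
        cases L1 with
        | nil =>
          subst hs
          exact absurd rfl (List.isChain_cons_cons.1 hch).1
        | cons st1 L1 =>
          obtain ⟨x1, ℓ1⟩ := st1
          subst hs
          have hne : ℓ ≠ ℓ1 := (List.isChain_cons_cons.1 hch).1
          refine N2_le (by positivity) ?_
          rw [Fintype.sum_prod_type, mul_pow, Real.sq_sqrt hP0.le, hr2]
          refine h.ret (fun st hst => hU st (List.mem_append_left _ hst)) ?_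
            (hU (y, ℓ) (by simp)) ?_
          · simp only [List.cons_append, List.length_cons, List.length_append] at hd
            omega
          · by_cases hb : ℓ = b0
            · exact Or.inr ((hL' (y, ℓ) (by simp)).2.2 hb)
            · refine Or.inl ((hL' (x1, ℓ1) (by simp)).2.2 ?_)
              revert hne hb
              cases ℓ <;> cases ℓ1 <;> cases b0 <;> simp)
      simp only [Wd_nil, mul_one] at this
      refine this.trans ?_
      have h1 : (L.length : ℝ) ≤ d := by exact_mod_cast (by omega : L.length ≤ d)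
      calc _ ≤ d * (2 * C ^ 2 * ‖a‖ * (Real.sqrt Pc * r)) := by gcongr
        _ = Real.sqrt Pc * (d * (2 * C ^ 2 * r) * ‖a‖) := by ring
        _ ≤ _ := by gcongr
    have hx := hL (x, ℓ) List.mem_cons_self
    have hst := h.step hχ hκ0 hκ hmod harm hη hδ0 hx.1 hx.2.1 ℓ (Wd w Y L) (h.Wd_mem hU) s0 hfr a b
    have hst' : ‖avg (fun s => ⟪j (Wd w Y ((x, ℓ) :: L) s * b),
          j (χ (Wd w Y ((x, ℓ) :: L) s * a))⟫_ℂ) -
        avg (fun s => ⟪j (Wd w Y L s * b), j (χ (Wd w Y L s * a))⟫_ℂ)‖ ≤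
        (10 * κ * δ * (‖j 1‖ + δ) + Fintype.card ι * η * ‖j 1‖ ^ 2) * ‖a‖ * ‖b‖ := by
      rw [avg, avg, ← smul_sub, norm_smul, norm_inv, Complex.norm_natCast, ← hPc,
        inv_mul_le_iff₀ hP0]
      exact hst
    refine (norm_sub_le_norm_sub_add_norm_sub _ _ _).trans ((add_le_add hst' ih').trans
      (le_of_eq ?_))
    simp only [List.length_cons]; push_cast; ring

end Crest.Agent.R121
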