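import Crest.Agent.R121.Av
import Crest.Prelude.Def_Hochschild

/-! # R121: cochains as functions on lists (task `Coch`) -/

set_option autoImplicit false
set_option linter.unusedSectionVars false
open Filter Topology

namespace Crest.Agent.R121

section Ring
variable {A : Type*} [Ring A]

/-- `∂ f (a₀, …, a_k) = ∑_j (-1)^j f (…, a_j a_{j+1}, …) + (-1)^k f (a₀, …, a_{k-1}) a_k`. -/
def pd : (List A → A) → List A → A
  | _, [] => 0
  | f, [a] => f [] * a
  | f, a :: b :: l => f (a * b :: l) - pd (fun l' => f (a :: l')) (b :: l)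

/-- The Hochschild differential. -/
def dd (f : List A → A) : List A → A
  | [] => 0
  | a :: l => a * f l - pd f (a :: l)

/-- `f` is a `k`-cocycle. -/
def Cocycle (k : ℕ) (f : List A → A) : Prop := ∀ l : List A, l.length = k + 1 → dd f l = 0

theorem pd_nil (f : List A → A) : pd f [] = 0 := by simp [pd]
theorem pd_single (f : List A → A) (a : A) : pd f [a] = f [] * a := by simp [pd]
theorem pd_cons (f : List A → A) (a b : A) (l : List A) :
    pd f (a :: b :: l) = f (a * b :: l) - pd (fun l' => f (a :: l')) (b :: l) := by simp [pd]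
theorem dd_nil (f : List A → A) : dd f [] = 0 := rfl
theorem dd_cons (f : List A → A) (a : A) (l : List A) : dd f (a :: l) = a * f l - pd f (a :: l) :=
  rfl

/-- `pd f l` only depends on the values of `f` on lists of length `l.length - 1`.
All lemmas on `pd` are proved by induction on `l` generalizing `f`. -/
theorem pd_congr {f g : List A → A} {l : List A}
    (h : ∀ l' : List A, l'.length + 1 = l.length → f l' = g l') : pd f l = pd g l := by
  induction l generalizing f g with
  | nil => simp [pd_nil]
  | cons a l ih =>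
    cases l with
    | nil => rw [pd_single, pd_single, h [] rfl]
    | cons b l =>
      rw [pd_cons, pd_cons, h (a * b :: l) rfl, ih (f := fun l' => f (a :: l'))
        (g := fun l' => g (a :: l')) fun l' hl' => h _ (by simpa using hl')]

theorem dd_congr {f g : List A → A} {l : List A}
    (h : ∀ l' : List A, l'.length + 1 = l.length → f l' = g l') : dd f l = dd g l := by
  cases l with
  | nil => rfl
  | cons a l => rw [dd_cons, dd_cons, h l rfl, pd_congr h]

theorem pd_add (f g : List A → A) (l : List A) :
    pd (fun l => f l + g l) l = pd f l + pd g l := by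
  induction l generalizing f g with
  | nil => simp [pd_nil]
  | cons a l ih =>
    cases l with
    | nil => simp only [pd_single, add_mul]
    | cons b l => rw [pd_cons, pd_cons, pd_cons, ih]; abel

theorem pd_sub (f g : List A → A) (l : List A) :
    pd (fun l => f l - g l) l = pd f l - pd g l := by
  induction l generalizing f g with
  | nil => simp [pd_nil]
  | cons a l ih =>
    cases l with
    | nil => simp only [pd_single, sub_mul]
    | cons b l => rw [pd_cons, pd_cons, pd_cons, ih]; abel

theorem pd_mul_left (x : A) (f : List A → A) (l : List A) :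
    pd (fun l => x * f l) l = x * pd f l := by
  induction l generalizing f with
  | nil => simp [pd_nil]
  | cons a l ih =>
    cases l with
    | nil => simp only [pd_single, mul_assoc]
    | cons b l => rw [pd_cons, pd_cons, ih, mul_sub]

theorem pd_sum {ι : Type*} (s : Finset ι) (f : ι → List A → A) (l : List A) :
    pd (fun l => ∑ i ∈ s, f i l) l = ∑ i ∈ s, pd (f i) l := by
  induction l generalizing f with
  | nil => simp [pd_nil]
  | cons a l ih =>
    cases l with
    | nil => simp only [pd_single, Finset.sum_mul]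
    | cons b l =>
      rw [pd_cons, ih (fun i l' => f i (a :: l')), ← Finset.sum_sub_distrib]
      simp only [pd_cons]

theorem dd_add (f g : List A → A) (l : List A) :
    dd (fun l => f l + g l) l = dd f l + dd g l := by
  cases l with
  | nil => simp [dd_nil]
  | cons a l => rw [dd_cons, dd_cons, dd_cons, pd_add, mul_add]; abel

theorem dd_sub (f g : List A → A) (l : List A) :
    dd (fun l => f l - g l) l = dd f l - dd g l := by
  cases l with
  | nil => simp [dd_nil]
  | cons a l => rw [dd_cons, dd_cons, dd_cons, pd_sub, mul_sub]; abel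

theorem dd_sum {ι : Type*} (s : Finset ι) (f : ι → List A → A) (l : List A) :
    dd (fun l => ∑ i ∈ s, f i l) l = ∑ i ∈ s, dd (f i) l := by
  cases l with
  | nil => simp [dd_nil]
  | cons a l =>
    rw [dd_cons, pd_sum, Finset.mul_sum, ← Finset.sum_sub_distrib]
    simp only [dd_cons]

theorem dd_mul_central {z : A} (hz : ∀ a, z * a = a * z) (f : List A → A) (l : List A) :
    dd (fun l => z * f l) l = z * dd f l := by
  cases l with
  | nil => simp [dd_nil]
  | cons a l => rw [dd_cons, dd_cons, pd_mul_left, mul_sub, ← mul_assoc, ← hz, mul_assoc]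

/-- `S x f`: multiply the first argument by `x` on the left; `(∂ f)(x :: ·) = S x f - ∂ (f (x :: ·))`. -/
def Sh (x : A) (f : List A → A) : List A → A
  | [] => f [] * x
  | b :: l => f (x * b :: l)

theorem pd_cons_eq (f : List A → A) (x : A) (l : List A) :
    pd f (x :: l) = Sh x f l - pd (fun l' => f (x :: l')) l := by
  cases l with
  | nil => simp [pd_single, pd_nil, Sh]
  | cons b l => simp [pd_cons, Sh]

theorem coch_pd_Sh (f : List A → A) (a b : A) (l : List A) :
    pd (Sh a f) (b :: l) = pd f (a * b :: l) := by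
  cases l with
  | nil => simp [pd_single, Sh, mul_assoc]
  | cons c l => simp [pd_cons, Sh, mul_assoc]

/-- `∂ ∂ = 0`: `pd (pd G) (a :: b :: l) = pd G (ab :: l) - pd (Sh a G) (b :: l) + pd (pd G_a) (b :: l)`,
and `pd (Sh a G) (b :: l) = pd G (a b :: l)` by cases on `l`. -/
theorem pd_pd (f : List A → A) (l : List A) : pd (pd f) l = 0 := by
  induction l generalizing f with
  | nil => exact pd_nil _
  | cons a l ih =>
    cases l with
    | nil => simp [pd_single, pd_nil]
    | cons b l =>
      rw [pd_cons]
      simp only [pd_cons_eq f a]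
      rw [pd_sub, ih, coch_pd_Sh]
      simp

/-- Left multiplication by the first argument. -/
def coch_mu (f : List A → A) : List A → A
  | [] => 0
  | x :: l => x * f l

/-- `δ δ = 0`: write `dd G = μ - pd G`, `μ (x :: l) = x G l`, `μ [] = 0`;
`pd μ (a :: b :: l) = a b G l - a pd G (b :: l)`. -/
theorem dd_dd (f : List A → A) (l : List A) : dd (dd f) l = 0 := by
  have e : dd f = fun l => coch_mu f l - pd f l := by
    funext l
    cases l with
    | nil => simp [dd_nil, coch_mu, pd_nil]
    | cons a l => simp [dd_cons, coch_mu]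
  cases l with
  | nil => rfl
  | cons a l =>
    rw [dd_cons]
    have e2 : pd (dd f) (a :: l) = pd (coch_mu f) (a :: l) := by
      rw [e, pd_sub, pd_pd, sub_zero]
    rw [e2]
    cases l with
    | nil => simp [dd_nil, pd_single, coch_mu]
    | cons b l =>
      rw [pd_cons, dd_cons]
      simp only [coch_mu]
      rw [pd_mul_left, mul_sub, mul_assoc, sub_self]

theorem coch_pd_map {B : Type*} [Ring B] (α : B → A) (β : A →+ B)
    (hα : ∀ x y, α (x * y) = α x * α y) (hr : ∀ x n, β (x * α n) = β x * n)
    (f : List A → A) (l : List B) :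
    pd (fun l => β (f (l.map α))) l = β (pd f (l.map α)) := by
  induction l generalizing f with
  | nil => simp [pd_nil]
  | cons a l ih =>
    cases l with
    | nil => simp [pd_single, hr]
    | cons b l =>
      have := ih (fun l' => f (α a :: l'))
      simp only [List.map_cons] at this ⊢
      rw [pd_cons, pd_cons, map_sub, ← this]
      simp only [List.map_cons, hα]

theorem dd_map {B : Type*} [Ring B] (α : B → A) (β : A →+ B) (hα : ∀ x y, α (x * y) = α x * α y)
    (hr : ∀ x n, β (x * α n) = β x * n) (hl : ∀ x n, β (α n * x) = n * β x)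
    (f : List A → A) (l : List B) :
    dd (fun l => β (f (l.map α))) l = β (dd f (l.map α)) := by
  cases l with
  | nil => simp [dd_nil]
  | cons a l =>
    rw [dd_cons, coch_pd_map α β hα hr, List.map_cons, dd_cons, map_sub, hl]

theorem coch_merge_zero {k : ℕ} (a : Fin (k + 2) → A) :
    List.ofFn (Crest.OpAlg.mergeArgs (0 : Fin (k + 1)) a) =
      a 0 * a 1 :: List.ofFn fun i : Fin k => a i.succ.succ := by
  rw [List.ofFn_succ]
  congr 1

theorem coch_merge_succ {k : ℕ} (j : Fin k) (a : Fin (k + 2) → A) :
    List.ofFn (Crest.OpAlg.mergeArgs j.succ a) =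
      a 0 :: List.ofFn (Crest.OpAlg.mergeArgs j fun i => a i.succ) := by
  rw [List.ofFn_succ]
  congr 1
  congr 1
  funext i
  simp only [Crest.OpAlg.mergeArgs, Fin.val_succ, Nat.add_lt_add_iff_right, Nat.add_right_cancel_iff,
    Fin.succ_castSucc]

theorem coch_pd_ofFn {k : ℕ} (F : List A → A) (a : Fin (k + 1) → A) :
    pd F (List.ofFn a) =
      (∑ j : Fin k, ((-1 : ℤ) ^ j.val) • F (List.ofFn (Crest.OpAlg.mergeArgs j a))) +
        ((-1 : ℤ) ^ k) • (F (List.ofFn fun i : Fin k => a i.castSucc) * a (Fin.last k)) := by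
  induction k generalizing F with
  | zero => simp [pd_single]
  | succ k ih =>
    have h1 := ih (fun l' => F (a 0 :: l')) (fun i => a i.succ)
    have h2 : List.ofFn (fun i : Fin (k + 1) => a i.succ) =
        a 1 :: List.ofFn fun i : Fin k => a i.succ.succ := by
      rw [List.ofFn_succ]; rfl
    have h3 : List.ofFn (fun i : Fin (k + 1) => a i.castSucc) =
        a 0 :: List.ofFn fun i : Fin k => a i.castSucc.succ := by
      rw [List.ofFn_succ]; rfl
    rw [List.ofFn_succ, h2, pd_cons, ← h2, h1, Fin.sum_univ_succ, coch_merge_zero, h3]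
    simp only [coch_merge_succ, Fin.val_zero, pow_zero, one_smul, Fin.val_succ, pow_succ, mul_neg,
      mul_one, neg_smul, Finset.sum_neg_distrib, Fin.succ_last]
    abel

/-- The list differential is the Hochschild differential of the prelude. Proof: induction on `k`
generalizing `F` for the auxiliary statement
`pd F (ofFn a) = ∑_{j<k} (-1)^j F (ofFn (mergeArgs j a)) + (-1)^k F (ofFn (a ∘ castSucc)) a_last`
(`Fin.sum_univ_succ`, `List.ofFn_succ`;
`ofFn (mergeArgs 0 a) = a 0 * a 1 :: ofFn (tail tail a)`,
`ofFn (mergeArgs j.succ a) = a 0 :: ofFn (mergeArgs j (tail a))`). -/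
theorem hochschildDiff_eq {k : ℕ} (F : List A → A) (a : Fin (k + 1) → A) :
    Crest.OpAlg.hochschildDiff (fun x : Fin k → A => F (List.ofFn x)) a = dd F (List.ofFn a) := by
  have h := coch_pd_ofFn F a
  rw [List.ofFn_succ] at h ⊢
  rw [dd_cons, h]
  simp only [Crest.OpAlg.hochschildDiff, pow_succ, mul_neg, mul_one, neg_smul,
    Finset.sum_neg_distrib]
  abel

end Ring

section Normed
variable {A : Type*} [NormedRing A] [NormedAlgebra ℂ A]

theorem pd_smul (t : ℂ) (f : List A → A) (l : List A) :
    pd (fun l => t • f l) l = t • pd f l := by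
  induction l generalizing f with
  | nil => simp [pd_nil]
  | cons a l ih =>
    cases l with
    | nil => simp only [pd_single, smul_mul_assoc]
    | cons b l => rw [pd_cons, pd_cons, ih, smul_sub]

theorem pd_avg {G : Type*} [Fintype G] (f : G → List A → A) (l : List A) :
    pd (fun l => avg fun g => f g l) l = avg fun g => pd (f g) l := by
  simp only [avg]
  rw [pd_smul, pd_sum]

/-- Multilinearity on lists of length `k`. -/
def ML (k : ℕ) (f : List A → A) : Prop := ∀ l₁ l₂ : List A, l₁.length + l₂.length + 1 = k →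
  IsLinearMap ℂ fun a => f (l₁ ++ a :: l₂)

/-- Product of the norms. -/
def nrm (l : List A) : ℝ := (l.map norm).prod

/-- Boundedness on lists of length `k`. -/
def Bd (k : ℕ) (f : List A → A) (c : ℝ) : Prop := ∀ l : List A, l.length = k → ‖f l‖ ≤ c * nrm l

/-- `φ` is the coboundary of a `k`-cochain of norm `≤ c`. -/
def Cob (k : ℕ) (φ : List A → A) (c : ℝ) : Prop :=
  ∃ G, ML k G ∧ Bd k G c ∧ ∀ l : List A, l.length = k + 1 → dd G l = φ l

@[simp] theorem nrm_nil : nrm ([] : List A) = 1 := rfl
@[simp] theorem nrm_cons (a : A) (l : List A) : nrm (a :: l) = ‖a‖ * nrm l := rfl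
theorem nrm_nonneg (l : List A) : 0 ≤ nrm l := by
  induction l with
  | nil => simp
  | cons a l ih => rw [nrm_cons]; positivity

theorem ML_zero (f : List A → A) : ML 0 f := fun _ _ h => absurd h (Nat.succ_ne_zero _)

theorem ML.first {k : ℕ} {f : List A → A} (h : ML (k + 1) f) {l : List A} (hl : l.length = k) :
    IsLinearMap ℂ fun a => f (a :: l) := h [] l (by simpa using hl)

theorem ML.cons {k : ℕ} {f : List A → A} (h : ML (k + 1) f) (a : A) : ML k fun l => f (a :: l) :=
  fun l₁ l₂ hl => h (a :: l₁) l₂ (by simp only [List.length_cons]; omega)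

theorem ML_succ {k : ℕ} {f : List A → A}
    (h1 : ∀ l : List A, l.length = k → IsLinearMap ℂ fun a => f (a :: l))
    (h2 : ∀ a, ML k fun l => f (a :: l)) : ML (k + 1) f := by
  intro l₁ l₂ hl
  cases l₁ with
  | nil => exact h1 l₂ (by simpa using hl)
  | cons a l₁ => exact h2 a l₁ l₂ (by simp only [List.length_cons] at hl; omega)

theorem Bd.cons {k : ℕ} {f : List A → A} {c : ℝ} (h : Bd (k + 1) f c) (a : A) :
    Bd k (fun l => f (a :: l)) (c * ‖a‖) := fun l hl => by
  simpa only [nrm_cons, mul_assoc] using h (a :: l) (by simpa using hl)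

theorem Bd.mono {k : ℕ} {f : List A → A} {c c' : ℝ} (h : Bd k f c) (hc : c ≤ c') : Bd k f c' :=
  fun l hl => (h l hl).trans (mul_le_mul_of_nonneg_right hc (nrm_nonneg l))

theorem ML.add {k : ℕ} {f g : List A → A} (hf : ML k f) (hg : ML k g) :
    ML k fun l => f l + g l := by
  intro l₁ l₂ h
  exact ⟨fun x y => by beta_reduce; rw [(hf l₁ l₂ h).map_add, (hg l₁ l₂ h).map_add]; abel,
    fun t x => by beta_reduce; rw [(hf l₁ l₂ h).map_smul, (hg l₁ l₂ h).map_smul, smul_add]⟩

theorem ML.sub {k : ℕ} {f g : List A → A} (hf : ML k f) (hg : ML k g) :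
    ML k fun l => f l - g l := by
  intro l₁ l₂ h
  exact ⟨fun x y => by beta_reduce; rw [(hf l₁ l₂ h).map_add, (hg l₁ l₂ h).map_add]; abel,
    fun t x => by beta_reduce; rw [(hf l₁ l₂ h).map_smul, (hg l₁ l₂ h).map_smul, smul_sub]⟩

theorem ML.sum {k : ℕ} {ι : Type*} (s : Finset ι) {f : ι → List A → A} (hf : ∀ i ∈ s, ML k (f i)) :
    ML k fun l => ∑ i ∈ s, f i l := by
  intro l₁ l₂ h
  refine ⟨fun x y => ?_, fun t x => ?_⟩
  · rw [← Finset.sum_add_distrib]
    exact Finset.sum_congr rfl fun i hi => (hf i hi l₁ l₂ h).map_add x y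
  · rw [Finset.smul_sum]
    exact Finset.sum_congr rfl fun i hi => (hf i hi l₁ l₂ h).map_smul t x

theorem ML.avg {k : ℕ} {G : Type*} [Fintype G] {f : G → List A → A} (hf : ∀ g, ML k (f g)) :
    ML k fun l => avg fun g => f g l := by
  intro l₁ l₂ h
  refine ⟨fun x y => ?_, fun t x => ?_⟩
  · beta_reduce
    rw [← avg_add]
    congr 1
    funext g
    exact (hf g l₁ l₂ h).map_add x y
  · beta_reduce
    rw [← avg_smul]
    congr 1
    funext g
    exact (hf g l₁ l₂ h).map_smul t x

/-- Composition with linear maps on the values and on the arguments. -/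
theorem ML.map {B : Type*} [NormedRing B] [NormedAlgebra ℂ B] {k : ℕ} {f : List A → A}
    (hf : ML k f) {α : B → A} {β : A → B} (hα : IsLinearMap ℂ α) (hβ : IsLinearMap ℂ β) :
    ML k fun l => β (f (l.map α)) := by
  intro l₁ l₂ h
  have h' := hf (l₁.map α) (l₂.map α) (by simpa using h)
  refine ⟨fun x y => ?_, fun t x => ?_⟩
  · simp only [List.map_append, List.map_cons]
    rw [hα.map_add, h'.map_add, hβ.map_add]
  · simp only [List.map_append, List.map_cons]
    rw [hα.map_smul, h'.map_smul, hβ.map_smul]

theorem ML.comp {k : ℕ} {f : List A → A} (hf : ML k f) {β : A → A} (hβ : IsLinearMap ℂ β) :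
    ML k fun l => β (f l) := by
  intro l₁ l₂ h
  have h' := hf l₁ l₂ h
  exact ⟨fun x y => by beta_reduce; rw [h'.map_add, hβ.map_add],
    fun t x => by beta_reduce; rw [h'.map_smul, hβ.map_smul]⟩

theorem Bd.map {B : Type*} [NormedRing B] [NormedAlgebra ℂ B] {k : ℕ} {f : List A → A} {c : ℝ}
    (hc : 0 ≤ c) (hf : Bd k f c) {α : B → A} {β : A → B} (hα : ∀ x, ‖α x‖ ≤ ‖x‖)
    (hβ : ∀ x, ‖β x‖ ≤ ‖x‖) : Bd k (fun l => β (f (l.map α))) c := by
  intro l hl
  have h1 : ∀ l : List B, nrm (l.map α) ≤ nrm l := by
    intro l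
    induction l with
    | nil => simp
    | cons a l ih =>
      rw [List.map_cons, nrm_cons, nrm_cons]
      exact mul_le_mul (hα a) ih (nrm_nonneg _) (norm_nonneg _)
  exact (hβ _).trans ((hf _ (by simpa using hl)).trans (mul_le_mul_of_nonneg_left (h1 l) hc))

theorem coch_exists_ofFn {X : Type*} {k : ℕ} (l : List X) (hl : l.length = k) :
    ∃ x : Fin k → X, l = List.ofFn x := by
  subst hl
  exact ⟨l.get, (List.ofFn_get l).symm⟩

theorem coch_ofFn_update {X : Type*} {k : ℕ} [DecidableEq (Fin k)] (x : Fin k → X) (j : Fin k)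
    (a : X) : List.ofFn (Function.update x j a) =
      (List.ofFn x).take j ++ a :: (List.ofFn x).drop (j + 1) := by
  have hj : (j : ℕ) < (List.ofFn x).length := by simp
  have e := List.set_eq_take_append_cons_drop (l := List.ofFn x) (i := j) (a := a)
  rw [if_pos hj] at e
  rw [← e]
  apply List.ext_getElem
  · simp
  · intro i h1 h2
    simp only [List.getElem_ofFn, List.getElem_set, Function.update_apply, Fin.ext_iff]
    by_cases h : (j : ℕ) = i
    · simp [h]
    · simp [h, Ne.symm h]

theorem coch_nrm_ofFn {k : ℕ} (x : Fin k → A) : nrm (List.ofFn x) = ∏ i, ‖x i‖ := by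
  rw [nrm, List.map_ofFn, List.prod_ofFn]
  rfl

theorem coch_of_multi {k : ℕ} (f : ContinuousMultilinearMap ℂ (fun _ : Fin k => A) A) :
    ∃ F : List A → A, (∀ x, F (List.ofFn x) = f x) ∧ ML k F ∧ Bd k F ‖f‖ := by
  classical
  let F : List A → A := fun l =>
    if h : l.length = k then f (fun i => l[i.val]'(by rw [h]; exact i.2)) else 0
  have hF : ∀ x, F (List.ofFn x) = f x := by
    intro x
    simp [F]
  refine ⟨F, hF, fun l₁ l₂ h => ?_, fun l hl => ?_⟩
  · obtain ⟨x, hx⟩ := coch_exists_ofFn (k := k) (l₁ ++ (0 : A) :: l₂) (by simp; omega)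
    have hj : l₁.length < k := by omega
    have e : ∀ a, F (l₁ ++ a :: l₂) = f (Function.update x ⟨l₁.length, hj⟩ a) := by
      intro a
      rw [← hF, coch_ofFn_update, ← hx]
      simp
    simp only [e]
    exact ⟨fun a b => f.map_update_add _ _ _ _, fun t a => f.map_update_smul _ _ _ _⟩
  · obtain ⟨x, rfl⟩ := coch_exists_ofFn l hl
    rw [hF, coch_nrm_ofFn]
    exact f.le_opNorm x

theorem coch_to_multi {k : ℕ} {G : List A → A} {c : ℝ} (h1 : ML k G) (h2 : Bd k G c) :
    ∃ g : ContinuousMultilinearMap ℂ (fun _ : Fin k => A) A, ∀ x, g x = G (List.ofFn x) := by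
  have hl : ∀ (x : Fin k → A) (j : Fin k),
      ((List.ofFn x).take j).length + ((List.ofFn x).drop (j + 1)).length + 1 = k := by
    intro x j
    have := j.2
    simp only [List.length_take, List.length_ofFn, List.length_drop]
    omega
  let g₀ : MultilinearMap ℂ (fun _ : Fin k => A) A :=
    { toFun := fun x => G (List.ofFn x)
      map_update_add' := fun x j a b => by
        simp only [coch_ofFn_update]
        exact (h1 _ _ (hl x j)).map_add a b
      map_update_smul' := fun x j t a => by
        simp only [coch_ofFn_update]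
        exact (h1 _ _ (hl x j)).map_smul t a }
  refine ⟨g₀.mkContinuous c fun x => ?_, fun x => rfl⟩
  rw [← coch_nrm_ofFn]
  exact h2 _ (by simp)

/-- Passage from list cochains to continuous multilinear maps. Proof: (a) for a continuous
multilinear `f` on `Fin k → A` there is `F : List A → A` with `F (ofFn x) = f x`, `ML k F`,
`Bd k F ‖f‖` (induction on `k` with `curryLeft`: `F (a :: l) = F_{f.curryLeft a} l`; or
`F l = if h : l.length = k then f (fun i => l.get (i.cast h.symm)) else 0`); every list of length `k`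
is `ofFn x`. (b) conversely `ML k G`, `Bd k G c` give `g` with `g x = G (ofFn x)` and `‖g‖ ≤ max c 0`
(induction on `k`: `a ↦ g_a` is linear and bounded, then `ContinuousLinearMap.uncurryLeft`).
Then use `hochschildDiff_eq` twice. -/
theorem bridge (n : ℕ)
    (h : ∀ (φ : List A → A) (c : ℝ), 0 ≤ c → ML (n + 1) φ → Bd (n + 1) φ c → Cocycle (n + 1) φ →
      ∃ c', Cob n φ c')
    (f : ContinuousMultilinearMap ℂ (fun _ : Fin (n + 1) => A) A)
    (hf : ∀ a : Fin (n + 2) → A, Crest.OpAlg.hochschildDiff f a = 0) :
    ∃ g : ContinuousMultilinearMap ℂ (fun _ : Fin n => A) A,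
      ∀ a : Fin (n + 1) → A, Crest.OpAlg.hochschildDiff g a = f a := by
  obtain ⟨F, hF, hML, hBd⟩ := coch_of_multi f
  have hfF : (f : (Fin (n + 1) → A) → A) = fun x => F (List.ofFn x) := funext fun x => (hF x).symm
  obtain ⟨c', G, h1, h2, h3⟩ := h F ‖f‖ (norm_nonneg _) hML hBd (by
    intro l hl
    obtain ⟨x, rfl⟩ := coch_exists_ofFn l hl
    rw [← hochschildDiff_eq, ← hfF]
    exact hf x)
  obtain ⟨g, hg⟩ := coch_to_multi h1 h2
  refine ⟨g, fun a => ?_⟩
  have hgG : (g : (Fin n → A) → A) = fun x => G (List.ofFn x) := funext hg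
  rw [hgG, hochschildDiff_eq, h3 _ (by simp), hF]

end Normed

section WL
variable {H : Type*} [NormedAddCommGroup H] [InnerProductSpace ℂ H] [CompleteSpace H]
variable {M : VonNeumannAlgebra H} {ι : Type*} {F : Filter ι}

theorem WL.pd {G : ι → List (Al M) → Al M} {G' : List (Al M) → Al M} {l : List (Al M)}
    (h : ∀ l' : List (Al M), l'.length + 1 = l.length → WL F (fun i => G i l') (G' l')) :
    WL F (fun i => pd (G i) l) (pd G' l) := by
  induction l generalizing G G' with
  | nil => simpa only [pd_nil] using WL.const F 0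
  | cons a l ih =>
    cases l with
    | nil => simpa only [pd_single] using (h [] rfl).mul_right a
    | cons b l =>
      simp only [pd_cons]
      exact (h (a * b :: l) rfl).sub (ih (G := fun i l' => G i (a :: l')) (G' := fun l' => G' (a :: l'))
        fun l' hl' => h _ (by simpa using hl'))

theorem WL.dd {G : ι → List (Al M) → Al M} {G' : List (Al M) → Al M} {l : List (Al M)}
    (h : ∀ l' : List (Al M), l'.length + 1 = l.length → WL F (fun i => G i l') (G' l')) :
    WL F (fun i => dd (G i) l) (dd G' l) := by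
  cases l with
  | nil => simpa only [dd_nil] using WL.const F 0
  | cons a l =>
    simp only [dd_cons]
    exact ((h l rfl).mul_left a).sub (WL.pd h)

/-- Weak ultralimit of uniformly bounded multilinear cochains (`exists_WL`, `WL.unique`,
`WL.norm_le`). -/
theorem exists_lim_cochain (U : Ultrafilter ι) {k : ℕ} {c : ℝ} (G : ι → List (Al M) → Al M)
    (h1 : ∀ i, ML k (G i)) (h2 : ∀ i, Bd k (G i) c) :
    ∃ G' : List (Al M) → Al M, ML k G' ∧ Bd k G' c ∧
      ∀ l : List (Al M), l.length = k → WL (U : Filter ι) (fun i => G i l) (G' l) := by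
  classical
  have hex : ∀ l : List (Al M), ∃ y, l.length = k → WL (U : Filter ι) (fun i => G i l) y := by
    intro l
    by_cases hl : l.length = k
    · obtain ⟨y, hy⟩ := exists_WL U (fun i => G i l) (c * nrm l)
        (Eventually.of_forall fun i => h2 i l hl)
      exact ⟨y, fun _ => hy⟩
    · exact ⟨0, fun h => absurd h hl⟩
  choose G' hG' using hex
  refine ⟨G', fun l₁ l₂ h => ?_, fun l hl => ?_, hG'⟩
  · have hlen : ∀ a : Al M, (l₁ ++ a :: l₂).length = k := fun a => by
      simp only [List.length_append, List.length_cons]; omega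
    refine ⟨fun x y => ?_, fun t x => ?_⟩
    · refine (hG' _ (hlen _)).unique ?_
      exact ((hG' _ (hlen x)).add (hG' _ (hlen y))).congr fun i =>
        ((h1 i l₁ l₂ h).map_add x y).symm
    · refine (hG' _ (hlen _)).unique ?_
      exact ((hG' _ (hlen x)).smul t).congr fun i => ((h1 i l₁ l₂ h).map_smul t x).symm
  · exact (hG' l hl).norm_le (Eventually.of_forall fun i => h2 i l hl)

end WL

end Crest.Agent.R121
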