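import Crest.Agent.R121.Av

/-! # R121: Riesz products (task `FB`) -/

set_option autoImplicit false
open scoped InnerProductSpace

namespace Crest.Agent.R121

/-- `Rz t m Φ = (R_0 R_1 ⋯ R_{m-1} Φ)(0)`, `R_p Φ k = Φ k + (t/4) (Φ (k + 3^p) - Φ (k - 3^p))`. -/
noncomputable def Rz (t : ℝ) : ℕ → (ℤ → ℂ) → ℂ
  | 0, Φ => Φ 0
  | m + 1, Φ => Rz t m fun k => Φ k + (t / 4 : ℝ) * (Φ (k + 3 ^ m) - Φ (k - 3 ^ m))

theorem Rz_smul_sum {G : Type*} (s : Finset G) (c : ℂ) (t : ℝ) (m : ℕ) (Φ : G → ℤ → ℂ) :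
    Rz t m (fun k => c * ∑ g ∈ s, Φ g k) = c * ∑ g ∈ s, Rz t m (Φ g) := by
  induction m generalizing Φ with
  | zero => rfl
  | succ m ih =>
    simp only [Rz]
    rw [← ih]
    congr 1
    funext k
    simp only [Finset.sum_add_distrib, ← Finset.mul_sum, Finset.sum_sub_distrib]
    ring

/-- Linearity (induction on `m` generalizing `Φ`). -/
theorem Rz_avg {G : Type*} [Fintype G] (t : ℝ) (m : ℕ) (Φ : G → ℤ → ℂ) :
    Rz t m (fun k => avg fun g => Φ g k) = avg fun g => Rz t m (Φ g) := by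
  simp only [avg, smul_eq_mul]
  exact Rz_smul_sum _ _ t m Φ

theorem Rz_step_aux {t η : ℝ} (ht : 0 ≤ t) {u v w X Y Z : ℂ} (hu : ‖u - Z‖ ≤ η) (hv : ‖v - X‖ ≤ η)
    (hw : ‖w - Y‖ ≤ η) :
    ‖u + (t / 4 : ℝ) * (v - w) - (Z + (t / 4 : ℝ) * (X - Y))‖ ≤ (1 + t / 2) * η := by
  have e : u + (t / 4 : ℝ) * (v - w) - (Z + (t / 4 : ℝ) * (X - Y)) =
      (u - Z) + (t / 4 : ℝ) * ((v - X) - (w - Y)) := by ring
  rw [e]
  have h4 : ‖((t / 4 : ℝ) : ℂ)‖ = t / 4 := by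
    rw [Complex.norm_real, Real.norm_of_nonneg (by positivity)]
  have h5 : ‖(v - X) - (w - Y)‖ ≤ η + η := (norm_sub_le _ _).trans (add_le_add hv hw)
  calc _ ≤ ‖u - Z‖ + ‖((t / 4 : ℝ) : ℂ) * ((v - X) - (w - Y))‖ := norm_add_le _ _
    _ ≤ η + t / 4 * (η + η) := by
      rw [norm_mul, h4]
      gcongr
    _ = _ := by ring

/-- On a step function `Rz` grows linearly. Proof: induction on `m` generalizing `Φ, X, Y, η`: on the
window `2|k| < 3^m`, `k + 3^m ≥ 0`, `k - 3^m < 0` lie in the window for `m + 1`, so `R_m Φ` is within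
`(1 + t/2) η` of the step function with values `X + (t/4)(X - Y)`, `Y + (t/4)(X - Y)`. -/
theorem Rz_step {t : ℝ} (ht : 0 ≤ t) (m : ℕ) (Φ : ℤ → ℂ) (X Y : ℂ) (η : ℝ)
    (h1 : ∀ k : ℤ, 0 ≤ k → 2 * k < 3 ^ m → ‖Φ k - X‖ ≤ η)
    (h2 : ∀ k : ℤ, k < 0 → -(2 * k) < 3 ^ m → ‖Φ k - Y‖ ≤ η) :
    ‖Rz t m Φ - (X + (m * t / 4 : ℝ) * (X - Y))‖ ≤ (1 + t / 2) ^ m * η := by
  induction m generalizing Φ X Y η with
  | zero => simpa [Rz] using h1 0 le_rfl (by norm_num)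
  | succ m ih =>
    have hp : (0 : ℤ) < 3 ^ m := by positivity
    have hs : (3 : ℤ) ^ (m + 1) = 3 * 3 ^ m := by ring
    rw [hs] at h1 h2
    have := ih (fun k => Φ k + (t / 4 : ℝ) * (Φ (k + 3 ^ m) - Φ (k - 3 ^ m)))
      (X + (t / 4 : ℝ) * (X - Y)) (Y + (t / 4 : ℝ) * (X - Y)) ((1 + t / 2) * η)
      (fun k hk hk' => Rz_step_aux ht (h1 k hk (by omega)) (h1 _ (by omega) (by omega))
        (h2 _ (by omega) (by omega)))
      (fun k hk hk' => Rz_step_aux ht (h2 k hk (by omega)) (h1 _ (by omega) (by omega))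
        (h2 _ (by omega) (by omega)))
    simp only [Rz]
    have e1 : X + (((m + 1 : ℕ) : ℝ) * t / 4 : ℝ) * (X - Y) = X + (t / 4 : ℝ) * (X - Y) +
        ((m : ℝ) * t / 4 : ℝ) * (X + (t / 4 : ℝ) * (X - Y) - (Y + (t / 4 : ℝ) * (X - Y))) := by
      push_cast; ring
    rw [e1]
    exact this.trans_eq (by ring)

variable {A E : Type*} [CStarAlgebra A] [NormedAddCommGroup E] [InnerProductSpace ℂ E]

/-- `‖1 + (t/2) (z - z*)‖ ≤ sqrt (1 + t²)` for a contraction `z`. -/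
theorem norm_one_add_skew_le {z : A} (hz : ‖z‖ ≤ 1) (t : ℝ) :
    ‖1 + ((t / 2 : ℝ) : ℂ) • (z - star z)‖ ≤ Real.sqrt (1 + t ^ 2) := by
  apply Real.le_sqrt_of_sq_le
  have hd : ‖z - star z‖ ≤ 2 := by
    have := norm_sub_le z (star z)
    rw [norm_star] at this
    linarith
  have e : star (1 + ((t / 2 : ℝ) : ℂ) • (z - star z)) * (1 + ((t / 2 : ℝ) : ℂ) • (z - star z)) =
      1 - (((t / 2 : ℝ) : ℂ) • (z - star z)) * (((t / 2 : ℝ) : ℂ) • (z - star z)) := by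
    have : star (((t / 2 : ℝ) : ℂ) • (z - star z)) = -(((t / 2 : ℝ) : ℂ) • (z - star z)) := by
      rw [star_smul, star_sub, star_star, Complex.star_def, Complex.conj_ofReal, ← smul_neg,
        neg_sub]
    rw [star_add, star_one, this]
    generalize ((t / 2 : ℝ) : ℂ) • (z - star z) = w
    noncomm_ring
  have hn : ‖((t / 2 : ℝ) : ℂ) • (z - star z)‖ ≤ |t| := by
    rw [norm_smul, Complex.norm_real, Real.norm_eq_abs, abs_div, abs_two]
    nlinarith [abs_nonneg t]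
  rw [sq, ← CStarRing.norm_star_mul_self, e]
  refine (norm_sub_le _ _).trans (add_le_add norm_one_le' ((norm_mul_le _ _).trans ?_))
  rw [← sq_abs, sq]
  exact mul_le_mul hn hn (norm_nonneg _) (abs_nonneg _)

/-- The general form of the Riesz product bound. -/
theorem Rz_bound_aux {j : A →ₗ[ℂ] E} {C s : ℝ} (hj : QT j C) {χ : A → A} (hχ : IsLinearMap ℂ χ)
    (hs0 : 0 ≤ s) (hs : ∀ a, ‖χ a‖ ≤ s * ‖a‖) (V : ℤ → A) (hV : ∀ k, V k ∈ unitary A)
    (h0 : V 0 = 1) (hadd : ∀ k l, V (k + l) = V k * V l) (hstar : ∀ k, star (V k) = V (-k))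
    (y : A) (t : ℝ) (m : ℕ) (a c : A) :
    ‖Rz t m fun k => ⟪j (star c * V k * c * y), j (χ (V k * a))⟫_ℂ‖ ≤
      C ^ 4 * s * ‖y‖ * Real.sqrt (1 + t ^ 2) ^ m * ‖a‖ * ‖j c‖ ^ 2 := by
  have hC := hj.nonneg
  induction m generalizing a c with
  | zero =>
    simp only [Rz, h0, mul_one, one_mul, pow_zero]
    rw [mul_assoc, hj.adj, star_star]
    calc _ ≤ ‖j (c * y)‖ * ‖j (c * χ a)‖ := norm_inner_le_norm _ _
      _ ≤ (C ^ 2 * ‖y‖ * ‖j c‖) * (C ^ 2 * ‖χ a‖ * ‖j c‖) := by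
        gcongr <;> exact hj.mul_le' _ _
      _ ≤ (C ^ 2 * ‖y‖ * ‖j c‖) * (C ^ 2 * (s * ‖a‖) * ‖j c‖) := by gcongr; exact hs a
      _ = _ := by ring
  | succ m ih =>
    simp only [Rz]
    set p : ℤ := 3 ^ m
    let ζ : Fin 4 → ℂ := ![1, Complex.I, -1, -Complex.I]
    have hζ : ∀ i, star (ζ i) * ζ i = 1 := by
      intro i; fin_cases i <;> simp [ζ]
    have hζn : ∀ i, ‖ζ i‖ = 1 := by
      intro i; fin_cases i <;> simp [ζ]
    let cc : Fin 4 → A := fun i => (1 + ζ i • V p) * c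
    let aa : Fin 4 → A := fun i => (1 + ((t / 2 : ℝ) : ℂ) • (ζ i • V p - star (ζ i • V p))) * a
    have hc : ∀ i k, star (cc i) * V k * cc i * y = (2 : ℂ) • (star c * V k * c * y) +
        ζ i • (star c * V (k + p) * c * y) + star (ζ i) • (star c * V (k - p) * c * y) := by
      intro i k
      have e1 : V (-p) * V k = V (k - p) := by rw [← hadd]; congr 1; ring
      have e2 : V (k - p) * V p = V k := by rw [← hadd]; congr 1; ring
      have e : star (1 + ζ i • V p) * V k * (1 + ζ i • V p) =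
          (2 : ℂ) • V k + ζ i • V (k + p) + star (ζ i) • V (k - p) := by
        rw [star_add, star_one, star_smul, hstar]
        simp only [add_mul, mul_add, one_mul, mul_one, smul_mul_assoc, mul_smul_comm, e1, e2,
          smul_add, smul_smul, ← hadd k p]
        rw [mul_comm (ζ i), hζ i, two_smul, one_smul]
        abel
      calc star (cc i) * V k * cc i * y =
            star c * (star (1 + ζ i • V p) * V k * (1 + ζ i • V p)) * c * y := by
            simp only [cc, star_mul, mul_assoc]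
        _ = _ := by
            rw [e]
            simp only [add_mul, mul_add, smul_mul_assoc, mul_smul_comm]
    have ha : ∀ i k, V k * aa i = V k * a + (((t / 2 : ℝ) : ℂ) * ζ i) • (V (k + p) * a) -
        (((t / 2 : ℝ) : ℂ) * star (ζ i)) • (V (k - p) * a) := by
      intro i k
      have e1 : V k * V (-p) = V (k - p) := by rw [← hadd]; congr 1
      simp only [aa, star_smul, hstar, add_mul, mul_add, one_mul, smul_mul_assoc, mul_smul_comm,
        sub_mul, mul_sub, smul_sub, smul_smul, ← mul_assoc, e1, ← hadd k p]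
      abel
    have key : (fun k => ⟪j (star c * V k * c * y), j (χ (V k * a))⟫_ℂ + (t / 4 : ℝ) *
        (⟪j (star c * V (k + p) * c * y), j (χ (V (k + p) * a))⟫_ℂ -
          ⟪j (star c * V (k - p) * c * y), j (χ (V (k - p) * a))⟫_ℂ)) =
        fun k => (1 / 8 : ℂ) * ∑ i, ⟪j (star (cc i) * V k * cc i * y), j (χ (V k * aa i))⟫_ℂ := by
      funext k
      simp only [hc, ha, hχ.map_add, hχ.map_sub, hχ.map_smul, map_add, map_sub, map_smul,
        inner_add_left, inner_add_right, inner_sub_right, inner_smul_left, inner_smul_right]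
      simp only [Fin.sum_univ_four, ζ, Matrix.cons_val_zero, Matrix.cons_val_one,
        Matrix.cons_val, Complex.star_def, map_one, map_neg, Complex.conj_I, map_ofNat]
      push_cast
      ring_nf
      simp only [Complex.I_sq]
      ring
    rw [key, Rz_smul_sum, norm_mul]
    have haa : ∀ i, ‖aa i‖ ≤ Real.sqrt (1 + t ^ 2) * ‖a‖ := by
      intro i
      refine (norm_mul_le _ _).trans ?_
      gcongr
      refine norm_one_add_skew_le ?_ t
      rw [norm_smul, hζn, one_mul]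
      exact unitary_norm_le (hV p)
    have hcc : ∑ i, ‖j (cc i)‖ ^ 2 = 8 * ‖j c‖ ^ 2 := by
      have e : ∀ i, j (cc i) = j c + ζ i • j (V p * c) := by
        intro i; simp only [cc, add_mul, one_mul, smul_mul_assoc, map_add, map_smul]
      have hu := hj.norm_unitary (hV p) c
      have p1 := parallelogram_law_with_norm ℂ (j c) (j (V p * c))
      have p2 := parallelogram_law_with_norm ℂ (j c) (Complex.I • j (V p * c))
      rw [norm_smul, Complex.norm_I, one_mul] at p2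
      rw [hu] at p1 p2
      simp only [e, Fin.sum_univ_four, ζ, Matrix.cons_val_zero, Matrix.cons_val_one,
        Matrix.cons_val, one_smul, neg_smul, ← sub_eq_add_neg]
      nlinarith
    have hK : 0 ≤ C ^ 4 * s * ‖y‖ * Real.sqrt (1 + t ^ 2) ^ m := by positivity
    calc _ ≤ 1 / 8 * ∑ i, C ^ 4 * s * ‖y‖ * Real.sqrt (1 + t ^ 2) ^ m *
            (Real.sqrt (1 + t ^ 2) * ‖a‖) * ‖j (cc i)‖ ^ 2 := by
          have : ‖(1 / 8 : ℂ)‖ = 1 / 8 := by simp
          rw [this]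
          gcongr
          refine (norm_sum_le _ _).trans (Finset.sum_le_sum fun i _ => (ih _ _).trans ?_)
          gcongr
          exact haa i
      _ = _ := by rw [← Finset.mul_sum, hcc]; ring

/-- The Riesz product bound, for ANY unitary `U`. Prove by induction on `m`, for all `a c : A`:
`‖Rz t m Ψ_{a,c}‖ ≤ C⁴ s ‖y‖ sqrt(1 + t²)^m ‖a‖ ‖j c‖²`, where
`Ψ_{a,c} k = ⟪j (c* U^k c y), j (χ (U^k a))⟫`.
`m = 0`: `⟪j (c* (c y)), j (χ a)⟫ = ⟪j (c y), j (c χ a)⟫` and `QT.mul_le'` twice.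
Step: for `ζ ∈ {1, i, -1, -i}` (index `Fin 4` or `![1, I, -1, -I]`), `z = ζ U^p`, `p = 3^m`,
`c_ζ = (1 + z) c`, `a_ζ = a + (t/2) (z - z*) a`. Then `c_ζ* U^k c_ζ = c* (2 U^k + ζ U^{k+p} + ζ̄ U^{k-p}) c`
and `∑_ζ Ψ_{a_ζ, c_ζ} k = 8 (R_m Ψ_{a,c}) k`; `‖a_ζ‖ ≤ sqrt(1 + t²) ‖a‖` because
`(1 + t h)* (1 + t h) = 1 - t² h²` for `h = (z - z*)/2`, `‖h‖ ≤ 1`; `∑_ζ ‖j c_ζ‖² = 8 ‖j c‖²`
(parallelogram law for `±ζ`, `QT.norm_unitary`). Use `Rz_avg` (or linearity of `Rz`). -/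
theorem Rz_bound {j : A →ₗ[ℂ] E} {C s : ℝ} (hj : QT j C) {χ : A → A} (hχ : IsLinearMap ℂ χ)
    (hs0 : 0 ≤ s) (hs : ∀ a, ‖χ a‖ ≤ s * ‖a‖) (U : unitary A) (y : A) (t : ℝ) (m : ℕ) :
    ‖Rz t m fun k => ⟪j (((U ^ k : unitary A) : A) * y), j (χ ((U ^ k : unitary A) : A))⟫_ℂ‖ ≤
      C ^ 4 * s * ‖y‖ * Real.sqrt (1 + t ^ 2) ^ m * ‖j 1‖ ^ 2 := by
  have h := Rz_bound_aux hj hχ hs0 hs (fun k => ((U ^ k : unitary A) : A)) (fun k => (U ^ k).2)
    (by simp) (fun k l => by rw [zpow_add]; rfl)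
    (fun k => by rw [zpow_neg, ← Unitary.star_eq_inv]; rfl) y t m 1 1
  simp only [star_one, one_mul, mul_one] at h
  refine h.trans ?_
  have hC := hj.nonneg
  have h1 : ‖(1 : A)‖ ≤ 1 := norm_one_le'
  calc _ ≤ C ^ 4 * s * ‖y‖ * Real.sqrt (1 + t ^ 2) ^ m * 1 * ‖j 1‖ ^ 2 := by gcongr
    _ = _ := by ring

end Crest.Agent.R121
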