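import Crest.Agent.R121.ClaimF
import Crest.Agent.R121.FB

/-! # R121: harmonic `M_n`-modular maps are almost modular -/

set_option autoImplicit false
set_option linter.unusedSectionVars false
open scoped InnerProductSpace

namespace Crest.Agent.R121

variable {A E : Type*} [CStarAlgebra A] [NormedAddCommGroup E] [InnerProductSpace ℂ E]

theorem exists_small {a b : ℝ} (ha : 0 ≤ a) (hb : 0 < b) : ∃ δ : ℝ, 0 < δ ∧ δ ≤ 1 ∧ a * δ ≤ b := by
  refine ⟨min 1 (b / (a + 1)), by positivity, min_le_left _ _, ?_⟩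
  calc a * min 1 (b / (a + 1)) ≤ (a + 1) * (b / (a + 1)) := by
        gcongr
        · linarith
        · exact min_le_right _ _
    _ = b := by field_simp

theorem sqrt_pow_le_two (M : ℕ) (hM : 0 < M) :
    Real.sqrt (1 + ((M : ℝ)⁻¹) ^ 2) ^ (M ^ 2) ≤ 2 := by
  have hM' : (0 : ℝ) < M := Nat.cast_pos.2 hM
  refine (pow_le_pow_iff_left₀ (by positivity) zero_le_two two_ne_zero).1 ?_
  rw [← pow_mul, mul_comm, pow_mul, Real.sq_sqrt (by positivity)]
  calc (1 + ((M : ℝ)⁻¹) ^ 2) ^ (M ^ 2) ≤ Real.exp (((M : ℝ)⁻¹) ^ 2) ^ (M ^ 2) := by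
        gcongr
        rw [add_comm]; exact Real.add_one_le_exp _
    _ = Real.exp 1 := by
        rw [← Real.exp_nat_mul]; congr 1; push_cast; field_simp
    _ ≤ 2 ^ 2 := by have := Real.exp_one_lt_d9; linarith

section Phase
variable {ι Ω K : Type} [Fintype ι] [DecidableEq ι] [Fintype Ω] [Nonempty Ω] [Fintype K]
  [Nonempty K] {j : A →ₗ[ℂ] E} {χ : A → A}

theorem smul_mem_unitary {c : ℂ} (hc : ‖c‖ = 1) {x : A} (hx : x ∈ unitary A) :
    c • x ∈ unitary A := by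
  have h1 : (starRingEnd ℂ) c * c = 1 := by
    rw [mul_comm, Complex.mul_conj, Complex.normSq_eq_norm_sq, hc]; simp
  constructor
  · rw [star_smul, smul_mul_smul_comm, Unitary.star_mul_self_of_mem hx]
    change ((starRingEnd ℂ) c * c) • _ = _
    rw [h1, one_smul]
  · rw [star_smul, smul_mul_smul_comm, Unitary.mul_star_self_of_mem hx, mul_comm]
    change ((starRingEnd ℂ) c * c) • _ = _
    rw [h1, one_smul]

theorem uavg_phase (hχ : IsLinearMap ℂ χ) {θ : K → ℂ} (hθ : ∀ k, ‖θ k‖ = 1) (X : Ω → A) (a : A) :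
    uavg (fun p : K × Ω => θ p.1 • X p.2) χ a = uavg X χ a := by
  have h1 : ∀ k, (starRingEnd ℂ) (θ k) * θ k = 1 := fun k => by
    rw [mul_comm, Complex.mul_conj, Complex.normSq_eq_norm_sq, hθ]; simp
  have h2 : ∀ k ω, star (θ k • X ω) * χ (θ k • X ω * a) = star (X ω) * χ (X ω * a) := fun k ω => by
    rw [smul_mul_assoc, hχ.map_smul, star_smul, smul_mul_smul_comm]
    change ((starRingEnd ℂ) (θ k) * θ k) • _ = _
    rw [h1, one_smul]
  rw [uavg, avg_prod]
  simp only [h2]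
  exact avg_const _

theorem Good.phase (hχ : IsLinearMap ℂ χ) {θ : K → ℂ} (hθ : ∀ k, ‖θ k‖ = 1) {X : Ω → A} {η : ℝ}
    {x : A} (h : Good j χ X η x) : Good j χ (fun p : K × Ω => θ p.1 • X p.2) η x := fun a => by
  have h2 : ∀ k ω, ‖j (χ (x * θ k • X ω * a) - x * χ (θ k • X ω * a))‖ =
      ‖j (χ (x * X ω * a) - x * χ (X ω * a))‖ := fun k ω => by
    rw [mul_smul_comm, smul_mul_assoc, smul_mul_assoc, hχ.map_smul, hχ.map_smul, mul_smul_comm,
      ← smul_sub, map_smul, norm_smul, hθ, one_mul]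
  rw [Fintype.sum_prod_type]
  simp only [h2]
  rw [Finset.sum_const, Finset.card_univ, nsmul_eq_mul, Fintype.card_prod, Nat.cast_mul, mul_assoc]
  exact mul_le_mul_of_nonneg_left (h a) (Nat.cast_nonneg _)

theorem Good.equiv {X : Ω → A} {η : ℝ} {x : A} (h : Good j χ X η x) (τ : Ω ≃ Ω) :
    Good j χ (fun ω => X (τ ω)) η x := fun a => by
  have := h a
  rwa [← τ.sum_comp] at this

theorem Good.of_mod {X : Ω → A} (η : ℝ) {x : A} (h : ∀ a, χ (x * a) = x * χ a) :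
    Good j χ X η x := fun a => by
  simp only [mul_assoc, h, sub_self, map_zero, norm_zero]
  simp only [ne_eq, OfNat.ofNat_ne_zero, not_false_eq_true, zero_pow, Finset.sum_const_zero]
  positivity

end Phase

section Alt
variable {ι S : Type} [Fintype ι] [DecidableEq ι] [Fintype S] [Nonempty S]

/-- Alternating words `x₁ D_ℓ F D_{!ℓ} x₂ D_ℓ F D_{!ℓ} ⋯`. -/
def alt (F : A) (ℓ : Bool) : List A → List (A × Bool)
  | [] => []
  | x :: xs => (x, ℓ) :: (F, !ℓ) :: alt F ℓ xs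

theorem alt_length (F : A) (ℓ : Bool) (xs : List A) : (alt F ℓ xs).length = 2 * xs.length := by
  induction xs with
  | nil => rfl
  | cons x xs ih => simp only [alt, List.length_cons, ih]; ring

theorem alt_chain (F : A) (ℓ : Bool) (xs : List A) :
    (alt F ℓ xs).IsChain fun p q => p.2 ≠ q.2 := by
  induction xs with
  | nil => exact List.isChain_nil
  | cons x xs ih =>
    rw [alt, List.isChain_cons_cons]
    refine ⟨by cases ℓ <;> simp, ?_⟩
    cases xs with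
    | nil => exact List.isChain_singleton _
    | cons y ys =>
      rw [alt] at ih ⊢
      rw [List.isChain_cons_cons]
      exact ⟨by cases ℓ <;> simp, ih⟩

theorem mem_alt {F : A} {ℓ : Bool} {xs : List A} {st : A × Bool} (h : st ∈ alt F ℓ xs) :
    (st.1 ∈ xs ∧ st.2 = ℓ) ∨ st.1 = F := by
  induction xs with
  | nil => simp [alt] at h
  | cons x xs ih =>
    simp only [alt, List.mem_cons] at h
    rcases h with rfl | rfl | h
    · simp
    · simp
    · rcases ih h with h | h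
      · exact Or.inl ⟨List.mem_cons_of_mem _ h.1, h.2⟩
      · exact Or.inr h

theorem Wd_alt_cons (w : ι → A) (Y : S → A) (F x : A) (ℓ : Bool) (xs : List A)
    (s : Bool × ι → S) : Wd w Y (alt F ℓ (x :: xs)) s =
      x * (Dg w Y s ℓ * F * Dg w Y s !ℓ) * Wd w Y (alt F ℓ xs) s := by
  rw [alt, Wd_cons, Wd_cons]; simp only [mul_assoc]

theorem Wd_alt_replicate (w : ι → A) (Y : S → A) (F x : A) (ℓ : Bool) (k : ℕ)
    (s : Bool × ι → S) : Wd w Y (alt F ℓ (List.replicate k x)) s =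
      (x * (Dg w Y s ℓ * F * Dg w Y s !ℓ)) ^ k := by
  induction k with
  | zero => simp [alt, Wd_nil]
  | succ k ih => rw [List.replicate_succ, Wd_alt_cons, ih, pow_succ']

theorem Setup.claim_alt {j : A →ₗ[ℂ] E} {C : ℝ} {w : ι → A} {e : A} {Y : S → A} {d : ℕ}
    (h : Setup j C w e Y d) {χ : A → A} (hχ : IsLinearMap ℂ χ) {κ η δ : ℝ}
    (hκ0 : 0 ≤ κ) (hκ : ∀ a, ‖j (χ a)‖ ≤ κ * ‖j a‖)
    (hmod : ∀ i a, χ (w i * star (w i) * a) = w i * star (w i) * χ a)
    (harm : ∀ a, uavg Y χ a = χ a) (hη : 0 ≤ η) (hδ0 : 0 ≤ δ)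
    (hδ : 4 * (d : ℝ) ^ 2 * C ^ 6 * (d : ℝ) ^ d * ‖j 1‖ ^ 2 / Fintype.card ι ≤ δ ^ 2)
    {F : A} (hF : F ∈ unitary A) (hFf : Flat w F) (hFm : ∀ a, χ (F * a) = F * χ a) (ℓ : Bool)
    (xs : List A) (hd : 2 * xs.length ≤ d) (hxs : ∀ x ∈ xs, x ∈ unitary A ∧ Good j χ Y η x)
    {a b : A} {β η₁ : ℝ} (ha : ‖a‖ ≤ 1) (hb : ‖b‖ ≤ β)
    (hη₁ : d * ((10 * κ * δ * (‖j 1‖ + δ) + Fintype.card ι * η * ‖j 1‖ ^ 2) * β) ≤ η₁) :
    ‖avg (fun s => ⟪j (Wd w Y (alt F ℓ xs) s * b), j (χ (Wd w Y (alt F ℓ xs) s * a))⟫_ℂ) -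
      ⟪j b, j (χ a)⟫_ℂ‖ ≤ η₁ := by
  have hlen : (alt F ℓ xs).length ≤ d := by rwa [alt_length]
  refine (h.claimF hχ hκ0 hκ hmod harm hη hδ0 hδ (!ℓ) _ hlen (fun st hst => ?_)
    (alt_chain F ℓ xs) a b).trans (le_trans ?_ hη₁)
  · rcases mem_alt hst with h1 | h1
    · refine ⟨(hxs _ h1.1).1, (hxs _ h1.1).2, fun h2 => ?_⟩
      rw [h1.2] at h2
      cases ℓ <;> simp at h2
    · rw [h1]
      exact ⟨hF, Good.of_mod η hFm, fun _ => hFf⟩
  · have h1 : ((alt F ℓ xs).length : ℝ) ≤ d := by exact_mod_cast hlen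
    have h2 : ‖a‖ * ‖b‖ ≤ β := by nlinarith [norm_nonneg a, norm_nonneg b]
    rw [mul_assoc _ ‖a‖]
    gcongr

theorem star_Dg {w : ι → A} {Y : S → A}
    (h : ∀ i s, w i * star (w i) * Y s = Y s * (w i * star (w i))) (s : Bool × ι → S) (ℓ : Bool) :
    star (Dg w Y s ℓ) = Dg w (fun y => star (Y y)) s ℓ := by
  rw [Dg, Dg, star_sum]
  refine Finset.sum_congr rfl fun i _ => ?_
  rw [h, star_mul, star_mul, star_star]

end Alt

theorem core {j : A →ₗ[ℂ] E} {C : ℝ} (hj : QT j C) {s κ ε : ℝ} (hs : 0 ≤ s) (hκ : 0 ≤ κ)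
    (hε : 0 < ε) : ∃ n0 : ℕ, ∀ (n : ℕ) [NeZero n] (w : ZMod n → A) (e : A), n0 ≤ n → MU w e 1 →
      ∀ (G : Type) [Fintype G] [Nonempty G] (u : G → A) (σ : G ≃ G), (∀ g, u g ∈ unitary A) →
      (∀ g, u (σ g) = star (u g)) →
      (∀ g i k, w i * star (w k) * u g = u g * (w i * star (w k))) →
      ∀ χ : A → A, IsLinearMap ℂ χ → (∀ a, ‖χ a‖ ≤ s * ‖a‖) → (∀ a, ‖j (χ a)‖ ≤ κ * ‖j a‖) →
      (∀ i k a, χ (w i * star (w k) * a) = w i * star (w k) * χ a) → (∀ a, uavg u χ a = χ a) →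
      ∀ v ∈ unitary A, v ∈ Submodule.span ℂ
        (Set.range fun p : ZMod n × ZMod n × G => w p.1 * star (w p.2.1) * u p.2.2) →
      ‖j (χ v - v * χ 1)‖ ≤ ε := by
  have hC := hj.nonneg
  set R := ‖j 1‖ with hR
  have hR0 : 0 ≤ R := norm_nonneg _
  -- the parameters
  obtain ⟨M, hM⟩ := exists_nat_gt (4 * (4 * C ^ 4 * s ^ 2 * R ^ 2 + 2 * s ^ 2 * R ^ 2 + 1) / ε ^ 2)
  have hM0 : (0 : ℝ) < M := lt_of_le_of_lt (by positivity) hM
  have hM0' : 0 < M := Nat.cast_pos.1 hM0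
  set t : ℝ := (M : ℝ)⁻¹ with ht
  have ht0 : 0 ≤ t := by positivity
  set m := M ^ 2 with hm
  set d := 3 ^ m with hd
  set η₁ : ℝ := ((1 + t / 2) ^ m)⁻¹ with hη₁
  have hη₁0 : 0 < η₁ := by positivity
  obtain ⟨δ, hδ0, hδ1, hδ⟩ := exists_small (a := d * (10 * κ * (R + 1) * (2 * s)))
    (by positivity) (half_pos hη₁0)
  obtain ⟨n0, hn0⟩ := exists_nat_ge (4 * (d : ℝ) ^ 2 * C ^ 6 * (d : ℝ) ^ d * R ^ 2 / δ ^ 2)
  refine ⟨n0, fun n _ w e hn hw G _ _ u σ hu hσ hcomm χ hχ hχs hχκ hmod harm v hv hvs => ?_⟩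
  have hn' : (0 : ℝ) < n := Nat.cast_pos.2 (NeZero.pos n)
  obtain ⟨η, hη0, -, hη⟩ := exists_small (a := d * (n * R ^ 2 * (2 * s)))
    (by positivity) (half_pos hη₁0)
  have hδn : 4 * (d : ℝ) ^ 2 * C ^ 6 * (d : ℝ) ^ d * ‖j 1‖ ^ 2 / Fintype.card (ZMod n) ≤ δ ^ 2 := by
    rw [ZMod.card, div_le_iff₀ hn']
    rw [div_le_iff₀ (by positivity)] at hn0
    refine hn0.trans ?_
    rw [mul_comm]
    gcongr
  have herr : d * ((10 * κ * δ * (‖j 1‖ + δ) + Fintype.card (ZMod n) * η * ‖j 1‖ ^ 2) * (2 * s))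
      ≤ η₁ := by
    rw [ZMod.card, ← hR]
    have h1 : d * (10 * κ * δ * (R + δ) * (2 * s)) ≤ d * (10 * κ * δ * (R + 1) * (2 * s)) := by
      gcongr
    nlinarith
  -- the walk
  have hspan : ∀ x ∈ Submodule.span ℂ
      (Set.range fun p : ZMod n × ZMod n × G => w p.1 * star (w p.2.1) * u p.2.2),
      x ∈ Submodule.span ℂ {x | ∃ y g, (∀ a, χ (y * a) = y * χ a) ∧ x = y * u g} ∧
      star x ∈ Submodule.span ℂ {x | ∃ y g, (∀ a, χ (y * a) = y * χ a) ∧ x = y * u g} := by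
    intro x hx
    induction hx using Submodule.span_induction with
    | mem x hx =>
      obtain ⟨⟨i, k, g⟩, rfl⟩ := hx
      refine ⟨Submodule.subset_span ⟨_, g, hmod i k, rfl⟩,
        Submodule.subset_span ⟨_, σ g, hmod k i, ?_⟩⟩
      rw [hcomm (σ g), hσ, star_mul, star_mul, star_star]
    | zero => simp
    | add x y _ _ hx hy => rw [star_add]; exact ⟨add_mem hx.1 hy.1, add_mem hx.2 hy.2⟩
    | smul c x _ hx =>
      rw [star_smul]; exact ⟨Submodule.smul_mem _ _ hx.1, Submodule.smul_mem _ _ hx.2⟩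
  obtain ⟨Ω, _, _, X, τ, hXu, hXτ, hXc, hXh, hXg⟩ := exists_walk hj hχ hχκ hu σ hσ harm
    [v, star v] (by
      intro x hx
      simp only [List.mem_cons, List.not_mem_nil, or_false] at hx
      rcases hx with rfl | rfl
      · exact (hspan _ hvs).1
      · exact (hspan _ hvs).2) hη0
  -- phases
  let θ : ZMod (d + 1) → ℂ := fun k => ZMod.stdAddChar k
  have hθ : ∀ k, ‖θ k‖ = 1 := fun k => Circle.norm_coe _
  have hθ' : ∀ k, ‖(starRingEnd ℂ) (θ k)‖ = 1 := fun k => by rw [Complex.norm_conj, hθ]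
  have hθ1 : ∀ k, θ (k + 1) = θ 1 * θ k := fun k => by
    simp only [θ]; rw [AddChar.map_add_eq_mul, mul_comm]
  have hζ : ∀ p, 1 ≤ p → p ≤ d → θ 1 ^ p ≠ 1 := fun p h1 h2 h3 => by
    simp only [θ] at h3
    rw [← AddChar.map_nsmul_eq_pow, nsmul_eq_mul, mul_one,
      ← (ZMod.stdAddChar (N := d + 1)).map_zero_eq_one] at h3
    have h4 := ZMod.injective_stdAddChar h3
    rw [ZMod.natCast_eq_zero_iff] at h4
    have := Nat.le_of_dvd h1 h4
    omega
  let Y : ZMod (d + 1) × Ω → A := fun p => θ p.1 • X p.2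
  have hY' : (fun p => star (Y p)) = fun p => (starRingEnd ℂ) (θ p.1) • X (τ p.2) := by
    funext p; simp only [Y]; rw [star_smul, hXτ]; rfl
  have hXE : ∀ i ω, w i * star (w i) * X ω = X ω * (w i * star (w i)) := fun i ω =>
    hXc _ (fun g => hcomm g i i) ω
  have hS1 : Setup j C w e Y d :=
    { qt := hj, mu := hw
      unit := fun p => smul_mem_unitary (hθ _) (hXu _)
      comm := fun i p => by simp only [Y]; rw [mul_smul_comm, smul_mul_assoc, hXE]
      phase := ⟨(Equiv.addRight 1).prodCongr (Equiv.refl _), θ 1, hθ 1, hζ, fun p => by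
        simp only [Y, Equiv.prodCongr_apply, Prod.map_fst, Prod.map_snd, Equiv.coe_addRight,
          Equiv.refl_apply, hθ1, mul_smul]⟩ }
  have hS2 : Setup j C w e (fun p => star (Y p)) d := by
    rw [hY']
    exact
    { qt := hj, mu := hw
      unit := fun p => smul_mem_unitary (hθ' _) (hXu _)
      comm := fun i p => by rw [mul_smul_comm, smul_mul_assoc, hXE]
      phase := ⟨(Equiv.addRight 1).prodCongr (Equiv.refl _), (starRingEnd ℂ) (θ 1), hθ' 1,
        fun p h1 h2 h3 => hζ p h1 h2 (by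
          rw [← map_pow] at h3
          simpa using congrArg (starRingEnd ℂ) h3), fun p => by
        simp only [Equiv.prodCongr_apply, Prod.map_fst, Prod.map_snd, Equiv.coe_addRight,
          Equiv.refl_apply, hθ1, map_mul, mul_smul]⟩ }
  have hh1 : ∀ a, uavg Y χ a = χ a := fun a => (uavg_phase hχ hθ X a).trans (hXh a)
  have hh2 : ∀ a, uavg (fun p => star (Y p)) χ a = χ a := fun a => by
    rw [hY', uavg_phase hχ hθ' (fun ω => X (τ ω)) a, ← hXh a]
    exact avg_equiv τ fun ω => star (X ω) * χ (X ω * a)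
  have hg1 : Good j χ Y η (star v) := (hXg _ (by simp)).phase hχ hθ
  have hg2 : Good j χ (fun p => star (Y p)) η v := by
    rw [hY']; exact ((hXg v (by simp)).equiv τ).phase hχ hθ'
  -- the flat matrix
  obtain ⟨F, hFu, hFf, hFs⟩ := exists_flat hw
  have hFm : (∀ a, χ (F * a) = F * χ a) ∧ ∀ a, χ (star F * a) = star F * χ a := by
    clear hFu hFf
    induction hFs using Submodule.span_induction with
    | mem x hx =>
      obtain ⟨⟨i, k⟩, rfl⟩ := hx
      refine ⟨hmod i k, fun a => ?_⟩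
      rw [star_mul, star_star]; exact hmod k i a
    | zero => simp [hχ.map_zero]
    | add x y _ _ hx hy =>
      simp only [star_add, add_mul, hχ.map_add, hx.1, hx.2, hy.1, hy.2, implies_true, and_self]
    | smul c x _ hx =>
      simp only [star_smul, smul_mul_assoc, hχ.map_smul, hx.1, hx.2, implies_true, and_self]
  -- the random unitary
  have hv' : star v ∈ unitary A := Unitary.star_mem hv
  let U : (Bool × ZMod n → ZMod (d + 1) × Ω) → unitary A := fun s =>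
    ⟨star v * (Dg w Y s true * F * Dg w Y s false),
      mul_mem hv' (mul_mem (mul_mem (hS1.Dg_mem s true) hFu) (hS1.Dg_mem s false))⟩
  set y := χ 1 - star v * χ v with hy
  have hv1 := unitary_norm_le hv
  have hy2 : ‖y‖ ≤ 2 * s := by
    refine (norm_sub_le _ _).trans ?_
    rw [CStarRing.norm_mem_unitary_mul _ hv']
    have h1 := hχs 1
    have h2 := hχs v
    have h3 := norm_one_le' (A := A)
    nlinarith
  have hmod' : ∀ i a, χ (w i * star (w i) * a) = w i * star (w i) * χ a := fun i => hmod i i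
  have hstep := Rz_step ht0 m (fun k => avg fun s =>
      ⟪j (((U s ^ k : unitary A) : A) * y), j (χ ((U s ^ k : unitary A) : A))⟫_ℂ)
    ⟪j y, j (χ 1)⟫_ℂ ⟪j (v * y), j (χ v)⟫_ℂ η₁ (fun k hk0 hk => by
      obtain ⟨k, rfl⟩ := Int.eq_ofNat_of_zero_le hk0
      have hk' : 2 * (List.replicate k (star v)).length ≤ d := by
        rw [List.length_replicate, hd]; exact_mod_cast hk.le
      have := hS1.claim_alt hχ hκ hχκ hmod' hh1 hη0.le hδ0.le hδn hFu hFf hFm.1 true _ hk'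
        (fun x hx => by rw [List.eq_of_mem_replicate hx]; exact ⟨hv', hg1⟩)
        (norm_one_le' (A := A)) hy2 herr
      simpa only [Wd_alt_replicate, mul_one, zpow_natCast, SubmonoidClass.coe_pow, U,
        Bool.not_true] using this) (fun k hk0 hk => by
      obtain ⟨k, rfl⟩ := Int.eq_negSucc_of_lt_zero hk0
      have hk' : 2 * (1 :: List.replicate k v).length ≤ d := by
        rw [List.length_cons, List.length_replicate, hd]
        rw [Int.negSucc_eq] at hk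
        have : (2 * (k + 1) : ℤ) ≤ 3 ^ m := by linarith
        exact_mod_cast this
      have := hS2.claim_alt hχ hκ hχκ hmod' hh2 hη0.le hδ0.le hδn (Unitary.star_mem hFu) hFf.star' hFm.2
        false _ hk' (fun x hx => by
          rcases List.mem_cons.1 hx with rfl | hx
          · exact ⟨one_mem _, Good.of_mod η fun a => by simp⟩
          · rw [List.eq_of_mem_replicate hx]; exact ⟨hv, hg2⟩) (a := v) (b := v * y) hv1
        (by rwa [CStarRing.norm_mem_unitary_mul _ hv]) herr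
      have e1 : ∀ s, ((U s ^ (Int.negSucc k) : unitary A) : A) =
          Wd w (fun p => star (Y p)) (alt (star F) false (1 :: List.replicate k v)) s * v := by
        intro s
        rw [zpow_negSucc, ← inv_pow, ← Unitary.star_eq_inv, SubmonoidClass.coe_pow,
          Unitary.coe_star, Wd_alt_cons, Wd_alt_replicate, one_mul, ← mul_pow_mul, pow_succ]
        simp only [U, star_mul, star_star, star_Dg hS1.comm, Bool.not_false, mul_assoc]
      simpa only [e1, mul_assoc] using this)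
  have hbd : ‖Rz t m (fun k => avg fun s =>
      ⟪j (((U s ^ k : unitary A) : A) * y), j (χ ((U s ^ k : unitary A) : A))⟫_ℂ)‖ ≤
      4 * C ^ 4 * s ^ 2 * R ^ 2 := by
    rw [Rz_avg t m fun s k =>
      ⟪j (((U s ^ k : unitary A) : A) * y), j (χ ((U s ^ k : unitary A) : A))⟫_ℂ]
    refine norm_avg_le fun s' => (Rz_bound hj hχ hs hχs (U s') y t m).trans ?_
    have h1 := sqrt_pow_le_two M hM0'
    calc C ^ 4 * s * ‖y‖ * Real.sqrt (1 + t ^ 2) ^ m * ‖j 1‖ ^ 2
        ≤ C ^ 4 * s * (2 * s) * 2 * R ^ 2 := by gcongr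
      _ = _ := by ring
  have hXY : ⟪j y, j (χ 1)⟫_ℂ - ⟪j (v * y), j (χ v)⟫_ℂ = ((‖j y‖ ^ 2 : ℝ) : ℂ) := by
    rw [hj.adj, ← inner_sub_right, ← map_sub, ← hy, inner_self_eq_norm_sq_to_K]; simp
  have hX : ‖⟪j y, j (χ 1)⟫_ℂ‖ ≤ 2 * s ^ 2 * R ^ 2 := by
    refine (norm_inner_le_norm _ _).trans ?_
    have h1 : ‖χ 1‖ ≤ s := (hχs 1).trans (mul_le_of_le_one_right hs norm_one_le')
    calc ‖j y‖ * ‖j (χ 1)‖ ≤ (‖y‖ * R) * (‖χ 1‖ * R) :=
          mul_le_mul (hj.le _) (hj.le _) (norm_nonneg _) (by positivity)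
      _ ≤ (2 * s * R) * (s * R) := by gcongr
      _ = _ := by ring
  rw [hXY, hη₁, mul_inv_cancel₀ (by positivity)] at hstep
  have hmt : (m : ℝ) * t / 4 = M / 4 := by rw [hm, ht]; push_cast; field_simp
  rw [hmt] at hstep
  have hfin : (M : ℝ) / 4 * ‖j y‖ ^ 2 ≤ 4 * C ^ 4 * s ^ 2 * R ^ 2 + 2 * s ^ 2 * R ^ 2 + 1 := by
    have h1 : ‖(((M : ℝ) / 4 : ℝ) : ℂ) * ((‖j y‖ ^ 2 : ℝ) : ℂ)‖ = (M : ℝ) / 4 * ‖j y‖ ^ 2 := by
      rw [← Complex.ofReal_mul, Complex.norm_real, Real.norm_of_nonneg (by positivity)]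
    rw [← h1]
    set Z := Rz t m _
    set c := (((M : ℝ) / 4 : ℝ) : ℂ) * ((‖j y‖ ^ 2 : ℝ) : ℂ)
    set X0 := ⟪j y, j (χ 1)⟫_ℂ
    have e1 : c = Z - X0 - (Z - (X0 + c)) := by ring
    calc ‖c‖ = ‖Z - X0 - (Z - (X0 + c))‖ := congrArg _ e1
      _ ≤ ‖Z‖ + ‖X0‖ + ‖Z - (X0 + c)‖ := (norm_sub_le _ _).trans (by gcongr; exact norm_sub_le _ _)
      _ ≤ _ := by gcongr
  have e2 : χ v - v * χ 1 = v * (-y) := by
    rw [hy, neg_sub, mul_sub, ← mul_assoc, Unitary.mul_star_self_of_mem hv, one_mul]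
  rw [e2, hj.norm_unitary hv, map_neg, norm_neg]
  refine (pow_le_pow_iff_left₀ (norm_nonneg _) hε.le two_ne_zero).1 ?_
  rw [div_lt_iff₀ (by positivity)] at hM
  by_contra hc
  push Not at hc
  nlinarith [mul_lt_mul_of_pos_left hc hM0]

end Crest.Agent.R121
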