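import Crest.Agent.R121.Alg

/-! # R121: the non-commutative little Grothendieck inequality (Haagerup's proof; task `GT`) -/

set_option autoImplicit false
open Filter Topology
open scoped InnerProductSpace

namespace Crest.Agent.R121

section GTAux
variable {A E : Type*} [CStarAlgebra A] [NormedAddCommGroup E] [InnerProductSpace ℂ E]

theorem GT_sqrt {b : A} (hb : IsSelfAdjoint b) (h1 : ‖b‖ ≤ 1) :
    ∃ c : A, IsSelfAdjoint c ∧ c * b = b * c ∧ c * c + b * b = 1 ∧ ‖1 - c‖ ≤ ‖b‖ ^ 2 := by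
  have hsp : ∀ x ∈ spectrum ℝ b, |x| ≤ ‖b‖ := fun x hx => by
    rcases subsingleton_or_nontrivial A with hA | hA
    · simp [spectrum.of_subsingleton] at hx
    · simpa using spectrum.norm_le_norm_of_mem hx
  have hsq : ∀ x ∈ spectrum ℝ b, x ^ 2 ≤ ‖b‖ ^ 2 := fun x hx => by
    rw [← sq_abs]; exact pow_le_pow_left₀ (abs_nonneg _) (hsp x hx) 2
  have hb2 : ‖b‖ ^ 2 ≤ 1 := pow_le_one₀ (norm_nonneg _) h1
  refine ⟨cfc (fun x : ℝ => √(1 - x ^ 2)) b, cfc_predicate _ _, ?_, ?_, ?_⟩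
  · exact ((Commute.refl b).cfc_real (fun x : ℝ => √(1 - x ^ 2))).eq
  · rw [← cfc_mul .., cfc_congr (g := fun x : ℝ => 1 - x ^ 2)]
    · rw [cfc_sub .., cfc_const_one ℝ b, cfc_pow_id (R := ℝ) b 2, sq]; abel
    · intro x hx
      exact Real.mul_self_sqrt (by linarith [hsq x hx])
  · rw [← cfc_const_one ℝ b, ← cfc_sub ..]
    refine norm_cfc_le (by positivity) fun x hx => ?_
    have h0 : 0 ≤ 1 - x ^ 2 := by linarith [hsq x hx]
    have h2 : √(1 - x ^ 2) ≤ 1 := Real.sqrt_le_one.2 (by nlinarith [sq_nonneg x])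
    have h3 : 1 - x ^ 2 ≤ √(1 - x ^ 2) := by
      have := Real.mul_self_sqrt h0
      nlinarith [Real.sqrt_nonneg (1 - x ^ 2)]
    rw [Real.norm_eq_abs, abs_of_nonneg (by linarith)]
    linarith [hsq x hx]

theorem GT_norm_unitary {u : A} (hu : u ∈ unitary A) : ‖u‖ ≤ 1 := by
  have := CStarRing.norm_mul_mem_unitary (1 : A) hu
  rw [one_mul] at this
  exact this ▸ norm_one_le'

theorem GT_inner_le (T : A →L[ℂ] E) {u : A} (hu : u ∈ unitary A) (x : A) :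
    ‖⟪T u, T x⟫_ℂ‖ ≤ ‖T‖ ^ 2 * ‖x‖ := by
  have h1 : ‖T u‖ ≤ ‖T‖ := (T.le_opNorm u).trans
    (mul_le_of_le_one_right (norm_nonneg _) (GT_norm_unitary hu))
  calc _ ≤ ‖T u‖ * ‖T x‖ := norm_inner_le_norm _ _
    _ ≤ ‖T‖ * (‖T‖ * ‖x‖) := mul_le_mul h1 (T.le_opNorm x) (norm_nonneg _) (norm_nonneg _)
    _ = _ := by ring

theorem GT_sa (T : A →L[ℂ] E) {S : ℝ} (hS : ∀ v ∈ unitary A, ‖T v‖ ^ 2 ≤ S) {u : A}
    (hu : u ∈ unitary A) {b : A} (hb : IsSelfAdjoint b) (h1 : ‖b‖ ≤ 1) :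
    ‖T (b * u)‖ ^ 2 ≤ S - ‖T u‖ ^ 2 + (⟪T u, T (b * b * u)⟫_ℂ).re + ‖T‖ ^ 2 * ‖b‖ ^ 4 := by
  obtain ⟨c, hc, hcb, hsum, hn⟩ := GT_sqrt hb h1
  have hII : (Complex.I * Complex.I : ℂ) = -1 := Complex.I_mul_I
  have hv : ∀ σ : ℂ, star σ = -σ → σ * σ = -1 → c + σ • b ∈ unitary A := fun σ h2 h3 => by
    rw [Unitary.mem_iff]
    simp only [star_add, star_smul, hc.star_eq, hb.star_eq, h2, add_mul, mul_add, smul_mul_assoc,
      mul_smul_comm, smul_smul, hcb, neg_smul, neg_mul, mul_neg, smul_neg, h3, one_smul, neg_neg,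
      smul_add]
    constructor
    · rw [← hsum]; abel
    · rw [← hsum]; abel
  have hp := hS _ (mul_mem (hv Complex.I (by simp) hII) hu)
  have hm := hS _ (mul_mem (hv (-Complex.I) (by simp) (by simp)) hu)
  rw [add_mul, smul_mul_assoc, map_add, map_smul] at hp hm
  rw [neg_smul, ← sub_eq_add_neg] at hm
  have hpar := parallelogram_law_with_norm ℂ (T (c * u)) (Complex.I • T (b * u))
  rw [norm_smul, Complex.norm_I, one_mul] at hpar
  have e1 : T (c * u) = T u - T ((1 - c) * u) := by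
    rw [← map_sub]; congr 1; noncomm_ring
  have e2 : ‖T (c * u)‖ ^ 2 = ‖T u‖ ^ 2 - 2 * (⟪T u, T ((1 - c) * u)⟫_ℂ).re
      + ‖T ((1 - c) * u)‖ ^ 2 := by
    rw [e1]; exact norm_sub_sq (𝕜 := ℂ) _ _
  have e3 : (1 - c) * u + (1 - c) * u = b * b * u + (1 - c) * (1 - c) * u := by
    have : b * b = 1 - c * c := by rw [← hsum]; abel
    rw [this]; noncomm_ring
  have e4 : 2 * (⟪T u, T ((1 - c) * u)⟫_ℂ).re = (⟪T u, T (b * b * u)⟫_ℂ).re
      + (⟪T u, T ((1 - c) * (1 - c) * u)⟫_ℂ).re := by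
    rw [← Complex.add_re, ← inner_add_right, ← map_add, ← e3, map_add, inner_add_right,
      Complex.add_re]; ring
  have e5 : (⟪T u, T ((1 - c) * (1 - c) * u)⟫_ℂ).re ≤ ‖T‖ ^ 2 * ‖b‖ ^ 4 := by
    refine (Complex.re_le_norm _).trans ((GT_inner_le T hu _).trans ?_)
    rw [CStarRing.norm_mul_mem_unitary _ hu]
    refine mul_le_mul_of_nonneg_left ((norm_mul_le _ _).trans ?_) (by positivity)
    calc _ ≤ ‖b‖ ^ 2 * ‖b‖ ^ 2 := mul_le_mul hn hn (norm_nonneg _) (by positivity)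
      _ = _ := by ring
  nlinarith [sq_nonneg ‖T ((1 - c) * u)‖]

theorem GT_gen (T : A →L[ℂ] E) {S : ℝ} (hS : ∀ v ∈ unitary A, ‖T v‖ ^ 2 ≤ S) {u : A}
    (hu : u ∈ unitary A) {y : A} (h1 : ‖y‖ ≤ 1) :
    ‖T y‖ ^ 2 ≤ 4 * (S - ‖T u‖ ^ 2) + (⟪T u, T (u * (star y * y))⟫_ℂ).re
      + (⟪T u, T (y * star y * u)⟫_ℂ).re + 4 * (‖T‖ ^ 2 * ‖y‖ ^ 4) := by
  set x := y * star u with hx
  have hxn : ‖x‖ = ‖y‖ := CStarRing.norm_mul_mem_unitary _ (Unitary.star_mem hu)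
  have huu : star u * u = 1 := Unitary.star_mul_self_of_mem hu
  set a : A := (realPart x : A) with ha
  set b : A := (imaginaryPart x : A) with hb
  have hsa : IsSelfAdjoint a := (realPart x).2
  have hsb : IsSelfAdjoint b := (imaginaryPart x).2
  have han : ‖a‖ ≤ ‖y‖ := hxn ▸ realPart.norm_le x
  have hbn : ‖b‖ ≤ ‖y‖ := hxn ▸ imaginaryPart.norm_le x
  have hxe : a + Complex.I • b = x := realPart_add_I_smul_imaginaryPart x
  have h2 := GT_sa T hS hu hsa (han.trans h1)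
  have h3 := GT_sa T hS hu hsb (hbn.trans h1)
  have hy : y = a * u + Complex.I • (b * u) := by
    rw [← smul_mul_assoc, ← add_mul, hxe, hx, mul_assoc, huu, mul_one]
  have hTy : ‖T y‖ ≤ ‖T (a * u)‖ + ‖T (b * u)‖ := by
    conv_lhs => rw [hy, map_add, map_smul]
    refine (norm_add_le _ _).trans ?_
    rw [norm_smul, Complex.norm_I, one_mul]
  have hsum : star x * x + x * star x = (a * a + b * b) + (a * a + b * b) := by
    have hII : (Complex.I * Complex.I : ℂ) = -1 := Complex.I_mul_I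
    rw [← hxe]
    simp only [star_add, star_smul, hsa.star_eq, hsb.star_eq, Complex.star_def, Complex.conj_I,
      add_mul, mul_add, smul_mul_assoc, mul_smul_comm, smul_smul, neg_smul, neg_mul, mul_neg,
      smul_neg, hII, one_smul, neg_neg, smul_add]
    abel
  have e1 : u * (star y * y) + y * star y * u
      = (a * a * u + b * b * u) + (a * a * u + b * b * u) := by
    rw [← add_mul, ← add_mul, ← hsum, hx, star_mul, star_star, add_mul]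
    congr 1
    · simp only [mul_assoc, huu, mul_one]
    · rw [mul_assoc y (star u), ← mul_assoc (star u), huu, one_mul]
  have e2 : (⟪T u, T (u * (star y * y))⟫_ℂ).re + (⟪T u, T (y * star y * u)⟫_ℂ).re
      = 2 * ((⟪T u, T (a * a * u)⟫_ℂ).re + (⟪T u, T (b * b * u)⟫_ℂ).re) := by
    rw [← Complex.add_re, ← inner_add_right, ← map_add, e1]
    simp only [map_add, inner_add_right, Complex.add_re]; ring
  have ha4 : ‖T‖ ^ 2 * ‖a‖ ^ 4 ≤ ‖T‖ ^ 2 * ‖y‖ ^ 4 := by gcongr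
  have hb4 : ‖T‖ ^ 2 * ‖b‖ ^ 4 ≤ ‖T‖ ^ 2 * ‖y‖ ^ 4 := by gcongr
  have h4 : ‖T y‖ ^ 2 ≤ (‖T (a * u)‖ + ‖T (b * u)‖) ^ 2 := by gcongr
  nlinarith [sq_nonneg (‖T (a * u)‖ - ‖T (b * u)‖)]

theorem GT_lim (g : ℕ → A →L[ℂ] ℂ) (C : ℝ) (hC : 0 ≤ C) (hg : ∀ n x, ‖g n x‖ ≤ C * ‖x‖) :
    ∃ f : A →L[ℂ] ℂ, ∀ x, Tendsto (fun n => g n x) (hyperfilter ℕ) (𝓝 (f x)) := by
  have hex : ∀ x, ∃ c : ℂ, Tendsto (fun n => g n x) (hyperfilter ℕ) (𝓝 c) := fun x => by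
    obtain ⟨c, -, hc⟩ := (isCompact_closedBall (0 : ℂ) (C * ‖x‖)).ultrafilter_le_nhds
      ((hyperfilter ℕ).map fun n => g n x) (by
        rw [Ultrafilter.coe_map, le_principal_iff, mem_map]
        exact Eventually.of_forall fun n => by simpa using hg n x)
    exact ⟨c, hc⟩
  choose L hL using hex
  refine ⟨ContinuousLinearMap.ofTendstoOfBoundedRange L g (tendsto_pi_nhds.2 hL) ?_, hL⟩
  refine isBounded_iff_forall_norm_le.2 ⟨C, ?_⟩
  rintro _ ⟨n, rfl⟩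
  exact (g n).opNorm_le_bound hC (hg n)

end GTAux

/-- Proof. `s = sup {‖T u‖ : u unitary}`, unitaries `u_n` with `‖T u_n‖² ≥ s² - ε_n`, `ε_n → 0`;
`f_n x = ⟪T u_n, T (x u_n)⟫`, `|f_n x| ≤ ‖T‖² ‖x‖`. For self-adjoint `a` and `t > 0` with `t ‖a‖ ≤ 1` let
`c = sqrt (1 - t² a²)` (see `IsSelfAdjoint.self_add_I_smul_cfcSqrt_sub_sq_mem_unitary`; `c ± i t a`
are unitary, being `∓ i` times `± t a + i c`...), `1 - c = t² a² / 2 + r`, `r = (1 - c)² / 2`,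
`‖r‖ ≤ t⁴ ‖a‖⁴ / 2` (since `‖1 - c‖ ≤ t² ‖a‖²`; e.g. write everything with `cfc` on `a` and use
`norm_cfc_le`). Parallelogram law: `‖T (c u)‖² + t² ‖T (a u)‖² ≤ s²`, and
`‖T (c u)‖² ≥ ‖T u‖² - 2 Re ⟪T u, T ((1 - c) u)⟫`. So
`t² ‖T (a u_n)‖² ≤ ε_n + t² Re f_n (a²) + ‖T‖² t⁴ ‖a‖⁴`. For `y` put `x = y u_n* = a + i b`
(`‖a‖, ‖b‖ ≤ ‖y‖`), `2 (a² + b²) = x* x + x x*`:
`t² ‖T y‖² ≤ 4 ε_n + t² Re (f_n (u_n y* y u_n*) + f_n (y y*)) + 4 ‖T‖² t⁴ ‖y‖⁴`.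
Let `f1 x = lim ⟪T u_n, T (u_n x)⟫`, `f2 x = lim ⟪T u_n, T (x u_n)⟫` along `hyperfilter ℕ`
(bounded linear functionals); pass to the limit, divide by `t²`, let `t → 0`. -/
theorem little_GT {A E : Type*} [CStarAlgebra A] [NormedAddCommGroup E] [InnerProductSpace ℂ E]
    (T : A →L[ℂ] E) : ∃ f1 f2 : A →L[ℂ] ℂ,
      ∀ a, ‖T a‖ ^ 2 ≤ (f1 (star a * a)).re + (f2 (a * star a)).re := by
  set K : Set ℝ := (fun v => ‖T v‖ ^ 2) '' (unitary A : Set A) with hK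
  have hne : K.Nonempty := ⟨_, 1, one_mem _, rfl⟩
  have hbd : BddAbove K := by
    refine ⟨‖T‖ ^ 2, ?_⟩
    rintro _ ⟨v, hv, rfl⟩
    exact pow_le_pow_left₀ (norm_nonneg _) ((T.le_opNorm v).trans
      (mul_le_of_le_one_right (norm_nonneg _) (GT_norm_unitary hv))) 2
  have hS : ∀ v ∈ unitary A, ‖T v‖ ^ 2 ≤ sSup K := fun v hv => le_csSup hbd ⟨v, hv, rfl⟩
  obtain ⟨s, -, hs, hsK⟩ := exists_seq_tendsto_sSup hne hbd
  choose u hu hus using hsK
  obtain ⟨f1, hf1⟩ := GT_lim (fun n => (innerSL ℂ (T (u n))).comp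
      (T.comp (ContinuousLinearMap.mul ℂ A (u n)))) (‖T‖ ^ 2) (by positivity) fun n x => by
    have := GT_inner_le T (hu n) (u n * x)
    rw [CStarRing.norm_mem_unitary_mul _ (hu n)] at this
    simpa using this
  obtain ⟨f2, hf2⟩ := GT_lim (fun n => (innerSL ℂ (T (u n))).comp
      (T.comp ((ContinuousLinearMap.mul ℂ A).flip (u n)))) (‖T‖ ^ 2) (by positivity) fun n x => by
    have := GT_inner_le T (hu n) (x * u n)
    rw [CStarRing.norm_mul_mem_unitary _ (hu n)] at this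
    simpa using this
  have key : ∀ y : A, ‖y‖ ≤ 1 → ‖T y‖ ^ 2 ≤ (f1 (star y * y)).re + (f2 (y * star y)).re
      + 4 * (‖T‖ ^ 2 * ‖y‖ ^ 4) := fun y hy => by
    have h0 : Tendsto (fun n => 4 * (sSup K - s n)) (hyperfilter ℕ) (𝓝 0) := by
      have := ((hs.mono_left Nat.hyperfilter_le_atTop).const_sub (sSup K)).const_mul 4
      simpa using this
    have h1 := (Complex.continuous_re.tendsto _).comp (hf1 (star y * y))
    have h2 := (Complex.continuous_re.tendsto _).comp (hf2 (y * star y))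
    have h3 := ((h0.add h1).add h2).add_const (4 * (‖T‖ ^ 2 * ‖y‖ ^ 4))
    rw [zero_add] at h3
    refine ge_of_tendsto h3 (Eventually.of_forall fun n => ?_)
    have := GT_gen T hS (hu n) hy
    rw [← hus n]
    simpa using this
  refine ⟨f1, f2, fun a => ?_⟩
  have hlim : Tendsto (fun t : ℝ => (f1 (star a * a)).re + (f2 (a * star a)).re
      + 4 * (‖T‖ ^ 2 * ‖a‖ ^ 4) * t ^ 2) (𝓝[>] 0)
      (𝓝 ((f1 (star a * a)).re + (f2 (a * star a)).re + 4 * (‖T‖ ^ 2 * ‖a‖ ^ 4) * 0 ^ 2)) :=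
    (Continuous.tendsto (by fun_prop) 0).mono_left nhdsWithin_le_nhds
  simp only [ne_eq, OfNat.ofNat_ne_zero, not_false_eq_true, zero_pow, mul_zero, add_zero] at hlim
  refine ge_of_tendsto hlim ?_
  have hsmall : ∀ᶠ t : ℝ in 𝓝[>] 0, t * ‖a‖ < 1 := by
    have : Tendsto (fun t : ℝ => t * ‖a‖) (𝓝[>] 0) (𝓝 (0 * ‖a‖)) :=
      (Continuous.tendsto (by fun_prop) 0).mono_left nhdsWithin_le_nhds
    exact this.eventually (gt_mem_nhds (by simp))
  filter_upwards [hsmall, self_mem_nhdsWithin] with t ht ht0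
  have ht0' : 0 < t := ht0
  have hn : ‖(t : ℂ) • a‖ = t * ‖a‖ := by
    rw [norm_smul, Complex.norm_real, Real.norm_eq_abs, abs_of_pos ht0']
  have h := key ((t : ℂ) • a) (hn ▸ ht.le)
  rw [hn, map_smul, norm_smul, Complex.norm_real, Real.norm_eq_abs, abs_of_pos ht0'] at h
  simp only [star_smul, Complex.star_def, Complex.conj_ofReal, smul_mul_assoc, mul_smul_comm,
    map_smul, smul_eq_mul, Complex.re_ofReal_mul] at h
  have h2 : t ^ 2 * ‖T a‖ ^ 2 ≤ t ^ 2 * ((f1 (star a * a)).re + (f2 (a * star a)).re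
      + 4 * (‖T‖ ^ 2 * ‖a‖ ^ 4) * t ^ 2) := by nlinarith
  exact le_of_mul_le_mul_left h2 (by positivity)

end Crest.Agent.R121
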