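import Crest.Agent.R121.Polar
import Crest.Agent.R121.Spec

/-! # R121: homogeneous pieces, abelian projections, halving (task `HP`) -/

set_option autoImplicit false
open Filter Topology
open scoped InnerProductSpace

namespace Crest.Agent.R121

universe u
variable {H : Type u} [NormedAddCommGroup H] [InnerProductSpace ℂ H] [CompleteSpace H]
variable {M : VonNeumannAlgebra H}

section Aux
variable {A : Type*} [Ring A] [StarRing A]

theorem hp_star_zero {a b : A} (h : star a * b = 0) : star b * a = 0 := by
  simpa only [star_mul, star_star, star_zero] using congrArg star h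

theorem hp_star_zero' {a b : A} (h : a * star b = 0) : b * star a = 0 := by
  simpa only [star_mul, star_star, star_zero] using congrArg star h

theorem hp_star_left {a b : A} (hb : IsStarProjection b) (h : a * b = a) : b * star a = star a := by
  simpa only [star_mul, proj_star hb] using congrArg star h

theorem hp_star_right {a b : A} (hb : IsStarProjection b) (h : b * a = a) :
    star a * b = star a := by
  simpa only [star_mul, proj_star hb] using congrArg star h

theorem CP.hp_mul_mul {z : A} (h : CP z) (a b : A) : z * a * (z * b) = z * (a * b) := by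
  rw [mul_assoc, ← mul_assoc a, ← h.2, mul_assoc, ← mul_assoc z z, h.mul_self]

theorem CP.hp_left {z v g : A} (h : CP z) (hv : v * (z * g) = v) : z * v = v := by
  calc z * v = z * v * (z * g) := by rw [mul_assoc, hv]
    _ = v * (z * g) := by rw [h.hp_mul_mul, ← mul_assoc, h.2, mul_assoc]
    _ = v := hv

theorem CP.hp_ab {c e : A} (h : CP c) (hab : ∀ a b, e * a * e * b * e = e * b * e * a * e)
    (a b : A) : c * e * a * (c * e) * b * (c * e) = c * e * b * (c * e) * a * (c * e) := by
  have key : ∀ a b, c * e * a * (c * e) * b * (c * e) = c * (e * a * e * b * e) := fun a b => by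
    rw [mul_assoc c e a, h.hp_mul_mul, mul_assoc c, h.hp_mul_mul]
  rw [key, key, hab]

theorem hp_shift {g W : A} (hg : IsStarProjection g) (h1 : star W * W * g = g)
    (h2 : star W * W * W = W) (h3 : g * W = 0) (i j : ℕ) :
    star (W ^ i * g) * (W ^ j * g) = if i = j then g else 0 := by
  have h0 : ∀ j, g * (W ^ (j + 1) * g) = 0 := fun j => by
    rw [pow_succ', ← mul_assoc, ← mul_assoc, h3, zero_mul, zero_mul]
  induction i generalizing j with
  | zero =>
    rw [pow_zero, one_mul, proj_star hg]
    cases j with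
    | zero => simp [proj_mul_self hg]
    | succ j => simp [h0]
  | succ i ih =>
    cases j with
    | zero =>
      rw [if_neg (Nat.succ_ne_zero i), pow_zero, one_mul]
      exact hp_star_zero (by rw [proj_star hg, h0])
    | succ j =>
      have hE : star W * (W * (W ^ j * g)) = W ^ j * g := by
        rw [← mul_assoc]
        cases j with
        | zero => simpa using h1
        | succ j => rw [pow_succ', mul_assoc W, ← mul_assoc, h2]
      rw [pow_succ', pow_succ', mul_assoc W, mul_assoc W, star_mul W, mul_assoc, hE, ih]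
      simp

variable {ι κ : Type*} [Fintype ι] [DecidableEq ι] [Fintype κ] [DecidableEq κ]

theorem MU.hp_orth {w : ι → A} {z g v : A} (h : MU w (z * g) (z - v * star v)) (hz : CP z)
    (hv : PI v) (i : ι) : star v * w i = 0 := by
  have h1 := h.z_mul i
  rw [sub_mul, hz.hp_left (h.mul_e i), sub_eq_self] at h1
  rw [← hv.star'.fin_mul, star_star, mul_assoc, mul_assoc, ← mul_assoc v, h1, mul_zero]

theorem MU.hp_cons {w : ι → A} {e z v : A} (h : MU w e (z - v * star v)) (hv : PI v)
    (hve : star v * v = e) (ho : ∀ i, star v * w i = 0) :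
    MU (fun o : Option ι => o.elim v w) e z where
  proj := h.proj
  mul_e o := by
    cases o with
    | none => exact hve ▸ hv.mul_init
    | some i => exact h.mul_e i
  orth o o' := by
    cases o <;> cases o'
    · simpa using hve
    · simpa using ho _
    · simpa using hp_star_zero (ho _)
    · simpa using h.orth _ _
  sum := by
    rw [Fintype.sum_option]
    simp only [Option.elim_none, Option.elim_some, h.sum]
    abel

theorem MU.hp_prod {w : ι → A} {x : κ → A} {e e' z : A} (h : MU w e z) (h' : MU x e' e) :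
    MU (fun a : ι × κ => w a.1 * x a.2) e' z where
  proj := h'.proj
  mul_e a := by rw [mul_assoc, h'.mul_e]
  orth a b := by
    rw [star_mul, mul_assoc, ← mul_assoc (star (w a.1)), h.orth]
    by_cases h1 : a.1 = b.1
    · rw [if_pos h1, h'.z_mul, h'.orth]
      simp [Prod.ext_iff, h1]
    · simp [Prod.ext_iff, h1]
  sum := by
    rw [← h.sum, Fintype.sum_prod_type]
    refine Finset.sum_congr rfl fun i _ => ?_
    calc _ = w i * (∑ k, x k * star (x k)) * star (w i) := by
          simp only [star_mul, Finset.mul_sum, Finset.sum_mul, mul_assoc]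
      _ = _ := by rw [h'.sum, h.mul_e]

theorem hp_half {u e : A} (he : star u * u + u * star u = e) (hu : PI u) (h0 : u * u = 0) :
    MU (fun b : Bool => cond b (star u * u) u) (star u * u) e where
  proj := hu.init
  mul_e b := by
    cases b
    · exact hu.mul_init
    · exact proj_mul_self hu.init
  orth b b' := by
    have h1 : star u * u * u = 0 := by rw [mul_assoc, h0, mul_zero]
    cases b <;> cases b'
    · simp
    · simpa using hp_star_zero (a := star u * u) (b := u) (by rw [proj_star hu.init, h1])
    · simpa [proj_star hu.init] using h1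
    · simpa [proj_star hu.init] using proj_mul_self hu.init
  sum := by
    rw [Fintype.sum_bool, ← he]
    simp only [cond_true, cond_false, proj_star hu.init, proj_mul_self hu.init]

theorem hp_embedding (α : Type u) [Infinite α] : Nonempty (Option α × Bool ↪ α) := by
  rw [← Cardinal.le_def]
  have h := Cardinal.aleph0_le_mk α
  simp only [Cardinal.mk_prod, Cardinal.mk_option, Cardinal.mk_bool, Cardinal.lift_ofNat,
    Cardinal.lift_uzero, Cardinal.add_one_eq h]
  exact (Cardinal.mul_eq_left h ((Cardinal.natCast_lt_aleph0 (n := 2)).le.trans h) two_ne_zero).le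

end Aux

/-- If `z = ∑ u_i u_i*` with `u_i* u_i ≤ g` and there are two disjoint `ι`-indexed families of
orthogonal copies of `g`, then `z` is properly infinite. Proof: `s_k = ∑_i t_(i,k) u_i*`
(`exists_sumPI`; `(t u*)* (t u*) = u g u* = u u*`). `Q = s_k* s_k = ∑ u_i u_i*` satisfies
`Q u_i = u_i`, so `(1 - Q) z = 0`, and `z Q = Q`; hence `Q = z`. `s_1* s_2 = 0` by using
`IsSum.mul_eq_zero` / `IsSum.eq_zero_mul`. -/
theorem P3_of_family {ι : Type*} [DecidableEq ι] {z g : Al M} (hz : CP z) (hg : IsStarProjection g)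
    (u : ι → Al M) (hu : ∀ i, PI (u i)) (ho : Pairwise fun i k => star (u i) * u k = 0)
    (hug : ∀ i, u i * g = u i) (hzu : ∀ i, z * u i = u i)
    (hsum : ∀ y : Al M, (∀ i, y * u i = 0) → y * z = 0)
    (t : ι × Bool → Al M) (ht : ∀ a b, star (t a) * t b = if a = b then g else 0) : P3 z := by
  have hx : ∀ b b' i k, star (t (i, b) * star (u i)) * (t (k, b') * star (u k)) =
      if (i, b) = (k, b') then u i * star (u k) else 0 := by
    intro b b' i k
    rw [star_mul, star_star, mul_assoc, ← mul_assoc (star _), ht]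
    split_ifs
    · rw [hp_star_left hg (hug k)]
    · simp
  have key : ∀ b, ∃ s : Al M, IsSum (fun i => t (i, b) * star (u i)) s ∧ star s * s = z := by
    intro b
    have hx' : ∀ i, star (t (i, b) * star (u i)) * (t (i, b) * star (u i)) = u i * star (u i) :=
      fun i => by rw [hx, if_pos rfl]
    obtain ⟨s, -, hs, hQ, -⟩ := exists_sumPI (fun i => t (i, b) * star (u i))
      (fun i => PI.of_init (hx' i ▸ (hu i).fin))
      (fun i k hik => (hx _ _ _ _).trans (if_neg (by simpa using hik)))
      (fun i k hik => by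
        beta_reduce
        rw [star_mul, star_star, mul_assoc, ← mul_assoc (star _), ho hik, zero_mul, mul_zero])
    simp only [hx'] at hQ
    refine ⟨s, hs, ?_⟩
    have h1 : ∀ i, star s * s * u i = u i := fun i => by
      rw [(hQ.mul_right (u i)).eq_single i fun k hk => by rw [mul_assoc, ho hk, mul_zero]]
      exact (hu i).fin_mul
    have h2 := hsum (1 - star s * s) fun i => by rw [sub_mul, one_mul, h1, sub_self]
    have h3 : z * (star s * s) = star s * s := hQ.mul_eq fun i => by rw [← mul_assoc, hzu]
    rw [sub_mul, one_mul, ← hz.2, h3, sub_eq_zero] at h2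
    exact h2.symm
  obtain ⟨s1, hs1, e1⟩ := key true
  obtain ⟨s2, hs2, e2⟩ := key false
  refine ⟨s1, s2, e1, e2, hs2.mul_eq_zero fun k => hs1.star.eq_zero_mul fun i => ?_⟩
  rw [hx, if_neg (by simp)]

/-- Homogeneous piece: below the central support of `e ≠ 0` there is a central `z` which is properly
infinite or is a finite sum of copies of `z e` and of one subprojection of `z e`.
Proof: maximal family `S` of partial isometries `w` with `w* w = e` and `w* w' = 0` (nonempty since
`e` is a candidate), `P = ∑ w w*`, `r = 1 - P`, `compare e r` gives `c, w₀`. If `(1 - c) e = 0` then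
`c w₀` is a candidate orthogonal to `S`, so lies in `S`, so `P c w₀ = c w₀ = r c w₀`, `c w₀ = 0`,
`e = 0`: contradiction. Put `z = (1 - c) c(e)` (`exists_csupp`), `v = z w₀`: `v v* = z r`.
If `S` is finite, reindex by `Fin (n+1)` (`IsSum.eq_sum`). If `S` is infinite use `P3_of_family` with
`ι = Option S`, `u none = v`, `u (some w) = z w`, `g = z e`, and an injection `Option S × Bool → S`
(cardinal arithmetic: `Cardinal.mk_option`/`add_one_eq`, `mul_eq_left`, ...). -/
theorem exists_piece {e : Al M} (he : IsStarProjection e) (h0 : e ≠ 0) :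
    ∃ z : Al M, CP z ∧ z * e ≠ 0 ∧ (∀ y : Al M, (∀ a : Al M, y * a * e = 0) → y * z = 0) ∧
      (P3 z ∨ ∃ (n : ℕ) (w : Fin (n + 1) → Al M) (v : Al M),
        PI v ∧ v * (z * e) = v ∧ MU w (z * e) (z - v * star v)) := by
  classical
  obtain ⟨S, hS, hSo, hmax⟩ := exists_maximal_pairwise (fun w : Al M => star w * w = e)
    (fun w w' => star w * w' = 0) fun _ _ => hp_star_zero
  have hpi : ∀ w : S, PI w.1 := fun w => PI.of_init (hS _ w.2 ▸ he)
  have hwe : ∀ w : S, w.1 * e = w.1 := fun w => hS _ w.2 ▸ (hpi w).mul_init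
  have hor : ∀ w w' : S, star w.1 * w'.1 = if w = w' then e else 0 := fun w w' => by
    split_ifs with h
    · rw [← h, hS _ w.2]
    · exact hSo w.2 w'.2 fun h' => h (Subtype.ext h')
  obtain ⟨P, hP, hsum, hPw⟩ := exists_sumProj (fun w : S => w.1 * star w.1)
    (fun w => (hpi w).fin) fun w w' h => by
      beta_reduce
      rw [mul_assoc, ← mul_assoc (star _), hor, if_neg h, zero_mul, mul_zero]
  have hrw : ∀ w : S, (1 - P) * w.1 = 0 := fun w => by
    rw [← (hpi w).fin_mul, ← mul_assoc, sub_mul, one_mul, hPw, sub_self, zero_mul]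
  obtain ⟨c, w₀, hc, hw₀, h1, h2, h3, h4⟩ := compare he hP.one_sub
  have hw₀w : ∀ w : S, star w₀ * w.1 = 0 := fun w => by
    rw [← hp_star_right hP.one_sub h1, mul_assoc, hrw, mul_zero]
  have hce : (1 - c) * e ≠ 0 := by
    intro h
    rw [sub_mul, one_mul, sub_eq_zero] at h
    have e1 : star (c * w₀) * (c * w₀) = e := by rw [hc.star_mul_mul, h3, ← h]
    have e2 : ∀ y ∈ S, star (c * w₀) * y = 0 := fun y hy => by
      rw [star_mul, hc.star_eq, ← hc.2, mul_assoc, hw₀w ⟨y, hy⟩, mul_zero]
    exact h0 (e1.symm.trans (e2 _ (hmax _ e1 e2)))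
  obtain ⟨d, hd, hde, hdy⟩ := exists_csupp e
  have hz : CP ((1 - c) * d) := hc.one_sub.mul hd
  have hvv : (1 - c) * d * (w₀ * star w₀) = (1 - c) * d * (1 - P) := by
    rw [← hd.2, mul_assoc, h4, mul_assoc]
  refine ⟨(1 - c) * d, hz, by rwa [mul_assoc, hde], fun y hy => by
    rw [← hd.2, ← mul_assoc, hdy y hy, zero_mul], ?_⟩
  generalize (1 - c) * d = z at hz hvv
  have hv : PI (z * w₀) := hz.mul_PI hw₀
  have hve : z * w₀ * (z * e) = z * w₀ := by rw [hz.hp_mul_mul, h2]
  have hzP : z - z * w₀ * star (z * w₀) = z * P := by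
    rw [hz.mul_mul_star, hvv, mul_sub, mul_one, sub_sub_cancel]
  rcases finite_or_infinite S with hfin | hinf
  · have := Fintype.ofFinite S
    have hne : Nonempty S := by
      by_contra hn
      have hE : ∀ y, y ∉ S := fun y hy => hn ⟨⟨y, hy⟩⟩
      exact hE e (hmax e (by rw [proj_star he, proj_mul_self he]) fun y hy => absurd hy (hE y))
    obtain ⟨n, hn⟩ := Nat.exists_eq_succ_of_ne_zero (Fintype.card_ne_zero (α := S))
    have hmu : MU (fun w : S => w.1) e P := ⟨he, hwe, hor, hsum.eq_sum.symm⟩
    exact Or.inr ⟨n, _, z * w₀, hv, hve,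
      hzP ▸ (hmu.cut hz).reindex (Fintype.equivFinOfCardEq hn).symm⟩
  · obtain ⟨m⟩ := hp_embedding S
    refine Or.inl (P3_of_family hz (hz.mul_proj he)
      (fun o : Option S => z * o.elim w₀ fun w => w.1) (fun o => hz.mul_PI ?_)
      (fun o o' h => ?_) (fun o => ?_) (fun o => by rw [← mul_assoc, hz.mul_self])
      (fun y hy => ?_) (fun a => z * (m a).1) fun a b => ?_)
    · cases o with
      | none => exact hw₀
      | some w => exact hpi w
    · beta_reduce
      rw [hz.star_mul_mul]
      cases o <;> cases o'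
      · exact absurd rfl h
      · exact (congrArg _ (hw₀w _)).trans (mul_zero _)
      · exact (congrArg _ (hp_star_zero (hw₀w _))).trans (mul_zero _)
      · exact (congrArg _ ((hor _ _).trans (if_neg (by simpa using h)))).trans (mul_zero _)
    · rw [hz.hp_mul_mul]
      cases o with
      | none => exact congrArg _ h2
      | some w => exact congrArg _ (hwe w)
    · have e1 : y * z * P = 0 := hsum.mul_eq_zero fun w => by
        rw [← mul_assoc, mul_assoc y, show y * (z * w.1) = 0 from hy (some w), zero_mul]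
      rw [mul_assoc, ← hzP, mul_sub, ← mul_assoc, show y * (z * w₀) = 0 from hy none, zero_mul,
        sub_zero] at e1
      exact e1
    · rw [hz.star_mul_mul, hor]
      simp

/-- An infinite projection yields a properly infinite central piece. Proof: `exists_piece g`; in
the finite case use `P3_of_family` with `ι = Option (Fin (n+1))`, the projection `z g` and
`t a = z W^(m a) g` for an injection `m : ι × Bool → ℕ` (`Encodable.encode`/`Fintype.equivFin`):
with `E = W* W` one has `(W*)^a W^a y = y` whenever `E y = y`, and `g W^(b+1) = 0`.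
(`v* w_i = 0` because `(z - v v*) w_i = w_i = z w_i`.) -/
theorem P3_of_infinite {g W : Al M} (hg : IsStarProjection g) (h0 : g ≠ 0)
    (h1 : star W * W * g = g) (h2 : star W * W * W = W) (h3 : g * W = 0) :
    ∃ z : Al M, CP z ∧ z ≠ 0 ∧ (∀ y : Al M, (∀ a : Al M, y * a * g = 0) → y * z = 0) ∧ P3 z := by
  obtain ⟨z, hz, hzg, hsupp, h⟩ := exists_piece hg h0
  refine ⟨z, hz, left_ne_zero_of_mul hzg, hsupp, ?_⟩
  rcases h with h | ⟨n, w, v, hv, hvg, hw⟩
  · exact h
  obtain ⟨m, hm⟩ := exists_injective_nat (Option (Fin (n + 1)) × Bool)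
  have hug : ∀ o : Option (Fin (n + 1)), o.elim v w * (z * g) = o.elim v w := fun o => by
    cases o with
    | none => exact hvg
    | some i => exact hw.mul_e i
  refine P3_of_family hz (hz.mul_proj hg) (fun o : Option (Fin (n + 1)) => o.elim v w)
    (fun o => ?_) (fun o o' h => ?_) hug (fun o => hz.hp_left (hug o)) (fun y hy => ?_)
    (fun a => z * (W ^ m a * g)) fun a b => ?_
  · cases o with
    | none => exact hv
    | some i => exact hw.pi i
  · cases o <;> cases o'
    · exact absurd rfl h
    · exact hw.hp_orth hz hv _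
    · exact hp_star_zero (hw.hp_orth hz hv _)
    · exact hw.orth_ne (by simpa using h)
  · have e1 : y * (z - v * star v) = 0 := by
      rw [← hw.sum, Finset.mul_sum]
      exact Finset.sum_eq_zero fun i _ => by
        rw [← mul_assoc, show y * w i = 0 from hy (some i), zero_mul]
    rwa [mul_sub, ← mul_assoc, show y * v = 0 from hy none, zero_mul, sub_zero] at e1
  · rw [hz.star_mul_mul, hp_shift hg h1 h2 h3]
    simp [hm.eq_iff]

/-- Abelian case. Proof: `exists_piece e`; `f = v* v ≤ e`, `c = c(f)`. For all `a`,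
`(e - f) a f = (e - f) (e a e) (e f e) = (e - f) f (e a e) = 0`, so `(e - f) c = 0`, `c e = f`.
One of `z c`, `z (1 - c)` is nonzero. On `z (1 - c)`: `(1 - c) v = (1 - c) v f = 0`, use `MU.cut`.
On `z c`: add `c v` to the family (index `Option (Fin (n+1))`). Then `MU.exists_zmod`. -/
theorem piece_of_abelian {e : Al M} (he : IsStarProjection e) (h0 : e ≠ 0)
    (hab : ∀ a b : Al M, e * a * e * b * e = e * b * e * a * e) :
    ∃ z : Al M, CP z ∧ z ≠ 0 ∧ (∀ y : Al M, (∀ a : Al M, y * a * e = 0) → y * z = 0) ∧
      (P1 z ∨ P3 z) := by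
  obtain ⟨z, hz, hze, hsupp, h⟩ := exists_piece he h0
  have hz0 : z ≠ 0 := left_ne_zero_of_mul hze
  rcases h with h | ⟨n, w, v, hv, hvz, hw⟩
  · exact ⟨z, hz, hz0, hsupp, Or.inr h⟩
  have hve : v * e = v := by
    conv_lhs => rw [← hvz]
    rw [mul_assoc, mul_assoc, proj_mul_self he, hvz]
  have hf := hv.init
  have hfe : star v * v * e = star v * v := by rw [mul_assoc, hve]
  have hef : e * (star v * v) = star v * v := by simpa only [star_mul, star_star, proj_star he] using congrArg star hfe
  obtain ⟨c, hc, hcf, hcy⟩ := exists_csupp (star v * v)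
  have hce : c * e = star v * v := by
    have h1 := hcy (e - star v * v) fun a => by
      have h2 := hab a (star v * v)
      rw [mul_assoc (e * a) e, hef, mul_assoc (e * a), hfe] at h2
      have h3 := congrArg (· * (star v * v)) h2
      simp only [mul_assoc (e * a), proj_mul_self hf, mul_assoc (star v * v * a), hef] at h3
      rw [sub_mul, sub_mul, h3, sub_self]
    rwa [sub_mul, ← hc.2, ← hc.2, hcf, sub_eq_zero] at h1
  by_cases hzc : (1 - c) * z = 0
  · rw [sub_mul, one_mul, sub_eq_zero] at hzc
    have e1 : star v * v = z * e := by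
      rw [hzc, hc.2, mul_assoc, hce, ← mul_assoc, hz.2, mul_assoc, hz.hp_left hvz]
    obtain ⟨_, w', hw'⟩ := (hw.hp_cons hv e1 (hw.hp_orth hz hv)).exists_zmod
    exact ⟨z, hz, hz0, hsupp, Or.inl ⟨_, _, w', _, hw', hz.hp_ab hab⟩⟩
  · have hz' := hc.one_sub.mul hz
    have e1 : (1 - c) * v = 0 := by
      rw [hc.one_sub.2, ← hv.mul_init, mul_assoc, ← hc.one_sub.2, sub_mul, one_mul, hcf, sub_self,
        mul_zero]
    have hw' := hw.cut hc.one_sub
    rw [mul_sub, ← mul_assoc, ← mul_assoc, e1, zero_mul, sub_zero] at hw'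
    obtain ⟨_, w', hw'⟩ := hw'.exists_zmod
    exact ⟨_, hz', hzc, fun y hy => by
      rw [hc.one_sub.2, ← mul_assoc, hsupp y hy, zero_mul], Or.inl ⟨_, _, w', _, hw', hz'.hp_ab hab⟩⟩

/-- No nonzero abelian projection below `z`. -/
def NoAb (z : Al M) : Prop := ∀ e : Al M, IsStarProjection e → z * e = e →
  (∀ a b : Al M, e * a * e * b * e = e * b * e * a * e) → e = 0

/-- Halving. Proof: maximal family of nonzero partial isometries `u ∈ p M p` with `u u = 0`, pairwise
`u* u' = 0`, `u u'* = 0`, `u u' = 0`, `u' u = 0`; `w` = sum, `w w = 0`, `r = p - w* w - w w*` is a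
projection below `z`. If some projection `q ≤ r` has `q a (r - q) ≠ 0`, `exists_PI_of_ne` contradicts
maximality. Otherwise every projection `q ≤ r` has `q a r = q a q = r a q` (adjoint), so commutes with
`r a r`; by `span_induction` `r` is abelian, so `r = 0`. -/
theorem exists_half {z p : Al M} (hz : NoAb z) (hp : IsStarProjection p) (hzp : z * p = p) :
    ∃ u : Al M, PI u ∧ u * u = 0 ∧ star u * u + u * star u = p := by
  obtain ⟨S, hS, hSo, hmax⟩ := exists_maximal_pairwise
    (fun u : Al M => PI u ∧ u ≠ 0 ∧ p * u = u ∧ u * p = u ∧ u * u = 0)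
    (fun u u' => star u * u' = 0 ∧ u * star u' = 0 ∧ u * u' = 0 ∧ u' * u = 0)
    fun _ _ h => ⟨hp_star_zero h.1, hp_star_zero' h.2.1, h.2.2.2, h.2.2.1⟩
  have hR : ∀ i k : S, i ≠ k →
      star i.1 * k.1 = 0 ∧ i.1 * star k.1 = 0 ∧ i.1 * k.1 = 0 ∧ k.1 * i.1 = 0 :=
    fun i k h => hSo i.2 k.2 fun h' => h (Subtype.ext h')
  obtain ⟨w, hw, hs, ha, hb⟩ := exists_sumPI (fun i : S => i.1) (fun i => (hS _ i.2).1)
    (fun i k h => (hR i k h).1) fun i k h => (hR i k h).2.1
  have hww : w * w = 0 := hs.mul_eq_zero fun k => hs.eq_zero_mul fun i => by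
    by_cases h : i = k
    · rw [h]; exact (hS _ k.2).2.2.2.2
    · exact (hR i k h).2.2.1
  have hpw : p * w = w := hs.mul_eq fun i => (hS _ i.2).2.2.1
  have hwp : w * p = w := hs.eq_mul fun i => (hS _ i.2).2.2.2.1
  have hab : star w * w * (w * star w) = 0 := by
    rw [mul_assoc, ← mul_assoc w, hww, zero_mul, mul_zero]
  have hq := hw.init.add hw.fin hab
  have hpq : p * (star w * w + w * star w) = star w * w + w * star w := by
    rw [mul_add, ← mul_assoc, ← mul_assoc, hp_star_left hp hwp, hpw]
  refine ⟨w, hw, hww, (sub_eq_zero.1 ?_).symm⟩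
  obtain ⟨r, hrdef⟩ : ∃ r, r = p - (star w * w + w * star w) := ⟨_, rfl⟩
  have hr : IsStarProjection r := hrdef ▸ proj_sub hp hq hpq
  have hpr : p * r = r := by rw [hrdef, mul_sub, proj_mul_self hp, hpq]
  have hrp : r * p = r := proj_le_comm hp hr hpr
  have hrw : r * w = 0 := by
    rw [hrdef, sub_mul, add_mul, hpw, mul_assoc, hww, mul_zero, zero_add, hw.fin_mul, sub_self]
  have hwr : w * r = 0 := by
    rw [hrdef, mul_sub, mul_add, hwp, hw.mul_init, ← mul_assoc, hww, zero_mul, add_zero, sub_self]
  have hry : ∀ y ∈ S, r * y = 0 := fun y hy => by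
    have : w * star w * y = y := by
      rw [(hb.mul_right y).eq_single ⟨y, hy⟩ fun k hk => by
        rw [mul_assoc, (hR k ⟨y, hy⟩ hk).1, mul_zero]]
      exact (hS y hy).1.fin_mul
    rw [← this, ← mul_assoc, ← mul_assoc, hrw, zero_mul, zero_mul]
  have hyr : ∀ y ∈ S, y * r = 0 := fun y hy => by
    have : y * (star w * w) = y := by
      rw [(ha.mul_left y).eq_single ⟨y, hy⟩ fun k hk => by
        rw [← mul_assoc, (hR ⟨y, hy⟩ k hk.symm).2.1, zero_mul]]
      exact (hS y hy).1.mul_init
    rw [← this, mul_assoc, mul_assoc, hwr, mul_zero, mul_zero]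
  have key : ∀ q : Al M, IsStarProjection q → r * q = q → ∀ x, q * x * r = q * x * q := by
    intro q hq hrq x
    by_contra hne
    have hrq' := proj_sub hr hq hrq
    obtain ⟨u, hu, hu0, hqu, huq⟩ := exists_PI_of_ne (a := x) hrq' hq
      (by rwa [mul_sub, sub_ne_zero])
    have hru : r * u = u := by rw [← hqu, ← mul_assoc, hrq]
    have hur : u * r = u := by
      rw [← huq, mul_assoc, sub_mul, proj_mul_self hr, proj_le_comm hr hq hrq]
    have huu : u * u = 0 := by
      calc u * u = u * (r - q) * (q * u) := by rw [huq, hqu]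
        _ = 0 := by
          rw [mul_assoc, ← mul_assoc (r - q), sub_mul, hrq, proj_mul_self hq, sub_self, zero_mul,
            mul_zero]
    have hmem := hmax u ⟨hu, hu0, by rw [← hru, ← mul_assoc, hpr], by
      rw [← hur, mul_assoc, hrp], huu⟩ fun y hy => ⟨by
        rw [← hp_star_right hr hru, mul_assoc, hry y hy, mul_zero], by
        rw [← hur, mul_assoc, ← proj_star hr, ← star_mul, hyr y hy, star_zero, mul_zero], by
        rw [← hur, mul_assoc, hry y hy, mul_zero], by
        rw [← hru, ← mul_assoc, hyr y hy, zero_mul]⟩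
    exact hu0 (hru.symm.trans (hry u hmem))
  rw [← hrdef]
  refine hz r hr (by rw [← hpr, ← mul_assoc, hzp]) fun a b => ?_
  let T : Submodule ℂ (Al M) :=
    { carrier := {y | y * b * r = r * b * y}
      add_mem' := fun {x y} hx hy => by
        simp only [Set.mem_ofPred_eq] at hx hy ⊢
        rw [add_mul, add_mul, mul_add, hx, hy]
      zero_mem' := by simp
      smul_mem' := fun t x hx => by
        simp only [Set.mem_ofPred_eq] at hx ⊢
        rw [smul_mul_assoc, smul_mul_assoc, mul_smul_comm, hx] }
  have hT : r * a * r ∈ T := span_induction T (isClosed_eq (by fun_prop) (by fun_prop)) hr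
    (fun q hq hrq => by
      have h1 := congrArg star (key q hq hrq (star b))
      simp only [star_mul, star_star, proj_star hq, proj_star hr, ← mul_assoc] at h1
      exact (key q hq hrq b).trans h1.symm)
    (by rw [← mul_assoc, ← mul_assoc, proj_mul_self hr])
    (by rw [mul_assoc, proj_mul_self hr])
  have hT' : r * a * r * b * r = r * b * (r * a * r) := hT
  simpa only [mul_assoc] using hT'

/-- Matrix units of arbitrarily large size. Proof: induction, sizes `2^k` (index type
`Fin k → Bool` or `∃ ι` with `card ι = 2^k`; keep `z * e = e`): halve `e = u* u + u u*` and use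
the family `w_i (u* u)`, `w_i u` indexed by `ι × Bool` (or `ι ⊕ ι`) with base projection `u* u`. -/
theorem exists_MU {z p : Al M} (hz : NoAb z) (hp : IsStarProjection p) (hzp : z * p = p) (n0 : ℕ) :
    ∃ (n : ℕ) (_ : NeZero n) (w : ZMod n → Al M) (e : Al M), n0 ≤ n ∧ MU w e p := by
  have key : ∀ k : ℕ, ∃ (ι : Type) (_ : Fintype ι) (_ : DecidableEq ι) (w : ι → Al M) (e : Al M),
      k + 1 ≤ Fintype.card ι ∧ MU w e p ∧ z * e = e := by
    intro k
    induction k with
    | zero =>
      exact ⟨Unit, inferInstance, inferInstance, fun _ => p, p, by simp,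
        ⟨hp, fun _ => proj_mul_self hp, fun _ _ => by simp [proj_star hp, proj_mul_self hp],
          by simp [proj_star hp, proj_mul_self hp]⟩, hzp⟩
    | succ k ih =>
      obtain ⟨ι, _, _, w, e, hk, hw, hze⟩ := ih
      obtain ⟨u, hu, hu0, hue⟩ := exists_half hz hw.proj hze
      have hx := hp_half hue hu hu0
      refine ⟨ι × Bool, inferInstance, inferInstance, _, _, ?_, hw.hp_prod hx, ?_⟩
      · rw [Fintype.card_prod, Fintype.card_bool]; omega
      · have : e * (star u * u) = star u * u := hx.z_mul true
        rw [← this, ← mul_assoc, hze]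
  obtain ⟨ι, _, _, w, e, hk, hw, -⟩ := key n0
  have : Nonempty ι := Fintype.card_pos_iff.1 (by omega)
  obtain ⟨_, w', hw'⟩ := hw.exists_zmod
  exact ⟨_, _, w', e, by omega, hw'⟩

end Crest.Agent.R121
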