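import Crest.Agent.R121.HP

/-! # R121: quasi-traces and the trichotomy (task `QTr`) -/

set_option autoImplicit false
open Filter Topology
open scoped InnerProductSpace

namespace Crest.Agent.R121

universe u
variable {H : Type u} [NormedAddCommGroup H] [InnerProductSpace ℂ H] [CompleteSpace H]
variable {M : VonNeumannAlgebra H}

namespace QTr

theorem norm_J1 (ξ : H) (a : Al M) : ‖J (fun _ : Unit => ξ) a‖ ^ 2 = ‖ap a ξ‖ ^ 2 := by
  rw [norm_J_sq]; simp

theorem sq_ap_le {a : Al M} (ha : ‖a‖ ≤ 1) (ξ : H) : ‖ap a ξ‖ ^ 2 ≤ ‖ξ‖ ^ 2 := by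
  refine pow_le_pow_left₀ (norm_nonneg _) ((norm_ap_le a ξ).trans ?_) 2
  exact mul_le_of_le_one_left (norm_nonneg _) ha

theorem le_of_mul_right {p q : Al M} (hp : IsStarProjection p) (hq : IsStarProjection q)
    (h : q * p = q) : p * q = q := by
  simpa only [star_mul, proj_star hp, proj_star hq] using congrArg star h

theorem le_of_supp {z z' g : Al M} (hz : CP z) (hzg : z * g = g)
    (hs : ∀ y : Al M, (∀ a : Al M, y * a * g = 0) → y * z' = 0) : z * z' = z' := by
  have := hs (1 - z) (fun a => by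
    rw [hz.one_sub.2 a, mul_assoc, sub_mul, one_mul, hzg, sub_self, mul_zero])
  rw [sub_mul, one_mul, sub_eq_zero] at this
  exact this.symm

theorem re_inner_star_mul (ξ : H) (x : Al M) :
    (⟪ξ, ap (star x * x) ξ⟫_ℂ).re = ‖ap x ξ‖ ^ 2 := by
  rw [ap_mul, ← inner_ap_left, inner_self_eq_norm_sq_to_K]
  norm_cast

/-- The vector functional. -/
noncomputable def om (ξ : H) : Al M →L[ℂ] ℂ :=
  LinearMap.mkContinuous
    { toFun := fun a => ⟪ξ, ap a ξ⟫_ℂ
      map_add' := fun a b => by rw [ap_add, inner_add_right]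
      map_smul' := fun t a => by rw [ap_smul, inner_smul_right]; rfl }
    (‖ξ‖ * ‖ξ‖) (fun a => by
      calc ‖⟪ξ, ap a ξ⟫_ℂ‖ ≤ ‖ξ‖ * ‖ap a ξ‖ := norm_inner_le_norm _ _
        _ ≤ ‖ξ‖ * (‖a‖ * ‖ξ‖) := mul_le_mul_of_nonneg_left (norm_ap_le a ξ) (norm_nonneg _)
        _ = ‖ξ‖ * ‖ξ‖ * ‖a‖ := by ring)

theorem om_star_mul (ξ : H) (x : Al M) : (om ξ (star x * x)).re = ‖ap x ξ‖ ^ 2 :=
  re_inner_star_mul ξ x

theorem sq_eq_sum {ι : Type*} [Fintype ι] {V : ι → Al M} {z : Al M}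
    (hsum : ∑ j, V j * star (V j) = z) {ζ : H} (hζ : ap z ζ = ζ) :
    ‖ζ‖ ^ 2 = ∑ k, ‖ap (star (V k)) ζ‖ ^ 2 := by
  have h1 : ∀ k, ‖ap (star (V k)) ζ‖ ^ 2 = (⟪ζ, ap (V k * star (V k)) ζ⟫_ℂ).re := fun k => by
    rw [← re_inner_star_mul, star_star]
  simp only [h1]
  rw [← Complex.re_sum, ← inner_sum, ← ap_sum, hsum, hζ, inner_self_eq_norm_sq_to_K]
  norm_cast

end QTr

/-- Either an infinite projection or a corner with a faithful quasi-tracial vector state.
Proof: pick `ξ ≠ 0` with `z ξ = ξ`, `e₀` its support (`exists_vsupp`; `z e₀ = e₀` since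
`(1 - z) ξ = 0`). Maximal family of partial isometries `u ∈ e₀ M e₀` with `2 ‖u* ξ‖² < ‖u ξ‖²`,
pairwise `u* u' = 0`, `u u'* = 0`; `W` = sum, `P = W* W`, `Q = W W*`. With `J (fun _ : Unit => ξ)`:
`2 ∑_s ‖u u* ξ‖² ≤ ∑_s ‖u* u ξ‖² ≤ ‖ξ‖²` (`norm_J_finsum`), so `‖Q ξ‖² ≤ ‖ξ‖²/2` and `g = e₀ - Q ≠ 0`.
* If `(e₀ - P) a g = 0` for all `a`: `c = c(g)`, `(e₀ - P) c = 0`; take `g` and `c W`.
* Otherwise take `w` from `exists_PI_of_ne` (`(e₀ - P) w = w`, `w g = w`), `f₁ = w* w`, `η = w* ξ ≠ 0`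
  (faithfulness). For a partial isometry `v ∈ f₁ M f₁`, `u = v w*` is a partial isometry orthogonal to
  the family, so by maximality `‖v η‖² ≤ 2 ‖w v* ξ‖² ≤ 2 ‖v* ξ‖²`. Apply `exists_dom` to
  `J (fun _ : Unit => η)`, the functional `a ↦ ⟪ξ, a ξ⟫`, `p = f₁` and `K` with `K ‖η‖² > ‖ω_ξ‖`:
  `f = f₁ - q ≠ 0` and `‖x ξ‖² ≤ K ‖x η‖²` for `x f = x`. So `‖v ξ‖² ≤ 2K ‖v* ξ‖²` for partial
  isometries in `f M f`; apply to `v*`, then `qt_extend` with the polar part of `x`
  (`exists_polar`, `y = 1 - f`). -/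
theorem exists_corner {z : Al M} (hz : CP z) (h0 : z ≠ 0) :
    (∃ g W : Al M, IsStarProjection g ∧ g ≠ 0 ∧ z * g = g ∧ star W * W * g = g ∧
      star W * W * W = W ∧ g * W = 0) ∨
    ∃ (f : Al M) (ξ : H) (K : ℝ), IsStarProjection f ∧ f ≠ 0 ∧ z * f = f ∧ 1 ≤ K ∧
      (∀ x : Al M, f * x = x → x * f = x → ‖ap (star x) ξ‖ ^ 2 ≤ K * ‖ap x ξ‖ ^ 2) ∧
      ∀ x : Al M, x * f = x → ap x ξ = 0 → x = 0 := by
  classical
  obtain ⟨ξ, hξ0, hzξ⟩ : ∃ ξ : H, ξ ≠ 0 ∧ ap z ξ = ξ := by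
    by_contra hcon
    push Not at hcon
    refine h0 (Al_ext fun η => ?_)
    by_contra hη
    exact hcon (ap z η) hη (by rw [← ap_mul, hz.mul_self])
  obtain ⟨e₀, he₀, he₀ξ, hsupp⟩ := exists_vsupp (M := M) ξ
  have hze : z * e₀ = e₀ := by
    have := hsupp (1 - z) (by rw [ap_sub, ap_one, hzξ, sub_self])
    rw [sub_mul, one_mul, sub_eq_zero] at this
    exact this.symm
  obtain ⟨S, hS1, hS2, hS3⟩ := exists_maximal_pairwise
    (fun u : Al M => PI u ∧ e₀ * u = u ∧ u * e₀ = u ∧ 2 * ‖ap (star u) ξ‖ ^ 2 < ‖ap u ξ‖ ^ 2)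
    (fun u u' => star u * u' = 0 ∧ u * star u' = 0) (by
      rintro x y ⟨h1, h2⟩
      exact ⟨by simpa using congrArg star h1, by simpa using congrArg star h2⟩)
  have hu : ∀ i : S, PI (i : Al M) := fun i => (hS1 i i.2).1
  have ho1 : Pairwise fun i k : S => star (i : Al M) * (k : Al M) = 0 := fun i k hik =>
    (hS2 i.2 k.2 (fun h => hik (Subtype.ext h))).1
  have ho2 : Pairwise fun i k : S => (i : Al M) * star (k : Al M) = 0 := fun i k hik =>
    (hS2 i.2 k.2 (fun h => hik (Subtype.ext h))).2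
  obtain ⟨W, hW, hWs, hP, hQ⟩ := exists_sumPI (fun i : S => (i : Al M)) hu ho1 ho2
  have hoP : Pairwise fun i k : S =>
      (star (i : Al M) * (i : Al M)) * (star (k : Al M) * (k : Al M)) = 0 := fun i k hik => by
    beta_reduce
    rw [mul_assoc, ← mul_assoc (i : Al M), ho2 hik, zero_mul, mul_zero]
  have hoQ : Pairwise fun i k : S =>
      ((i : Al M) * star (i : Al M)) * ((k : Al M) * star (k : Al M)) = 0 := fun i k hik => by
    beta_reduce
    rw [mul_assoc, ← mul_assoc (star (i : Al M)), ho1 hik, zero_mul, mul_zero]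
  have heW : e₀ * W = W := hWs.mul_eq fun i => (hS1 i i.2).2.1
  have hWe : W * e₀ = W := hWs.eq_mul fun i => (hS1 i i.2).2.2.1
  have heQ : e₀ * (W * star W) = W * star W := by rw [← mul_assoc, heW]
  have heP : e₀ * (star W * W) = star W * W :=
    QTr.le_of_mul_right he₀ hW.init (by rw [mul_assoc, hWe])
  have hQy : ∀ y : S, W * star W * (y : Al M) = y := fun y => by
    have := (hQ.mul_right (y : Al M)).eq_single y (fun k hk => by
      rw [mul_assoc, ho1 hk, mul_zero])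
    rw [this]; exact (hu y).fin_mul
  have hyP : ∀ y : S, (y : Al M) * (star W * W) = y := fun y => by
    have := (hP.mul_left (y : Al M)).eq_single y (fun k hk => by
      rw [← mul_assoc, ho2 (Ne.symm hk), zero_mul])
    rw [this]; exact (hu y).mul_init
  -- `Q` is small
  have hQsmall : ‖ap (W * star W) ξ‖ ^ 2 ≤ ‖ξ‖ ^ 2 / 2 := by
    rw [← QTr.norm_J1]
    refine hQ.norm_J_le _ (fun i => (hu i).fin) hoQ fun s => ?_
    have h1 := norm_J_finsum (fun _ : Unit => ξ) (fun i : S => (hu i).init) hoP s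
    have h2 : ‖J (fun _ : Unit => ξ) (∑ i ∈ s, star (i : Al M) * (i : Al M))‖ ^ 2 ≤ ‖ξ‖ ^ 2 := by
      rw [QTr.norm_J1]
      exact QTr.sq_ap_le (proj_norm_le (proj_finsum (fun i : S => (hu i).init) hoP s)) ξ
    rw [h1] at h2
    have h3 : ∑ i ∈ s, ‖J (fun _ : Unit => ξ) ((i : Al M) * star (i : Al M))‖ ^ 2 ≤
        ∑ i ∈ s, ‖J (fun _ : Unit => ξ) (star (i : Al M) * (i : Al M))‖ ^ 2 / 2 := by
      refine Finset.sum_le_sum fun i _ => ?_
      rw [QTr.norm_J1, QTr.norm_J1]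
      have a1 : ‖ap ((i : Al M) * star (i : Al M)) ξ‖ ^ 2 ≤ ‖ap (star (i : Al M)) ξ‖ ^ 2 :=
        QTr.sq_ap_le (hu i).norm_le _
      have a2 : ‖ap (i : Al M) ξ‖ ^ 2 ≤ ‖ap (star (i : Al M) * (i : Al M)) ξ‖ ^ 2 := by
        conv_lhs => rw [← (hu i).mul_init]
        exact QTr.sq_ap_le (hu i).norm_le _
      have a3 := (hS1 i i.2).2.2.2
      linarith
    rw [← Finset.sum_div] at h3
    linarith
  set g : Al M := e₀ - W * star W with hg
  have hgp : IsStarProjection g := proj_sub he₀ hW.fin heQ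
  have hg0 : g ≠ 0 := by
    intro h
    have h1 : W * star W = e₀ := (sub_eq_zero.1 h).symm
    rw [h1, he₀ξ] at hQsmall
    have : 0 < ‖ξ‖ ^ 2 := by positivity
    linarith
  have heg : e₀ * g = g := by rw [hg, mul_sub, proj_mul_self he₀, heQ]
  have hge : g * e₀ = g := proj_le_comm he₀ hgp heg
  have hzg : z * g = g := by rw [← heg, ← mul_assoc, hze]
  have hrp : IsStarProjection (e₀ - star W * W) := proj_sub he₀ hW.init heP
  by_cases hcase : ∀ a : Al M, (e₀ - star W * W) * a * g = 0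
  · left
    obtain ⟨c, hc, hcg, hcs⟩ := exists_csupp g
    have h1 : c * (star W * W) = c * e₀ := by
      have := hcs _ hcase
      rw [← hc.2, mul_sub, sub_eq_zero] at this
      exact this.symm
    refine ⟨g, c * W, hgp, hg0, hzg, ?_, ?_, ?_⟩
    · rw [hc.star_mul_mul, h1, mul_assoc, heg, hcg]
    · rw [hc.star_mul_mul, h1, mul_assoc, ← mul_assoc e₀, ← hc.2, mul_assoc, heW, ← mul_assoc,
        hc.mul_self]
    · rw [← mul_assoc, ← hc.2, mul_assoc, hg, sub_mul, heW, hW.fin_mul, sub_self, mul_zero]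
  right
  push Not at hcase
  obtain ⟨a, ha⟩ := hcase
  obtain ⟨w, hw, hw0, hrw, hwg⟩ := exists_PI_of_ne hgp hrp ha
  have hew : e₀ * w = w := by
    rw [← hrw, ← mul_assoc, mul_sub, proj_mul_self he₀, heP]
  have hwe : w * e₀ = w := by rw [← hwg, mul_assoc, hge]
  have hwe' : star w * e₀ = star w := by
    simpa only [star_mul, proj_star he₀] using congrArg star hew
  have hf₁ : IsStarProjection (star w * w) := hw.init
  have hf₁e : star w * w * e₀ = star w * w := by rw [mul_assoc, hwe]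
  have hef₁ : e₀ * (star w * w) = star w * w := QTr.le_of_mul_right he₀ hf₁ hf₁e
  set η : H := ap (star w) ξ with hη
  have hη0 : η ≠ 0 := by
    intro h
    have := hsupp _ h
    rw [hwe', star_eq_zero] at this
    exact hw0 this
  have hmax : ∀ v : Al M, PI v → star w * w * v = v → v * (star w * w) = v →
      ‖ap v η‖ ^ 2 ≤ 2 * ‖ap (star v) ξ‖ ^ 2 := by
    intro v hv h1 h2
    have h1' : star v * (star w * w) = star v := by
      simpa only [star_mul, star_star] using congrArg star h1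
    have hu' : PI (v * star w) := by
      rw [PI, star_mul, star_star]
      calc v * star w * (w * star v) * (v * star w)
          = v * (star w * w) * star v * v * star w := by simp only [mul_assoc]
        _ = v * star w := by rw [h2, hv.fin_mul]
    have h3 : ‖ap (v * star w) ξ‖ ^ 2 ≤ 2 * ‖ap (star (v * star w)) ξ‖ ^ 2 := by
      by_contra hlt
      push Not at hlt
      have horth : ∀ y ∈ S, star (v * star w) * y = 0 ∧ v * star w * star y = 0 := by
        intro y hy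
        have hey : e₀ * y = y := (hS1 y hy).2.1
        have hye : y * e₀ = y := (hS1 y hy).2.2.1
        have b1 : g * y = 0 := by rw [hg, sub_mul, hey, hQy ⟨y, hy⟩, sub_self]
        have b2 : w * y = 0 := by rw [← hwg, mul_assoc, b1, mul_zero]
        have b3 : y * w = 0 := by
          rw [← hrw, ← mul_assoc, mul_sub, hye, hyP ⟨y, hy⟩, sub_self, zero_mul]
        constructor
        · rw [star_mul, star_star, ← h1', mul_assoc, mul_assoc, mul_assoc, b2]
          simp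
        · rw [mul_assoc, ← star_mul, b3]
          simp
      have hmem := hS3 (v * star w) ⟨hu', by rw [← h1, ← mul_assoc, ← mul_assoc, hef₁],
        by rw [mul_assoc, hwe'], hlt⟩ horth
      have h4 := hu'.eq_zero_of_init (horth _ hmem).1
      rw [h4] at hlt
      simp at hlt
    have h5 : ‖ap (star (v * star w)) ξ‖ ^ 2 ≤ ‖ap (star v) ξ‖ ^ 2 := by
      rw [star_mul, star_star]
      exact QTr.sq_ap_le hw.norm_le _
    have h6 : ap (v * star w) ξ = ap v η := rfl
    rw [h6] at h3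
    linarith
  have hη2 : 0 < ‖η‖ ^ 2 := by positivity
  set K : ℝ := (‖QTr.om (M := M) ξ‖ + 1) / ‖η‖ ^ 2 with hK
  have hK0 : 0 < K := by positivity
  obtain ⟨q, hq, hfq, hqK, hdom⟩ := exists_dom (fun _ : Unit => η) (QTr.om (M := M) ξ) hK0 hf₁
  set f : Al M := star w * w - q with hf
  have hfp : IsStarProjection f := proj_sub hf₁ hq hfq
  have hf0 : f ≠ 0 := by
    intro h
    have h1 : q = star w * w := (sub_eq_zero.1 h).symm
    have h2 : ap (star w * w) η = η := by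
      rw [hη, ← ap_mul, mul_assoc, ← mul_assoc]
      have := hw.star'.fin_mul
      rw [star_star] at this
      rw [this]
    rw [h1, QTr.norm_J1, h2, hK, div_mul_cancel₀ _ hη2.ne'] at hqK
    linarith
  have hf₁f : star w * w * f = f := by rw [hf, mul_sub, proj_mul_self hf₁, hfq]
  have hff₁ : f * (star w * w) = f := proj_le_comm hf₁ hfp hf₁f
  have hef : e₀ * f = f := by rw [← hf₁f, ← mul_assoc, hef₁]
  have hfe : f * e₀ = f := proj_le_comm he₀ hfp hef
  have hPI : ∀ v : Al M, PI v → f * v = v → v * f = v →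
      ‖ap v ξ‖ ^ 2 ≤ 2 * K * ‖ap (star v) ξ‖ ^ 2 := by
    intro v hv h1 h2
    have a1 := hdom v h2
    rw [QTr.om_star_mul, QTr.norm_J1] at a1
    have a2 := hmax v hv (by rw [← h1, ← mul_assoc, hf₁f]) (by rw [← h2, mul_assoc, hff₁])
    have a3 := mul_le_mul_of_nonneg_left a2 hK0.le
    linarith
  refine ⟨f, ξ, max (2 * K) 1, hfp, hf0, by rw [← hef, ← mul_assoc, hze], le_max_right _ _,
    fun x h1 h2 => ?_, fun x h1 h2 => ?_⟩
  · obtain ⟨u, hu1, -, hu3, hu4, hu5, hu6⟩ := exists_polar x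
    have hfu : f * u = u := by
      have := hu4 (1 - f) (by rw [sub_mul, one_mul, h1, sub_self])
      rw [sub_mul, one_mul, sub_eq_zero] at this
      exact this.symm
    have huf : u * f = u := by
      have := hu5 (1 - f) (by rw [mul_sub, mul_one, h2, sub_self])
      rw [mul_sub, mul_one, sub_eq_zero] at this
      exact this.symm
    have := qt_extend (fun _ : Unit => ξ) (K := 2 * K) (f := f) (fun v hv a1 a2 => by
      rw [QTr.norm_J1, QTr.norm_J1]
      have := hPI (star v) hv.star'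
        (by simpa only [star_mul, proj_star hfp] using congrArg star a2)
        (by simpa only [star_mul, proj_star hfp] using congrArg star a1)
      rwa [star_star] at this) hu1 hfu huf hu3 hu6
    rw [QTr.norm_J1, QTr.norm_J1] at this
    exact this.trans (mul_le_mul_of_nonneg_right (le_max_left _ _) (by positivity))
  · have := hsupp x h2
    rw [← h1, mul_assoc, hfe, h1] at this
    exact this

/-- Extension from a corner to a central piece. Proof: `exists_piece f`; in the finite case let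
`v_j` (`j ∈ Option (Fin (n+1))`, reindexed by `Fin m`) be the `w_i` and `v`: `v_j f = v_j`,
`z v_j = v_j`, `∑ v_j v_j* = z`, `v_j* v_k = 0` for `j ≠ k`. Put `ξ_j = v_j ξ`, `x_{kj} = v_k* a v_j ∈ f M f`.
`‖a v_j ξ‖² = ‖z a v_j ξ‖² = ∑_k ‖x_{kj} ξ‖²`, and `‖a* v_j ξ‖² = ∑_k ‖x_{jk}* ξ‖²`. So
`‖J a*‖² ≤ K ‖J a‖²`, `C = sqrt K`. If `J a = 0` then `a v_j f = a v_j` kills `ξ`, so `a v_j = 0`,
`a z = 0`. -/
theorem exists_qtrace {z : Al M} (hz : CP z) (h0 : z ≠ 0) :
    ∃ z' : Al M, CP z' ∧ z' ≠ 0 ∧ z * z' = z' ∧ (P3 z' ∨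
      ∃ (m : ℕ) (ξ : Fin m → H) (C : ℝ), 1 ≤ C ∧ (∀ a : Al M, ‖J ξ (star a)‖ ≤ C * ‖J ξ a‖) ∧
        (∀ i, ap z' (ξ i) = ξ i) ∧ ∀ a : Al M, J ξ a = 0 → a * z' = 0) := by
  rcases exists_corner hz h0 with ⟨g, W, hg, hg0, hzg, h1, h2, h3⟩ |
    ⟨f, ξ, K, hf, hf0, hzf, hK, hqt, hfaith⟩
  · obtain ⟨z', hz', hz0, hs, hP⟩ := P3_of_infinite hg hg0 h1 h2 h3
    exact ⟨z', hz', hz0, QTr.le_of_supp hz hzg hs, Or.inl hP⟩
  obtain ⟨z', hz', hz0, hs, hP⟩ := exists_piece hf hf0
  refine ⟨z', hz', fun h => hz0 (by rw [h, zero_mul]), QTr.le_of_supp hz hzf hs, ?_⟩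
  rcases hP with hP | ⟨n, w, v, -, hv, hw⟩
  · exact Or.inl hP
  right
  let V : Fin (n + 2) → Al M := Fin.cons v w
  have hV : ∀ j, V j * (z' * f) = V j := fun j => Fin.cases hv (fun i => hw.mul_e i) j
  have hsum : ∑ j, V j * star (V j) = z' := by
    rw [Fin.sum_univ_succ]
    simp only [V, Fin.cons_zero, Fin.cons_succ]
    rw [hw.sum]; abel
  have hVf : ∀ j, V j * f = V j := fun j => by
    rw [← hV j, mul_assoc, mul_assoc, proj_mul_self hf]
  have hzV : ∀ j, z' * V j = V j := fun j => by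
    rw [hz'.2, ← hV j, mul_assoc, mul_assoc, ← hz'.2 f, ← mul_assoc z', hz'.mul_self]
  have hfV : ∀ j, f * star (V j) = star (V j) := fun j => by
    simpa only [star_mul, proj_star hf] using congrArg star (hVf j)
  have hJ : ∀ a : Al M, ‖J (fun j => ap (V j) ξ) a‖ ^ 2 =
      ∑ j, ∑ k, ‖ap (star (V k) * a * V j) ξ‖ ^ 2 := fun a => by
    rw [norm_J_sq]
    refine Finset.sum_congr rfl fun j _ => ?_
    refine QTr.sq_eq_sum hsum ?_
    rw [← ap_mul, ← ap_mul, ← ap_mul, hz'.2 a, mul_assoc, hzV]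
  refine ⟨n + 2, fun j => ap (V j) ξ, Real.sqrt K, Real.one_le_sqrt.2 hK, fun a => ?_,
    fun j => by rw [← ap_mul, hzV], fun a ha => ?_⟩
  · refine (pow_le_pow_iff_left₀ (norm_nonneg _) (by positivity) two_ne_zero).1 ?_
    rw [mul_pow, Real.sq_sqrt (zero_le_one.trans hK), hJ, hJ a, Finset.sum_comm, Finset.mul_sum]
    refine Finset.sum_le_sum fun k _ => ?_
    rw [Finset.mul_sum]
    refine Finset.sum_le_sum fun j _ => ?_
    have := hqt (star (V j) * a * V k) (by rw [← mul_assoc, ← mul_assoc, hfV])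
      (by rw [mul_assoc, hVf])
    simpa only [star_mul, star_star, mul_assoc] using this
  · rw [← hsum, Finset.mul_sum]
    refine Finset.sum_eq_zero fun j _ => ?_
    have h1 : ap (a * V j) ξ = 0 := by
      have := congrArg (fun x => x j) ha
      simpa using this
    rw [← mul_assoc, hfaith (a * V j) (by rw [mul_assoc, hVf]) h1, zero_mul]

/-- Every nonzero central projection dominates a nonzero central projection of one of the three
kinds. Proof: if `NoAb z` use `exists_qtrace` and `exists_MU`; otherwise `piece_of_abelian`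
(with `y = 1 - z`). -/
theorem trichotomy {z : Al M} (hz : CP z) (h0 : z ≠ 0) :
    ∃ z' : Al M, CP z' ∧ z' ≠ 0 ∧ z * z' = z' ∧ (P1 z' ∨ P2 z' ∨ P3 z') := by
  by_cases hN : NoAb z
  · obtain ⟨z', hz', hz0, hzz, hP⟩ := exists_qtrace hz h0
    refine ⟨z', hz', hz0, hzz, Or.inr ?_⟩
    rcases hP with hP | hP
    · exact Or.inr hP
    · exact Or.inl ⟨hP, fun n0 => exists_MU hN hz'.1 hzz n0⟩
  · rw [NoAb] at hN
    push Not at hN
    obtain ⟨e, he, hze, hab, he0⟩ := hN
    obtain ⟨z', hz', hz0, hs, hP⟩ := piece_of_abelian he he0 hab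
    refine ⟨z', hz', hz0, QTr.le_of_supp hz hze hs, ?_⟩
    rcases hP with hP | hP
    · exact Or.inl hP
    · exact Or.inr (Or.inr hP)

end Crest.Agent.R121
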