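import Crest.Agent.R121.Alg

/-! # R121: the reduced von Neumann algebra `z M` on the range of `z` (task `Red`) -/

set_option autoImplicit false
open Filter Topology
open scoped InnerProductSpace

namespace Crest.Agent.R121

universe u
variable {H : Type u} [NormedAddCommGroup H] [InnerProductSpace ℂ H] [CompleteSpace H]
variable {M : VonNeumannAlgebra H}

namespace Red

variable {K : Type u} [NormedAddCommGroup K] [InnerProductSpace ℂ K] [CompleteSpace K]

/-- The data of a reduction. -/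
structure Dat (z : Al M) (V : K →L[ℂ] H) (W : H →L[ℂ] K) : Prop where
  cp : CP z
  adj : ContinuousLinearMap.adjoint V = W
  WV : ∀ k, W (V k) = k
  VW : ∀ ξ, V (W ξ) = ap z ξ

variable {z : Al M} {V : K →L[ℂ] H} {W : H →L[ℂ] K}

theorem Dat.adj' (h : Dat z V W) : ContinuousLinearMap.adjoint W = V := by
  rw [← h.adj, ContinuousLinearMap.adjoint_adjoint]

theorem Dat.zV (h : Dat z V W) (k : K) : ap z (V k) = V k := by rw [← h.VW, h.WV]

theorem Dat.Wz (h : Dat z V W) (ξ : H) : W (ap z ξ) = W ξ := by rw [← h.VW, h.WV]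

theorem Dat.star_ext (h : Dat z V W) (T : K →L[ℂ] K) :
    V ∘L star T ∘L W = star (V ∘L T ∘L W) := by
  simp only [ContinuousLinearMap.star_eq_adjoint, ContinuousLinearMap.adjoint_comp, h.adj, h.adj',
    ContinuousLinearMap.comp_assoc]

theorem Dat.star_res (h : Dat z V W) (T : H →L[ℂ] H) :
    W ∘L star T ∘L V = star (W ∘L T ∘L V) := by
  simp only [ContinuousLinearMap.star_eq_adjoint, ContinuousLinearMap.adjoint_comp, h.adj, h.adj',
    ContinuousLinearMap.comp_assoc]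

theorem Dat.ext_mul (h : Dat z V W) (S T : K →L[ℂ] K) :
    V ∘L (S * T) ∘L W = (V ∘L S ∘L W) * (V ∘L T ∘L W) := by
  ext ξ; simp [h.WV]

theorem Dat.ext_res (h : Dat z V W) (a : Al M) :
    V ∘L (W ∘L (a : H →L[ℂ] H) ∘L V) ∘L W = ((z * a : Al M) : H →L[ℂ] H) := by
  ext ξ
  change V (W (ap a (V (W ξ)))) = ap (z * a) ξ
  rw [h.VW, h.VW, ← ap_mul, ← ap_mul, mul_assoc, ← h.cp.2, ← mul_assoc, h.cp.mul_self]

/-- The star subalgebra of operators whose extension lies in `M`. -/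
noncomputable def Dat.sub (h : Dat z V W) : StarSubalgebra ℂ (K →L[ℂ] K) where
  carrier := {T | V ∘L T ∘L W ∈ M.toStarSubalgebra}
  mul_mem' {S T} hS hT := by
    simp only [Set.mem_ofPred_eq] at hS hT ⊢
    rw [h.ext_mul]; exact mul_mem hS hT
  add_mem' {S T} hS hT := by
    simp only [Set.mem_ofPred_eq] at hS hT ⊢
    rw [ContinuousLinearMap.add_comp, ContinuousLinearMap.comp_add]; exact add_mem hS hT
  algebraMap_mem' c := by
    simp only [Set.mem_ofPred_eq]
    have : V ∘L (algebraMap ℂ (K →L[ℂ] K) c) ∘L W = ((c • z : Al M) : H →L[ℂ] H) := by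
      ext ξ
      change V (c • W ξ) = c • ap z ξ
      rw [map_smul, h.VW]
    rw [this]; exact (c • z).2
  star_mem' {T} hT := by
    simp only [Set.mem_ofPred_eq] at hT ⊢
    rw [h.star_ext]; exact star_mem hT

/-- The reduced von Neumann algebra. -/
noncomputable def Dat.vn (h : Dat z V W) : VonNeumannAlgebra K where
  toStarSubalgebra := h.sub
  centralizer_centralizer' := by
    refine Set.Subset.antisymm (fun T hT => ?_) Set.subset_centralizer_centralizer
    change V ∘L T ∘L W ∈ M.toStarSubalgebra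
    refine mem_iff_comm.2 fun t ht => ?_
    have htz : ∀ ξ, t (ap z ξ) = ap z (t ξ) := fun ξ =>
      congrArg (fun S : H →L[ℂ] H => S ξ) (comm_of_mem z ht)
    have h1 : W ∘L t ∘L V ∈ Set.centralizer h.sub.carrier := by
      intro S hS
      have h2 := mem_iff_comm.1 (show V ∘L S ∘L W ∈ M.toStarSubalgebra from hS) t ht
      ext1 k
      have h3 := congrArg (fun S : H →L[ℂ] H => W (S (V k))) h2
      simpa [h.WV] using h3.symm
    have h4 := hT _ h1
    ext1 ξ
    have h5 := congrArg (fun S : K →L[ℂ] K => V (S (W ξ))) h4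
    simp only [mul_apply_eq_comp, ContinuousLinearMap.comp_apply] at h5 ⊢
    rw [h.VW, h.VW, ← htz, h.zV, htz, h.Wz] at h5
    exact h5

/-- Compression. -/
noncomputable def Dat.pi (h : Dat z V W) : Al M →⋆ₐ[ℂ] Al h.vn where
  toFun a := ⟨W ∘L (a : H →L[ℂ] H) ∘L V, by
    change V ∘L _ ∘L W ∈ M.toStarSubalgebra
    rw [h.ext_res]; exact (z * a).2⟩
  map_one' := Al_ext fun k => h.WV k
  map_mul' a b := Al_ext fun k => by
    change W (ap (a * b) (V k)) = W (ap a (V (W (ap b (V k)))))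
    rw [h.VW, ← ap_mul, ← ap_mul, ← h.cp.2, mul_assoc, ap_mul z, h.Wz]
  map_zero' := Al_ext fun k => by
    change W 0 = 0
    simp
  map_add' a b := Al_ext fun k => by
    change W (ap (a + b) (V k)) = W (ap a (V k)) + W (ap b (V k))
    rw [ap_add, map_add]
  commutes' c := Al_ext fun k => by
    change W (c • V k) = c • k
    rw [map_smul, h.WV]
  map_star' a := Subtype.ext (h.star_res a)

/-- Extension by zero. -/
noncomputable def Dat.iota (h : Dat z V W) : Al h.vn →⋆ₙₐ[ℂ] Al M where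
  toFun T := ⟨V ∘L (T : K →L[ℂ] K) ∘L W, T.2⟩
  map_smul' c T := Al_ext fun ξ => by
    change V (c • ap T (W ξ)) = c • V (ap T (W ξ))
    rw [map_smul]
  map_zero' := Al_ext fun ξ => by
    change V 0 = 0
    simp
  map_add' S T := Al_ext fun ξ => by
    change V (ap S (W ξ) + ap T (W ξ)) = V (ap S (W ξ)) + V (ap T (W ξ))
    rw [map_add]
  map_mul' S T := Subtype.ext (h.ext_mul S T)
  map_star' T := Subtype.ext (h.star_ext T)

end Red

/-- Reduction by a central projection. Proof: `K` = range of `z` (= `ker (1 - z)`, closed),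
`V = K.subtypeL : K → H`, `V* = K.orthogonalProjection` (adjoint), `V V* = z`, `V* V = 1`.
`ext T = V T V*`, `res T = V* T V`. `N = {T | ext T ∈ M}` is a star subalgebra (`ext` is a
non-unital star homomorphism, `ext 1 = z ∈ M`). Bicommutant: let `T ∈ N''`; for `t ∈ M'`
(which commutes with `z`), `res t ∈ N'` (`res t * S = res (t * ext S) = res (ext S * t) = S * res t`),
so `T` commutes with `res t`, hence `ext T * t = V T (res t) V* = V (res t) T V* = t * ext T` (using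
`t z = z t`), so `ext T ∈ M'' = M` (`mem_iff_comm`). `π a = res a`, `ι T = ext T`. -/
theorem exists_reduce {z : Al M} (hz : CP z) :
    ∃ (K : Submodule ℂ H) (_ : CompleteSpace K) (N : VonNeumannAlgebra K)
      (π : Al M →⋆ₐ[ℂ] Al N) (ι : Al N →⋆ₙₐ[ℂ] Al M),
      (∀ n, π (ι n) = n) ∧ (∀ a, ι (π a) = z * a) ∧ (∀ ξ : H, ap z ξ = ξ → ξ ∈ K) ∧
      ∀ (a : Al M) (ξ : K), ((ap (π a) ξ : K) : H) = ap a ξ := by
  let K : Submodule ℂ H := LinearMap.ker ((1 - (z : H →L[ℂ] H) : H →L[ℂ] H) : H →ₗ[ℂ] H)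
  have hK : ∀ ξ : H, ξ ∈ K ↔ ap z ξ = ξ := fun ξ => by
    change ξ - ap z ξ = 0 ↔ _
    rw [sub_eq_zero, eq_comm]
  have hc : IsClosed (K : Set H) := ContinuousLinearMap.isClosed_ker _
  have : CompleteSpace K := hc.completeSpace_coe
  have hzz : ∀ ξ, ap z ξ ∈ K := fun ξ => by rw [hK, ← ap_mul, hz.mul_self]
  let W : H →L[ℂ] K := (z : H →L[ℂ] H).codRestrict K hzz
  have h : Red.Dat z K.subtypeL W := by
    refine ⟨hz, ?_, fun k => Subtype.ext ((hK k).1 k.2), fun ξ => rfl⟩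
    symm
    rw [ContinuousLinearMap.eq_adjoint_iff]
    intro ξ k
    change ⟪ap z ξ, (k : H)⟫_ℂ = ⟪ξ, (k : H)⟫_ℂ
    rw [inner_ap_left, hz.star_eq, (hK k).1 k.2]
  refine ⟨K, this, h.vn, h.pi, h.iota, fun n => Al_ext fun k => ?_,
    fun a => Subtype.ext (h.ext_res a), fun ξ hξ => (hK ξ).2 hξ, fun a k => ?_⟩
  · change W (K.subtypeL (ap n (W (K.subtypeL k)))) = ap n k
    rw [h.WV, h.WV]
  · change ap z (ap a k) = ap a k
    rw [← ap_mul, hz.2, ap_mul, (hK k).1 k.2]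

/-- The three properties pass to the reduced algebra (`π` is surjective, `π z = 1` because
`π z = π (ι (π 1)) = 1`; use `MU.map`; for `P2` use the vectors `⟨ξ i, _⟩ : K`, for which
`‖J ξ' (π a)‖ = ‖J ξ a‖` by `norm_J_sq`). -/
theorem reduce_P {z : Al M} {K : Submodule ℂ H} [CompleteSpace K] {N : VonNeumannAlgebra K}
    (π : Al M →⋆ₐ[ℂ] Al N) (ι : Al N →⋆ₙₐ[ℂ] Al M)
    (h1 : ∀ n, π (ι n) = n) (h2 : ∀ a, ι (π a) = z * a) (h3 : ∀ ξ : H, ap z ξ = ξ → ξ ∈ K)
    (h4 : ∀ (a : Al M) (ξ : K), ((ap (π a) ξ : K) : H) = ap a ξ)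
    (h : P1 z ∨ P2 z ∨ P3 z) : P1 (1 : Al N) ∨ P2 (1 : Al N) ∨ P3 (1 : Al N) := by
  have hz : π z = 1 := by
    have := h1 (π 1)
    rwa [h2, mul_one, map_one] at this
  have hs : ∀ n : Al N, ∃ a, π a = n := fun n => ⟨_, h1 n⟩
  rcases h with ⟨n, hn, w, e, hw, he⟩ | ⟨⟨m, ξ, C, hC, hst, hξ, hf⟩, hmu⟩ | ⟨s1, s2, a1, a2, a3⟩
  · refine Or.inl ⟨n, hn, fun i => π (w i), π e, hz ▸ hw.map π, fun a b => ?_⟩
    obtain ⟨a, rfl⟩ := hs a
    obtain ⟨b, rfl⟩ := hs b
    simpa only [map_mul] using congrArg π (he a b)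
  · let ξ' : Fin m → K := fun i => ⟨ξ i, h3 _ (hξ i)⟩
    have hJ : ∀ a, ‖J ξ' (π a)‖ = ‖J ξ a‖ := fun a => by
      refine (pow_left_inj₀ (norm_nonneg _) (norm_nonneg _) two_ne_zero).1 ?_
      rw [norm_J_sq, norm_J_sq]
      refine Finset.sum_congr rfl fun i _ => ?_
      rw [Submodule.coe_norm, h4]
    refine Or.inr (Or.inl ⟨⟨m, ξ', C, hC, fun a => ?_, fun i => rfl, fun a ha => ?_⟩, fun n0 => ?_⟩)
    · obtain ⟨a, rfl⟩ := hs a
      rw [← map_star, hJ, hJ]
      exact hst a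
    · obtain ⟨a, rfl⟩ := hs a
      have h5 := hf a (norm_eq_zero.1 (by rw [← hJ, ha, norm_zero]))
      rw [← hz, ← map_mul, h5, map_zero]
    · obtain ⟨n, hn, w, e, hle, hw⟩ := hmu n0
      exact ⟨n, hn, fun i => π (w i), π e, hle, hz ▸ hw.map π⟩
  · refine Or.inr (Or.inr ⟨π s1, π s2, ?_, ?_, ?_⟩)
    · rw [← map_star, ← map_mul, a1, hz]
    · rw [← map_star, ← map_mul, a2, hz]
    · rw [← map_star, ← map_mul, a3, map_zero]

end Crest.Agent.R121
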