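import Crest.Agent.R121.Avg
import Crest.Agent.R121.Clock

/-! # R121: averaging bounded maps over unitaries; the type `I_n` case (task `UAvg`) -/

set_option autoImplicit false
open Filter Topology

namespace Crest.Agent.R121

universe u
variable {H : Type u} [NormedAddCommGroup H] [InnerProductSpace ℂ H] [CompleteSpace H]
variable {M : VonNeumannAlgebra H}

/-- Operator norm gauge. -/
def BB (ψ : Al M → Al M) (c : ℝ) : Prop := IsLinearMap ℂ ψ ∧ 0 ≤ c ∧ ∀ a, ‖ψ a‖ ≤ c * ‖a‖

theorem gauge_BB : Gauge (BB (M := M)) := by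
  refine ⟨fun h => h.1, fun h => h.2.1, fun h => h.2.2, ?_, ?_, ?_, ?_, ?_, ?_⟩
  · rintro ψ ψ' c c' ⟨h1, h2, h3⟩ ⟨h1', h2', h3'⟩
    refine ⟨⟨fun x y => ?_, fun t x => ?_⟩, add_nonneg h2 h2', fun a => ?_⟩
    · rw [h1.map_add, h1'.map_add]; abel
    · rw [h1.map_smul, h1'.map_smul, smul_add]
    · rw [add_mul]; exact (norm_add_le _ _).trans (add_le_add (h3 a) (h3' a))
  · rintro ψ c t ⟨h1, h2, h3⟩
    refine ⟨⟨fun x y => ?_, fun s x => ?_⟩, mul_nonneg (norm_nonneg _) h2, fun a => ?_⟩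
    · rw [h1.map_add, smul_add]
    · rw [h1.map_smul, smul_comm]
    · rw [norm_smul, mul_assoc]; exact mul_le_mul_of_nonneg_left (h3 a) (norm_nonneg _)
  · rintro ψ c x ⟨h1, h2, h3⟩
    refine ⟨⟨fun a b => ?_, fun s a => ?_⟩, mul_nonneg h2 (norm_nonneg _), fun a => ?_⟩
    · rw [add_mul, h1.map_add]
    · rw [smul_mul_assoc, h1.map_smul]
    · calc ‖ψ (a * x)‖ ≤ c * ‖a * x‖ := h3 _
        _ ≤ c * (‖a‖ * ‖x‖) := mul_le_mul_of_nonneg_left (norm_mul_le _ _) h2
        _ = _ := by ring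
  · rintro ψ c x ⟨h1, h2, h3⟩
    refine ⟨⟨fun a b => ?_, fun s a => ?_⟩, mul_nonneg h2 (norm_nonneg _), fun a => ?_⟩
    · rw [h1.map_add, add_mul]
    · rw [h1.map_smul, smul_mul_assoc]
    · calc ‖ψ a * x‖ ≤ ‖ψ a‖ * ‖x‖ := norm_mul_le _ _
        _ ≤ c * ‖a‖ * ‖x‖ := mul_le_mul_of_nonneg_right (h3 a) (norm_nonneg _)
        _ = _ := by ring
  · exact ⟨⟨fun _ _ => rfl, fun _ _ => rfl⟩, zero_le_one, fun a => by simp⟩
  · intro U ψ c h1 h2
    refine ⟨⟨fun a b => ?_, fun s a => ?_⟩, h1.exists.choose_spec.2.1, fun a => ?_⟩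
    · exact (h2 (a + b)).unique
        (((h2 a).add (h2 b)).congr' (h1.mono fun ψ' h => (h.1.map_add a b).symm))
    · exact (h2 (s • a)).unique
        (((h2 a).smul s).congr' (h1.mono fun ψ' h => (h.1.map_smul s a).symm))
    · exact (h2 a).norm_le (h1.mono fun ψ' h => h.2.2 a)

/-- Averaging operators which also preserve left-unitarily invariant bounds on `‖J ξ (ψ a)‖`. -/
structure UA (ρ : (Al M → Al M) → Al M → Al M) : Prop where
  avg : Avg BB ρ
  jp : ∀ (m : ℕ) (ξ : Fin m → H) (p : Al M → ℝ), (∀ u ∈ unitary (Al M), ∀ a, p (u * a) = p a) →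
    ∀ ψ c, BB ψ c → (∀ a, ‖J ξ (ψ a)‖ ≤ p a) → ∀ a, ‖J ξ (ρ ψ a)‖ ≤ p a

theorem UA.comp {ρ σ : (Al M → Al M) → Al M → Al M} (hρ : UA ρ) (hσ : UA σ) :
    UA fun ψ => ρ (σ ψ) := by
  exact ⟨hρ.avg.comp hσ.avg, fun m ξ p hp ψ c hψ h =>
    hρ.jp m ξ p hp _ c (hσ.avg.bnd hψ) (hσ.jp m ξ p hp ψ c hψ h)⟩

/-- `norm_avg_le`, `map_avg`, `J_mul_le`, `unitary_norm_le`. -/
theorem UA.uavg {G : Type*} [Fintype G] [Nonempty G] {u : G → Al M}
    (hu : ∀ g, u g ∈ unitary (Al M)) : UA (uavg u) := by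
  have hs : ∀ g, ‖star (u g)‖ ≤ 1 := fun g => by rw [norm_star]; exact unitary_norm_le (hu g)
  refine ⟨⟨?_, ?_, ?_, ?_, ?_, ?_⟩, ?_⟩
  · rintro ψ c ⟨h1, h2, h3⟩
    refine ⟨⟨fun a b => ?_, fun s a => ?_⟩, h2, fun a => norm_avg_le fun g => ?_⟩
    · simp only [R121.uavg, mul_add, h1.map_add, avg_add]
    · simp only [R121.uavg, mul_smul_comm, h1.map_smul, avg_smul]
    · calc ‖star (u g) * ψ (u g * a)‖ ≤ ‖star (u g)‖ * ‖ψ (u g * a)‖ := norm_mul_le _ _
        _ ≤ 1 * (c * ‖u g * a‖) := by gcongr; exacts [hs g, h3 _]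
        _ ≤ 1 * (c * (‖u g‖ * ‖a‖)) := by gcongr; exact norm_mul_le _ _
        _ ≤ 1 * (c * (1 * ‖a‖)) := by gcongr; exact unitary_norm_le (hu g)
        _ = _ := by ring
  · intro ψ ψ' c c' _ _
    funext a
    simp only [R121.uavg, mul_add, avg_add]
  · intro ψ c t _
    funext a
    simp only [R121.uavg, mul_smul_comm, avg_smul]
  · intro ψ c x _
    funext a
    simp only [R121.uavg, mul_assoc]
  · intro ψ c x _
    funext a
    simp only [R121.uavg, avg_mul, mul_assoc]
  · funext a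
    simp only [R121.uavg, ← mul_assoc, Unitary.star_mul_self_of_mem (hu _), one_mul]
    exact avg_const a
  · intro m ξ p hp ψ c _ h a
    rw [R121.uavg, map_avg]
    refine norm_avg_le fun g => (J_mul_le ξ _ _).trans ?_
    calc ‖star (u g)‖ * ‖J ξ (ψ (u g * a))‖ ≤ 1 * ‖J ξ (ψ (u g * a))‖ := by gcongr; exact hs g
      _ ≤ p a := by rw [one_mul, ← hp (u g) (hu g) a]; exact h _

/-- `exists_Avg_lim` and `WL.norm_J_le`. -/
theorem exists_UA_lim {ι : Type*} (U : Ultrafilter ι) (R : ι → (Al M → Al M) → Al M → Al M)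
    (hR : ∀ i, UA (R i)) :
    ∃ ρ, UA ρ ∧ ∀ ψ c, BB ψ c → ∀ a, WL (U : Filter ι) (fun i => R i ψ a) (ρ ψ a) := by
  obtain ⟨ρ, h1, h2⟩ := exists_Avg_lim gauge_BB U R fun i => (hR i).avg
  exact ⟨ρ, ⟨h1, fun m ξ p hp ψ c hψ h a => (h2 ψ c hψ a).norm_J_le ξ
    (Eventually.of_forall fun i => (hR i).jp m ξ p hp ψ c hψ h a)⟩, h2⟩

theorem UA.refl : UA (M := M) fun ψ => ψ := ⟨Avg.refl, fun _ _ _ _ _ _ _ h => h⟩

/-- Finite averages of `UA` operators. -/
theorem UA.avgs {T : Type*} [Fintype T] [Nonempty T] (R : T → (Al M → Al M) → Al M → Al M)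
    (hR : ∀ t, UA (R t)) : UA fun ψ a => R121.avg fun t => R t ψ a := by
  refine ⟨⟨?_, ?_, ?_, ?_, ?_, ?_⟩, ?_⟩
  · intro ψ c hψ
    have hb := fun t => (hR t).avg.bnd hψ
    refine ⟨⟨fun a b => ?_, fun s a => ?_⟩, hψ.2.1, fun a => norm_avg_le fun t => (hb t).2.2 a⟩
    · simp only [(hb _).1.map_add, avg_add]
    · simp only [(hb _).1.map_smul, avg_smul]
  · intro ψ ψ' c c' h h'
    funext a
    simp only [(hR _).avg.add h h', avg_add]
  · intro ψ c s h
    funext a
    simp only [(hR _).avg.smul s h, avg_smul]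
  · intro ψ c x h
    funext a
    simp only [(hR _).avg.rarg x h]
  · intro ψ c x h
    funext a
    simp only [(hR _).avg.rval x h, avg_mul]
  · funext a
    simp only [(hR _).avg.id]
    exact avg_const a
  · intro m ξ p hp ψ c hψ h a
    rw [map_avg]
    exact norm_avg_le fun t => (hR t).jp m ξ p hp ψ c hψ h a

/-- Cesàro limit. Proof: `P = uavg u`, `R N ψ = avg_{t : Fin (N+1)} P^[t] ψ` is `UA` (iterates by
`UA.comp`; averages of `UA` operators are `UA`), `ρ` = limit along `hyperfilter ℕ`.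
`P (R N ψ) a - R N ψ a = (N+1)⁻¹ (P^[N+1] ψ a - ψ a) → 0` in norm (`P` commutes with finite averages
of functions, pointwise), and `P (R N ψ) a → P (ρ ψ) a` weakly (`WL.avg`, `WL.mul_left`).
`P` preserves `x`-modularity if `x` commutes with all `u g` (hence with `star (u g)`, unitary). -/
theorem exists_harm {G : Type*} [Fintype G] [Nonempty G] {u : G → Al M}
    (hu : ∀ g, u g ∈ unitary (Al M)) :
    ∃ ρ, UA ρ ∧ (∀ ψ c, BB ψ c → ∀ a, uavg u (ρ ψ) a = ρ ψ a) ∧
      ∀ x : Al M, (∀ g, x * u g = u g * x) → ∀ ψ c, BB ψ c → (∀ a, ψ (x * a) = x * ψ a) →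
        ∀ a, ρ ψ (x * a) = x * ρ ψ a := by
  have hP : UA (uavg u) := UA.uavg hu
  have hit : ∀ t : ℕ, UA fun ψ => (uavg u)^[t] ψ := by
    intro t
    induction t with
    | zero => exact UA.refl
    | succ t ih => simpa only [Function.iterate_succ_apply'] using hP.comp ih
  let R : ℕ → (Al M → Al M) → Al M → Al M :=
    fun N ψ a => avg fun t : Fin (N + 1) => (uavg u)^[t] ψ a
  have hR : ∀ N, UA (R N) := fun N => UA.avgs (fun t : Fin (N + 1) => fun ψ => (uavg u)^[t] ψ)
    fun t => hit t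
  let U : Ultrafilter ℕ := Ultrafilter.of atTop
  have hU : (U : Filter ℕ) ≤ atTop := Ultrafilter.of_le _
  obtain ⟨ρ, h1, h2⟩ := exists_UA_lim U R hR
  refine ⟨ρ, h1, fun ψ c hψ a => ?_, fun x hx ψ c hψ hmod a => ?_⟩
  · have e1 : ∀ N, uavg u (R N ψ) a - R N ψ a =
        ((N : ℂ) + 1)⁻¹ • ((uavg u)^[N + 1] ψ a - ψ a) := by
      intro N
      have e2 : uavg u (R N ψ) a = avg fun t : Fin (N + 1) => (uavg u)^[t + 1] ψ a := by
        simp only [Function.iterate_succ_apply']
        simp only [R, uavg, mul_avg]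
        exact avg_comm _
      rw [e2, ← avg_sub, avg,
        Fin.sum_univ_eq_sum_range (fun t => (uavg u)^[t + 1] ψ a - (uavg u)^[t] ψ a) (N + 1),
        Finset.sum_range_sub (fun t => (uavg u)^[t] ψ a)]
      simp
    have e3 : Tendsto (fun N => uavg u (R N ψ) a - R N ψ a) atTop (𝓝 0) := by
      refine squeeze_zero_norm (a := fun N : ℕ => (1 / ((N : ℝ) + 1)) * (c * ‖a‖ + c * ‖a‖))
        (fun N => ?_) ?_
      · rw [e1, norm_smul, norm_inv, one_div]
        have : ‖(N : ℂ) + 1‖ = (N : ℝ) + 1 := by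
          rw [← Nat.cast_succ, Complex.norm_natCast, Nat.cast_succ]
        rw [this]
        refine mul_le_mul_of_nonneg_left ((norm_sub_le _ _).trans (add_le_add ?_ (hψ.2.2 a)))
          (by positivity)
        exact ((hit (N + 1)).avg.bnd hψ).2.2 a
      · simpa using (tendsto_one_div_add_atTop_nhds_zero_nat (𝕜 := ℝ)).mul_const
          (c * ‖a‖ + c * ‖a‖)
    have e4 : WL (U : Filter ℕ) (fun N => uavg u (R N ψ) a) (uavg u (ρ ψ) a) :=
      WL.avg fun g => (h2 ψ c hψ (u g * a)).mul_left (star (u g))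
    exact e4.unique ((h2 ψ c hψ a).of_sub (e3.mono_left hU))
  · have hx' : ∀ g, star (u g) * x = x * star (u g) := by
      intro g
      calc star (u g) * x = star (u g) * (x * u g) * star (u g) := by
            rw [mul_assoc, mul_assoc, Unitary.mul_star_self_of_mem (hu g), mul_one]
        _ = x * star (u g) := by
            rw [hx, ← mul_assoc, Unitary.star_mul_self_of_mem (hu g), one_mul]
    have e1 : ∀ t : ℕ, ∀ a, (uavg u)^[t] ψ (x * a) = x * (uavg u)^[t] ψ a := by
      intro t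
      induction t with
      | zero => exact hmod
      | succ t ih =>
        intro a
        simp only [Function.iterate_succ_apply']
        rw [uavg, uavg, mul_avg]
        congr 1
        funext g
        rw [← mul_assoc (u g), ← hx, mul_assoc, ih, ← mul_assoc, hx', mul_assoc]
    refine (h2 ψ c hψ (x * a)).unique (((h2 ψ c hψ a).mul_left x).congr fun N => ?_)
    simp only [R, mul_avg, e1]

/-- `ρ = uavg (clk w)`; by `clk_avg` with `Bl x y = x * ψ (y * a)`,
`ρ ψ a = n⁻¹ ∑_{p,q} e_{pq} ψ (e_{qp} a)`, which is modular over the `e_{ik}` (`MU.mul`). -/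
theorem exists_Q {n : ℕ} [NeZero n] {w : ZMod n → Al M} {e : Al M} (h : MU w e 1) :
    ∃ ρ, UA ρ ∧ ∀ ψ c, BB ψ c → ∀ i k a,
      ρ ψ (w i * star (w k) * a) = w i * star (w k) * ρ ψ a := by
  refine ⟨uavg (clk w), UA.uavg fun g => ⟨star_clk_mul h g, clk_mul_star h g⟩,
    fun ψ c hψ i k a => ?_⟩
  have e1 : ∀ a, uavg (clk w) ψ a =
      avg fun q => ∑ p, w p * star (w q) * ψ (w q * star (w p) * a) := fun a =>
    clk_avg w (fun x y => x * ψ (y * a))
      (fun y => ⟨fun x x' => add_mul _ _ _, fun s x => smul_mul_assoc _ _ _⟩)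
      (fun x => ⟨fun y y' => by rw [add_mul, hψ.1.map_add, mul_add],
        fun s y => by rw [smul_mul_assoc, hψ.1.map_smul, mul_smul_comm]⟩)
  have h0 : ψ 0 = 0 := hψ.1.map_zero
  rw [e1, e1, mul_avg]
  congr 1
  funext q
  rw [Finset.mul_sum, Finset.sum_eq_single i, Finset.sum_eq_single k]
  · rw [← mul_assoc (w q * star (w i)), h.mul, if_pos rfl, ← mul_assoc (w i * star (w k)), h.mul,
      if_pos rfl]
  · intro p _ hp
    rw [← mul_assoc, h.mul, if_neg (Ne.symm hp), zero_mul]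
  · simp
  · intro p _ hp
    rw [← mul_assoc (w q * star (w p)), h.mul, if_neg hp, zero_mul, h0, mul_zero]
  · simp

theorem uavg_exists_enum {A T : Type*} [Finite T] (a0 : A) (f : T → A) :
    ∃ (r : ℕ) (u : Fin (r + 1) → A), (∀ g, u g = a0 ∨ ∃ t, u g = f t) ∧ ∀ t, ∃ g, u g = f t := by
  obtain ⟨r, ⟨σ⟩⟩ := Finite.exists_equiv_fin T
  refine ⟨r, Fin.cons a0 fun j => f (σ.symm j), fun g => ?_, fun t => ⟨(σ t).succ, by simp⟩⟩
  refine Fin.cases (Or.inl rfl) (fun j => Or.inr ⟨σ.symm j, ?_⟩) g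
  simp

/-- Every element is a combination of `e_{ik} u` with unitaries `u` commuting with the matrix units;
these `u` lie in the span of the `amp x = ∑_p w_p x w_p*`. Proof: `v = ∑_{ik} e_{ik} amp (w_i* v w_k)`;
`amp x` lies in the centralizer `Z = StarSubalgebra.centralizer ℂ {e_{ik}}`, a closed star
subalgebra, hence a C*-algebra, spanned by its unitaries (`CStarAlgebra.span_unitary`,
`Submodule.mem_span_set'`/`mem_span_finite_of_mem_span`). Collect the finitely many unitaries for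
the finitely many entries (add `1` to make the family nonempty). -/
theorem exists_entries {ι : Type*} [Fintype ι] [DecidableEq ι] {w : ι → Al M} {e : Al M}
    (h : MU w e 1) (V : Finset (Al M)) :
    ∃ (r : ℕ) (u : Fin (r + 1) → Al M), (∀ g, u g ∈ unitary (Al M)) ∧
      (∀ g i k, w i * star (w k) * u g = u g * (w i * star (w k))) ∧
      ∀ v ∈ V, v ∈ Submodule.span ℂ
        (Set.range fun p : ι × ι × Fin (r + 1) => w p.1 * star (w p.2.1) * u p.2.2) := by
  let S : Set (Al M) := Set.range fun p : ι × ι => w p.1 * star (w p.2)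
  let Z : StarSubalgebra ℂ (Al M) := StarSubalgebra.centralizer ℂ S
  have hZ : IsClosed (Z : Set (Al M)) := Set.isClosed_centralizer _
  let amp : Al M → Al M := fun x => ∑ p, w p * x * star (w p)
  have a1 : ∀ x i k, w i * star (w k) * amp x = w i * x * star (w k) := by
    intro x i k
    simp only [amp]
    rw [Finset.mul_sum, Finset.sum_eq_single k]
    · rw [← mul_assoc, ← mul_assoc, mul_assoc (w i), h.orth_self, h.mul_e]
    · intro p _ hp
      rw [← mul_assoc, ← mul_assoc, mul_assoc (w i), h.orth_ne (Ne.symm hp)]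
      simp
    · simp
  have a2 : ∀ x i k, amp x * (w i * star (w k)) = w i * x * star (w k) := by
    intro x i k
    simp only [amp]
    rw [Finset.sum_mul, Finset.sum_eq_single i]
    · rw [mul_assoc, ← mul_assoc (star (w i)), h.orth_self, h.e_mul_star]
    · intro p _ hp
      rw [mul_assoc, ← mul_assoc (star (w p)), h.orth_ne hp]
      simp
    · simp
  have a3 : ∀ x, amp x ∈ Z := by
    intro x
    rw [StarSubalgebra.mem_centralizer_iff]
    rintro _ ⟨⟨i, k⟩, rfl⟩
    refine ⟨by rw [a1, a2], ?_⟩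
    rw [star_mul, star_star, a1, a2]
  have a4 : ∀ v, v = ∑ i, ∑ k, w i * star (w k) * amp (star (w i) * v * w k) := by
    intro v
    calc v = (∑ i, w i * star (w i)) * v * ∑ k, w k * star (w k) := by rw [h.sum]; simp
      _ = _ := by
        rw [Finset.sum_mul, Finset.sum_mul]
        refine Finset.sum_congr rfl fun i _ => ?_
        rw [Finset.mul_sum]
        refine Finset.sum_congr rfl fun k _ => ?_
        rw [a1]
        simp only [mul_assoc]
  have a5 : ∀ x, ∃ (u : Fin 4 → Al M) (c : Fin 4 → ℂ), (∀ j, u j ∈ unitary (Al M)) ∧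
      (∀ j i k, w i * star (w k) * u j = u j * (w i * star (w k))) ∧ amp x = ∑ j, c j • u j := by
    intro x
    obtain ⟨u, c, hx, -⟩ := CStarAlgebra.exists_sum_four_unitary (⟨amp x, a3 x⟩ : Z)
    refine ⟨fun j => ((u j : Z) : Al M), c, fun j => ⟨?_, ?_⟩, fun j i k => ?_, ?_⟩
    · exact congrArg Subtype.val (u j).2.1
    · exact congrArg Subtype.val (u j).2.2
    · exact ((StarSubalgebra.mem_centralizer_iff ℂ).1 (u j : Z).2 _ ⟨(i, k), rfl⟩).1
    · have := congrArg Z.subtype hx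
      simpa using this
  choose uu cc hu1 hu2 hu3 using a5
  obtain ⟨r, U, hU1, hU2⟩ := uavg_exists_enum (1 : Al M)
    fun q : V × ι × ι × Fin 4 => uu (star (w q.2.1) * q.1 * w q.2.2.1) q.2.2.2
  refine ⟨r, U, fun g => ?_, fun g i k => ?_, fun v hv => ?_⟩
  · rcases hU1 g with hg | ⟨q, hg⟩ <;> rw [hg]
    · exact one_mem _
    · exact hu1 _ _
  · rcases hU1 g with hg | ⟨q, hg⟩ <;> rw [hg]
    · rw [mul_one, one_mul]
    · exact hu2 _ _ _ _
  · rw [a4 v]
    refine Submodule.sum_mem _ fun i _ => Submodule.sum_mem _ fun k _ => ?_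
    rw [hu3, Finset.mul_sum]
    refine Submodule.sum_mem _ fun j _ => ?_
    rw [mul_smul_comm]
    obtain ⟨g, hg⟩ := hU2 (⟨v, hv⟩, i, k, j)
    refine Submodule.smul_mem _ _ (Submodule.subset_span ⟨(i, k, g), ?_⟩)
    simp only [hg]

/-- Type `I_n`. Proof: elements commuting with all `e_{ik}` commute with each other
(`y = ∑_p w_p (w_0* y w_0) w_p*`, and `e M e` is commutative). For a finite set `V`, take the
unitaries `u_g` of `exists_entries`; apply `exists_Q`, then successively `exists_harm` for the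
one-element families `u_g` (`G = Unit`; harmonic means `u* χ (u a) = χ a`); earlier modularities are
preserved. The set of `x` with `χ (x a) = x χ a` for all `a` is a subspace closed under products, so
contains `V`. Take the limit along `fU (Al M)` (`exists_Avg_lim`). -/
theorem SM1 (h : P1 (1 : Al M)) (ψ : Al M → Al M) (c : ℝ) (hψ : BB ψ c) :
    ∃ ρ, Avg BB ρ ∧ Mod (ρ ψ) := by
  obtain ⟨n, _, w, e, h, hcomm⟩ := h
  -- elements commuting with the matrix units commute with each other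
  have c1 : ∀ y : Al M, (∀ i k, w i * star (w k) * y = y * (w i * star (w k))) →
      y = ∑ p, w p * (star (w 0) * y * w 0) * star (w p) := by
    intro y hy
    calc y = (∑ p, w p * star (w p)) * y := by rw [h.sum, one_mul]
      _ = _ := by
        rw [Finset.sum_mul]
        refine Finset.sum_congr rfl fun p _ => ?_
        have := h.mul p 0 0 p
        rw [if_pos rfl] at this
        rw [← this, mul_assoc, hy]
        simp only [mul_assoc]
  have c2 : ∀ y y' : Al M, (∀ i k, w i * star (w k) * y = y * (w i * star (w k))) →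
      star (w 0) * (y * y') * w 0 = e * (star (w 0) * y * w 0) * e * (star (w 0) * y' * w 0) * e := by
    intro y y' hy
    rw [← mul_assoc e, ← mul_assoc e, h.e_mul_star, mul_assoc _ (w 0) e, h.mul_e,
      mul_assoc _ _ e, mul_assoc _ (w 0) e, h.mul_e]
    calc star (w 0) * (y * y') * w 0 = star (w 0) * (w 0 * star (w 0) * y) * y' * w 0 := by
          rw [← mul_assoc (star (w 0)) _ y, ← mul_assoc (star (w 0)) (w 0), h.orth_self,
            h.e_mul_star, mul_assoc (star (w 0)) y y']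
      _ = _ := by rw [hy]; simp only [mul_assoc]
  have c3 : ∀ y y' : Al M, (∀ i k, w i * star (w k) * y = y * (w i * star (w k))) →
      (∀ i k, w i * star (w k) * y' = y' * (w i * star (w k))) → y * y' = y' * y := by
    intro y y' hy hy'
    rw [c1 (y * y') fun i k => by rw [← mul_assoc, hy, mul_assoc, hy', mul_assoc],
      c2 y y' hy, hcomm, ← c2 y' y hy',
      ← c1 (y' * y) fun i k => by rw [← mul_assoc, hy', mul_assoc, hy, mul_assoc]]
  have key : ∀ V : Finset (Al M), ∃ ρ, Avg BB ρ ∧ ∀ v ∈ V, ∀ a, ρ ψ (v * a) = v * ρ ψ a := by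
    intro V
    obtain ⟨r, u, hu1, hu2, hu3⟩ := exists_entries h V
    have step : ∀ s : Finset (Fin (r + 1)), ∃ ρ, Avg BB ρ ∧
        (∀ i k a, ρ ψ (w i * star (w k) * a) = w i * star (w k) * ρ ψ a) ∧
        ∀ g ∈ s, ∀ a, ρ ψ (u g * a) = u g * ρ ψ a := by
      intro s
      induction s using Finset.induction_on with
      | empty =>
        obtain ⟨ρ, h1, h2⟩ := exists_Q h
        exact ⟨ρ, h1.avg, h2 ψ c hψ, by simp⟩
      | insert g0 s _ ih =>
        obtain ⟨ρ, h1, h2, h3⟩ := ih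
        obtain ⟨σ, s1, s2, s3⟩ := exists_harm (G := Unit) (u := fun _ => u g0) fun _ => hu1 g0
        have hχ := h1.bnd hψ
        refine ⟨fun ψ => σ (ρ ψ), s1.avg.comp h1, fun i k =>
          s3 _ (fun _ => hu2 g0 i k) _ c hχ (h2 i k), fun g hg => ?_⟩
        rcases Finset.mem_insert.1 hg with rfl | hg
        · intro a
          have := s2 _ c hχ a
          rw [uavg, avg_const] at this
          beta_reduce
          rw [← this, ← mul_assoc, Unitary.mul_star_self_of_mem (hu1 g), one_mul]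
        · exact s3 _ (fun _ => c3 _ _ (hu2 g) (hu2 g0)) _ c hχ (h3 g hg)
    obtain ⟨ρ, h1, h2, h3⟩ := step Finset.univ
    have hl := (h1.bnd hψ).1
    refine ⟨ρ, h1, fun v hv => ?_⟩
    refine Submodule.span_induction (p := fun v _ => ∀ a, ρ ψ (v * a) = v * ρ ψ a)
      ?_ ?_ ?_ ?_ (hu3 v hv)
    · rintro _ ⟨⟨i, k, g⟩, rfl⟩ a
      simp only
      rw [mul_assoc _ (u g), h2, h3 g (Finset.mem_univ _), mul_assoc _ (u g)]
    · intro a
      rw [zero_mul, zero_mul, hl.map_zero]
    · intro x y _ _ hx hy a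
      rw [add_mul, hl.map_add, hx, hy, add_mul]
    · intro s x _ hx a
      rw [smul_mul_assoc, hl.map_smul, hx, smul_mul_assoc]
  choose R hR1 hR2 using key
  obtain ⟨ρ, h1, h2⟩ := exists_Avg_lim gauge_BB (fU (Al M)) R hR1
  refine ⟨ρ, h1, fun a => ?_⟩
  refine (h2 ψ c hψ a).unique (((h2 ψ c hψ 1).mul_left a).congr' ((fU_mem a).mono fun V hV => ?_))
  rw [← hR2 V a hV, mul_one]

end Crest.Agent.R121
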