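import Crest.Agent.R121.Core
import Crest.Agent.R121.GT
import Crest.Agent.R121.UAvg
import Crest.Agent.R121.Polar
import Crest.Agent.R121.Spec

/-! # R121: the finite (type II₁) case (task `SM2`) -/

set_option autoImplicit false
open Filter Topology
open scoped InnerProductSpace

namespace Crest.Agent.R121

universe u
variable {H : Type u} [NormedAddCommGroup H] [InnerProductSpace ℂ H] [CompleteSpace H]
variable {M : VonNeumannAlgebra H}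

theorem sm2_BB_mono {ψ : Al M → Al M} {c c' : ℝ} (h : BB ψ c) (hc : c ≤ c') : BB ψ c' :=
  ⟨h.1, h.2.1.trans hc, fun a => (h.2.2 a).trans (mul_le_mul_of_nonneg_right hc (norm_nonneg _))⟩

/-- Compression `a ↦ x ψ (y a z)` by contractions. -/
theorem sm2_BB_comp {ψ : Al M → Al M} {c : ℝ} (h : BB ψ c) {x y z : Al M} (hx : ‖x‖ ≤ 1)
    (hy : ‖y‖ ≤ 1) (hz : ‖z‖ ≤ 1) : BB (fun a => x * ψ (y * (a * z))) c := by
  refine ⟨⟨fun a b => ?_, fun t a => ?_⟩, h.2.1, fun a => ?_⟩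
  · rw [add_mul, mul_add, h.1.map_add, mul_add]
  · rw [smul_mul_assoc, mul_smul_comm, h.1.map_smul, mul_smul_comm]
  · have h1 : ‖y * (a * z)‖ ≤ ‖a‖ := by
      calc ‖y * (a * z)‖ ≤ ‖y‖ * (‖a‖ * ‖z‖) :=
            (norm_mul_le _ _).trans (mul_le_mul_of_nonneg_left (norm_mul_le _ _) (norm_nonneg _))
        _ ≤ 1 * (‖a‖ * 1) := by gcongr
        _ = ‖a‖ := by ring
    calc ‖x * ψ (y * (a * z))‖ ≤ ‖x‖ * ‖ψ (y * (a * z))‖ := norm_mul_le _ _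
      _ ≤ 1 * (c * ‖a‖) := by
          have := h.2.1
          gcongr
          exact (h.2.2 _).trans (by gcongr)
      _ = c * ‖a‖ := one_mul _

/-- Truncation: outside small projections `ψ` is `J`-bounded. Proof: `little_GT` for `T = J ξ ∘ ψ`
gives `f1, f2`; `exists_dom` (with `p = 1`, `K` large) gives `q1, q2` with `‖J q_i‖ ≤ δ`, and for
`x = (1 - q2) a (1 - q1)`: `Re f1 (x* x) ≤ K ‖J x‖²`, `Re f2 (x x*) ≤ K ‖J x*‖² ≤ K C² ‖J x‖²`,
`‖J x‖ ≤ C² ‖J a‖` (`J_mul_le`, `QT.mul_le'`). -/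
theorem exists_trunc {m : ℕ} {ξ : Fin m → H} {C : ℝ} (hj : QT (J (M := M) ξ) C)
    {ψ : Al M → Al M} {c : ℝ} (hψ : BB ψ c) {δ : ℝ} (hδ : 0 < δ) :
    ∃ (q1 q2 : Al M) (κ : ℝ), IsStarProjection q1 ∧ IsStarProjection q2 ∧ 0 ≤ κ ∧
      ‖J ξ q1‖ ≤ δ ∧ ‖J ξ q2‖ ≤ δ ∧
      ∀ a, ‖J ξ (ψ ((1 - q2) * a * (1 - q1)))‖ ≤ κ * ‖J ξ a‖ := by
  have hC := hj.nonneg
  let T : Al M →L[ℂ] PiLp 2 (fun _ : Fin m => H) :=
    LinearMap.mkContinuous ((J ξ).comp (hψ.1.mk' ψ)) (c * ‖J (M := M) ξ 1‖) fun a => by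
      calc ‖J ξ (ψ a)‖ ≤ ‖ψ a‖ * ‖J (M := M) ξ 1‖ := hj.le _
        _ ≤ c * ‖a‖ * ‖J (M := M) ξ 1‖ := by gcongr; exact hψ.2.2 a
        _ = _ := by ring
  have hT : ∀ a, T a = J ξ (ψ a) := fun a => rfl
  obtain ⟨f1, f2, hf⟩ := little_GT T
  set K : ℝ := (‖f1‖ + ‖f2‖ + 1) / δ ^ 2 with hK
  have hK0 : 0 < K := by positivity
  have hKδ : K * δ ^ 2 = ‖f1‖ + ‖f2‖ + 1 := by rw [hK]; field_simp
  have small : ∀ q : Al M, K * ‖J ξ q‖ ^ 2 ≤ ‖f1‖ + ‖f2‖ + 1 → ‖J ξ q‖ ≤ δ := fun q hq => by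
    rw [← hKδ] at hq
    exact (pow_le_pow_iff_left₀ (norm_nonneg _) hδ.le two_ne_zero).1
      (le_of_mul_le_mul_left hq hK0)
  obtain ⟨q1, hq1, -, hq1', h1⟩ := exists_dom ξ f1 hK0 (IsStarProjection.one (Al M))
  obtain ⟨q2, hq2, -, hq2', h2⟩ := exists_dom ξ f2 hK0 (IsStarProjection.one (Al M))
  refine ⟨q1, q2, Real.sqrt (K * (1 + C ^ 2)) * C ^ 2, hq1, hq2, by positivity,
    small _ (by linarith [norm_nonneg f2]), small _ (by linarith [norm_nonneg f1]), fun a => ?_⟩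
  set x : Al M := (1 - q2) * a * (1 - q1) with hx
  have hp1 := hq1.one_sub
  have hp2 := hq2.one_sub
  have e1 : x * (1 - q1) = x := by rw [hx, mul_assoc, proj_mul_self hp1]
  have e2 : star x * (1 - q2) = star x := by
    rw [hx, star_mul, star_mul, proj_star hp2, mul_assoc, mul_assoc, proj_mul_self hp2]
  have i1 := h1 x e1
  have i2 := h2 (star x) e2
  rw [star_star] at i2
  have i3 : ‖J ξ (star x)‖ ^ 2 ≤ C ^ 2 * ‖J ξ x‖ ^ 2 := by
    rw [← mul_pow]; exact pow_le_pow_left₀ (norm_nonneg _) (hj.star_le x) 2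
  have i4 : ‖J ξ x‖ ≤ C ^ 2 * ‖J ξ a‖ := by
    calc ‖J ξ x‖ = ‖J ξ ((1 - q2) * (a * (1 - q1)))‖ := by rw [hx, mul_assoc]
      _ ≤ ‖1 - q2‖ * ‖J ξ (a * (1 - q1))‖ := hj.mul_le _ _
      _ ≤ 1 * (C ^ 2 * 1 * ‖J ξ a‖) := by
          gcongr
          · exact proj_norm_le hp2
          · exact (hj.mul_le' _ _).trans (by gcongr; exact proj_norm_le hp1)
      _ = _ := by ring
  have i5 : ‖J ξ (ψ x)‖ ^ 2 ≤ K * (1 + C ^ 2) * ‖J ξ x‖ ^ 2 := by
    have := hf x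
    rw [hT] at this
    nlinarith [mul_le_mul_of_nonneg_left i3 hK0.le]
  have i6 : ‖J ξ (ψ x)‖ ≤ Real.sqrt (K * (1 + C ^ 2)) * ‖J ξ x‖ := by
    refine (pow_le_pow_iff_left₀ (norm_nonneg _) (by positivity) two_ne_zero).1 ?_
    rwa [mul_pow, Real.sq_sqrt (by positivity)]
  refine i6.trans ?_
  rw [mul_assoc]
  gcongr

theorem sm2_pinch_mem {p : Al M} (hp : IsStarProjection p) (i : Fin 2) :
    (![1, p + p - 1] : Fin 2 → Al M) i ∈ unitary (Al M) := by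
  fin_cases i
  · exact one_mem _
  · exact proj_symm_mem hp

theorem sm2_pinch_eq {p : Al M} (hp : IsStarProjection p) {ψ : Al M → Al M}
    (hψ : IsLinearMap ℂ ψ) (a : Al M) :
    uavg (![1, p + p - 1] : Fin 2 → Al M) ψ a =
      p * ψ (p * a) + (1 - p) * ψ ((1 - p) * a) := by
  have e1 : ψ a = ψ (p * a) + ψ ((1 - p) * a) := by
    rw [← hψ.map_add]; congr 1; noncomm_ring
  have e2 : ψ ((p + p - 1) * a) = ψ (p * a) - ψ ((1 - p) * a) := by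
    rw [← hψ.map_sub]; congr 1; noncomm_ring
  have e3 : star (p + p - 1) = p + p - 1 := by simp [proj_star hp]
  simp only [uavg, avg, Fin.sum_univ_two, Matrix.cons_val_zero, Matrix.cons_val_one,
    star_one, one_mul, e2, e3, Fintype.card_fin]
  rw [e1]
  generalize ψ (p * a) = X
  generalize ψ ((1 - p) * a) = Y
  have : X + Y + (p + p - 1) * (X - Y) = (2 : ℂ) • (p * X + (1 - p) * Y) := by
    rw [two_smul]; noncomm_ring
  rw [this, smul_smul]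
  norm_num

/-- Pinching by a projection is a unitary average: `uavg ![1, p + p - 1]`. -/
theorem exists_pinch {p : Al M} (hp : IsStarProjection p) : ∃ ρ, UA ρ ∧ ∀ ψ c, BB ψ c → ∀ a,
    ρ ψ a = p * ψ (p * a) + (1 - p) * ψ ((1 - p) * a) :=
  ⟨_, UA.uavg (sm2_pinch_mem hp), fun _ _ hψ a => sm2_pinch_eq hp hψ.1 a⟩

/-- One averaging operator making all `J`-bounded maps almost modular on `V`. -/
theorem sm2_core {m : ℕ} {ξ : Fin m → H} {C : ℝ} (hj : QT (J (M := M) ξ) C)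
    (hMU : ∀ n0 : ℕ, ∃ (n : ℕ) (_ : NeZero n) (w : ZMod n → Al M) (e : Al M), n0 ≤ n ∧ MU w e 1)
    {c κ : ℝ} (hc : 0 ≤ c) (hκ : 0 ≤ κ) (V : Finset (Al M)) (hV : ∀ v ∈ V, v ∈ unitary (Al M))
    {ε : ℝ} (hε : 0 < ε) : ∃ ρ, UA ρ ∧ ∀ χ : Al M → Al M, BB χ c →
      (∀ a, ‖J ξ (χ a)‖ ≤ κ * ‖J ξ a‖) → ∀ v ∈ V, ‖J ξ (ρ χ v - v * ρ χ 1)‖ ≤ ε := by
  obtain ⟨n0, hn0⟩ := core hj hc hκ hε
  obtain ⟨n, _, w, e, hn, hw⟩ := hMU n0
  obtain ⟨r, u, hu, hcomm, hspan⟩ := exists_entries hw V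
  let u' : Fin (r + 1) × Bool → Al M := fun g => cond g.2 (star (u g.1)) (u g.1)
  have hu' : ∀ g, u' g ∈ unitary (Al M) := by
    rintro ⟨g, _ | _⟩
    · exact hu g
    · exact Unitary.star_mem (hu g)
  have hσ : ∀ g, u' ((Equiv.prodCongr (Equiv.refl _) Equiv.boolNot) g) = star (u' g) := by
    rintro ⟨g, _ | _⟩
    · rfl
    · exact (star_star _).symm
  have hcomm' : ∀ g i k, w i * star (w k) * u' g = u' g * (w i * star (w k)) := by
    rintro ⟨g, _ | _⟩ i k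
    · exact hcomm g i k
    · have := congrArg star (hcomm g k i)
      simp only [star_mul, star_star] at this
      exact this.symm
  obtain ⟨ρh, hρh, hharm, hmod⟩ := exists_harm hu'
  obtain ⟨ρQ, hρQ, hQ⟩ := exists_Q hw
  refine ⟨fun ψ => ρh (ρQ ψ), hρh.comp hρQ, fun χ hχ hχJ v hv => ?_⟩
  have h1 : BB (ρQ χ) c := hρQ.avg.bnd hχ
  have h2 : BB (ρh (ρQ χ)) c := hρh.avg.bnd h1
  refine hn0 n w e hn hw _ u' _ hu' hσ hcomm' (ρh (ρQ χ)) h2.1 h2.2.2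
    ((hρh.comp hρQ).jp m ξ (fun a => κ * ‖J ξ a‖)
      (fun u hu a => by rw [hj.norm_unitary hu]) χ c hχ hχJ)
    (fun i k a => hmod _ (fun g => hcomm' g i k) _ c h1 (hQ χ c hχ i k) a)
    (hharm _ c h1) v (hV v hv) (Submodule.span_mono ?_ (hspan v hv))
  rintro _ ⟨⟨i, k, g⟩, rfl⟩
  exact ⟨(i, k, (g, false)), rfl⟩

/-- A unitary average of an almost modular map is almost modular. -/
theorem sm2_defect {m : ℕ} {ξ : Fin m → H} {C : ℝ} (hj : QT (J (M := M) ξ) C)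
    {G : Type*} [Fintype G] [Nonempty G] {u : G → Al M} (hu : ∀ g, u g ∈ unitary (Al M))
    {χ : Al M → Al M} {v : Al M} (hv : v ∈ unitary (Al M)) {ε : ℝ}
    (h1 : ∀ g, ‖J ξ (χ (u g * v) - u g * v * χ 1)‖ ≤ ε)
    (h2 : ∀ g, ‖J ξ (χ (u g * 1) - u g * 1 * χ 1)‖ ≤ ε) :
    ‖J ξ (uavg u χ v - v * uavg u χ 1)‖ ≤ 2 * ε := by
  rw [uavg, uavg, mul_avg, ← avg_sub, map_avg]
  refine norm_avg_le fun g => ?_
  have hg := Unitary.star_mul_self_of_mem (hu g)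
  have e : star (u g) * χ (u g * v) - v * (star (u g) * χ (u g * 1)) =
      star (u g) * (χ (u g * v) - u g * v * χ 1) -
        v * (star (u g) * (χ (u g * 1) - u g * 1 * χ 1)) := by
    simp only [mul_sub, mul_one, ← mul_assoc, hg, one_mul]
    abel
  rw [e, map_sub]
  refine (norm_sub_le _ _).trans ?_
  rw [hj.norm_unitary hv, hj.norm_unitary (Unitary.star_mem (hu g)),
    hj.norm_unitary (Unitary.star_mem (hu g))]
  linarith [h1 g, h2 g]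

/-- Approximate version. Proof: `exists_trunc` with small `δ`; `p_i = 1 - q_i`;
`σ₁` = pinch by `p₂`: `σ₁ ψ = χ + R₁ + R₂`, `θ a = p₂ ψ (p₂ a)`, `χ a = θ (a p₁)`, `R₂ a = θ (a q₁)`,
`R₁ a = q₂ ψ (q₂ a)`, `‖J (R₁ a)‖ ≤ C² c ‖a‖ δ`. `r` from `exists_sup_small` above `q₁` and the
`v q₁ v*` (`v ∈ V`; `‖J (v q₁ v*)‖ ≤ C² δ`), `g = r + r - 1`, `V' = V ∪ {g} ∪ g V`. Take `n0` from `core`
(with `s = c`, `κ`, small `ε'`), matrix units of size `n ≥ n0`, `exists_entries` for `V'`, the symmetric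
family `G = Fin (r+1) × Bool`, `ρ₁ = harm ∘ Q` (`exists_harm`, `exists_Q`): `χ' = ρ₁ χ` satisfies the
hypotheses of `core` (`UA.jp` with `p a = κ ‖J a‖`), so `‖J (χ' v - v χ' 1)‖ ≤ ε'` on `V'`.
`ρ = σ₃ ∘ ρ₁ ∘ σ₁` with `σ₃` the pinch by `r`, `σ₃ χ' a = (χ' a + g χ' (g a))/2`
(or `= r χ' (r a) + (1 - r) χ' ((1 - r) a)` with `r = (1 + g)/2`). The `R₁` part stays small by `UA.jp`
(`p a = C² c δ ‖a‖`, `CStarRing.norm_mem_unitary_mul`); the `R₂` part is `Θ (a q₁)` (`Avg.rarg`) with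
`Θ = σ₃ ρ₁ θ`, `Θ (r a) = r Θ (r a)`, and `r v q₁ = v q₁`, so `‖J (Θ (v q₁))‖ ≤ C² c ‖J r‖`. -/
theorem SM2_approx {m : ℕ} {ξ : Fin m → H} {C : ℝ} (hj : QT (J (M := M) ξ) C)
    (hMU : ∀ n0 : ℕ, ∃ (n : ℕ) (_ : NeZero n) (w : ZMod n → Al M) (e : Al M), n0 ≤ n ∧ MU w e 1)
    {ψ : Al M → Al M} {c : ℝ} (hψ : BB ψ c) (V : Finset (Al M)) (hV : ∀ v ∈ V, v ∈ unitary (Al M))
    {ε : ℝ} (hε : 0 < ε) : ∃ ρ, Avg BB ρ ∧ ∀ v ∈ V, ‖J ξ (ρ ψ v - v * ρ ψ 1)‖ ≤ ε := by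
  classical
  have hC := hj.nonneg
  have hc := hψ.2.1
  set W : Finset (Al M) := insert 1 V with hWdef
  have hW : ∀ v ∈ W, v ∈ unitary (Al M) := fun v hv => by
    rcases Finset.mem_insert.1 hv with rfl | hv
    · exact one_mem _
    · exact hV v hv
  have hW1 : (1 : Al M) ∈ W := Finset.mem_insert_self _ _
  set L : ℝ := 2 * (C ^ 2 * c) + 2 * (C ^ 2 * c * (C * (W.card * C ^ 2))) with hL
  have hL0 : 0 ≤ L := by positivity
  set δ : ℝ := ε / (2 * (L + 1)) with hδdef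
  have hδ : 0 < δ := by positivity
  have hLδ : L * δ ≤ ε / 2 := by
    rw [hδdef, mul_div_assoc', div_le_div_iff₀ (by positivity) (by positivity)]
    nlinarith
  obtain ⟨q1, q2, κ, hq1, hq2, hκ, hJ1, hJ2, htr⟩ := exists_trunc hj hψ hδ
  have hp1 := hq1.one_sub
  have hp2 := hq2.one_sub
  -- the small projection `r`
  obtain ⟨r, hr, hrq, hrJ⟩ := exists_sup_small ξ hj
    (fun v : W => (v : Al M) * q1 * star (v : Al M))
    (fun v => by
      refine ⟨?_, ?_⟩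
      · have hv := Unitary.star_mul_self_of_mem (hW v v.2)
        rw [IsIdempotentElem]
        calc (v : Al M) * q1 * star (v : Al M) * ((v : Al M) * q1 * star (v : Al M))
            = (v : Al M) * (q1 * (star (v : Al M) * (v : Al M)) * q1) * star (v : Al M) := by
              simp only [mul_assoc]
          _ = _ := by rw [hv, mul_one, proj_mul_self hq1]
      · simp only [IsSelfAdjoint, star_mul, star_star, proj_star hq1, mul_assoc]) Finset.univ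
  have hrv : ∀ v ∈ W, r * (v * q1) = v * q1 := fun v hv => by
    have h := congrArg (· * v) (hrq ⟨v, hv⟩ (Finset.mem_univ _))
    have hv' := Unitary.star_mul_self_of_mem (hW v hv)
    simpa only [mul_assoc, hv', mul_one] using h
  have hrJ' : ‖J ξ r‖ ≤ C * (W.card * C ^ 2) * δ := by
    refine hrJ.trans ?_
    rw [mul_assoc C]
    gcongr
    calc ∑ v : W, ‖J ξ ((v : Al M) * q1 * star (v : Al M))‖ ≤ ∑ _v : W, C ^ 2 * δ := by
          refine Finset.sum_le_sum fun v _ => ?_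
          rw [mul_assoc, hj.norm_unitary (hW v v.2)]
          refine (hj.mul_le' _ _).trans ?_
          have := unitary_norm_le (Unitary.star_mem (hW v v.2))
          calc C ^ 2 * ‖star (v : Al M)‖ * ‖J ξ q1‖ ≤ C ^ 2 * 1 * δ := by gcongr
            _ = _ := by ring
      _ = W.card * C ^ 2 * δ := by simp [mul_assoc]
  -- the averaging operators
  set g : Fin 2 → Al M := ![1, r + r - 1] with hg
  have hgu : ∀ i, g i ∈ unitary (Al M) := sm2_pinch_mem hr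
  obtain ⟨ρ₁, hρ₁, hcore⟩ := sm2_core hj hMU hc hκ
    ((Finset.univ ×ˢ W).image fun p : Fin 2 × Al M => g p.1 * p.2)
    (fun v hv => by
      obtain ⟨p, hp, rfl⟩ := Finset.mem_image.1 hv
      exact mul_mem (hgu _) (hW _ (Finset.mem_product.1 hp).2))
    (show 0 < ε / 4 by positivity)
  obtain ⟨σ₁, hσ₁, hσ₁'⟩ := exists_pinch hp2
  have hσ₃ : UA (uavg g) := UA.uavg hgu
  have hτ : UA fun ψ => uavg g (ρ₁ ψ) := hσ₃.comp hρ₁
  refine ⟨fun ψ => uavg g (ρ₁ (σ₁ ψ)), (hτ.comp hσ₁).avg, fun v hv => ?_⟩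
  have hvW : v ∈ W := Finset.mem_insert_of_mem hv
  have hvu := hW v hvW
  -- the three parts
  have n1 : ‖(1 : Al M)‖ ≤ 1 := norm_one_le'
  have hθ : BB (fun a => (1 - q2) * ψ ((1 - q2) * (a * 1))) c :=
    sm2_BB_comp hψ (proj_norm_le hp2) (proj_norm_le hp2) n1
  simp only [mul_one] at hθ
  have hχ : BB (fun a => (1 - q2) * ψ ((1 - q2) * (a * (1 - q1)))) c :=
    sm2_BB_comp hψ (proj_norm_le hp2) (proj_norm_le hp2) (proj_norm_le hp1)
  have hR2 : BB (fun a => (1 - q2) * ψ ((1 - q2) * (a * q1))) c :=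
    sm2_BB_comp hψ (proj_norm_le hp2) (proj_norm_le hp2) (proj_norm_le hq1)
  have hR1 : BB (fun a => q2 * ψ (q2 * (a * 1))) c :=
    sm2_BB_comp hψ (proj_norm_le hq2) (proj_norm_le hq2) n1
  simp only [mul_one] at hR1
  have hdec : σ₁ ψ = fun a => ((1 - q2) * ψ ((1 - q2) * (a * (1 - q1))) +
      (1 - q2) * ψ ((1 - q2) * (a * q1))) + q2 * ψ (q2 * a) := by
    funext a
    rw [hσ₁' ψ c hψ, sub_sub_cancel, ← mul_add, ← hψ.1.map_add]
    congr 3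
    noncomm_ring
  set θ : Al M → Al M := fun a => (1 - q2) * ψ ((1 - q2) * a) with hθdef
  set χ : Al M → Al M := fun a => (1 - q2) * ψ ((1 - q2) * (a * (1 - q1))) with hχdef
  set R₁ : Al M → Al M := fun a => q2 * ψ (q2 * a) with hR₁def
  have hsplit : ∀ a, uavg g (ρ₁ (σ₁ ψ)) a =
      uavg g (ρ₁ χ) a + uavg g (ρ₁ θ) (a * q1) + uavg g (ρ₁ R₁) a := fun a => by
    have e1 := hτ.avg.add (gauge_BB.add hχ hR2) hR1
    have e2 := hτ.avg.add hχ hR2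
    have e3 := hτ.avg.rarg q1 hθ
    rw [hdec]
    have e1' := congrFun e1 a
    have e2' := congrFun e2 a
    have e3' := congrFun e3 a
    simp only [hχdef, hθdef, hR₁def] at e1' e2' e3' ⊢
    rw [e1', e2', e3']
  -- main part
  have hχJ : ∀ a, ‖J ξ (χ a)‖ ≤ κ * ‖J ξ a‖ := fun a => by
    refine (hj.mul_le _ _).trans ?_
    have := htr a
    rw [mul_assoc] at this
    calc _ ≤ 1 * (κ * ‖J ξ a‖) := by gcongr; exact proj_norm_le hp2
      _ = _ := one_mul _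
  have A1 : ‖J ξ (uavg g (ρ₁ χ) v - v * uavg g (ρ₁ χ) 1)‖ ≤ 2 * (ε / 4) :=
    sm2_defect hj hgu hvu
      (fun i => hcore χ hχ hχJ _ (Finset.mem_image.2
        ⟨(i, v), Finset.mem_product.2 ⟨Finset.mem_univ _, hvW⟩, rfl⟩))
      (fun i => hcore χ hχ hχJ _ (Finset.mem_image.2
        ⟨(i, 1), Finset.mem_product.2 ⟨Finset.mem_univ _, hW1⟩, rfl⟩))
  -- the `R₁` part
  have A2 : ∀ y ∈ W, ‖J ξ (uavg g (ρ₁ R₁) y)‖ ≤ C ^ 2 * c * δ := fun y hy => by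
    have := hτ.jp m ξ (fun a => C ^ 2 * c * δ * ‖a‖)
      (fun u hu a => by rw [CStarRing.norm_mem_unitary_mul a hu]) R₁ c hR1 (fun a => by
        refine (hj.mul_le' _ _).trans ?_
        have h1 : ‖ψ (q2 * a)‖ ≤ c * ‖a‖ := (hψ.2.2 _).trans (by
          gcongr
          calc ‖q2 * a‖ ≤ ‖q2‖ * ‖a‖ := norm_mul_le _ _
            _ ≤ 1 * ‖a‖ := by gcongr; exact proj_norm_le hq2
            _ = _ := one_mul _)
        calc C ^ 2 * ‖ψ (q2 * a)‖ * ‖J ξ q2‖ ≤ C ^ 2 * (c * ‖a‖) * δ := by gcongr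
          _ = _ := by ring) y
    refine this.trans ?_
    have := unitary_norm_le (hW y hy)
    calc C ^ 2 * c * δ * ‖y‖ ≤ C ^ 2 * c * δ * 1 := by gcongr
      _ = _ := mul_one _
  -- the `R₂` part
  have A3 : ∀ y ∈ W, ‖J ξ (uavg g (ρ₁ θ) (y * q1))‖ ≤
      C ^ 2 * c * (C * (W.card * C ^ 2) * δ) := fun y hy => by
    have hΘ : BB (ρ₁ θ) c := hρ₁.avg.bnd hθ
    rw [hg, sm2_pinch_eq hr hΘ.1, sub_mul 1 r (y * q1), hrv y hy, one_mul, sub_self,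
      hΘ.1.map_zero, mul_zero, add_zero]
    refine (hj.mul_le' _ _).trans ?_
    have h1 : ‖ρ₁ θ (y * q1)‖ ≤ c := by
      refine (hΘ.2.2 _).trans ?_
      rw [CStarRing.norm_mem_unitary_mul q1 (hW y hy)]
      calc c * ‖q1‖ ≤ c * 1 := by gcongr; exact proj_norm_le hq1
        _ = c := mul_one _
    gcongr
  have e : uavg g (ρ₁ (σ₁ ψ)) v - v * uavg g (ρ₁ (σ₁ ψ)) 1 =
      (uavg g (ρ₁ χ) v - v * uavg g (ρ₁ χ) 1) +
      (uavg g (ρ₁ θ) (v * q1) - v * uavg g (ρ₁ θ) (1 * q1)) +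
      (uavg g (ρ₁ R₁) v - v * uavg g (ρ₁ R₁) 1) := by
    rw [hsplit v, hsplit 1]; noncomm_ring
  change ‖J ξ (uavg g (ρ₁ (σ₁ ψ)) v - v * uavg g (ρ₁ (σ₁ ψ)) 1)‖ ≤ ε
  rw [e, map_add, map_add]
  have B2 : ‖J ξ (uavg g (ρ₁ R₁) v - v * uavg g (ρ₁ R₁) 1)‖ ≤ 2 * (C ^ 2 * c * δ) := by
    rw [map_sub]
    refine (norm_sub_le _ _).trans ?_
    rw [hj.norm_unitary hvu]
    linarith [A2 v hvW, A2 1 hW1]
  have B3 : ‖J ξ (uavg g (ρ₁ θ) (v * q1) - v * uavg g (ρ₁ θ) (1 * q1))‖ ≤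
      2 * (C ^ 2 * c * (C * (W.card * C ^ 2) * δ)) := by
    rw [map_sub]
    refine (norm_sub_le _ _).trans ?_
    rw [hj.norm_unitary hvu]
    linarith [A3 v hvW, A3 1 hW1]
  refine norm_add₃_le.trans ?_
  have : L * δ = 2 * (C ^ 2 * c * δ) + 2 * (C ^ 2 * c * (C * (W.card * C ^ 2) * δ)) := by
    rw [hL]; ring
  linarith

/-- Proof: index by finite sets `s` of unitaries (`fU (unitary (Al M) × ℕ)`, or `fU (unitary ..)` twice),
`ε = 1 / (card + 1)`-like choice: for `s : Finset (unitary (Al M) × ℕ)` use `V = image fst`,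
`ε_s = 1 / (1 + sup snd)`; limit by `exists_Avg_lim`, `WL.norm_J_le`; faithfulness gives
`ρ ψ v = v ρ ψ 1` for unitaries, which span (`CStarAlgebra.span_unitary`). -/
theorem SM2 (h : P2 (1 : Al M)) (ψ : Al M → Al M) (c : ℝ) (hψ : BB ψ c) :
    ∃ ρ, Avg BB ρ ∧ Mod (ρ ψ) := by
  classical
  obtain ⟨⟨m, ξ, C, hC, hstar, -, hfaith⟩, hMU⟩ := h
  have hj : QT (J (M := M) ξ) C := QT_J ξ hC hstar
  have hex : ∀ s : Finset (unitary (Al M) × ℕ), ∃ ρ, Avg BB ρ ∧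
      ∀ v ∈ s.image fun p => (p.1 : Al M),
        ‖J ξ (ρ ψ v - v * ρ ψ 1)‖ ≤ 1 / ((s.sup Prod.snd : ℕ) + 1 : ℝ) := fun s =>
    SM2_approx hj hMU hψ _ (fun v hv => by
      obtain ⟨p, -, rfl⟩ := Finset.mem_image.1 hv
      exact p.1.2) (by positivity)
  choose R hR hRε using hex
  obtain ⟨ρ, hρ, hlim⟩ := exists_Avg_lim gauge_BB (fU (unitary (Al M) × ℕ)) R hR
  refine ⟨ρ, hρ, fun a => ?_⟩
  have hlin := (hρ.bnd hψ).1
  have hu : ∀ v ∈ unitary (Al M), ρ ψ v = v * ρ ψ 1 := fun v hv => by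
    have hW := (hlim ψ c hψ v).sub ((hlim ψ c hψ 1).mul_left v)
    have hk : ∀ k : ℕ, ‖J ξ (ρ ψ v - v * ρ ψ 1)‖ ≤ 1 / ((k : ℝ) + 1) := fun k =>
      hW.norm_J_le ξ ((fU_mem ((⟨v, hv⟩, k) : unitary (Al M) × ℕ)).mono fun s hs => by
        refine (hRε s v (Finset.mem_image.2 ⟨_, hs, rfl⟩)).trans ?_
        have : k ≤ s.sup Prod.snd := Finset.le_sup (f := Prod.snd) hs
        gcongr)
    have h0 : ‖J ξ (ρ ψ v - v * ρ ψ 1)‖ ≤ 0 :=
      ge_of_tendsto' tendsto_one_div_add_atTop_nhds_zero_nat hk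
    have := hfaith _ (norm_le_zero_iff.1 h0)
    rw [mul_one] at this
    exact sub_eq_zero.1 this
  have ha : a ∈ Submodule.span ℂ (unitary (Al M) : Set (Al M)) := by
    rw [CStarAlgebra.span_unitary]; trivial
  induction ha using Submodule.span_induction with
  | mem x hx => exact hu x hx
  | zero => rw [hlin.map_zero, zero_mul]
  | add x y _ _ hx hy => rw [hlin.map_add, hx, hy, add_mul]
  | smul t x _ hx => rw [hlin.map_smul, hx, smul_mul_assoc]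

end Crest.Agent.R121
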