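import Crest.Agent.R121.Amp
import Crest.Agent.R121.SM2
import Crest.Agent.R121.QTr
import Crest.Agent.R121.Red

/-! # R121: assembly -/

set_option autoImplicit false
open Filter Topology
open scoped InnerProductSpace

namespace Crest.Agent.R121

universe u
variable {H : Type u} [NormedAddCommGroup H] [InnerProductSpace ℂ H] [CompleteSpace H]
variable {M : VonNeumannAlgebra H}

theorem cob_P (h : P1 (1 : Al M) ∨ P2 (1 : Al M) ∨ P3 (1 : Al M)) {k : ℕ}
    {φ : List (Al M) → Al M} {c : ℝ} (hc : 0 ≤ c) (hML : ML (k + 1) φ) (hBd : Bd (k + 1) φ c)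
    (hφ : Cocycle (k + 1) φ) : Cob k φ ((k + 2) * c) := by
  have key : (∀ ψ c, BB (M := M) ψ c → ∃ ρ, Avg BB ρ ∧ Mod (ρ ψ)) → Cob k φ ((k + 2) * c) := by
    intro hSM
    obtain ⟨G, h1, h2, h3⟩ := cob_of_Avg gauge_BB hSM (c := c) hML hφ (fun l hl =>
      ⟨hML.first hl, mul_nonneg hc (nrm_nonneg l), fun a => by
        have := hBd (a :: l) (by simpa using hl)
        rw [nrm_cons] at this
        linarith⟩)
    refine ⟨G, h1, h2.mono ?_, h3⟩
    have : (0 : ℝ) ≤ k := Nat.cast_nonneg k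
    nlinarith
  rcases h with h | h | h
  · exact key (SM1 h)
  · exact key (SM2 h)
  · exact cob_P3 h hc hML hBd hφ

theorem cob_piece {z : Al M} (hz : CP z) (h : P1 z ∨ P2 z ∨ P3 z) {k : ℕ}
    {φ : List (Al M) → Al M} {c : ℝ} (hc : 0 ≤ c) (hML : ML (k + 1) φ) (hBd : Bd (k + 1) φ c)
    (hφ : Cocycle (k + 1) φ) : Cob k (fun l => z * φ l) ((2 * k + 3) * c) := by
  obtain ⟨K, _, N, π, ι, h1, h2, h3, h4⟩ := exists_reduce hz
  have hP := reduce_P π ι h1 h2 h3 h4 h
  have hπn : ∀ x, ‖π x‖ ≤ ‖x‖ := fun x => NonUnitalStarAlgHom.norm_apply_le π x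
  have hιn : ∀ x, ‖ι x‖ ≤ ‖x‖ := fun x => NonUnitalStarAlgHom.norm_apply_le ι x
  have hπl : IsLinearMap ℂ π := ⟨map_add π, map_smul π⟩
  have hιl : IsLinearMap ℂ ι := ⟨map_add ι, map_smul ι⟩
  have hzι : ∀ n, z * ι n = ι n := fun n => by rw [← h2, h1]
  obtain ⟨G, hG1, hG2, hG3⟩ := cob_P hP (φ := fun l => π (φ (l.map ι))) hc (hML.map hιl hπl)
    (hBd.map hc hιn hπn) (fun l hl => by
      have := dd_map ι (π : Al M →+ Al N) (map_mul ι) (fun x n => by simp [h1])
        (fun x n => by simp [h1]) φ l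
      refine this.trans ?_
      rw [hφ _ (by simpa using hl), map_zero])
  obtain ⟨hh, hh1, hh2, hh3⟩ := exists_restrict hz.mul_self hz.2 norm_one_le' (proj_norm_le hz.1)
    (unitary_norm_le (proj_symm_mem hz.1)) hc hML hBd hφ
  have hk : (0 : ℝ) ≤ k := Nat.cast_nonneg k
  refine ⟨fun l => hh l + ι (G (l.map π)), hh1.add (hG1.map hπl hιl), fun l hl => ?_,
    fun l hl => ?_⟩
  · have := hG2.map (by positivity) hπn hιn l hl
    refine (norm_add_le _ _).trans ((add_le_add (hh2 l hl) this).trans (le_of_eq ?_))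
    ring
  · rw [dd_add]
    refine Eq.trans ?_ (hh3 l hl).symm
    congr 1
    have := dd_map π (ι : Al N →+ Al M) (map_mul π)
      (fun x a => by
        change ι (x * π a) = ι x * a
        rw [map_mul, h2, ← mul_assoc, ← hz.2, hzι])
      (fun x a => by
        change ι (π a * x) = a * ι x
        rw [map_mul, h2, hz.2, mul_assoc, hzι]) G l
    refine this.trans ?_
    change ι (dd G (l.map π)) = _
    rw [hG3 _ (by simpa using hl), h2, List.map_map]
    congr 3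
    funext a
    exact h2 a

/-- The norm of a sum over orthogonal central projections. -/
theorem norm_central_sum {ι : Type*} {z : ι → Al M} (hz : ∀ i, CP (z i))
    (ho : Pairwise fun i k => z i * z k = 0) (x : ι → Al M) {r : ℝ} (hr : 0 ≤ r)
    (hx : ∀ i, ‖x i‖ ≤ r) (s : Finset ι) : ‖∑ i ∈ s, z i * x i‖ ≤ r := by
  refine norm_le_of_ap _ hr fun ξ => ?_
  refine (pow_le_pow_iff_left₀ (norm_nonneg _) (by positivity) two_ne_zero).1 ?_
  have hJ : ∀ a : Al M, ‖J (fun _ : Unit => ξ) a‖ ^ 2 = ‖ap a ξ‖ ^ 2 := fun a => by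
    rw [norm_J_sq]; simp
  have h1 : ‖ap (∑ i ∈ s, z i * x i) ξ‖ ^ 2 = ∑ i ∈ s, ‖ap (z i * x i) ξ‖ ^ 2 := by
    have e : ∀ v : H, ‖v‖ ^ 2 = (⟪v, v⟫_ℂ).re := fun v => by
      rw [inner_self_eq_norm_sq_to_K]; norm_cast
    simp only [e]
    rw [← Complex.re_sum, ap_sum, sum_inner]
    congr 1
    refine Finset.sum_congr rfl fun i hi => ?_
    rw [inner_sum, Finset.sum_eq_single i]
    · intro k _ hk
      rw [inner_ap_left, ← ap_mul, star_mul, (hz i).star_eq, mul_assoc, ← mul_assoc (z i),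
        ho hk.symm, zero_mul, mul_zero, ap_zero, inner_zero_right]
    · intro h; exact absurd hi h
  have h2 := norm_J_finsum (fun _ : Unit => ξ) (fun i => (hz i).1) ho s
  simp only [hJ] at h2
  have h3 : ‖ap (∑ i ∈ s, z i) ξ‖ ≤ ‖ξ‖ := (norm_ap_le _ _).trans
    (mul_le_of_le_one_left (norm_nonneg _) (proj_norm_le (proj_finsum (fun i => (hz i).1) ho s)))
  rw [h1, mul_pow]
  calc _ ≤ ∑ i ∈ s, r ^ 2 * ‖ap (z i) ξ‖ ^ 2 := by
        refine Finset.sum_le_sum fun i _ => ?_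
        rw [(hz i).2, ap_mul, ← mul_pow]
        exact pow_le_pow_left₀ (norm_nonneg _) ((norm_ap_le _ _).trans (by gcongr; exact hx i)) 2
    _ ≤ _ := by rw [← Finset.mul_sum, ← h2]; gcongr

theorem cob_all {k : ℕ} {φ : List (Al M) → Al M} {c : ℝ} (hc : 0 ≤ c) (hML : ML (k + 1) φ)
    (hBd : Bd (k + 1) φ c) (hφ : Cocycle (k + 1) φ) : Cob k φ ((2 * k + 3) * c) := by
  obtain ⟨S, hS1, hS2, hS3⟩ := exists_maximal_pairwise
    (fun z : Al M => CP z ∧ z ≠ 0 ∧ Cob k (fun l => z * φ l) ((2 * k + 3) * c))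
    (fun z z' => z * z' = 0 ∧ z' * z = 0) (fun _ _ h => h.symm)
  have hz : ∀ i : S, CP (i : Al M) := fun i => (hS1 i i.2).1
  have ho : Pairwise fun i i' : S => (i : Al M) * i' = 0 := fun i i' hne =>
    (hS2 i.2 i'.2 fun h => hne (Subtype.ext h)).1
  obtain ⟨P, hP1, hP2, hP3⟩ := exists_sumProj (fun i : S => (i : Al M)) (fun i => (hz i).1) ho
  have hPc : CP P := ⟨hP1, fun a => (hP2.mul_right a).unique (by
    simpa only [(hz _).2] using hP2.mul_left a)⟩
  have hP : P = 1 := by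
    by_contra hne
    obtain ⟨z', hz1, hz2, hz3, hz4⟩ := trichotomy hPc.one_sub (sub_ne_zero.2 (Ne.symm hne))
    have hPz : P * z' = 0 := by rw [← hz3, ← mul_assoc, hP1.mul_one_sub_self, zero_mul]
    have hmem : z' ∈ S := hS3 z' ⟨hz1, hz2, cob_piece hz1 hz4 hc hML hBd hφ⟩ fun y hy => by
      have : z' * y = 0 := by
        have h5 : P * y = y := hP3 ⟨y, hy⟩
        rw [← h5, ← mul_assoc, ← hPc.2, hPz, zero_mul]
      exact ⟨this, by rw [← hz1.2, this]⟩
    exact hz2 (by rw [← hPz]; exact (hP3 ⟨z', hmem⟩).symm)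
  choose G hG1 hG2 hG3 using fun i : S => (hS1 i i.2).2.2
  have hk : (0 : ℝ) ≤ k := Nat.cast_nonneg k
  obtain ⟨G', h1, h2, h3⟩ := exists_lim_cochain (fU S) (k := k) (c := (2 * k + 3) * c)
    (fun s l => ∑ i ∈ s, (i : Al M) * G i l)
    (fun s => ML.sum s fun i _ => (hG1 i).comp (β := fun a => (i : Al M) * a)
      ⟨mul_add _, fun t a => mul_smul_comm t _ a⟩)
    (fun s l hl => norm_central_sum hz ho _ (mul_nonneg (by positivity) (nrm_nonneg l))
      (fun i => hG2 i l hl) s)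
  refine ⟨G', h1, h2, fun l hl => ?_⟩
  have h4 := WL.dd (l := l) fun l' hl' => h3 l' (by omega)
  have h5 := hP2.mul_right (φ l)
  rw [hP, one_mul] at h5
  refine h4.unique (WL.congr h5 fun s => ?_)
  rw [dd_sum]
  refine Finset.sum_congr rfl fun i _ => ?_
  rw [dd_mul_central (hz i).2, hG3 i l hl, ← mul_assoc, (hz i).mul_self]

end Crest.Agent.R121
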