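import Crest.Agent.R121.Alg

/-! # R121: support projections and sums of orthogonal families (task `Proj`) -/

set_option autoImplicit false
open Filter Topology
open scoped InnerProductSpace

namespace Crest.Agent.R121

universe u
variable {H : Type u} [NormedAddCommGroup H] [InnerProductSpace ℂ H] [CompleteSpace H]
variable {M : VonNeumannAlgebra H}

/-- Projection onto the closed span of a set of vectors invariant under the commutant. -/
theorem exists_proj_span (V : Set H) (hV : ∀ t ∈ M.commutant, ∀ v ∈ V, t v ∈ V) :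
    ∃ p : Al M, IsStarProjection p ∧ (∀ v ∈ V, ap p v = v) ∧
      ∀ y : Al M, (∀ v ∈ V, ap y v = 0) → y * p = 0 := by
  let K : Submodule ℂ H := (Submodule.span ℂ V).topologicalClosure
  have hle : ∀ (t : H →L[ℂ] H) (L : Submodule ℂ H), IsClosed (L : Set H) → (∀ v ∈ V, t v ∈ L) →
      ∀ v ∈ K, t v ∈ L := by
    intro t L hL h v hv
    have h1 : K ≤ L.comap (t : H →ₗ[ℂ] H) :=
      Submodule.topologicalClosure_minimal _ (Submodule.span_le.2 fun v hv => h v hv)
        (hL.preimage t.continuous)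
    exact h1 hv
  have hVK : ∀ v ∈ V, v ∈ K := fun v hv =>
    Submodule.le_topologicalClosure _ (Submodule.subset_span hv)
  have hp : IsStarProjection K.starProjection := isStarProjection_starProjection
  have hM : K.starProjection ∈ M := by
    rw [VonNeumannAlgebra.IsStarProjection.mem_iff hp]
    intro t ht
    rw [Submodule.range_starProjection, Module.End.mem_invtSubmodule]
    intro v hv
    exact hle t K (Submodule.isClosed_topologicalClosure _) (fun v hv => hVK _ (hV t ht v hv)) v hv
  refine ⟨⟨K.starProjection, hM⟩, ⟨Subtype.ext hp.isIdempotentElem.eq,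
    Subtype.ext hp.isSelfAdjoint.star_eq⟩,
    fun v hv => Submodule.starProjection_eq_self_iff.2 (hVK v hv), fun y hy => Al_ext fun ξ => ?_⟩
  exact hle y ⊥ (by simp) (fun v hv => hy v hv) _ (K.starProjection_apply_mem ξ)

/-- Left support of a set. Proof: let `K` be the closure of the span of `⋃_{x ∈ S} range x`, `p` its
orthogonal projection (`Submodule.starProjection`). `K` is invariant under the commutant, so
`p ∈ M` (`VonNeumannAlgebra.IsStarProjection.mem_iff`, or `mem_iff_comm`). If `y x = 0` for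
`x ∈ S` then `K ≤ ker y` (closed), so `y p = 0`. -/
theorem exists_range (S : Set (Al M)) : ∃ p : Al M, IsStarProjection p ∧ (∀ x ∈ S, p * x = x) ∧
    ∀ y : Al M, (∀ x ∈ S, y * x = 0) → y * p = 0 := by
  obtain ⟨p, hp, h1, h2⟩ := exists_proj_span (M := M) {v | ∃ x ∈ S, ∃ ξ, ap x ξ = v} (by
    rintro t ht _ ⟨x, hx, ξ, rfl⟩
    exact ⟨x, hx, t ξ, (congrArg (fun S : H →L[ℂ] H => S ξ) (comm_of_mem x ht)).symm⟩)
  refine ⟨p, hp, fun x hx => Al_ext fun ξ => h1 _ ⟨x, hx, ξ, rfl⟩, fun y hy => h2 y ?_⟩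
  rintro _ ⟨x, hx, ξ, rfl⟩
  rw [← ap_mul, hy x hx, ap_zero]

/-- Central support. Proof: `z` = left support of `{a e}`. For any `a`, `(1 - z) a` kills the set,
so `(1 - z) a z = 0`, i.e. `a z = z a z`; taking adjoints `z a = z a z`. -/
theorem exists_csupp (e : Al M) : ∃ z : Al M, CP z ∧ z * e = e ∧
    ∀ y : Al M, (∀ a : Al M, y * a * e = 0) → y * z = 0 := by
  obtain ⟨z, hz, h1, h2⟩ := exists_range (Set.range fun a : Al M => a * e)
  have h3 : ∀ a : Al M, a * z = z * a * z := fun a => by
    have := h2 ((1 - z) * a) (by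
      rintro _ ⟨b, rfl⟩
      have := h1 _ ⟨a * b, rfl⟩
      simp only [mul_assoc] at this
      simp only [sub_mul, one_mul, mul_assoc, this, sub_self])
    rw [sub_mul, one_mul, sub_mul, sub_eq_zero] at this
    exact this
  refine ⟨z, ⟨hz, fun a => ?_⟩, by simpa using h1 _ ⟨1, rfl⟩, fun y hy => h2 y ?_⟩
  · have := congrArg star (h3 (star a))
    simp only [star_mul, star_star, proj_star hz, ← mul_assoc] at this
    rw [this, ← h3]
  · rintro _ ⟨a, rfl⟩
    rw [← mul_assoc, hy]

/-- Support of a vector state. Proof: `e` = projection onto the closure of `M' ξ` (a subspace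
invariant under `M'`). If `x ξ = 0` then `x t ξ = t x ξ = 0` for `t ∈ M'` (`comm_of_mem`), so
`x e = 0`. -/
theorem exists_vsupp (ξ : H) : ∃ e : Al M, IsStarProjection e ∧ ap e ξ = ξ ∧
    ∀ x : Al M, ap x ξ = 0 → x * e = 0 := by
  obtain ⟨p, hp, h1, h2⟩ := exists_proj_span (M := M) {v | ∃ t ∈ M.commutant, t ξ = v} (by
    rintro t ht _ ⟨s, hs, rfl⟩
    exact ⟨t * s, mul_mem ht hs, rfl⟩)
  refine ⟨p, hp, h1 ξ ⟨1, one_mem _, rfl⟩, fun x hx => h2 x ?_⟩
  rintro _ ⟨t, ht, rfl⟩
  have := congrArg (fun S : H →L[ℂ] H => S ξ) (comm_of_mem x ht)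
  change t (ap x ξ) = ap x (t ξ) at this
  rw [← this, hx, map_zero]

section Sum
variable {ι : Type*}

theorem IsSum.mul_left {p : ι → Al M} {P : Al M} (h : IsSum p P) (a : Al M) :
    IsSum (fun i => a * p i) (a * P) := by
  exact (WL.mul_left a h).congr fun s => Finset.mul_sum _ _ _

theorem IsSum.mul_right {p : ι → Al M} {P : Al M} (h : IsSum p P) (a : Al M) :
    IsSum (fun i => p i * a) (P * a) := by
  exact (WL.mul_right a h).congr fun s => Finset.sum_mul _ _ _

theorem IsSum.star {p : ι → Al M} {P : Al M} (h : IsSum p P) :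
    IsSum (fun i => star (p i)) (star P) := by
  exact (WL.star h).congr fun s => star_sum _ _

theorem IsSum.add {p q : ι → Al M} {P Q : Al M} (h : IsSum p P) (h' : IsSum q Q) :
    IsSum (fun i => p i + q i) (P + Q) := by
  exact (WL.add h h').congr fun s => Finset.sum_add_distrib.symm

theorem IsSum.unique {p : ι → Al M} {P Q : Al M} (h : IsSum p P) (h' : IsSum p Q) : P = Q := by
  exact WL.unique h h'

theorem IsSum.eq_zero {p : ι → Al M} {P : Al M} (h : IsSum p P) (h0 : ∀ i, p i = 0) : P = 0 := by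
  exact WL.eq_of_eventually h (Eventually.of_forall fun s => Finset.sum_eq_zero fun i _ => h0 i)

/-- Only one nonzero term (use `fU_mem`, `WL.eq_of_eventually`). -/
theorem IsSum.eq_single {p : ι → Al M} {P : Al M} (h : IsSum p P) (i : ι)
    (h0 : ∀ k, k ≠ i → p k = 0) : P = p i := by
  exact WL.eq_of_eventually h ((fU_mem i).mono fun s hs =>
    Finset.sum_eq_single_of_mem i hs fun k _ hk => h0 k hk)

theorem IsSum.eq_sum [Fintype ι] {p : ι → Al M} {P : Al M} (h : IsSum p P) : P = ∑ i, p i := by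
  exact WL.eq_of_eventually h ((fU_sub Finset.univ).mono fun s hs => by
    rw [Finset.univ_subset_iff.1 hs])

theorem IsSum.mul_eq_zero {p : ι → Al M} {P : Al M} (h : IsSum p P) {y : Al M}
    (h0 : ∀ i, y * p i = 0) : y * P = 0 := (h.mul_left y).eq_zero h0

theorem IsSum.mul_eq {p : ι → Al M} {P : Al M} (h : IsSum p P) {y : Al M}
    (h0 : ∀ i, y * p i = p i) : y * P = P :=
  (h.mul_left y).unique (by simpa only [h0] using h)

theorem IsSum.eq_zero_mul {p : ι → Al M} {P : Al M} (h : IsSum p P) {y : Al M}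
    (h0 : ∀ i, p i * y = 0) : P * y = 0 := (h.mul_right y).eq_zero h0

theorem IsSum.eq_mul {p : ι → Al M} {P : Al M} (h : IsSum p P) {y : Al M}
    (h0 : ∀ i, p i * y = p i) : P * y = P :=
  (h.mul_right y).unique (by simpa only [h0] using h)

/-- A finite sum of orthogonal projections is a projection. -/
theorem proj_finsum {A : Type*} [Ring A] [StarRing A] {p : ι → A}
    (hp : ∀ i, IsStarProjection (p i)) (ho : Pairwise fun i k => p i * p k = 0) (s : Finset ι) :
    IsStarProjection (∑ i ∈ s, p i) := by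
  refine ⟨?_, ?_⟩
  · rw [IsIdempotentElem, Finset.sum_mul_sum]
    refine Finset.sum_congr rfl fun i hi => ?_
    rw [Finset.sum_eq_single_of_mem i hi fun k _ hk => ho hk.symm, proj_mul_self (hp i)]
  · rw [IsSelfAdjoint, star_sum]
    exact Finset.sum_congr rfl fun i _ => proj_star (hp i)

/-- A finite sum of partial isometries with orthogonal initial and final projections. -/
theorem PI_finsum {A : Type*} [Ring A] [StarRing A] {u : ι → A} (hu : ∀ i, PI (u i))
    (h1 : Pairwise fun i k => star (u i) * u k = 0) (h2 : Pairwise fun i k => u i * star (u k) = 0)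
    (s : Finset ι) : PI (∑ i ∈ s, u i) ∧
      star (∑ i ∈ s, u i) * (∑ i ∈ s, u i) = ∑ i ∈ s, star (u i) * u i ∧
      (∑ i ∈ s, u i) * star (∑ i ∈ s, u i) = ∑ i ∈ s, u i * star (u i) := by
  have e1 : star (∑ i ∈ s, u i) * (∑ i ∈ s, u i) = ∑ i ∈ s, star (u i) * u i := by
    rw [star_sum, Finset.sum_mul_sum]
    exact Finset.sum_congr rfl fun i hi =>
      Finset.sum_eq_single_of_mem i hi fun k _ hk => h1 hk.symm
  have e2 : (∑ i ∈ s, u i) * star (∑ i ∈ s, u i) = ∑ i ∈ s, u i * star (u i) := by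
    rw [star_sum, Finset.sum_mul_sum]
    exact Finset.sum_congr rfl fun i hi =>
      Finset.sum_eq_single_of_mem i hi fun k _ hk => h2 hk.symm
  refine ⟨?_, e1, e2⟩
  rw [PI, e2, Finset.sum_mul_sum]
  refine Finset.sum_congr rfl fun i hi => ?_
  rw [Finset.sum_eq_single_of_mem i hi fun k _ hk => by rw [mul_assoc, h1 hk.symm, mul_zero],
    (hu i).fin_mul]

/-- Sum of an orthogonal family of projections. Proof: partial sums are projections
(`proj_finsum`, norm `≤ 1`), `P` = weak limit (`exists_WL`). `P p_i = p_i` by `IsSum.eq_single`,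
hence `P P = P` (`IsSum.mul_eq`); `star P = P` by `IsSum.star` and uniqueness. -/
theorem exists_sumProj (p : ι → Al M) (hp : ∀ i, IsStarProjection (p i))
    (ho : Pairwise fun i k => p i * p k = 0) :
    ∃ P : Al M, IsStarProjection P ∧ IsSum p P ∧ ∀ i, P * p i = p i := by
  obtain ⟨P, hP⟩ := exists_WL (fU ι) (fun s => ∑ i ∈ s, p i) 1
    (Eventually.of_forall fun s => proj_norm_le (proj_finsum hp ho s))
  have hP : IsSum p P := hP
  have h1 : ∀ i, P * p i = p i := fun i => by
    rw [(hP.mul_right (p i)).eq_single i fun k hk => ho hk, proj_mul_self (hp i)]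
  refine ⟨P, ⟨hP.mul_eq h1, ?_⟩, hP, h1⟩
  exact hP.star.unique (by simpa only [proj_star (hp _)] using hP)

/-- Sum of partial isometries with orthogonal initial and orthogonal final projections.
Proof: `w` = weak limit of the partial sums (`PI_finsum`, norm `≤ 1`). Let `P = ∑ u_i* u_i`
(`exists_sumProj`). `u_i* w = u_i* u_i` (`eq_single`), `w u_i* u_i = u_i`, so
`w* w (u_i* u_i) = w* u_i = u_i* u_i`, thus `w* w P = P`; `w P = w` since `u_i P = u_i`. So
`w* w = P`. Same for `w w*` (apply to the adjoints). -/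
theorem exists_sumPI (u : ι → Al M) (hu : ∀ i, PI (u i))
    (h1 : Pairwise fun i k => star (u i) * u k = 0) (h2 : Pairwise fun i k => u i * star (u k) = 0) :
    ∃ w : Al M, PI w ∧ IsSum u w ∧ IsSum (fun i => star (u i) * u i) (star w * w) ∧
      IsSum (fun i => u i * star (u i)) (w * star w) := by
  have key : ∀ (u : ι → Al M) (w : Al M), (∀ i, PI (u i)) →
      (Pairwise fun i k => star (u i) * u k = 0) → (Pairwise fun i k => u i * star (u k) = 0) →
      IsSum u w → IsSum (fun i => star (u i) * u i) (star w * w) ∧ w * (star w * w) = w := by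
    intro u w hu h1 h2 hw
    obtain ⟨P, hP, hs, hPi⟩ := exists_sumProj (fun i => star (u i) * u i) (fun i => (hu i).init)
      fun i k hik => by
        change star (u i) * u i * (star (u k) * u k) = 0
        rw [mul_assoc, ← mul_assoc (u i), h2 hik, zero_mul, mul_zero]
    have a1 : ∀ i, star w * u i = star (u i) * u i := fun i =>
      (hw.star.mul_right (u i)).eq_single i fun k hk => h1 hk
    have a2 : ∀ i, w * (star (u i) * u i) = u i := fun i => by
      rw [(hw.mul_right _).eq_single i fun k hk => by rw [← mul_assoc, h2 hk, zero_mul],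
        (hu i).mul_init]
    have a3 : star w * w * P = P := hs.mul_eq fun i => by rw [mul_assoc, a2, a1]
    have a4 : w * P = w := hw.eq_mul fun i => by
      have := proj_le_comm hP (hu i).init (hPi i)
      rw [← (hu i).mul_init, mul_assoc, this]
    have a5 : star w * w = P := by rw [← a3, mul_assoc, a4]
    rw [a5]
    exact ⟨hs, a4⟩
  obtain ⟨w, hw⟩ := exists_WL (fU ι) (fun s => ∑ i ∈ s, u i) 1
    (Eventually.of_forall fun s => (PI_finsum hu h1 h2 s).1.norm_le)
  have hw : IsSum u w := hw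
  obtain ⟨b1, b2⟩ := key u w hu h1 h2 hw
  obtain ⟨b3, -⟩ := key (fun i => star (u i)) (star w) (fun i => (hu i).star')
    (by simpa only [star_star] using h2) (by simpa only [star_star] using h1) hw.star
  refine ⟨w, by rw [PI, mul_assoc, b2], hw, b1, by simpa only [star_star] using b3⟩

/-- Pythagoras and normality for `J`: for an orthogonal family of projections with sum `P`,
`‖J ξ P‖² ≤ r` as soon as all finite sums `∑ ‖J ξ p_i‖²` are `≤ r` (`WL.norm_J_le`), and every
finite sum is `≤ ‖J ξ P‖²`. -/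
theorem norm_J_finsum {κ : Type*} [Fintype κ] (ξ : κ → H) {p : ι → Al M}
    (hp : ∀ i, IsStarProjection (p i)) (ho : Pairwise fun i k => p i * p k = 0) (s : Finset ι) :
    ‖J ξ (∑ i ∈ s, p i)‖ ^ 2 = ∑ i ∈ s, ‖J ξ (p i)‖ ^ 2 := by
  have h1 : ∀ q : Al M, IsStarProjection q → ‖J ξ q‖ ^ 2 = (⟪J ξ (1 : Al M), J ξ q⟫_ℂ).re := by
    intro q hq
    have := J_adj ξ q 1 q
    rw [mul_one, proj_star hq, proj_mul_self hq] at this
    rw [← this, inner_self_eq_norm_sq_to_K]
    norm_cast
  rw [h1 _ (proj_finsum hp ho s), map_sum, inner_sum, Complex.re_sum]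
  exact Finset.sum_congr rfl fun i _ => (h1 _ (hp i)).symm

theorem IsSum.norm_J_le {κ : Type*} [Fintype κ] (ξ : κ → H) {p : ι → Al M} {P : Al M}
    (hp : ∀ i, IsStarProjection (p i)) (ho : Pairwise fun i k => p i * p k = 0) (h : IsSum p P)
    {r : ℝ} (hr : ∀ s : Finset ι, ∑ i ∈ s, ‖J ξ (p i)‖ ^ 2 ≤ r) : ‖J ξ P‖ ^ 2 ≤ r := by
  have hr0 : 0 ≤ r := by simpa using hr ∅
  have := WL.norm_J_le h ξ (r := √r) (Eventually.of_forall fun s =>
    Real.le_sqrt_of_sq_le (by rw [norm_J_finsum ξ hp ho]; exact hr s))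
  exact (Real.le_sqrt (norm_nonneg _) hr0).1 this

end Sum

end Crest.Agent.R121
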