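import Crest.Agent.R121.Walk

/-! # R121: random diagonal unitaries and the return estimate (task `Ret`) -/

set_option autoImplicit false
set_option linter.unusedSectionVars false
open scoped InnerProductSpace

namespace Crest.Agent.R121

/-- Almost orthogonality of homogeneous terms. Proof: expand `‖∑_J z_J‖² = ∑_{J,J'} Re ⟪z_J, z_J'⟫`.
If some cell `c` lies in the range of `mon J'` but not of `mon J` then `T = ∑_s ⟪z_J s, z_J' s⟫`
satisfies `T = ζ^m T` with `1 ≤ m ≤ d` (reindex by the permutation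
`s ↦ update s c (τ (s c))` of the states), so `T = 0`; symmetrically with `J, J'` exchanged. For the
remaining pairs `|⟪z_J, z_J'⟫| ≤ (‖z_J‖² + ‖z_J'‖²)/2`, and for fixed `J` there are at most `d^d`
indices `J'` with `range (mon J') ⊆ range (mon J)` (`mon J' ∈ Fintype.piFinset fun _ => image (mon J) univ`). -/
theorem orth_bound {Cell S I E : Type*} [Fintype Cell] [DecidableEq Cell] [Fintype S] [Fintype I]
    [NormedAddCommGroup E] [InnerProductSpace ℂ E] (τ : S ≃ S) (ζ : ℂ) {d : ℕ}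
    (hζ : ∀ m, 1 ≤ m → m ≤ d → ζ ^ m ≠ 1) (mon : I → Fin d → Cell) (hmon : Function.Injective mon)
    (z : I → (Cell → S) → E)
    (hz : ∀ J s c, z J (Function.update s c (τ (s c))) =
      ζ ^ (Finset.univ.filter fun t => mon J t = c).card • z J s) :
    ∑ s, ‖∑ J, z J s‖ ^ 2 ≤ (d : ℝ) ^ d * ∑ s, ∑ J, ‖z J s‖ ^ 2 := by
  classical
  set R : I → Finset Cell := fun J => Finset.univ.image (mon J) with hR
  have hA : ∀ J J', ¬ R J' ⊆ R J → ∑ s, ⟪z J s, z J' s⟫_ℂ = 0 := by
    intro J J' hJ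
    obtain ⟨c, hc', hc⟩ := Finset.not_subset.1 hJ
    let σ : (Cell → S) ≃ (Cell → S) :=
      { toFun := fun s => Function.update s c (τ (s c))
        invFun := fun s => Function.update s c (τ.symm (s c))
        left_inv := fun s => by simp
        right_inv := fun s => by simp }
    have h0 : (Finset.univ.filter fun t => mon J t = c).card = 0 := by
      rw [Finset.card_eq_zero, Finset.filter_eq_empty_iff]
      intro t _ ht
      exact hc (Finset.mem_image.2 ⟨t, Finset.mem_univ _, ht⟩)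
    set m := (Finset.univ.filter fun t => mon J' t = c).card with hm
    have hm1 : 1 ≤ m := by
      obtain ⟨t, -, ht⟩ := Finset.mem_image.1 hc'
      exact Finset.card_pos.2 ⟨t, Finset.mem_filter.2 ⟨Finset.mem_univ _, ht⟩⟩
    have hmd : m ≤ d := (Finset.card_filter_le _ _).trans (by simp)
    have hT : ∑ s, ⟪z J s, z J' s⟫_ℂ = ζ ^ m * ∑ s, ⟪z J s, z J' s⟫_ℂ := by
      conv_lhs => rw [← σ.sum_comp]
      rw [Finset.mul_sum]
      refine Finset.sum_congr rfl fun s _ => ?_
      change ⟪z J (Function.update s c (τ (s c))), z J' (Function.update s c (τ (s c)))⟫_ℂ = _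
      rw [hz, hz, h0, pow_zero, one_smul, inner_smul_right]
    have : (ζ ^ m - 1) * ∑ s, ⟪z J s, z J' s⟫_ℂ = 0 := by rw [sub_mul, ← hT, one_mul, sub_self]
    exact (mul_eq_zero.1 this).resolve_left (sub_ne_zero.2 (hζ m hm1 hmd))
  set a : I → ℝ := fun J => ∑ s, ‖z J s‖ ^ 2 with ha
  have ha0 : ∀ J, 0 ≤ a J := fun J => Finset.sum_nonneg fun s _ => by positivity
  have hB : ∀ J J', (∑ s, ⟪z J s, z J' s⟫_ℂ).re ≤
      (if R J' ⊆ R J then a J else 0) / 2 + (if R J ⊆ R J' then a J' else 0) / 2 := by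
    intro J J'
    by_cases h1 : R J' ⊆ R J
    · by_cases h2 : R J ⊆ R J'
      · rw [if_pos h1, if_pos h2, Complex.re_sum, ha]
        simp only [Finset.sum_div]
        rw [← Finset.sum_add_distrib]
        refine Finset.sum_le_sum fun s _ => ?_
        have h3 : (⟪z J s, z J' s⟫_ℂ).re ≤ ‖z J s‖ * ‖z J' s‖ :=
          (Complex.re_le_norm _).trans (norm_inner_le_norm _ _)
        nlinarith [sq_nonneg (‖z J s‖ - ‖z J' s‖)]
      · have h3 := hA J' J h2
        have h4 : ∑ s, ⟪z J s, z J' s⟫_ℂ = 0 := by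
          have := congrArg (starRingEnd ℂ) h3
          simpa only [map_sum, inner_conj_symm, map_zero] using this
        rw [h4, if_pos h1, if_neg h2]
        have := ha0 J
        simp only [Complex.zero_re]; linarith
    · rw [hA J J' h1, if_neg h1]
      have := ha0 J'
      simp only [Complex.zero_re]
      split_ifs <;> linarith
  have hC : ∀ J, ∑ J', (if R J' ⊆ R J then a J else 0) ≤ (d : ℝ) ^ d * a J := by
    intro J
    rw [← Finset.sum_filter, Finset.sum_const, nsmul_eq_mul]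
    refine mul_le_mul_of_nonneg_right ?_ (ha0 J)
    have h1 : (Finset.univ.filter fun J' => R J' ⊆ R J).card ≤
        (Fintype.piFinset fun _ : Fin d => R J).card := by
      refine Finset.card_le_card_of_injOn mon (fun J' hJ' => ?_) hmon.injOn
      simp only [Finset.coe_filter, Finset.mem_univ, true_and, Set.mem_ofPred_eq] at hJ'
      simp only [Finset.mem_coe, Fintype.mem_piFinset]
      exact fun t => hJ' (Finset.mem_image.2 ⟨t, Finset.mem_univ _, rfl⟩)
    have h2 : (R J).card ≤ d := Finset.card_image_le.trans (by simp)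
    rw [Fintype.card_piFinset, Finset.prod_const, Finset.card_univ, Fintype.card_fin] at h1
    exact_mod_cast h1.trans (Nat.pow_le_pow_left h2 d)
  have hD : ∑ s, ‖∑ J, z J s‖ ^ 2 = ∑ J, ∑ J', (∑ s, ⟪z J s, z J' s⟫_ℂ).re := by
    have : ∀ s, ‖∑ J, z J s‖ ^ 2 = ∑ J, ∑ J', (⟪z J s, z J' s⟫_ℂ).re := by
      intro s
      have e1 : (‖∑ J, z J s‖ ^ 2 : ℝ) = (⟪∑ J, z J s, ∑ J, z J s⟫_ℂ).re := by
        rw [inner_self_eq_norm_sq_to_K]; norm_cast
      rw [e1, sum_inner]
      simp only [inner_sum, Complex.re_sum]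
    simp only [this, Complex.re_sum]
    rw [Finset.sum_comm]
    exact Finset.sum_congr rfl fun J _ => Finset.sum_comm
  rw [hD, Finset.sum_comm (s := Finset.univ) (t := Finset.univ) (f := fun s J => ‖z J s‖ ^ 2)]
  calc ∑ J, ∑ J', (∑ s, ⟪z J s, z J' s⟫_ℂ).re
      ≤ ∑ J, ∑ J', ((if R J' ⊆ R J then a J else 0) / 2 + (if R J ⊆ R J' then a J' else 0) / 2) :=
        Finset.sum_le_sum fun J _ => Finset.sum_le_sum fun J' _ => hB J J'
    _ = ∑ J, ∑ J', (if R J' ⊆ R J then a J else 0) := by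
        simp only [Finset.sum_add_distrib, ← Finset.sum_div]
        rw [Finset.sum_comm (f := fun J J' => if R J ⊆ R J' then a J' else 0)]
        ring
    _ ≤ ∑ J, (d : ℝ) ^ d * a J := Finset.sum_le_sum fun J _ => hC J
    _ = _ := by rw [← Finset.mul_sum]

variable {A E : Type*} [CStarAlgebra A] [NormedAddCommGroup E] [InnerProductSpace ℂ E]
variable {ι S : Type} [Fintype ι] [DecidableEq ι] [Fintype S] [Nonempty S]

/-- Random diagonal unitary `D_ℓ = ∑_i e_i Y (s (ℓ, i))`. -/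
def Dg (w : ι → A) (Y : S → A) (s : Bool × ι → S) (ℓ : Bool) : A :=
  ∑ i, w i * star (w i) * Y (s (ℓ, i))

/-- The word `x₁ D_{ℓ₁} x₂ D_{ℓ₂} ⋯`. -/
def Wd (w : ι → A) (Y : S → A) (L : List (A × Bool)) (s : Bool × ι → S) : A :=
  (L.map fun st => st.1 * Dg w Y s st.2).prod

/-- The standing assumptions on the random unitary `Y`. -/
structure Setup (j : A →ₗ[ℂ] E) (C : ℝ) (w : ι → A) (e : A) (Y : S → A) (d : ℕ) : Prop where
  qt : QT j C
  mu : MU w e 1
  unit : ∀ s, Y s ∈ unitary A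
  comm : ∀ i s, w i * star (w i) * Y s = Y s * (w i * star (w i))
  phase : ∃ (τ : S ≃ S) (ζ : ℂ), ‖ζ‖ = 1 ∧ (∀ m, 1 ≤ m → m ≤ d → ζ ^ m ≠ 1) ∧
    ∀ s, Y (τ s) = ζ • Y s

variable {j : A →ₗ[ℂ] E} {C : ℝ} {w : ι → A} {e : A} {Y : S → A} {d : ℕ}

theorem Wd_nil (s : Bool × ι → S) : Wd w Y [] s = 1 := rfl
theorem Wd_cons (x : A) (ℓ : Bool) (L : List (A × Bool)) (s : Bool × ι → S) :
    Wd w Y ((x, ℓ) :: L) s = x * Dg w Y s ℓ * Wd w Y L s := rfl
theorem Wd_append (L L' : List (A × Bool)) (s : Bool × ι → S) :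
    Wd w Y (L ++ L') s = Wd w Y L s * Wd w Y L' s := by simp [Wd]

theorem Setup.e_mul_Dg (h : Setup j C w e Y d) (s : Bool × ι → S) (ℓ : Bool) (i : ι) :
    w i * star (w i) * Dg w Y s ℓ = w i * star (w i) * Y (s (ℓ, i)) := by
  rw [Dg, Finset.mul_sum, Finset.sum_eq_single i]
  · rw [← mul_assoc, h.mu.mul, if_pos rfl]
  · intro k _ hk
    rw [← mul_assoc, h.mu.mul, if_neg hk.symm, zero_mul]
  · simp

theorem Setup.Dg_mul_e (h : Setup j C w e Y d) (s : Bool × ι → S) (ℓ : Bool) (i : ι) :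
    Dg w Y s ℓ * (w i * star (w i)) = w i * star (w i) * Y (s (ℓ, i)) := by
  rw [Dg, Finset.sum_mul, Finset.sum_eq_single i]
  · rw [mul_assoc, ← h.comm, ← mul_assoc, h.mu.mul, if_pos rfl]
  · intro k _ hk
    rw [mul_assoc, ← h.comm, ← mul_assoc, h.mu.mul, if_neg hk, zero_mul]
  · simp

theorem star_e (w : ι → A) (i : ι) : star (w i * star (w i)) = w i * star (w i) := by
  rw [star_mul, star_star]

theorem Setup.comm' (h : Setup j C w e Y d) (i : ι) (s : S) :
    w i * star (w i) * star (Y s) = star (Y s) * (w i * star (w i)) := by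
  have := congrArg star (h.comm i s)
  rw [star_mul (w i * star (w i)), star_mul (Y s), star_e] at this
  exact this.symm

theorem Setup.Dg_mem (h : Setup j C w e Y d) (s : Bool × ι → S) (ℓ : Bool) :
    Dg w Y s ℓ ∈ unitary A := by
  have hs : star (Dg w Y s ℓ) = ∑ i, star (Y (s (ℓ, i))) * (w i * star (w i)) := by
    rw [Dg, star_sum]
    exact Finset.sum_congr rfl fun i _ => by rw [star_mul (w i * star (w i)), star_e]
  constructor
  · rw [hs, Finset.sum_mul, ← h.mu.sum]
    refine Finset.sum_congr rfl fun i _ => ?_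
    rw [mul_assoc, h.e_mul_Dg, h.comm, ← mul_assoc, Unitary.star_mul_self_of_mem (h.unit _), one_mul]
  · rw [hs, Finset.mul_sum, ← h.mu.sum]
    refine Finset.sum_congr rfl fun i _ => ?_
    rw [← h.comm', ← mul_assoc, h.Dg_mul_e, mul_assoc, Unitary.mul_star_self_of_mem (h.unit _),
      mul_one]

theorem Setup.Wd_mem (h : Setup j C w e Y d) {L : List (A × Bool)}
    (hL : ∀ st ∈ L, st.1 ∈ unitary A) (s : Bool × ι → S) : Wd w Y L s ∈ unitary A := by
  induction L with
  | nil => exact one_mem _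
  | cons st L ih =>
    obtain ⟨x, ℓ⟩ := st
    rw [Wd_cons]
    exact mul_mem (mul_mem (hL _ List.mem_cons_self) (h.Dg_mem s ℓ))
      (ih fun st hst => hL st (List.mem_cons_of_mem _ hst))

theorem Setup.expand_aux (h : Setup j C w e Y d) (τ : S ≃ S) (ζ : ℂ)
    (hτ : ∀ s, Y (τ s) = ζ • Y s) (L : List (A × Bool)) (hL : ∀ st ∈ L, st.1 ∈ unitary A) :
    ∃ (I : Type) (_ : Fintype I) (mon : I → Fin L.length → Bool × ι) (z : I → (Bool × ι → S) → A),
      Function.Injective mon ∧ (∀ s, Wd w Y L s = ∑ J, z J s) ∧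
      (∀ J s c, z J (Function.update s c (τ (s c))) =
        ζ ^ (Finset.univ.filter fun t => mon J t = c).card • z J s) ∧
      (∀ s a, ∑ J, ‖j (z J s * a)‖ ^ 2 ≤ ‖j a‖ ^ 2) ∧
      (∀ s a, ∑ J, ‖j (star (z J s) * a)‖ ^ 2 ≤ ‖j a‖ ^ 2) ∧
      (∀ x ℓ L', L = (x, ℓ) :: L' → ∀ J, ∃ p, ∀ s,
        x * (w p * star (w p)) * star x * z J s = z J s) ∧
      (L ≠ [] → ∀ J, ∃ q, ∀ s, z J s * (w q * star (w q)) = z J s) ∧
      (L = [] → ∀ J s, z J s = 1) := by
  induction L with
  | nil =>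
    refine ⟨Unit, inferInstance, fun _ t => t.elim0, fun _ _ => 1, fun _ _ _ => rfl, ?_, ?_, ?_, ?_,
      ?_, ?_, ?_⟩
    · intro s; simp [Wd_nil]
    · intro J s c; simp
    · intro s a; simp
    · intro s a; simp
    · intro x ℓ L' hh; cases hh
    · intro hh; exact absurd rfl hh
    · intro _ _ _; rfl
  | cons st L ih =>
    obtain ⟨x, ℓ⟩ := st
    have hx : x ∈ unitary A := hL _ List.mem_cons_self
    obtain ⟨I, hI, mon, z, h1, h2, h3, h4, h5, -, h7, h8⟩ :=
      ih fun st hst => hL st (List.mem_cons_of_mem _ hst)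
    have hee : ∀ p, w p * star (w p) * (w p * star (w p)) = w p * star (w p) := fun p => by
      rw [h.mu.mul, if_pos rfl]
    refine ⟨ι × I, inferInstance,
      fun pJ => (Fin.cons (ℓ, pJ.1) (mon pJ.2) : Fin (L.length + 1) → Bool × ι),
      fun pJ s => x * (w pJ.1 * star (w pJ.1) * Y (s (ℓ, pJ.1))) * z pJ.2 s,
      ?_, ?_, ?_, ?_, ?_, ?_, ?_, ?_⟩
    · rintro ⟨p, J⟩ ⟨p', J'⟩ hh
      have hh' := Fin.cons_injective2 (α := fun _ : Fin (L.length + 1) => Bool × ι) hh
      exact Prod.ext (Prod.ext_iff.1 hh'.1).2 (h1 hh'.2)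
    · intro s
      rw [Wd_cons, h2, Dg, Fintype.sum_prod_type, Finset.mul_sum _ _ x, Finset.sum_mul]
      exact Finset.sum_congr rfl fun p _ => by rw [Finset.mul_sum]
    · rintro ⟨p, J⟩ s c
      have hc : (Finset.univ.filter fun t : Fin (L.length + 1) =>
          (Fin.cons (ℓ, p) (mon J) : Fin (L.length + 1) → Bool × ι) t = c).card =
          (if (ℓ, p) = c then 1 else 0) + (Finset.univ.filter fun t => mon J t = c).card := by
        rw [Finset.card_filter, Finset.card_filter, Fin.sum_univ_succ]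
        simp only [Fin.cons_zero, Fin.cons_succ]
      change x * (w p * star (w p) * Y (Function.update s c (τ (s c)) (ℓ, p))) *
        z J (Function.update s c (τ (s c))) = ζ ^ (Finset.univ.filter fun t : Fin (L.length + 1) =>
          (Fin.cons (ℓ, p) (mon J) : Fin (L.length + 1) → Bool × ι) t = c).card •
          (x * (w p * star (w p) * Y (s (ℓ, p))) * z J s)
      rw [hc, h3]
      by_cases hpc : (ℓ, p) = c
      · subst hpc
        rw [if_pos rfl, Function.update_self, hτ, pow_add, pow_one]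
        simp only [mul_smul_comm, smul_mul_assoc, smul_smul, mul_comm ζ]
      · rw [if_neg hpc, Function.update_of_ne hpc, zero_add, mul_smul_comm]
    · intro s a
      rw [Fintype.sum_prod_type, Finset.sum_comm]
      refine le_trans (le_of_eq (Finset.sum_congr rfl fun J _ => ?_)) (h4 s a)
      rw [← h.qt.sum_sq h.mu (z J s * a)]
      refine Finset.sum_congr rfl fun p _ => ?_
      simp only
      rw [h.comm, mul_assoc, mul_assoc, h.qt.norm_unitary hx, mul_assoc,
        h.qt.norm_unitary (h.unit _)]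
    · intro s a
      rw [Fintype.sum_prod_type, ← h.qt.norm_unitary (Unitary.star_mem hx) a,
        ← h.qt.sum_sq h.mu (star x * a)]
      refine Finset.sum_le_sum fun p _ => ?_
      rw [← h.qt.norm_unitary (Unitary.star_mem (h.unit (s (ℓ, p))))]
      refine le_trans (le_of_eq (Finset.sum_congr rfl fun J _ => ?_)) (h5 s _)
      simp only
      rw [star_mul, star_mul x, star_mul (w p * star (w p)), star_e]
      simp only [mul_assoc]
    · intro x' ℓ' L' hh J
      obtain ⟨⟨rfl, rfl⟩, rfl⟩ := List.cons.inj hh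
      refine ⟨J.1, fun s => ?_⟩
      simp only
      rw [← mul_assoc, ← mul_assoc, mul_assoc _ (star x), Unitary.star_mul_self_of_mem hx, mul_one,
        mul_assoc x, ← mul_assoc (w J.1 * star (w J.1)), hee]
    · intro _ J
      by_cases hL0 : L = []
      · refine ⟨J.1, fun s => ?_⟩
        simp only
        rw [h8 hL0, mul_one, mul_assoc x, h.comm, mul_assoc (Y _), hee]
      · obtain ⟨q, hq⟩ := h7 hL0 J.2
        exact ⟨q, fun s => by simp only; rw [mul_assoc, hq]⟩
    · intro hh; cases hh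

/-- Path expansion. Proof: induction on `L`; for `(x, ℓ) :: L` take `I' = ι × I`,
`z' (p, J) s = x e_p Y (s (ℓ, p)) z J s`, `mon' (p, J) = Fin.cons (ℓ, p) (mon J)`. Norms: `QT.norm_unitary`,
`Setup.comm`, `QT.sum_sq`. (For `L = []`: `I = Unit`, `z = 1`. In the last clause, for the step from
`L = []` use `e_p Y e_p = e_p Y`.) -/
theorem Setup.expand (h : Setup j C w e Y d) (τ : S ≃ S) (ζ : ℂ) (hτ : ∀ s, Y (τ s) = ζ • Y s)
    (L : List (A × Bool)) (hL : ∀ st ∈ L, st.1 ∈ unitary A) :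
    ∃ (I : Type) (_ : Fintype I) (mon : I → Fin L.length → Bool × ι) (z : I → (Bool × ι → S) → A),
      Function.Injective mon ∧ (∀ s, Wd w Y L s = ∑ J, z J s) ∧
      (∀ J s c, z J (Function.update s c (τ (s c))) =
        ζ ^ (Finset.univ.filter fun t => mon J t = c).card • z J s) ∧
      (∀ s a, ∑ J, ‖j (z J s * a)‖ ^ 2 ≤ ‖j a‖ ^ 2) ∧
      (∀ s a, ∑ J, ‖j (star (z J s) * a)‖ ^ 2 ≤ ‖j a‖ ^ 2) ∧
      (∀ x ℓ L', L = (x, ℓ) :: L' → ∀ J, ∃ p, ∀ s,
        x * (w p * star (w p)) * star x * z J s = z J s) ∧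
      (L ≠ [] → ∀ J, ∃ q, ∀ s, z J s * (w q * star (w q)) = z J s) := by
  obtain ⟨I, hI, mon, z, h1, h2, h3, h4, h5, h6, h7, -⟩ := h.expand_aux τ ζ hτ L hL
  exact ⟨I, hI, mon, z, h1, h2, h3, h4, h5, h6, h7⟩

/-- The common part of both cases of the return estimate. -/
theorem Setup.ret_aux (h : Setup j C w e Y d) (τ : S ≃ S) (ζ : ℂ) {n : ℕ} (hn : n ≤ d)
    (hζ : ∀ m, 1 ≤ m → m ≤ d → ζ ^ m ≠ 1) {I : Type} [Fintype I] (mon : I → Fin n → Bool × ι)
    (hmon : Function.Injective mon) (z z' : I → (Bool × ι → S) → A)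
    (hz : ∀ J s c, z J (Function.update s c (τ (s c))) =
      ζ ^ (Finset.univ.filter fun t => mon J t = c).card • z J s)
    (hf : ∀ i J, ∃ (c : ℂ) (v : A), ‖c‖ ^ 2 ≤ (Fintype.card ι : ℝ)⁻¹ ∧ ‖v‖ ≤ 1 ∧
      ∀ s, w i * star (w i) * z J s = c • (v * z' J s))
    (hz' : ∀ s i, ∑ J, ‖j (z' J s * (w i * star (w i)))‖ ^ 2 ≤ ‖j (w i * star (w i))‖ ^ 2) :
    ∑ s, ∑ i, ‖j (w i * star (w i) * (∑ J, z J s) * (w i * star (w i)))‖ ^ 2 ≤
      Fintype.card (Bool × ι → S) * ((d : ℝ) ^ d * ‖j 1‖ ^ 2 / Fintype.card ι) := by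
  have hnd : (n : ℝ) ^ n ≤ (d : ℝ) ^ d := by
    have : n ^ n ≤ d ^ d := by
      rcases Nat.eq_zero_or_pos d with hd | hd
      · subst hd; obtain rfl : n = 0 := by omega
        simp
      · exact (Nat.pow_le_pow_left hn n).trans (Nat.pow_le_pow_right hd hn)
    exact_mod_cast this
  have key : ∀ i, ∑ s, ‖j (w i * star (w i) * (∑ J, z J s) * (w i * star (w i)))‖ ^ 2 ≤
      (d : ℝ) ^ d * (Fintype.card (Bool × ι → S) *
        ((Fintype.card ι : ℝ)⁻¹ * ‖j (w i * star (w i))‖ ^ 2)) := by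
    intro i
    have h1 := orth_bound τ ζ (fun m h1 h2 => hζ m h1 (h2.trans hn)) mon hmon
      (fun J s => j (w i * star (w i) * z J s * (w i * star (w i)))) (fun J s c => by
        rw [hz, mul_smul_comm, smul_mul_assoc, map_smul])
    simp only [Finset.mul_sum, Finset.sum_mul, map_sum]
    refine h1.trans (mul_le_mul hnd ?_ (by positivity) (by positivity))
    rw [← nsmul_eq_mul, ← Finset.card_univ, ← Finset.sum_const]
    refine Finset.sum_le_sum fun s _ => ?_
    refine le_trans ?_ (mul_le_mul_of_nonneg_left (hz' s i) (by positivity))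
    rw [Finset.mul_sum]
    refine Finset.sum_le_sum fun J _ => ?_
    obtain ⟨c, v, hc, hv, hcv⟩ := hf i J
    rw [hcv, smul_mul_assoc, map_smul, norm_smul, mul_pow, mul_assoc]
    refine mul_le_mul hc (pow_le_pow_left₀ (norm_nonneg _) ?_ 2) (by positivity) (by positivity)
    exact (h.qt.mul_le _ _).trans (mul_le_of_le_one_left (norm_nonneg _) hv)
  rw [Finset.sum_comm]
  refine (Finset.sum_le_sum fun i _ => key i).trans (le_of_eq ?_)
  have h1 := h.qt.sum_sq h.mu 1
  simp only [mul_one] at h1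
  rw [← Finset.mul_sum, ← Finset.mul_sum, ← Finset.mul_sum, h1]
  ring

/-- Return estimate. Proof: `expand` and `orth_bound` (with `L.length` in place of `d`,
`len^len ≤ d^d`). If the first letter `x₁` is flat: `e_i z_J = e_i x₁ e_p · (x₁* z_J) = c w_i w_p* x₁* z_J`
so `‖j (e_i z_J x e_i)‖² ≤ n⁻¹ ‖j (z_J x e_i)‖²`, the sum over `J` is `≤ n⁻¹ ‖j (x e_i)‖² = n⁻¹ ‖j e_i‖²`
and `∑_i ‖j e_i‖² = ‖j 1‖²` (`1 ≤ C`). If `x` is flat: `‖j y‖ ≤ C ‖j y*‖` and
`(e_i z_J x e_i)* = e_i x* e_q z_J* e_i` (`Flat.star'`), homogeneous with factor `conj ζ`. -/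
theorem Setup.ret (h : Setup j C w e Y d) {x₁ : A} {ℓ₁ : Bool} {L : List (A × Bool)}
    (hL : ∀ st ∈ (x₁, ℓ₁) :: L, st.1 ∈ unitary A) (hd : L.length + 1 ≤ d) {x : A}
    (hx : x ∈ unitary A) (hflat : Flat w x₁ ∨ Flat w x) :
    ∑ s, ∑ i, ‖j (w i * star (w i) * (Wd w Y ((x₁, ℓ₁) :: L) s * x) * (w i * star (w i)))‖ ^ 2 ≤
      Fintype.card (Bool × ι → S) * (C ^ 2 * (d : ℝ) ^ d * ‖j 1‖ ^ 2 / Fintype.card ι) := by
  obtain ⟨τ, ζ, -, hζ, hτ⟩ := h.phase
  obtain ⟨I, hI, mon, z, h1, h2, h3, h4, h5, h6, h7⟩ := h.expand τ ζ hτ _ hL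
  have hx₁ : x₁ ∈ unitary A := hL _ List.mem_cons_self
  have hw : ∀ i p, ‖w i * star (w p)‖ ≤ 1 := fun i p =>
    (norm_mul_le _ _).trans (mul_le_one₀ (h.mu.pi i).norm_le (norm_nonneg _)
      (h.mu.pi p).star'.norm_le)
  have hC : 1 ≤ C ^ 2 := one_le_pow₀ h.qt.one_le
  rcases hflat with hf | hf
  · have := h.ret_aux τ ζ (n := ((x₁, ℓ₁) :: L).length) hd hζ mon h1 (fun J s => z J s * x)
      (fun J s => z J s * x) (fun J s c => by rw [h3, smul_mul_assoc]) (fun i J => by
        obtain ⟨p, hp⟩ := h6 _ _ _ rfl J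
        obtain ⟨c, hc, hcp⟩ := hf i p
        refine ⟨c, w i * star (w p) * star x₁, hc, (norm_mul_le _ _).trans
          (mul_le_one₀ (hw i p) (norm_nonneg _) (unitary_norm_le (Unitary.star_mem hx₁))),
          fun s => ?_⟩
        conv_lhs => rw [← hp s]
        rw [← smul_mul_assoc, ← smul_mul_assoc, ← hcp]
        simp only [mul_assoc]) (fun s i => by
        simp only [mul_assoc (z _ s)]
        exact (h4 s _).trans (le_of_eq (by rw [h.qt.norm_unitary hx])))
    simp only [← Finset.sum_mul, ← h2] at this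
    refine this.trans (mul_le_mul_of_nonneg_left ?_ (by positivity))
    rw [mul_assoc, mul_div_assoc (C ^ 2)]
    exact le_mul_of_one_le_left (by positivity) hC
  · have := h.ret_aux τ ((starRingEnd ℂ) ζ) (n := ((x₁, ℓ₁) :: L).length) hd
      (fun m h1 h2 hh => hζ m h1 h2 (by
        have := congrArg (starRingEnd ℂ) hh
        simpa using this)) mon h1 (fun J s => star x * star (z J s))
      (fun J s => star (z J s)) (fun J s c => by
        rw [h3, star_smul, mul_smul_comm, star_pow]; rfl) (fun i J => by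
        obtain ⟨q, hq⟩ := h7 (List.cons_ne_nil _ _) J
        obtain ⟨c, hc, hcq⟩ := hf.star' i q
        refine ⟨c, w i * star (w q), hc, hw i q, fun s => ?_⟩
        conv_lhs => rw [← hq s, star_mul (z J s), star_e]
        rw [← smul_mul_assoc, ← hcq]
        simp only [mul_assoc]) (fun s i => h5 s _)
    simp only [← Finset.mul_sum, ← star_sum, ← h2] at this
    calc _ ≤ ∑ s, ∑ i, C ^ 2 * ‖j (w i * star (w i) * (star x * star (Wd w Y ((x₁, ℓ₁) :: L) s)) *
          (w i * star (w i)))‖ ^ 2 := by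
          refine Finset.sum_le_sum fun s _ => Finset.sum_le_sum fun i _ => ?_
          rw [← mul_pow]
          refine pow_le_pow_left₀ (norm_nonneg _) (le_trans (le_of_eq ?_) (h.qt.star_le _)) 2
          congr 2
          simp only [star_mul, star_star, mul_assoc]
      _ ≤ C ^ 2 * (Fintype.card (Bool × ι → S) * ((d : ℝ) ^ d * ‖j 1‖ ^ 2 / Fintype.card ι)) := by
          simp only [← Finset.mul_sum]
          exact mul_le_mul_of_nonneg_left this (by positivity)
      _ = _ := by ring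

end Crest.Agent.R121
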