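import Crest.Agent.R121.Clock

/-! # R121: random walks make harmonic maps almost modular (task `Walk`) -/

set_option autoImplicit false
open scoped InnerProductSpace

namespace Crest.Agent.R121

variable {A E : Type*} [CStarAlgebra A] [NormedAddCommGroup E] [InnerProductSpace ℂ E]

/-- `x` can be moved across `χ` when followed by the random unitary `Y`, up to an `L²` error `η`. -/
def Good (j : A →ₗ[ℂ] E) (χ : A → A) {S : Type*} [Fintype S] (Y : S → A) (η : ℝ) (x : A) : Prop :=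
  ∀ a, ∑ s, ‖j (χ (x * Y s * a) - x * χ (Y s * a))‖ ^ 2 ≤ Fintype.card S * (η ^ 2 * ‖j a‖ ^ 2)

namespace Walk

variable {G : Type} [Fintype G]

/-- The product of the letters of a word. -/
def wd (u : G → A) {t : ℕ} (v : Fin t → G) : A := (List.ofFn fun i => u (v i)).prod

omit [Fintype G] in
theorem wd_zero (u : G → A) (v : Fin 0 → G) : wd u v = 1 := by simp [wd]

omit [Fintype G] in
theorem wd_cons (u : G → A) {t : ℕ} (g : G) (v : Fin t → G) :
    wd u (Fin.cons g v : Fin (t + 1) → G) = u g * wd u v := by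
  simp [wd, List.ofFn_succ]

omit [Fintype G] in
theorem wd_mem {u : G → A} (hu : ∀ g, u g ∈ unitary A) {t : ℕ} (v : Fin t → G) :
    wd u v ∈ unitary A := by
  refine Submonoid.list_prod_mem _ fun x hx => ?_
  obtain ⟨i, rfl⟩ := List.mem_ofFn.1 hx
  exact hu _

theorem star_list_prod' (l : List A) : star l.prod = (l.map star).reverse.prod := by
  induction l with
  | nil => simp
  | cons a l ih => simp [ih]

omit [Fintype G] in
theorem wd_star {u : G → A} (σ : G ≃ G) (hσ : ∀ g, u (σ g) = star (u g)) {t : ℕ}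
    (v : Fin t → G) : wd u (fun i => σ (v (Fin.rev i))) = star (wd u v) := by
  rw [wd, wd, star_list_prod', List.map_ofFn]
  congr 1
  refine List.ext_getElem (by simp) fun i h1 h2 => ?_
  simp only [List.getElem_ofFn, List.getElem_reverse, hσ, Function.comp_def, List.length_ofFn]
  congr 3
  ext
  simp only [Fin.val_rev]
  omega

omit [Fintype G] in
theorem wd_comm {u : G → A} {y : A} (hy : ∀ g, y * u g = u g * y) {t : ℕ} (v : Fin t → G) :
    y * wd u v = wd u v * y := by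
  refine (Commute.list_prod_right _ _ fun x hx => ?_).eq
  obtain ⟨i, rfl⟩ := List.mem_ofFn.1 hx
  exact hy _

theorem sum_cons {M : Type*} [AddCommMonoid M] {t : ℕ} (f : (Fin (t + 1) → G) → M) :
    ∑ v, f v = ∑ v : Fin t → G, ∑ g, f (Fin.cons g v) := by
  rw [← (Fin.consEquiv fun _ : Fin (t + 1) => G).sum_comp, Fintype.sum_prod_type,
    Finset.sum_comm]
  rfl

theorem uavg_wd {χ : A → A} {u : G → A} (harm : ∀ a, uavg u χ a = χ a) (t : ℕ) (a : A) :
    uavg (fun v : Fin t → G => wd u v) χ a = χ a := by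
  induction t with
  | zero => simp [uavg, avg, wd_zero]
  | succ t ih =>
    rw [← ih, uavg, uavg, ← avg_equiv (Fin.consEquiv fun _ : Fin (t + 1) => G), avg_prod,
      avg_comm]
    congr 1
    funext v
    rw [← harm (wd u v * a), uavg, mul_avg]
    congr 1
    funext g
    change star (wd u (Fin.cons g v : Fin (t + 1) → G)) *
      χ (wd u (Fin.cons g v : Fin (t + 1) → G) * a) = _
    rw [wd_cons, star_mul, mul_assoc, mul_assoc]

/-- One step of the walk. -/
theorem step {j : A →ₗ[ℂ] E} {C : ℝ} (hj : QT j C) {χ : A → A} [Nonempty G] {u : G → A}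
    (hu : ∀ g, u g ∈ unitary A) (harm : ∀ a, uavg u χ a = χ a) (b : A) :
    ∑ g, ‖j (χ (u g * b))‖ ^ 2 =
      ∑ g, ‖j (χ (u g * b) - u g * χ b)‖ ^ 2 + Fintype.card G * ‖j (χ b)‖ ^ 2 := by
  have h1 : ∑ g, star (u g) * χ (u g * b) = (Fintype.card G : ℂ) • χ b := by
    rw [← harm b, uavg, card_smul_avg]
  have h2 : ∑ g, (⟪j (χ (u g * b)), j (u g * χ b)⟫_ℂ).re = Fintype.card G * ‖j (χ b)‖ ^ 2 := by
    simp only [hj.adj']
    rw [← Complex.re_sum, ← sum_inner, ← map_sum, h1, map_smul, inner_smul_left,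
      inner_self_eq_norm_sq_to_K]
    simp [← Complex.ofReal_pow]
  have h3 : ∀ g, ‖j (χ (u g * b) - u g * χ b)‖ ^ 2 =
      ‖j (χ (u g * b))‖ ^ 2 - 2 * (⟪j (χ (u g * b)), j (u g * χ b)⟫_ℂ).re + ‖j (χ b)‖ ^ 2 := by
    intro g
    rw [map_sub, @norm_sub_sq ℂ, hj.norm_unitary (hu g)]
    rfl
  simp only [h3, Finset.sum_add_distrib, Finset.sum_sub_distrib, ← Finset.mul_sum, h2,
    Finset.sum_const, Finset.card_univ, nsmul_eq_mul]
  ring

/-- Mean square defect at time `t`. -/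
noncomputable def df (j : A →ₗ[ℂ] E) (χ : A → A) (u : G → A) (x a : A) (t : ℕ) : ℝ :=
  ((Fintype.card G : ℝ) ^ t)⁻¹ *
    ∑ v : Fin t → G, ‖j (χ (x * wd u v * a) - x * χ (wd u v * a))‖ ^ 2

theorem df_nonneg (j : A →ₗ[ℂ] E) (χ : A → A) (u : G → A) (x a : A) (t : ℕ) :
    0 ≤ df j χ u x a t := by
  unfold df; positivity

theorem sum_df_le {j : A →ₗ[ℂ] E} {C κ : ℝ} (hj : QT j C) {χ : A → A}
    (hκ : ∀ a, ‖j (χ a)‖ ≤ κ * ‖j a‖) [Nonempty G] {u : G → A}
    (hu : ∀ g, u g ∈ unitary A) (harm : ∀ a, uavg u χ a = χ a) (g : G) (a : A) (T : ℕ) :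
    ∑ t ∈ Finset.range T, df j χ u (u g) a t ≤ Fintype.card G * κ ^ 2 * ‖j a‖ ^ 2 := by
  have hn : (0 : ℝ) < Fintype.card G := Nat.cast_pos.2 Fintype.card_pos
  set h : ℕ → ℝ := fun t => ((Fintype.card G : ℝ) ^ t)⁻¹ *
    ∑ v : Fin t → G, ‖j (χ (wd u v * a))‖ ^ 2 with hh
  have hstep : ∀ t, df j χ u (u g) a t ≤ Fintype.card G * (h (t + 1) - h t) := by
    intro t
    have e1 : (Fintype.card G : ℝ) * (h (t + 1) - h t) = ∑ g', df j χ u (u g') a t := by
      simp only [hh, df]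
      rw [sum_cons]
      simp only [wd_cons, mul_assoc, step hj hu harm, Finset.sum_add_distrib, ← Finset.mul_sum]
      rw [Finset.sum_comm]
      field_simp
      ring
    rw [e1]
    exact Finset.single_le_sum (f := fun g' => df j χ u (u g') a t)
      (fun g' _ => df_nonneg _ _ _ _ _ _) (Finset.mem_univ g)
  have h0 : 0 ≤ h 0 := by simp only [hh]; positivity
  have hT : h T ≤ κ ^ 2 * ‖j a‖ ^ 2 := by
    simp only [hh]
    rw [inv_mul_le_iff₀ (by positivity)]
    have : ∀ v : Fin T → G, ‖j (χ (wd u v * a))‖ ^ 2 ≤ κ ^ 2 * ‖j a‖ ^ 2 := fun v => by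
      rw [← mul_pow]
      refine pow_le_pow_left₀ (norm_nonneg _) ?_ 2
      rw [← hj.norm_unitary (wd_mem hu v) a]
      exact hκ _
    refine (Finset.sum_le_sum fun v _ => this v).trans ?_
    simp
  calc _ ≤ ∑ t ∈ Finset.range T, (Fintype.card G : ℝ) * (h (t + 1) - h t) :=
        Finset.sum_le_sum fun t _ => hstep t
    _ = Fintype.card G * (h T - h 0) := by rw [← Finset.mul_sum, Finset.sum_range_sub]
    _ ≤ Fintype.card G * (κ ^ 2 * ‖j a‖ ^ 2) := by gcongr; linarith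
    _ = _ := by ring

theorem df_le_of {j : A →ₗ[ℂ] E} {χ : A → A} {u : G → A} {x y z a : A} {α β : ℝ}
    (h : ∀ b, ‖j (χ (x * b) - x * χ b)‖ ^ 2 ≤
      α * ‖j (χ (y * b) - y * χ b)‖ ^ 2 + β * ‖j (χ (z * b) - z * χ b)‖ ^ 2) (t : ℕ) :
    df j χ u x a t ≤ α * df j χ u y a t + β * df j χ u z a t := by
  unfold df
  rw [mul_left_comm α, mul_left_comm β, ← mul_add, Finset.mul_sum _ _ α, Finset.mul_sum _ _ β,
    ← Finset.sum_add_distrib]
  gcongr with v
  simpa only [mul_assoc] using h (wd u v * a)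

theorem exists_bound {j : A →ₗ[ℂ] E} {C κ : ℝ} (hj : QT j C) {χ : A → A} (hχ : IsLinearMap ℂ χ)
    (hκ : ∀ a, ‖j (χ a)‖ ≤ κ * ‖j a‖) [Nonempty G] {u : G → A}
    (hu : ∀ g, u g ∈ unitary A) (harm : ∀ a, uavg u χ a = χ a) {x : A}
    (hx : x ∈ Submodule.span ℂ {x | ∃ y g, (∀ a, χ (y * a) = y * χ a) ∧ x = y * u g}) :
    ∃ c : ℝ, ∀ a T, ∑ t ∈ Finset.range T, df j χ u x a t ≤ c * ‖j a‖ ^ 2 := by
  have key : ∀ {x y z : A} {α β : ℝ}, 0 ≤ α → 0 ≤ β →
      (∀ b, ‖j (χ (x * b) - x * χ b)‖ ^ 2 ≤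
        α * ‖j (χ (y * b) - y * χ b)‖ ^ 2 + β * ‖j (χ (z * b) - z * χ b)‖ ^ 2) →
      (∃ c : ℝ, ∀ a T, ∑ t ∈ Finset.range T, df j χ u y a t ≤ c * ‖j a‖ ^ 2) →
      (∃ c : ℝ, ∀ a T, ∑ t ∈ Finset.range T, df j χ u z a t ≤ c * ‖j a‖ ^ 2) →
      ∃ c : ℝ, ∀ a T, ∑ t ∈ Finset.range T, df j χ u x a t ≤ c * ‖j a‖ ^ 2 := by
    rintro x y z α β hα hβ h ⟨c1, h1⟩ ⟨c2, h2⟩
    refine ⟨α * c1 + β * c2, fun a T => ?_⟩
    refine (Finset.sum_le_sum fun t _ => df_le_of h t).trans ?_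
    rw [Finset.sum_add_distrib, ← Finset.mul_sum, ← Finset.mul_sum, add_mul, mul_assoc, mul_assoc]
    gcongr
    · exact h1 a T
    · exact h2 a T
  have hg : ∀ g, ∃ c : ℝ, ∀ a T,
      ∑ t ∈ Finset.range T, df j χ u (u g) a t ≤ c * ‖j a‖ ^ 2 := fun g =>
    ⟨_, fun a T => sum_df_le hj hκ hu harm g a T⟩
  induction hx using Submodule.span_induction with
  | mem x hx =>
    obtain ⟨y, g, hy, rfl⟩ := hx
    refine key (α := ‖y‖ ^ 2) (β := 0) (by positivity) le_rfl (fun b => ?_) (hg g) (hg g)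
    rw [zero_mul, add_zero, mul_assoc, hy, mul_assoc, ← mul_sub, ← mul_pow]
    exact pow_le_pow_left₀ (norm_nonneg _) (hj.mul_le _ _) 2
  | zero =>
    obtain ⟨g⟩ := ‹Nonempty G›
    refine key (α := 0) (β := 0) le_rfl le_rfl (fun b => ?_) (hg g) (hg g)
    simp [hχ.map_zero]
  | add x y _ _ hx hy =>
    refine key (α := 2) (β := 2) (by norm_num) (by norm_num) (fun b => ?_) hx hy
    have : χ ((x + y) * b) - (x + y) * χ b =
        (χ (x * b) - x * χ b) + (χ (y * b) - y * χ b) := by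
      rw [add_mul, add_mul, hχ.map_add]; abel
    rw [this, map_add]
    have h1 := norm_add_le (j (χ (x * b) - x * χ b)) (j (χ (y * b) - y * χ b))
    have h2 := pow_le_pow_left₀ (norm_nonneg _) h1 2
    nlinarith [sq_nonneg (‖j (χ (x * b) - x * χ b)‖ - ‖j (χ (y * b) - y * χ b)‖)]
  | smul r x _ hx =>
    refine key (α := ‖r‖ ^ 2) (β := 0) (by positivity) le_rfl (fun b => ?_) hx hx
    rw [zero_mul, add_zero, smul_mul_assoc, smul_mul_assoc, hχ.map_smul, ← smul_sub, map_smul,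
      norm_smul, mul_pow]

theorem sum_eval {ι : Type} [Fintype ι] [DecidableEq ι] {α : ι → Type} [∀ i, Fintype (α i)]
    {M : Type*} [AddCommMonoid M] (t : ι) (f : α t → M) :
    Fintype.card (α t) • ∑ ω : ∀ i, α i, f (ω t) = Fintype.card (∀ i, α i) • ∑ a, f a := by
  rw [← (Equiv.piSplitAt t α).symm.sum_comp, Fintype.card_congr (Equiv.piSplitAt t α),
    Fintype.card_prod, Fintype.sum_prod_type, mul_smul]
  congr 1
  simp [Finset.smul_sum]

theorem avg_eval {ι : Type} [Fintype ι] [DecidableEq ι] {α : ι → Type} [∀ i, Fintype (α i)]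
    [∀ i, Nonempty (α i)] {V : Type*} [AddCommGroup V] [Module ℂ V] (t : ι) (f : α t → V) :
    avg (fun ω : ∀ i, α i => f (ω t)) = avg f := by
  rw [← avg_equiv (Equiv.piSplitAt t α).symm, avg_prod]
  congr 1
  funext a
  simp [avg_const]

end Walk

open Walk in
/-- Proof. `Ω = Fin T × (Fin T → G)`, `X (t, g) = ` product of the first `t` letters, e.g.
`X (t, g) = ((List.ofFn g).take t).map u).prod`, or better prove by induction on `t` an
existential lemma: for all `t` there are `Ω_t : Type`, `X_t : Ω_t → A`, with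
`avg (f ∘ X_t) = (L^[t] f) 1` and `avg (f ∘ star X_t) = (L^[t] f) 1` for all `f : A → V`, where
`L f y = avg_g f (u g * y)` (the left and right walk operators commute; `σ` shows
`avg_g f (star (u g)) = avg_g f (u g)`); one may also realise `τ` as reversal of words composed with
`σ`. To mix the times uniformly use a common `Ω` (pad with unused letters, or take the product of
the `Ω_t`).
(H) `uavg X_t χ = χ` by induction. (A) `h_t = E ‖j (χ (X_t a))‖²` satisfies
`h_{t+1} - h_t = E_g E ‖j (χ (u_g X_t a) - u_g χ (X_t a))‖²` (expand the square; the cross term is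
`E_g ⟪j (u_g* χ (u_g b)), j (χ b)⟫ = ‖j (χ b)‖²` by `harm`, `QT.adj`, `QT.norm_unitary`), and
`h_T ≤ κ² ‖j a‖²`; so for each `g` the mean over `t < T` is `≤ card G κ² ‖j a‖² / T`.
Then `Submodule.span_induction`: the set of `x` such that `∃ C_x, ∀ T > 0, ∀ a, E ‖…‖² ≤ C_x ‖j a‖² / T`
contains `y u_g` (`QT.mul_le`) and is a subspace (`(a+b)² ≤ 2a² + 2b²`). Choose `T` large. -/
theorem exists_walk {j : A →ₗ[ℂ] E} {C κ : ℝ} (hj : QT j C) {χ : A → A} (hχ : IsLinearMap ℂ χ)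
    (hκ : ∀ a, ‖j (χ a)‖ ≤ κ * ‖j a‖) {G : Type} [Fintype G] [Nonempty G] {u : G → A}
    (hu : ∀ g, u g ∈ unitary A) (σ : G ≃ G) (hσ : ∀ g, u (σ g) = star (u g))
    (harm : ∀ a, uavg u χ a = χ a) (xs : List A)
    (hxs : ∀ x ∈ xs, x ∈ Submodule.span ℂ
      {x | ∃ y g, (∀ a, χ (y * a) = y * χ a) ∧ x = y * u g})
    {η : ℝ} (hη : 0 < η) :
    ∃ (Ω : Type) (_ : Fintype Ω) (_ : Nonempty Ω) (X : Ω → A) (τ : Ω ≃ Ω),
      (∀ ω, X ω ∈ unitary A) ∧ (∀ ω, X (τ ω) = star (X ω)) ∧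
      (∀ y, (∀ g, y * u g = u g * y) → ∀ ω, y * X ω = X ω * y) ∧
      (∀ a, uavg X χ a = χ a) ∧ ∀ x ∈ xs, Good j χ X η x := by
  classical
  obtain ⟨c, hc⟩ : ∃ c : ℝ, ∀ x ∈ xs, ∀ a T,
      ∑ t ∈ Finset.range T, df j χ u x a t ≤ c * ‖j a‖ ^ 2 := by
    induction xs with
    | nil => exact ⟨0, by simp⟩
    | cons x xs ih =>
      obtain ⟨c1, h1⟩ := exists_bound hj hχ hκ hu harm (hxs x (by simp))
      obtain ⟨c2, h2⟩ := ih fun y hy => hxs y (by simp [hy])
      refine ⟨max c1 c2, fun y hy a T => ?_⟩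
      rcases List.mem_cons.1 hy with rfl | hy
      · exact (h1 a T).trans (by gcongr; exact le_max_left _ _)
      · exact (h2 y hy a T).trans (by gcongr; exact le_max_right _ _)
  obtain ⟨T0, hT0⟩ := exists_nat_ge (c / η ^ 2)
  set T := T0 + 1 with hT
  have hcT : c ≤ T * η ^ 2 := by
    rw [div_le_iff₀ (by positivity)] at hT0
    refine hT0.trans ?_
    gcongr
    omega
  refine ⟨Fin T × ∀ t : Fin T, Fin t → G, inferInstance, inferInstance,
    fun ω => wd u (ω.2 ω.1),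
    (Equiv.refl _).prodCongr (Equiv.piCongrRight fun t => Equiv.arrowCongr Fin.revPerm σ),
    fun ω => wd_mem hu _, fun ω => ?_, fun y hy ω => wd_comm hy _, fun a => ?_,
    fun x hx a => ?_⟩
  · exact wd_star σ hσ (ω.2 ω.1)
  · rw [uavg, avg_prod]
    refine Eq.trans ?_ (avg_const (G := Fin T) (χ a))
    congr 1
    funext t
    rw [← uavg_wd harm (t : ℕ) a, uavg]
    exact avg_eval (α := fun t : Fin T => Fin t → G) t
      fun v => star (wd u v) * χ (wd u v * a)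
  · have hn : (0 : ℝ) < Fintype.card G := Nat.cast_pos.2 Fintype.card_pos
    rw [Fintype.sum_prod_type, Fintype.card_prod, Fintype.card_fin]
    have e1 : ∀ t : Fin T, ∑ ω : ∀ t : Fin T, Fin t → G,
        ‖j (χ (x * wd u (ω t) * a) - x * χ (wd u (ω t) * a))‖ ^ 2 =
        (Fintype.card (∀ t : Fin T, Fin t → G) : ℝ) * df j χ u x a t := fun t => by
      have := sum_eval (α := fun t : Fin T => Fin t → G) t
        fun v => ‖j (χ (x * wd u v * a) - x * χ (wd u v * a))‖ ^ 2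
      rw [nsmul_eq_mul, nsmul_eq_mul, Fintype.card_fun, Fintype.card_fin, Nat.cast_pow] at this
      rw [df, mul_left_comm, ← this, ← mul_assoc, inv_mul_cancel₀ (by positivity), one_mul]
    simp only [e1]
    rw [← Finset.mul_sum, Fin.sum_univ_eq_sum_range (fun t => df j χ u x a t) T, Nat.cast_mul,
      mul_comm (T : ℝ), mul_assoc]
    gcongr
    refine (hc x hx a T).trans ?_
    rw [← mul_assoc]
    gcongr

end Crest.Agent.R121
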